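import Crest.Agent.R237.BDefs

/-!
# R237 / BAlgB: algebra of `Th`, `Phi` (prefix for auxiliary lemmas: `balgb_`)
-/

set_option autoImplicit false

open Matrix

noncomputable section

namespace Crest.Agent.R237.B

variable {R : Type} [CommRing R] [Algebra ℝ R]

theorem Gm_symm (δ : ℝ) (j p j' q : Fin 3) : Gm δ j p j' q = Gm δ j' q j p := by
  simp only [Gm, eq_comm (a := j), eq_comm (a := p)]
  congr 1
  exact Finset.sum_congr rfl fun k _ => mul_comm _ _

theorem cf_eq (δ : ℝ) (y w : V3) : cf δ y w = ∑ j, ∑ p, ∑ j', ∑ q, Gm δ j p j' q * (y j * y j' * (w p * w q)) := by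
  simp only [cf, Gm, dotProduct, Fin.sum_univ_three, Fin.sum_univ_five]
  simp
  ring

theorem cf_smul (δ s : ℝ) (y w : V3) : cf δ y (s • w) = s ^ 2 * cf δ y w := by
  simp only [cf, dotProduct_smul, smul_dotProduct, smul_eq_mul, mul_sub, Finset.mul_sum]
  congr 1
  · exact Finset.sum_congr rfl fun k _ => by ring
  · ring

theorem Bm_mulVec (g v : V4) : Bm g *ᵥ v = be g v := by
  funext p
  fin_cases p <;> simp [Bm, be, mulVec, dotProduct, Fin.sum_univ_four] <;> ring

theorem vecMul_Em (g : V4) (p : Fin 3) : g ᵥ* Em ℝ p = Bm g p := by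
  funext a
  fin_cases p <;> fin_cases a <;> simp [Bm, be, Em, vecMul, dotProduct, Fin.sum_univ_four, Matrix.single_apply]

theorem Th_form (δ : ℝ) (Γ : Fin 3 → Fin 3 → M4 ℝ) (g : V4) :
    g ⬝ᵥ (Th δ Γ *ᵥ g) = ∑ j, ∑ p, ∑ j', ∑ q, Gm δ j p j' q * (Bm g * Γ j j' * (Bm g)ᵀ) p q := by
  simp only [Th, sum_mulVec, dotProduct_sum, smul_mulVec, dotProduct_smul, smul_eq_mul]
  refine Finset.sum_congr rfl fun j _ => Finset.sum_congr rfl fun p _ => Finset.sum_congr rfl fun j' _ =>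
    Finset.sum_congr rfl fun q _ => congrArg _ ?_
  rw [← mulVec_mulVec, ← mulVec_mulVec, dotProduct_mulVec, vecMul_Em, mulVec_transpose, vecMul_Em, dotProduct_mulVec]
  rfl

theorem Th_symm (δ : ℝ) {Γ : Fin 3 → Fin 3 → M4 R} (h : ∀ j j', (Γ j j')ᵀ = Γ j' j) : (Th δ Γ).IsSymm := by
  have e : ∀ f : Fin 3 → Fin 3 → Fin 3 → Fin 3 → M4 R,
      ∑ j, ∑ p, ∑ j', ∑ q, f j p j' q = ∑ j', ∑ q, ∑ j, ∑ p, f j p j' q := fun f => by
    have := Finset.sum_comm (s := Finset.univ) (t := Finset.univ)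
      (f := fun (a b : Fin 3 × Fin 3) => f a.1 a.2 b.1 b.2)
    simpa only [Fintype.sum_prod_type] using this
  unfold Matrix.IsSymm Th
  simp only [transpose_sum, transpose_smul, transpose_mul, transpose_transpose, h]
  rw [e]
  refine Finset.sum_congr rfl fun j _ => Finset.sum_congr rfl fun p _ => Finset.sum_congr rfl fun j' _ =>
    Finset.sum_congr rfl fun q _ => ?_
  rw [Gm_symm, Matrix.mul_assoc]

theorem Phi_symm (δ : ℝ) (y : Fin 3 → R) {W : M4 R} (h : W.IsSymm) : (Phi δ y W).IsSymm :=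
  Th_symm δ fun j j' => by rw [transpose_smul, h.eq, mul_comm]

theorem Phi_add (δ : ℝ) (y : Fin 3 → R) (W W' : M4 R) : Phi δ y (W + W') = Phi δ y W + Phi δ y W' := by
  simp only [Phi, Th, smul_add, Matrix.mul_add, Matrix.add_mul, Finset.sum_add_distrib]

theorem Phi_smul (δ : ℝ) (y : Fin 3 → R) (c : R) (W : M4 R) : Phi δ y (c • W) = c • Phi δ y W := by
  simp only [Phi, Th, Finset.smul_sum]
  refine Finset.sum_congr rfl fun j _ => Finset.sum_congr rfl fun p _ => Finset.sum_congr rfl fun j' _ =>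
    Finset.sum_congr rfl fun q _ => ?_
  rw [smul_comm _ c W, Matrix.mul_smul, Matrix.smul_mul, smul_comm]

theorem Phi_smul_left (δ : ℝ) (y : Fin 3 → R) (c : R) (W : M4 R) : Phi δ (c • y) W = c ^ 2 • Phi δ y W := by
  rw [← Phi_smul]
  unfold Phi
  congr 1
  funext j j'
  rw [smul_smul, Pi.smul_apply, Pi.smul_apply, smul_eq_mul, smul_eq_mul]
  congr 1
  ring

theorem Phi_sum {ι : Type} (s : Finset ι) (δ : ℝ) (y : Fin 3 → R) (W : ι → M4 R) :
    Phi δ y (∑ i ∈ s, W i) = ∑ i ∈ s, Phi δ y (W i) := by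
  classical
  induction s using Finset.induction_on with
  | empty => simp [Phi, Th]
  | insert a s ha ih => rw [Finset.sum_insert ha, Finset.sum_insert ha, Phi_add, ih]

theorem Phi_zero (δ : ℝ) (W : M4 R) : Phi δ 0 W = 0 := by
  simp [Phi, Th]

theorem balgb_Em_map {S : Type} [CommRing S] [Algebra ℝ S] (f : R →ₐ[ℝ] S) (p : Fin 3) : (Em R p).map f = Em S p := by
  ext a b
  simp only [Em, Matrix.map_apply, Matrix.sub_apply, Matrix.single_apply, map_sub, apply_ite f, map_one, map_zero]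

theorem Phi_map {S : Type} [CommRing S] [Algebra ℝ S] (f : R →ₐ[ℝ] S) (δ : ℝ) (y : Fin 3 → R) (W : M4 R) :
    (Phi δ y W).map f = Phi δ (fun j => f (y j)) (W.map f) := by
  have e : ∀ M : M4 R, M.map f = f.mapMatrix M := fun _ => rfl
  rw [e]
  simp only [Phi, Th, map_sum, map_smul, map_mul]
  refine Finset.sum_congr rfl fun j _ => Finset.sum_congr rfl fun p _ => Finset.sum_congr rfl fun j' _ =>
    Finset.sum_congr rfl fun q _ => ?_
  rw [← e, ← e, ← e, transpose_map, balgb_Em_map, balgb_Em_map]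
  congr 3
  ext a b
  simp

theorem Phi_vv (δ : ℝ) (y : V3) (v g : V4) : g ⬝ᵥ (Phi δ y (vecMulVec v v) *ᵥ g) = cf δ y (be g v) := by
  rw [Phi, Th_form, cf_eq, ← Bm_mulVec]
  refine Finset.sum_congr rfl fun j _ => Finset.sum_congr rfl fun p _ => Finset.sum_congr rfl fun j' _ =>
    Finset.sum_congr rfl fun q _ => congrArg _ ?_
  rw [Matrix.mul_smul, Matrix.smul_mul, mul_vecMulVec, vecMulVec_mul, vecMul_transpose, Matrix.smul_apply, vecMulVec_apply,
    smul_eq_mul]

end Crest.Agent.R237.B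

end
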