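import Crest.Agent.R237.BAlgA
import Crest.Agent.R237.BAlgB

/-!
# R237 / BAlg: positivity of `Phi` (prefix for auxiliary lemmas: `balg_`)
-/

set_option autoImplicit false

open Matrix

noncomputable section

namespace Crest.Agent.R237.B

/-- the spectral theorem for real symmetric matrices (`Matrix.IsHermitian.spectral_theorem`) -/
theorem exists_spec {Z : M4 ℝ} (h : Z.IsSymm) : ∃ (l : Fin 4 → ℝ) (v : Fin 4 → V4),
    (∀ k k', v k ⬝ᵥ v k' = if k = k' then 1 else 0) ∧ Z = ∑ k, l k • vecMulVec (v k) (v k) ∧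
      ∑ k, vecMulVec (v k) (v k) = 1 := by
  have hH : Z.IsHermitian := by
    rw [Matrix.IsHermitian, conjTranspose_eq_transpose_of_trivial]; exact h
  let U : M4 ℝ := hH.eigenvectorUnitary
  have h1 : Uᵀ * U = 1 := by
    have := (Matrix.mem_unitaryGroup_iff').1 hH.eigenvectorUnitary.2
    rwa [star_eq_conjTranspose, conjTranspose_eq_transpose_of_trivial] at this
  have h2 : U * Uᵀ = 1 := by
    have := (Matrix.mem_unitaryGroup_iff).1 hH.eigenvectorUnitary.2
    rwa [star_eq_conjTranspose, conjTranspose_eq_transpose_of_trivial] at this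
  have h3 : ∑ k, vecMulVec (fun i => U i k) (fun i => U i k) = 1 := by
    rw [← h2]
    ext i j
    simp [Matrix.sum_apply, vecMulVec_apply, Matrix.mul_apply]
  refine ⟨hH.eigenvalues, fun k i => U i k, fun k k' => ?_, ?_, h3⟩
  · have := congrFun (congrFun h1 k) k'
    rw [Matrix.one_apply] at this
    rw [← this]
    simp [Matrix.mul_apply, dotProduct]
  · calc Z = Z * ∑ k, vecMulVec (fun i => U i k) (fun i => U i k) := by rw [h3, mul_one]
      _ = _ := by
        rw [Finset.mul_sum]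
        refine Finset.sum_congr rfl fun k _ => ?_
        have e : Z *ᵥ (fun i => U i k) = hH.eigenvalues k • fun i => U i k :=
          hH.mulVec_eigenvectorBasis k
        rw [Matrix.mul_vecMulVec, e, Matrix.smul_vecMulVec]

theorem balg_spec {W : M4 ℝ} (h : W.PosSemidef) : ∃ (l : Fin 4 → ℝ) (v : Fin 4 → V4),
    (∀ k, 0 ≤ l k) ∧ W = ∑ k, l k • vecMulVec (v k) (v k) := by
  have hs : W.IsSymm := by
    have := h.1
    rwa [Matrix.IsHermitian, conjTranspose_eq_transpose_of_trivial] at this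
  obtain ⟨l, v, h1, h2, -⟩ := exists_spec hs
  refine ⟨l, v, fun k => ?_, h2⟩
  have h3 := h.dotProduct_mulVec_nonneg (v k)
  have e : W *ᵥ v k = l k • v k := by
    conv_lhs => rw [h2]
    rw [Matrix.sum_mulVec, Finset.sum_eq_single k]
    · rw [Matrix.smul_mulVec, Matrix.vecMulVec_mulVec, h1, if_pos rfl]; simp
    · intro b _ hb
      rw [Matrix.smul_mulVec, Matrix.vecMulVec_mulVec, h1, if_neg hb]; simp
    · simp
  rwa [star_trivial, e, dotProduct_smul, h1, if_pos rfl, smul_eq_mul, mul_one] at h3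

theorem balg_Phi (δ : ℝ) (y : V3) (l : Fin 4 → ℝ) (v : Fin 4 → V4) (g : V4) :
    g ⬝ᵥ (Phi δ y (∑ k, l k • vecMulVec (v k) (v k)) *ᵥ g) = ∑ k, l k * cf δ y (be g (v k)) := by
  rw [Phi_sum, Matrix.sum_mulVec, dotProduct_sum]
  refine Finset.sum_congr rfl fun k _ => ?_
  rw [Phi_smul, Matrix.smul_mulVec, dotProduct_smul, Phi_vv, smul_eq_mul]

theorem balg_self_nonneg {n : ℕ} (y : Fin n → ℝ) : 0 ≤ y ⬝ᵥ y :=
  Finset.sum_nonneg fun i _ => mul_self_nonneg (y i)

/-- `exists_spec` (the `l k = v kᵀ W v k` are nonnegative), `Phi_sum`, `Phi_vv` -/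
theorem Phi_psd {δ : ℝ} (hδ : Pos δ) (y : V3) {W : M4 ℝ} (h : W.PosSemidef) : (Phi δ y W).PosSemidef := by
  have hs : W.IsSymm := by
    have := h.1
    rwa [Matrix.IsHermitian, conjTranspose_eq_transpose_of_trivial] at this
  obtain ⟨l, v, h1, h2⟩ := balg_spec h
  refine PosSemidef.of_dotProduct_mulVec_nonneg ?_ fun g => ?_
  · rw [Matrix.IsHermitian, conjTranspose_eq_transpose_of_trivial]
    exact Phi_symm δ y hs
  · rw [star_trivial, h2, balg_Phi]
    exact Finset.sum_nonneg fun k _ => mul_nonneg (h1 k) ((mul_nonneg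
      (mul_nonneg hδ.1.le (balg_self_nonneg y)) (balg_self_nonneg _)).trans (hδ.2 y _))

/-- `∑ₐ |be eₐ v|² = 3 v₀² + v₁² + v₂² + v₃² ≥ |v|²` -/
theorem trace_Phi {δ : ℝ} (hδ : Pos δ) (y : V3) {W : M4 ℝ} (h : W.PosSemidef) :
    δ * (y ⬝ᵥ y) * W.trace ≤ (Phi δ y W).trace := by
  obtain ⟨l, v, h1, h2⟩ := balg_spec h
  have e1 : (Phi δ y W).trace = ∑ a, ∑ k, l k * cf δ y (be (Pi.single a 1) (v k)) := by
    refine Finset.sum_congr rfl fun a _ => ?_
    rw [← balg_Phi, ← h2]
    simp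
  have e2 : W.trace = ∑ k, l k * (v k ⬝ᵥ v k) := by
    rw [h2, Matrix.trace_sum]
    refine Finset.sum_congr rfl fun k _ => ?_
    rw [Matrix.trace_smul, Matrix.trace_vecMulVec, smul_eq_mul]
  rw [e1, e2, Finset.sum_comm, Finset.mul_sum]
  refine Finset.sum_le_sum fun k _ => ?_
  rw [← Finset.mul_sum, mul_left_comm]
  refine mul_le_mul_of_nonneg_left ?_ (h1 k)
  refine le_trans ?_ (Finset.sum_le_sum fun a _ => hδ.2 y (be (Pi.single a 1) (v k)))
  rw [← Finset.mul_sum]
  refine mul_le_mul_of_nonneg_left ?_ (mul_nonneg hδ.1.le (balg_self_nonneg y))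
  simp [be, dotProduct, Fin.sum_univ_succ, Pi.single_apply]
  nlinarith [mul_self_nonneg (v k 0)]

end Crest.Agent.R237.B

end
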