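import Crest.Agent.R237.BDefs

/-!
# R237 / BAlgA: coordinates (prefix for auxiliary lemmas: `balga_`)
-/

set_option autoImplicit false

open Matrix

noncomputable section

namespace Crest.Agent.R237.B

variable {R : Type} [CommRing R] [Algebra ℝ R]

theorem cX_symm (x : Fin 23 → R) : (cX x).IsSymm := by
  ext a b
  simp only [cX, transpose_apply, of_apply, Sym2.eq_swap (a := b)]

theorem cZ_symm (x : Fin 23 → R) : (cZ x).IsSymm := by
  ext a b
  simp only [cZ, transpose_apply, of_apply, Sym2.eq_swap (a := b)]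

theorem balga_sy {X : M4 ℝ} (h : X.IsSymm) (a b : Fin 4) : sy X s(a, b) = X a b := by
  simp only [sy, Sym2.lift_mk, h.apply a b]
  ring

theorem balga_sy_add (X X' : M4 ℝ) (s : Sym2 (Fin 4)) : sy (X + X') s = sy X s + sy X' s := by
  induction s using Sym2.ind with
  | h a b =>
    simp only [sy, Sym2.lift_mk, Matrix.add_apply]
    ring

theorem balga_sy_smul (c : ℝ) (X : M4 ℝ) (s : Sym2 (Fin 4)) : sy (c • X) s = c * sy X s := by
  induction s using Sym2.ind with
  | h a b =>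
    simp only [sy, Sym2.lift_mk, Matrix.smul_apply, smul_eq_mul]
    ring

theorem cX_pt {X : M4 ℝ} (h : X.IsSymm) (Z : M4 ℝ) (y : V3) : cX (pt X Z y) = X := by
  ext a b
  simp only [cX, pt, of_apply, Equiv.symm_apply_apply, Sum.elim_inl, balga_sy h]

theorem cZ_pt (X : M4 ℝ) {Z : M4 ℝ} (h : Z.IsSymm) (y : V3) : cZ (pt X Z y) = Z := by
  ext a b
  simp only [cZ, pt, of_apply, Equiv.symm_apply_apply, Sum.elim_inl, Sum.elim_inr, balga_sy h]

theorem cy_pt (X Z : M4 ℝ) (y : V3) : cy (pt X Z y) = y := by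
  funext j
  simp only [cy, pt, Equiv.symm_apply_apply, Sum.elim_inr]

theorem pt_c (x : Fin 23 → ℝ) : pt (cX x) (cZ x) (cy x) = x := by
  funext ν
  obtain ⟨μ, rfl⟩ := eI.surjective ν
  rcases μ with s | s | j
  · induction s using Sym2.ind with
    | h a b =>
      simp only [pt, Equiv.symm_apply_apply, Sum.elim_inl, balga_sy (cX_symm x)]
      rfl
  · induction s using Sym2.ind with
    | h a b =>
      simp only [pt, Equiv.symm_apply_apply, Sum.elim_inl, Sum.elim_inr, balga_sy (cZ_symm x)]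
      rfl
  · simp only [pt, Equiv.symm_apply_apply, Sum.elim_inr]
    rfl

theorem pt_add (X Z X' Z' : M4 ℝ) (y y' : V3) : pt (X + X') (Z + Z') (y + y') = pt X Z y + pt X' Z' y' := by
  funext ν
  obtain ⟨μ, rfl⟩ := eI.surjective ν
  rcases μ with s | s | j <;>
    simp only [pt, Pi.add_apply, Equiv.symm_apply_apply, Sum.elim_inl, Sum.elim_inr, balga_sy_add]

theorem pt_smul (c : ℝ) (X Z : M4 ℝ) (y : V3) : pt (c • X) (c • Z) (c • y) = c • pt X Z y := by
  funext ν
  obtain ⟨μ, rfl⟩ := eI.surjective ν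
  rcases μ with s | s | j <;>
    simp only [pt, Pi.smul_apply, smul_eq_mul, Equiv.symm_apply_apply, Sum.elim_inl, Sum.elim_inr, balga_sy_smul]

theorem cX_add (x x' : Fin 23 → R) : cX (x + x') = cX x + cX x' := rfl
theorem cZ_add (x x' : Fin 23 → R) : cZ (x + x') = cZ x + cZ x' := rfl
theorem cy_add (x x' : Fin 23 → R) : cy (x + x') = cy x + cy x' := rfl
theorem cX_smul (c : R) (x : Fin 23 → R) : cX (c • x) = c • cX x := rfl
theorem cZ_smul (c : R) (x : Fin 23 → R) : cZ (c • x) = c • cZ x := rfl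
theorem cy_smul (c : R) (x : Fin 23 → R) : cy (c • x) = c • cy x := rfl

theorem cX_shift (x : Fin 23 → ℝ) (s : ℝ) : cX (x + s • ee) = cX x + s • 1 := by
  rw [cX_add, cX_smul, ee, cX_pt isSymm_one]

theorem cZ_shift (x : Fin 23 → ℝ) (s : ℝ) : cZ (x + s • ee) = cZ x + s • 1 := by
  rw [cZ_add, cZ_smul, ee, cZ_pt _ isSymm_one]

theorem cy_shift (x : Fin 23 → ℝ) (s : ℝ) : cy (x + s • ee) = cy x := by
  rw [cy_add, cy_smul, ee, cy_pt, smul_zero, add_zero]

theorem balga_det (a b c d e f g h i j : R) : (!![a, b, c, d; b, e, f, g; c, f, h, i; d, g, i, j] : M4 R).det =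
    a * (e * (h * j - i * i) - f * (f * j - i * g) + g * (f * i - h * g))
      - b * (b * (h * j - i * i) - f * (c * j - i * d) + g * (c * i - h * d))
      + c * (b * (f * j - i * g) - e * (c * j - i * d) + g * (c * g - f * d))
      - d * (b * (f * i - h * g) - e * (c * i - h * d) + f * (c * g - f * d)) := by
  simp [det_succ_row_zero, Fin.sum_univ_succ, Fin.succAbove]
  ring

theorem balga_star (q : Fin 3) : star4 (Em R q)ᵀ = ![!![0, 0, 0, 0; 0, 0, 0, 0; 0, 0, 0, 1; 0, 0, -1, 0],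
    !![0, 0, 0, 0; 0, 0, 0, -1; 0, 0, 0, 0; 0, 1, 0, 0], !![0, 0, 0, 0; 0, 0, 1, 0; 0, -1, 0, 0; 0, 0, 0, 0]] q := by
  ext i j
  fin_cases q <;> fin_cases i <;> fin_cases j <;> simp [star4, Em, Matrix.single_apply]

theorem balga_Em (q : Fin 3) : (Em R q)ᵀ = ![!![0, 1, 0, 0; -1, 0, 0, 0; 0, 0, 0, 0; 0, 0, 0, 0],
    !![0, 0, 1, 0; 0, 0, 0, 0; -1, 0, 0, 0; 0, 0, 0, 0], !![0, 0, 0, 1; 0, 0, 0, 0; 0, 0, 0, 0; -1, 0, 0, 0]] q := by
  ext i j
  fin_cases q <;> fin_cases i <;> fin_cases j <;> simp [Em, Matrix.single_apply]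

theorem balga_F0 (a b c d e f g h i j : R) : !![a, b, c, d; b, e, f, g; c, f, h, i; d, g, i, j] *
    Fm !![a, b, c, d; b, e, f, g; c, f, h, i; d, g, i, j] 0 * !![a, b, c, d; b, e, f, g; c, f, h, i; d, g, i, j] =
      (!![a, b, c, d; b, e, f, g; c, f, h, i; d, g, i, j] : M4 R).det • (Em R 0)ᵀ := by
  rw [Fm, balga_star, balga_det, balga_Em]
  ext k l
  fin_cases k <;> fin_cases l <;> simp [star4, Matrix.mul_apply, Fin.sum_univ_four] <;> ring

theorem balga_F1 (a b c d e f g h i j : R) : !![a, b, c, d; b, e, f, g; c, f, h, i; d, g, i, j] *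
    Fm !![a, b, c, d; b, e, f, g; c, f, h, i; d, g, i, j] 1 * !![a, b, c, d; b, e, f, g; c, f, h, i; d, g, i, j] =
      (!![a, b, c, d; b, e, f, g; c, f, h, i; d, g, i, j] : M4 R).det • (Em R 1)ᵀ := by
  rw [Fm, balga_star, balga_det, balga_Em]
  ext k l
  fin_cases k <;> fin_cases l <;> simp [star4, Matrix.mul_apply, Fin.sum_univ_four] <;> ring

theorem balga_F2 (a b c d e f g h i j : R) : !![a, b, c, d; b, e, f, g; c, f, h, i; d, g, i, j] *
    Fm !![a, b, c, d; b, e, f, g; c, f, h, i; d, g, i, j] 2 * !![a, b, c, d; b, e, f, g; c, f, h, i; d, g, i, j] =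
      (!![a, b, c, d; b, e, f, g; c, f, h, i; d, g, i, j] : M4 R).det • (Em R 2)ᵀ := by
  rw [Fm, balga_star, balga_det, balga_Em]
  ext k l
  fin_cases k <;> fin_cases l <;> simp [star4, Matrix.mul_apply, Fin.sum_univ_four] <;> ring

/-- explicit computation: `ext i j; fin_cases q, i, j; simp [..., det_succ_row_zero, Fin.sum_univ_succ]; ring` after writing the
entries below the diagonal by those above -/
theorem Fm_spec {Z : M4 R} (h : Z.IsSymm) (q : Fin 3) : Z * Fm Z q * Z = Z.det • (Em R q)ᵀ := by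
  obtain ⟨a, b, c, d, e, f, g, h', i, j, rfl⟩ : ∃ a b c d e f g h i j : R,
      Z = !![a, b, c, d; b, e, f, g; c, f, h, i; d, g, i, j] := by
    refine ⟨Z 0 0, Z 0 1, Z 0 2, Z 0 3, Z 1 1, Z 1 2, Z 1 3, Z 2 2, Z 2 3, Z 3 3, ?_⟩
    ext a b
    fin_cases a <;> fin_cases b <;> first | rfl | exact h.apply _ _
  fin_cases q
  · exact balga_F0 ..
  · exact balga_F1 ..
  · exact balga_F2 ..

end Crest.Agent.R237.B

end
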