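import Crest.Agent.R237.BConeA

/-!
# R237 / BCone: special points of the cone `KK` (prefix `bcone_`)
-/

set_option autoImplicit false

open Matrix

noncomputable section

namespace Crest.Agent.R237.B

variable {δ : ℝ}

theorem bcone_symm (u : V4) : (Mt u).IsSymm := by
  ext i j
  simp [Mt, vecMulVec_apply, one_apply, mul_comm, eq_comm]

theorem bcone_form (u g : V4) : g ⬝ᵥ (Mt u *ᵥ g) = (u ⬝ᵥ u) * (g ⬝ᵥ g) - (u ⬝ᵥ g) ^ 2 := by
  simp [Mt, mulVec, dotProduct, Fin.sum_univ_four, vecMulVec_apply, one_apply]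
  ring

theorem bcone_nonneg (u g : V4) : 0 ≤ g ⬝ᵥ (Mt u *ᵥ g) := by
  rw [bcone_form]
  simp only [dotProduct, Fin.sum_univ_four]
  nlinarith [sq_nonneg (u 0 * g 1 - u 1 * g 0), sq_nonneg (u 0 * g 2 - u 2 * g 0),
    sq_nonneg (u 0 * g 3 - u 3 * g 0), sq_nonneg (u 1 * g 2 - u 2 * g 1),
    sq_nonneg (u 1 * g 3 - u 3 * g 1), sq_nonneg (u 2 * g 3 - u 3 * g 2)]

theorem bcone_herm {A : M4 ℝ} (h : A.IsSymm) : A.IsHermitian := by
  simpa [Matrix.IsHermitian, Matrix.IsSymm] using h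

theorem bcone_pos {v : V4} (hv : v ≠ 0) : 0 < v ⬝ᵥ v := by
  have h : 0 ≤ v ⬝ᵥ v := Finset.sum_nonneg fun i _ => mul_self_nonneg (v i)
  exact h.lt_of_ne' fun h0 => hv (dotProduct_self_eq_zero.1 h0)

theorem bcone_symm' (u : V4) (l t : ℝ) : (l • (1 : M4 ℝ) + t • Mt u).IsSymm :=
  (isSymm_one.smul l).add ((bcone_symm u).smul t)

theorem bcone_vv_symm (v : V4) : (vecMulVec v v).IsSymm := by
  ext i j
  simp [vecMulVec_apply, mul_comm]

theorem bcone_unit {A : M4 ℝ} (h : ∀ g : V4, g ⬝ᵥ g = 1 → 0 ≤ g ⬝ᵥ (A *ᵥ g)) (g : V4) :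
    0 ≤ g ⬝ᵥ (A *ᵥ g) := by
  by_cases hg : g = 0
  · simp [hg]
  have h1 := bcone_pos hg
  have h2 : 0 < √(g ⬝ᵥ g) := Real.sqrt_pos.2 h1
  have h3 := h ((√(g ⬝ᵥ g))⁻¹ • g) (by
    rw [smul_dotProduct, dotProduct_smul, smul_eq_mul, smul_eq_mul, ← mul_assoc, ← mul_inv,
      Real.mul_self_sqrt h1.le, inv_mul_cancel₀ h1.ne'])
  rw [mulVec_smul, smul_dotProduct, dotProduct_smul, smul_eq_mul, smul_eq_mul, ← mul_assoc] at h3
  exact nonneg_of_mul_nonneg_right h3 (by positivity)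

theorem bcone_compact : IsCompact {g : V4 | g ⬝ᵥ g = 1} := by
  refine (isCompact_Icc (a := fun _ => (-1 : ℝ)) (b := fun _ => (1 : ℝ))).of_isClosed_subset
    (isClosed_eq (continuous_id.dotProduct continuous_id) continuous_const) fun g hg => ?_
  have h : ∀ i, g i * g i ≤ 1 := fun i => by
    rw [← (show g ⬝ᵥ g = 1 from hg)]
    exact Finset.single_le_sum (f := fun i => g i * g i) (fun i _ => mul_self_nonneg (g i))
      (Finset.mem_univ i)
  exact ⟨fun i => by nlinarith [h i], fun i => by nlinarith [h i]⟩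

theorem bcone_cont (A : M4 ℝ) : Continuous fun g : V4 => g ⬝ᵥ (A *ᵥ g) :=
  continuous_id.dotProduct (continuous_const.matrix_mulVec continuous_id)

theorem Mt_psd (u : V4) : (Mt u).PosSemidef :=
  PosSemidef.of_dotProduct_mulVec_nonneg (bcone_herm (bcone_symm u)) fun g => by
    simpa using bcone_nonneg u g

theorem Mt_form (u g : V4) : g ⬝ᵥ (Mt u *ᵥ g) = (u ⬝ᵥ u) * (g ⬝ᵥ g) - (u ⬝ᵥ g) ^ 2 :=
  bcone_form u g

/-- `v vᵀ * v vᵀ = |v|² v vᵀ` -/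
theorem inv_Mt {v : V4} (hv : v ≠ 0) {l t : ℝ} (hl : 0 < l) (ht : 0 ≤ t) :
    (l • (1 : M4 ℝ) + t • Mt v)⁻¹ =
      (l * (v ⬝ᵥ v))⁻¹ • vecMulVec v v + ((v ⬝ᵥ v) * (l + t * (v ⬝ᵥ v)))⁻¹ • Mt v := by
  have hs := bcone_pos hv
  have hP : vecMulVec v v * vecMulVec v v = (v ⬝ᵥ v) • vecMulVec v v := by
    ext i j
    simp [mul_apply, vecMulVec_apply, dotProduct, Fin.sum_univ_four]
    ring
  have h2 : 0 < l + t * (v ⬝ᵥ v) := by positivity
  refine inv_eq_right_inv ?_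
  unfold Mt
  generalize vecMulVec v v = P at hP
  generalize v ⬝ᵥ v = s at hP hs h2
  simp only [smul_sub, smul_smul, add_mul, mul_add, sub_mul, mul_sub, smul_mul_assoc, mul_smul_comm,
    one_mul, mul_one, hP]
  match_scalars
  · field_simp
    ring
  · field_simp

/-- Finsler's lemma -/
theorem finsler {Y : Type} [TopologicalSpace Y] {S : Set Y} (hS : IsCompact S) {f g : Y → ℝ} (hf : ContinuousOn f S)
    (hg : ContinuousOn g S) (h0 : ∀ x ∈ S, 0 ≤ g x) (h : ∀ x ∈ S, g x = 0 → 0 < f x) :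
    ∃ t κ : ℝ, 0 ≤ t ∧ 0 < κ ∧ ∀ x ∈ S, κ ≤ f x + t * g x := by
  rcases S.eq_empty_or_nonempty with rfl | hne
  · exact ⟨0, 1, le_rfl, one_pos, fun x hx => absurd hx (Set.notMem_empty x)⟩
  have : CompactSpace S := isCompact_iff_compactSpace.1 hS
  have hf' := continuousOn_iff_continuous_domRestrict.1 hf
  have hg' := continuousOn_iff_continuous_domRestrict.1 hg
  obtain ⟨n, hn⟩ := (isCompact_univ (X := S)).elim_directed_cover
    (fun n : ℕ => {x : S | 0 < f x + n * g x})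
    (fun n => isOpen_lt continuous_const (hf'.add (continuous_const.mul hg')))
    (fun x _ => by
      rcases (h0 x x.2).eq_or_lt with h1 | h1
      · exact Set.mem_iUnion.2 ⟨0, by simpa using h x x.2 h1.symm⟩
      · obtain ⟨n, hn⟩ := exists_nat_gt (-f x / g x)
        rw [div_lt_iff₀ h1] at hn
        exact Set.mem_iUnion.2 ⟨n, by simp only [Set.mem_ofPred_eq]; linarith⟩)
    (Monotone.directed_le fun a b hab x hx => by
      have h1 : (a : ℝ) * g x ≤ b * g x :=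
        mul_le_mul_of_nonneg_right (by exact_mod_cast hab) (h0 x x.2)
      simp only [Set.mem_ofPred_eq] at hx ⊢
      linarith)
  obtain ⟨x, hx, hmin⟩ := hS.exists_isMinOn hne (f := fun x => f x + n * g x)
    (hf.add (continuousOn_const.mul hg))
  exact ⟨n, f x + n * g x, Nat.cast_nonneg n, hn (Set.mem_univ (⟨x, hx⟩ : S)), fun y hy => hmin hy⟩

theorem bcone_key {u v : V4} (hv : v ≠ 0) (y : V3) {l t : ℝ} (hl : 0 < l) (ht : 0 ≤ t) (g : V4) :
    g ⬝ᵥ ((l • (1 : M4 ℝ) + t • Mt u - Phi δ y (l • (1 : M4 ℝ) + t • Mt v)⁻¹) *ᵥ g) =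
      l * (g ⬝ᵥ g) + t * (g ⬝ᵥ (Mt u *ᵥ g)) - (l * (v ⬝ᵥ v))⁻¹ * cf δ y (be g v) -
        ((v ⬝ᵥ v) * (l + t * (v ⬝ᵥ v)))⁻¹ * (g ⬝ᵥ (Phi δ y (Mt v) *ᵥ g)) := by
  rw [inv_Mt hv hl ht, Phi_add, Phi_smul, Phi_smul, ← Phi_vv]
  simp only [sub_mulVec, add_mulVec, smul_mulVec, one_mulVec, dotProduct_sub, dotProduct_add,
    dotProduct_smul, smul_eq_mul]
  ring

/-- `finsler` on the unit sphere `g ⬝ᵥ g = 1` for `f g = l |g|² - cf y (be g v) / (l |v|²)` and the form of `Mt u` (it vanishes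
only on multiples of `u`); then enlarge `t` so that the second term of `inv_Mt` contributes less than `κ`. -/
theorem exists_mem (hδ : Pos δ) {u v : V4} (hu : u ≠ 0) (hv : v ≠ 0) {y : V3} {l : ℝ} (hl : 0 < l)
    (h : cf δ y (be u v) < l ^ 2 * (u ⬝ᵥ u) * (v ⬝ᵥ v)) :
    ∃ t : ℝ, 0 ≤ t ∧ pt (l • 1 + t • Mt u) (l • 1 + t • Mt v) y ∈ K0 δ := by
  have hs := bcone_pos hv
  have hu' := bcone_pos hu
  obtain ⟨t0, κ, ht0, hκ, H⟩ := finsler bcone_compact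
    (f := fun g => l - (l * (v ⬝ᵥ v))⁻¹ * (g ⬝ᵥ (Phi δ y (vecMulVec v v) *ᵥ g)))
    (g := fun g => g ⬝ᵥ (Mt u *ᵥ g))
    (continuous_const.sub (continuous_const.mul (bcone_cont _))).continuousOn
    (bcone_cont _).continuousOn (fun g _ => bcone_nonneg u g) (fun g hg h0 => by
      have hg1 : g ⬝ᵥ g = 1 := hg
      rw [Mt_form, hg1, mul_one] at h0
      set c : ℝ := (u ⬝ᵥ g) / (u ⬝ᵥ u) with hc
      have hc2 : c ^ 2 * (u ⬝ᵥ u) = 1 := by
        rw [hc]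
        field_simp
        linarith
      have hgu : g = c • u := by
        have e : (g - c • u) ⬝ᵥ (g - c • u) = 0 := by
          simp only [sub_dotProduct, dotProduct_sub, smul_dotProduct, dotProduct_smul, smul_eq_mul,
            dotProduct_comm g u, hg1]
          have : u ⬝ᵥ g = c * (u ⬝ᵥ u) := by rw [hc]; field_simp
          rw [this]
          nlinarith
        exact sub_eq_zero.1 (dotProduct_self_eq_zero.1 e)
      have hb : be g v = c • be u v := by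
        rw [hgu]
        ext p
        simp [be]
        ring
      rw [Phi_vv, hb, cf_smul, sub_pos, inv_mul_lt_iff₀ (by positivity)]
      have hc0 : 0 < c ^ 2 := by
        by_contra hh
        have : c ^ 2 = 0 := le_antisymm (not_lt.1 hh) (sq_nonneg c)
        rw [this] at hc2
        simp at hc2
      calc c ^ 2 * cf δ y (be u v) < c ^ 2 * (l ^ 2 * (u ⬝ᵥ u) * (v ⬝ᵥ v)) :=
            mul_lt_mul_of_pos_left h hc0
        _ = c ^ 2 * (u ⬝ᵥ u) * (l ^ 2 * (v ⬝ᵥ v)) := by ring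
        _ = _ := by rw [hc2]; ring)
  obtain ⟨B, hB⟩ := bcone_compact.bddAbove_image (bcone_cont (Phi δ y (Mt v))).continuousOn
  set t : ℝ := t0 + |B| / (κ * (v ⬝ᵥ v) ^ 2) with htd
  have ht1 : 0 ≤ |B| / (κ * (v ⬝ᵥ v) ^ 2) := by positivity
  have ht : 0 ≤ t := by positivity
  refine ⟨t, ht, ?_, ?_⟩
  · rw [cZ_pt _ (bcone_symm' v l t)]
    exact (PosDef.one.smul hl).add_posSemidef ((Mt_psd v).smul ht)
  · rw [cZ_pt _ (bcone_symm' v l t), cX_pt (bcone_symm' u l t), cy_pt]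
    refine PosSemidef.of_dotProduct_mulVec_nonneg (bcone_herm ((bcone_symm' u l t).sub
      (Phi_symm δ y ?_))) fun g => ?_
    · rw [inv_Mt hv hl ht]
      exact ((bcone_vv_symm v).smul _).add ((bcone_symm v).smul _)
    · rw [star_trivial]
      refine bcone_unit (fun g hg => ?_) g
      rw [bcone_key hv y hl ht, hg, mul_one, ← Phi_vv]
      have a1 := H g hg
      have a2 : g ⬝ᵥ (Phi δ y (Mt v) *ᵥ g) ≤ |B| := (hB ⟨g, hg, rfl⟩).trans (le_abs_self B)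
      have a3 : t0 * (g ⬝ᵥ (Mt u *ᵥ g)) ≤ t * (g ⬝ᵥ (Mt u *ᵥ g)) :=
        mul_le_mul_of_nonneg_right (by linarith) (bcone_nonneg u g)
      have a4 : ((v ⬝ᵥ v) * (l + t * (v ⬝ᵥ v)))⁻¹ * (g ⬝ᵥ (Phi δ y (Mt v) *ᵥ g)) ≤ κ := by
        rw [inv_mul_le_iff₀ (by positivity)]
        have b1 : |B| = |B| / (κ * (v ⬝ᵥ v) ^ 2) * (κ * (v ⬝ᵥ v) ^ 2) := by field_simp
        have b2 : |B| / (κ * (v ⬝ᵥ v) ^ 2) * (κ * (v ⬝ᵥ v) ^ 2) ≤ t * (κ * (v ⬝ᵥ v) ^ 2) :=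
          mul_le_mul_of_nonneg_right (by linarith) (by positivity)
        have b3 : 0 ≤ (v ⬝ᵥ v) * l * κ := by positivity
        nlinarith
      linarith

/-- test with the vector `u`; `inv_Mt`, `Phi_psd`, `Phi_vv` -/
theorem le_of_mem (hδ : Pos δ) {u v : V4} (hv : v ≠ 0) {y : V3} {l t : ℝ} (hl : 0 < l) (ht : 0 ≤ t)
    (h : pt (l • 1 + t • Mt u) (l • 1 + t • Mt v) y ∈ K0 δ) : cf δ y (be u v) ≤ l ^ 2 * (u ⬝ᵥ u) * (v ⬝ᵥ v) := by
  have hs := bcone_pos hv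
  have h2 := h.2
  rw [cZ_pt _ (bcone_symm' v l t), cX_pt (bcone_symm' u l t), cy_pt] at h2
  have h3 := h2.dotProduct_mulVec_nonneg u
  rw [star_trivial, bcone_key hv y hl ht, Mt_form] at h3
  have h4 := (Phi_psd hδ y (Mt_psd v)).dotProduct_mulVec_nonneg u
  rw [star_trivial] at h4
  have h5 : 0 ≤ ((v ⬝ᵥ v) * (l + t * (v ⬝ᵥ v)))⁻¹ * (u ⬝ᵥ (Phi δ y (Mt v) *ᵥ u)) := by positivity
  have h6 : (l * (v ⬝ᵥ v))⁻¹ * cf δ y (be u v) ≤ l * (u ⬝ᵥ u) := by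
    have : (u ⬝ᵥ u) * (u ⬝ᵥ u) - (u ⬝ᵥ u) ^ 2 = 0 := by ring
    rw [this] at h3
    linarith
  rw [inv_mul_le_iff₀ (by positivity)] at h6
  calc _ ≤ _ := h6
    _ = _ := by ring

end Crest.Agent.R237.B

end
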