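import Crest.Agent.R237.BAlg

/-!
# R237 / BConeA: description of the cone `KK` (prefix `bconea_`)
-/

set_option autoImplicit false

open Matrix

noncomputable section

namespace Crest.Agent.R237.B

variable {δ : ℝ}

theorem bconea_herm {A : M4 ℝ} (h : A.IsSymm) : A.IsHermitian := by
  rw [Matrix.IsHermitian, conjTranspose_eq_transpose_of_trivial]
  exact h

theorem bconea_symm {A : M4 ℝ} (h : A.IsHermitian) : A.IsSymm := by
  rw [Matrix.IsHermitian, conjTranspose_eq_transpose_of_trivial] at h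
  exact h

theorem bconea_dot {n : ℕ} (v : Fin n → ℝ) : 0 ≤ v ⬝ᵥ v := Finset.sum_nonneg fun _ _ => mul_self_nonneg _

theorem bconea_lim {A : ℝ → M4 ℝ} (hA : ContinuousAt A 0) (h0 : (A 0).IsSymm)
    (h : ∀ s : ℝ, 0 < s → (A s).PosSemidef) : (A 0).PosSemidef := by
  refine PosSemidef.of_dotProduct_mulVec_nonneg (bconea_herm h0) fun v => ?_
  have hc : Continuous fun B : M4 ℝ => star v ⬝ᵥ (B *ᵥ v) := by fun_prop
  have ht : Filter.Tendsto (fun s => star v ⬝ᵥ (A s *ᵥ v)) (nhdsWithin 0 (Set.Ioi 0))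
      (nhds (star v ⬝ᵥ (A 0 *ᵥ v))) :=
    (hc.continuousAt.comp hA).tendsto.mono_left nhdsWithin_le_nhds
  refine ge_of_tendsto ht ?_
  filter_upwards [self_mem_nhdsWithin] with s hs
  exact (h s hs).dotProduct_mulVec_nonneg v

theorem bconea_shift {A : M4 ℝ} (h0 : A.IsSymm) (h : ∀ s : ℝ, 0 < s → (A + s • (1 : M4 ℝ)).PosSemidef) :
    A.PosSemidef := by
  have := bconea_lim (A := fun s : ℝ => A + s • (1 : M4 ℝ)) (by fun_prop) (by simpa using h0) h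
  simpa using this

theorem bconea_pd {Z : M4 ℝ} (hZ : Z.PosSemidef) {s : ℝ} (hs : 0 < s) : (Z + s • (1 : M4 ℝ)).PosDef :=
  PosDef.posSemidef_add hZ (PosDef.one.smul hs)

theorem bconea_inv_sub {Z : M4 ℝ} (hZ : Z.PosDef) {s : ℝ} (hs : 0 < s) :
    (Z⁻¹ - (Z + s • (1 : M4 ℝ))⁻¹).PosSemidef := by
  have hY := bconea_pd hZ.posSemidef hs
  obtain ⟨Y, hYe⟩ : ∃ Y, Y = Z + s • (1 : M4 ℝ) := ⟨_, rfl⟩
  rw [← hYe] at hY ⊢
  have hu : IsUnit Y.det := (isUnit_iff_isUnit_det Y).1 hY.isUnit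
  have hz : IsUnit Z.det := (isUnit_iff_isUnit_det Z).1 hZ.isUnit
  have h1 : (s • (1 : M4 ℝ) + s ^ 2 • Z⁻¹).PosSemidef :=
    (PosSemidef.one.smul hs.le).add (hZ.inv.posSemidef.smul (sq_nonneg s))
  have h2 := h1.mul_mul_conjTranspose_same Y⁻¹
  rw [hY.inv.isHermitian] at h2
  have h3 : s • (1 : M4 ℝ) + s ^ 2 • Z⁻¹ = Y * Z⁻¹ * Y - Y := by
    rw [hYe]
    simp only [add_mul, mul_add, smul_mul_assoc, mul_smul_comm, one_mul, mul_one,
      mul_nonsing_inv Z hz, nonsing_inv_mul Z hz, smul_add, smul_smul]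
    rw [sq]
    abel
  have h4 : Y⁻¹ * (Y * Z⁻¹ * Y - Y) * Y⁻¹ = Z⁻¹ - Y⁻¹ := by
    rw [mul_sub, sub_mul, nonsing_inv_mul Y hu, one_mul, ← mul_assoc, ← mul_assoc, nonsing_inv_mul Y hu,
      one_mul, mul_assoc, mul_nonsing_inv Y hu, mul_one]
  rwa [h3, h4] at h2

theorem bconea_trace {W : M4 ℝ} (hW : W.PosSemidef) (v : V4) : v ⬝ᵥ (W *ᵥ v) ≤ (v ⬝ᵥ v) * W.trace := by
  have hs : ∀ a b, W a b = W b a := fun a b => (bconea_symm hW.isHermitian).apply b a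
  have h : ∀ a b : Fin 4, 0 ≤ v a ^ 2 * W b b + v b ^ 2 * W a a - 2 * (v a * v b * W a b) := by
    intro a b
    have h1 := hW.dotProduct_mulVec_nonneg (Pi.single b (v a) - Pi.single a (v b))
    simp only [star_trivial, mulVec_sub, dotProduct_sub, sub_dotProduct, mulVec_single, single_dotProduct,
      MulOpposite.smul_eq_mul_unop, MulOpposite.unop_op, Pi.smul_apply, col_apply] at h1
    rw [hs b a] at h1
    nlinarith [h1]
  have h01 := h 0 1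
  have h02 := h 0 2
  have h03 := h 0 3
  have h12 := h 1 2
  have h13 := h 1 3
  have h23 := h 2 3
  simp only [dotProduct, mulVec, trace, diag, Fin.sum_univ_four]
  rw [hs 1 0, hs 2 0, hs 3 0, hs 2 1, hs 3 1, hs 3 2]
  nlinarith [h01, h02, h03, h12, h13, h23]

theorem bconea_mem {x : Fin 23 → ℝ} (s : ℝ) : x + s • ee ∈ K0 δ ↔ (cZ x + s • (1 : M4 ℝ)).PosDef ∧
    (cX x + s • (1 : M4 ℝ) - Phi δ (cy x) (cZ x + s • (1 : M4 ℝ))⁻¹).PosSemidef := by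
  simp only [K0, Set.mem_ofPred_eq, cX_shift, cZ_shift, cy_shift]

/-- `Z⁻¹ - (Z + s)⁻¹ = (Z + s)⁻¹ (s + s² Z⁻¹) (Z + s)⁻¹ ⪰ 0`, `Phi_psd` -/
theorem K0_sub (hδ : Pos δ) : K0 δ ⊆ KK δ := by
  rintro x ⟨hZ, hX⟩ s hs
  refine (bconea_mem s).2 ⟨bconea_pd hZ.posSemidef hs, ?_⟩
  have h1 := Phi_psd hδ (cy x) (bconea_inv_sub hZ hs)
  have h2 := Phi_add δ (cy x) ((cZ x)⁻¹ - (cZ x + s • (1 : M4 ℝ))⁻¹) (cZ x + s • (1 : M4 ℝ))⁻¹
  rw [sub_add_cancel] at h2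
  have h3 := (hX.add (PosSemidef.one.smul hs.le)).add h1
  rw [h2] at h3
  convert h3 using 1
  abel

theorem zero_mem {X Z : M4 ℝ} (hX : X.PosSemidef) (hZ : Z.PosSemidef) : pt X Z 0 ∈ KK δ := by
  intro s hs
  refine (bconea_mem s).2 ?_
  rw [cX_pt (bconea_symm hX.isHermitian), cZ_pt _ (bconea_symm hZ.isHermitian), cy_pt, Phi_zero, sub_zero]
  exact ⟨bconea_pd hZ hs, (bconea_pd hX hs).posSemidef⟩

/-- let `s → 0` (`Z + s ≻ 0`) -/
theorem KK.psd_Z {x : Fin 23 → ℝ} (h : x ∈ KK δ) : (cZ x).PosSemidef :=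
  bconea_shift (cZ_symm x) fun s hs => ((bconea_mem s).1 (h s hs)).1.posSemidef

/-- let `s → 0`; `s ↦ (Z + s)⁻¹` is continuous at `0` -/
theorem KK.mem_K0 {x : Fin 23 → ℝ} (h : x ∈ KK δ) (hZ : (cZ x).PosDef) : x ∈ K0 δ := by
  refine ⟨hZ, ?_⟩
  have hP : Continuous fun W : M4 ℝ => Phi δ (cy x) W := by
    unfold Phi Th
    fun_prop
  have hi : ContinuousAt (fun s : ℝ => (cZ x + s • (1 : M4 ℝ))⁻¹) 0 := by
    have h1 : ContinuousAt (Inv.inv : M4 ℝ → M4 ℝ) (cZ x + (0 : ℝ) • (1 : M4 ℝ)) := by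
      rw [zero_smul, add_zero]
      refine continuousAt_matrix_inv _ ?_
      rw [Ring.inverse_eq_inv']
      exact continuousAt_inv₀ hZ.det_pos.ne'
    exact ContinuousAt.comp (f := fun s : ℝ => cZ x + s • (1 : M4 ℝ)) h1 (by fun_prop)
  have hc : ContinuousAt
      (fun s : ℝ => cX x + s • (1 : M4 ℝ) - Phi δ (cy x) (cZ x + s • (1 : M4 ℝ))⁻¹) 0 :=
    ContinuousAt.sub (by fun_prop) (hP.continuousAt.comp hi)
  have := bconea_lim hc (by
    simp only [zero_smul, add_zero]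
    exact (cX_symm x).sub (Phi_symm δ _ (bconea_symm hZ.inv.isHermitian)))
    fun s hs => ((bconea_mem s).1 (h s hs)).2
  simpa using this

/-- If `y ≠ 0` and `Z v = 0`, `|v| = 1`, then `trace (Z + s)⁻¹ ≥ 1 / s` while `δ |y|² trace (Z + s)⁻¹ ≤ trace (X + s)`
(`trace_Phi`). -/
theorem KK.cases (hδ : Pos δ) {x : Fin 23 → ℝ} (h : x ∈ KK δ) :
    x ∈ K0 δ ∨ (cy x = 0 ∧ (cX x).PosSemidef ∧ (cZ x).PosSemidef) := by
  by_cases hZ : (cZ x).PosDef
  · exact Or.inl (KK.mem_K0 h hZ)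
  right
  have hZ0 := KK.psd_Z h
  have hdet : (cZ x).det = 0 := by
    by_contra hd
    exact hZ (hZ0.posDef_iff_det_ne_zero.2 hd)
  obtain ⟨v, hv0, hv⟩ := exists_mulVec_eq_zero_iff.2 hdet
  have hvv : 0 < v ⬝ᵥ v := lt_of_le_of_ne (bconea_dot v)
    fun e => hv0 (dotProduct_self_eq_zero.1 e.symm)
  have hyy : 0 ≤ cy x ⬝ᵥ cy x := bconea_dot _
  have key : ∀ s : ℝ, 0 < s → δ * (cy x ⬝ᵥ cy x) ≤ s * ((cX x).trace + 4 * s) := by
    intro s hs
    obtain ⟨h1, h2⟩ := (bconea_mem s).1 (h s hs)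
    obtain ⟨Y, hYe⟩ : ∃ Y, Y = cZ x + s • (1 : M4 ℝ) := ⟨_, rfl⟩
    rw [← hYe] at h1 h2
    have hu : IsUnit Y.det := (isUnit_iff_isUnit_det Y).1 h1.isUnit
    have h3 : Y *ᵥ v = s • v := by
      rw [hYe, add_mulVec, hv, zero_add, smul_mulVec, one_mulVec]
    have h4 : s • (Y⁻¹ *ᵥ v) = v := by
      rw [← mulVec_smul, ← h3, mulVec_mulVec, nonsing_inv_mul Y hu, one_mulVec]
    have h5 : s * (v ⬝ᵥ (Y⁻¹ *ᵥ v)) = v ⬝ᵥ v := by
      conv_rhs => rw [← h4]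
      rw [h4, ← smul_eq_mul, ← dotProduct_smul, h4]
    have h6 := bconea_trace h1.inv.posSemidef v
    have h7 : 1 ≤ s * Y⁻¹.trace := by
      have h8 := mul_le_mul_of_nonneg_left h6 hs.le
      rw [h5] at h8
      have h9 : (v ⬝ᵥ v) * 1 ≤ (v ⬝ᵥ v) * (s * Y⁻¹.trace) := by linarith
      exact le_of_mul_le_mul_left h9 hvv
    have h10 := trace_Phi hδ (cy x) h1.inv.posSemidef
    have h11 := h2.trace_nonneg
    rw [trace_sub, trace_add, trace_smul, trace_one] at h11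
    simp only [Fintype.card_fin, smul_eq_mul, Nat.cast_ofNat] at h11
    have h12 : 0 ≤ δ * (cy x ⬝ᵥ cy x) := mul_nonneg hδ.1.le hyy
    have h13 := mul_le_mul_of_nonneg_left h7 h12
    have h14 := mul_le_mul_of_nonneg_left (h10.trans (sub_nonneg.1 h11)) hs.le
    linarith
  have hy : cy x = 0 := by
    have ht : Filter.Tendsto (fun s : ℝ => s * ((cX x).trace + 4 * s)) (nhdsWithin 0 (Set.Ioi 0))
        (nhds (0 * ((cX x).trace + 4 * 0))) :=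
      (Continuous.tendsto (by fun_prop) 0).mono_left nhdsWithin_le_nhds
    have h1 : δ * (cy x ⬝ᵥ cy x) ≤ 0 * ((cX x).trace + 4 * 0) := by
      refine ge_of_tendsto ht ?_
      filter_upwards [self_mem_nhdsWithin] with s hs
      exact key s hs
    rw [zero_mul] at h1
    have h2 : cy x ⬝ᵥ cy x ≤ 0 := by
      by_contra h3
      exact absurd h1 (not_le.2 (mul_pos hδ.1 (not_le.1 h3)))
    exact dotProduct_self_eq_zero.1 (le_antisymm h2 hyy)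
  refine ⟨hy, bconea_shift (cX_symm x) fun s hs => ?_, hZ0⟩
  have := ((bconea_mem s).1 (h s hs)).2
  rwa [hy, Phi_zero, sub_zero] at this

theorem K0_scale {X Z : M4 ℝ} (hX : X.IsSymm) (hZ : Z.IsSymm) (y : V3) {ε : ℝ} (hε : ε ≠ 0) :
    pt X (ε ^ 2 • Z) (ε • y) ∈ K0 δ ↔ pt X Z y ∈ K0 δ := by
  have h2 : 0 < ε ^ 2 := by positivity
  have hiff : (ε ^ 2 • Z).PosDef ↔ Z.PosDef := by
    refine ⟨fun h => ?_, fun h => h.smul h2⟩
    have := h.smul (inv_pos.2 h2)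
    rwa [smul_smul, inv_mul_cancel₀ h2.ne', one_smul] at this
  simp only [K0, Set.mem_ofPred_eq, cX_pt hX, cZ_pt _ hZ, cZ_pt _ (hZ.smul _), cy_pt, hiff]
  refine and_congr_right fun hp => ?_
  have hz : IsUnit Z.det := (isUnit_iff_isUnit_det Z).1 hp.isUnit
  have h3 : (ε ^ 2 • Z)⁻¹ = (ε ^ 2)⁻¹ • Z⁻¹ := by
    refine inv_eq_left_inv ?_
    rw [smul_mul_assoc, mul_smul_comm, smul_smul, inv_mul_cancel₀ h2.ne', one_smul, nonsing_inv_mul Z hz]
  rw [h3, Phi_smul_left, Phi_smul, smul_smul, mul_inv_cancel₀ h2.ne', one_smul]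

end Crest.Agent.R237.B

end
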