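import Crest.Agent.R237.BCoreA

/-!
# R237 / BCore: the core lemma (prefix `bcore_`)
-/

set_option autoImplicit false

open Matrix

noncomputable section

namespace Crest.Agent.R237.B

theorem bcore_P (δ : ℝ) (E : Matrix I3 I3 ℝ) : ∑ i, ∑ j, ∑ p, ∑ j', ∑ q, Gm δ j p j' q * E (i, j, p) (i, j', q) =
    ∑ i, ∑ j, ∑ p, ∑ j', ∑ q, Gm 0 j p j' q * E (i, j, p) (i, j', q) - δ * ∑ α, E α α := by
  simp only [Fintype.sum_prod_type, Finset.mul_sum, ← Finset.sum_sub_distrib]
  refine Finset.sum_congr rfl fun i _ => Finset.sum_congr rfl fun j _ => Finset.sum_congr rfl fun p _ => ?_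
  have e : ∀ j' q, Gm δ j p j' q * E (i, j, p) (i, j', q) =
      Gm 0 j p j' q * E (i, j, p) (i, j', q) - if j = j' then (if p = q then δ * E (i, j, p) (i, j', q) else 0) else 0 := by
    intro j' q
    unfold Gm
    by_cases h1 : j = j' <;> by_cases h2 : p = q <;> simp [h1, h2]
    ring
  simp only [e, Finset.sum_sub_distrib]
  simp

theorem bcore_tr {E : Matrix I3 I3 ℝ} (h : E.PosSemidef) : 0 ≤ ∑ α, E α α :=
  Finset.sum_nonneg fun _ _ => h.diag_nonneg

theorem bcore_bd {E : Matrix I3 I3 ℝ} (h : E.PosSemidef) (h1 : ∑ α, E α α = 1) (α β : I3) : E α β ∈ Set.Icc (-1 : ℝ) 1 := by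
  have d : ∀ γ, E γ γ ≤ 1 := fun γ =>
    h1 ▸ Finset.single_le_sum (f := fun γ => E γ γ) (fun _ _ => h.diag_nonneg) (Finset.mem_univ γ)
  have s : E β α = E α β := by simpa using h.1.apply α β
  have a1 := h.dotProduct_mulVec_nonneg (Pi.single α 1 + Pi.single β 1)
  have a2 := h.dotProduct_mulVec_nonneg (Pi.single α 1 - Pi.single β 1)
  simp only [star_trivial, mulVec_add, mulVec_sub, add_dotProduct, sub_dotProduct, dotProduct_add, dotProduct_sub,
    single_dotProduct, mulVec_single_one, one_mul, Matrix.col_apply] at a1 a2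
  constructor <;> linarith [d α, d β]

theorem bcore_smul {η : V3} {E : Matrix I3 I3 ℝ} (h : Adm η E) {t : ℝ} (ht : 0 ≤ t) : Adm η (t • E) := by
  have e : ∀ m l l', Xm (t • E) η m l l' = t * Xm E η m l l' := fun m l l' => by
    simp only [Xm, Finset.mul_sum, Matrix.smul_apply, smul_eq_mul]
    refine Finset.sum_congr rfl fun i _ => Finset.sum_congr rfl fun j _ => Finset.sum_congr rfl fun i' _ =>
      Finset.sum_congr rfl fun j' _ => ?_
    ring
  refine ⟨h.unit, h.psd.smul ht, fun i j l i' j' l' => ?_, fun i j l i' j' l' => ?_, fun l β => ?_, fun k k' a b c d => ?_⟩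
  · simp only [Matrix.smul_apply, h.s1 i j l i' j' l']
  · simp only [Matrix.smul_apply, h.s2 i j l i' j' l']
  · simp only [Matrix.smul_apply, smul_eq_mul]
    linear_combination t * h.ker l β
  · simp only [e]
    linear_combination t ^ 2 * h.prop k k' a b c d

theorem bcore_cpt : IsCompact {x : V3 × (I3 → I3 → ℝ) | Adm x.1 (Matrix.of x.2) ∧ ∑ α, x.2 α α = 1} := by
  refine IsCompact.of_isClosed_subset ((isCompact_univ_pi fun _ => isCompact_Icc (a := (-1 : ℝ)) (b := 1)).prod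
    (isCompact_univ_pi fun _ => isCompact_univ_pi fun _ => isCompact_Icc (a := (-1 : ℝ)) (b := 1))) ?_ ?_
  · have e : {x : V3 × (I3 → I3 → ℝ) | Adm x.1 (Matrix.of x.2) ∧ ∑ α, x.2 α α = 1} =
        {x | x.1 ⬝ᵥ x.1 = 1} ∩ ((⋂ α, ⋂ β, {x | x.2 β α = x.2 α β}) ∩ ((⋂ v : I3 → ℝ, {x | 0 ≤ v ⬝ᵥ (Matrix.of x.2 *ᵥ v)}) ∩
        ((⋂ i, ⋂ j, ⋂ l, ⋂ i', ⋂ j', ⋂ l', {x | x.2 (i, j, l) (i', j', l') = x.2 (i', j, l) (i, j', l')}) ∩
        ((⋂ i, ⋂ j, ⋂ l, ⋂ i', ⋂ j', ⋂ l', {x | x.2 (i, j, l) (i', j', l') = x.2 (i, j, l') (i', j', l)}) ∩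
        ((⋂ l, ⋂ β, {x | x.1 0 * (x.2 (1, 2, l) β - x.2 (2, 1, l) β) + x.1 1 * (x.2 (2, 0, l) β - x.2 (0, 2, l) β) +
          x.1 2 * (x.2 (0, 1, l) β - x.2 (1, 0, l) β) = 0}) ∩
        ((⋂ k, ⋂ k', ⋂ a, ⋂ b, ⋂ c, ⋂ d, {x | Xm (Matrix.of x.2) x.1 (x.1 ⨯₃ Pi.single k 1) a b *
          Xm (Matrix.of x.2) x.1 (x.1 ⨯₃ Pi.single k' 1) c d = Xm (Matrix.of x.2) x.1 (x.1 ⨯₃ Pi.single k 1) c d *
          Xm (Matrix.of x.2) x.1 (x.1 ⨯₃ Pi.single k' 1) a b}) ∩ {x | ∑ α, x.2 α α = 1})))))) := by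
      ext x
      simp only [Set.mem_ofPred_eq, Set.mem_inter_iff, Set.mem_iInter]
      constructor
      · rintro ⟨h, h1⟩
        exact ⟨h.unit, fun α β => by simpa using h.psd.1.apply α β,
          fun v => by simpa using h.psd.dotProduct_mulVec_nonneg v, h.s1, h.s2, h.ker, h.prop, h1⟩
      · rintro ⟨h1, h2, h3, h4, h5, h6, h7, h8⟩
        refine ⟨⟨h1, PosSemidef.of_dotProduct_mulVec_nonneg (IsHermitian.ext fun α β => by simpa using h2 α β)
          fun v => by simpa using h3 v, h4, h5, h6, h7⟩, h8⟩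
    have cX : ∀ k a b, Continuous fun x : V3 × (I3 → I3 → ℝ) => Xm (Matrix.of x.2) x.1 (x.1 ⨯₃ Pi.single k 1) a b := by
      intro k a b
      have c1 : ∀ j, Continuous fun x : V3 × (I3 → I3 → ℝ) => (x.1 ⨯₃ Pi.single k 1) j := fun j => by
        simp only [cross_apply]
        fin_cases j <;> simp <;> fun_prop
      simp only [Xm, Matrix.of_apply]
      fun_prop
    rw [e]
    refine (isClosed_eq ?_ continuous_const).inter (IsClosed.inter ?_ (IsClosed.inter ?_ (IsClosed.inter ?_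
      (IsClosed.inter ?_ (IsClosed.inter ?_ (IsClosed.inter ?_ (isClosed_eq (by fun_prop) continuous_const)))))))
    · simp only [dotProduct]
      fun_prop
    · exact isClosed_iInter fun _ => isClosed_iInter fun _ => isClosed_eq (by fun_prop) (by fun_prop)
    · refine isClosed_iInter fun v => isClosed_le continuous_const ?_
      simp only [dotProduct, mulVec, Matrix.of_apply]
      fun_prop
    · exact isClosed_iInter fun _ => isClosed_iInter fun _ => isClosed_iInter fun _ => isClosed_iInter fun _ =>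
        isClosed_iInter fun _ => isClosed_iInter fun _ => isClosed_eq (by fun_prop) (by fun_prop)
    · exact isClosed_iInter fun _ => isClosed_iInter fun _ => isClosed_iInter fun _ => isClosed_iInter fun _ =>
        isClosed_iInter fun _ => isClosed_iInter fun _ => isClosed_eq (by fun_prop) (by fun_prop)
    · exact isClosed_iInter fun _ => isClosed_iInter fun _ => isClosed_eq (by fun_prop) continuous_const
    · exact isClosed_iInter fun _ => isClosed_iInter fun _ => isClosed_iInter fun _ => isClosed_iInter fun _ =>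
        isClosed_iInter fun _ => isClosed_iInter fun _ => isClosed_eq ((cX _ _ _).mul (cX _ _ _)) ((cX _ _ _).mul (cX _ _ _))
  · rintro ⟨η, E⟩ ⟨h, h1⟩
    refine ⟨fun i _ => ?_, fun α _ β _ => bcore_bd h.psd h1 α β⟩
    have h2 : η i * η i ≤ 1 := h.unit ▸ Finset.single_le_sum (f := fun i => η i * η i)
      (fun _ _ => mul_self_nonneg _) (Finset.mem_univ i)
    exact abs_le.1 (abs_le_one_iff_mul_self_le_one.2 h2)

/-- compactness of `{(η, E) | Adm η E ∧ trace E = 1}` (closed; entries bounded by the trace), `IsCompact.exists_isMinOn`, scaling.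
The `Gm δ` pairing is the `Gm 0` pairing minus `δ * trace E`. -/
theorem exists_core : ∃ δ : ℝ, 0 < δ ∧ Core (2 * δ) := by
  obtain ⟨m, hm, H⟩ := bcore_cpt.exists_forall_le' (a := (0 : ℝ))
    (f := fun x => ∑ i, ∑ j, ∑ p, ∑ j', ∑ q, Gm 0 j p j' q * x.2 (i, j, p) (i, j', q)) (by fun_prop) (by
      rintro ⟨η, E⟩ ⟨h, h1⟩
      by_contra h2
      have h3 : Matrix.of E = 0 := h.eq_zero (not_lt.1 h2)
      have h4 : ∀ α, E α α = 0 := fun α => congrFun (congrFun h3 α) α
      simp [h4] at h1)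
  refine ⟨m / 2, half_pos hm, fun η E h => ?_⟩
  rw [bcore_P]
  rcases (bcore_tr h.psd).eq_or_lt with h0 | h0
  · rw [← h0, mul_zero, sub_zero]
    by_contra h2
    have h3 := h.eq_zero (not_le.1 h2).le
    simp [h3] at h2
  · have h1 := H (η, (∑ α, E α α)⁻¹ • E) ⟨bcore_smul h (inv_nonneg.2 h0.le), by
      simp only [Matrix.smul_apply, smul_eq_mul, ← Finset.mul_sum, inv_mul_cancel₀ h0.ne']⟩
    simp only [Matrix.smul_apply, smul_eq_mul, mul_left_comm _ (∑ α, E α α)⁻¹, ← Finset.mul_sum] at h1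
    rw [le_inv_mul_iff₀ h0] at h1
    linarith

theorem Core.half {δ : ℝ} (h0 : 0 < δ) (h : Core (2 * δ)) : Core δ := by
  intro η E hE
  have h1 := h η E hE
  rw [bcore_P] at h1 ⊢
  nlinarith [bcore_tr hE.psd]

/-- apply `Core` to the rank one matrix of the vector `(i, j, l) ↦ η i * y j * w l`, `η = e₀` -/
theorem Core.pos {δ : ℝ} (h0 : 0 < δ) (h : Core (2 * δ)) : Pos δ := by
  refine ⟨h0, fun y w => ?_⟩
  set η : V3 := Pi.single 0 1 with hη
  set v : I3 → ℝ := fun α => η α.1 * y α.2.1 * w α.2.2 with hv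
  have e : ∀ m l l', Xm (vecMulVec v v) η m l l' = w l * w l' *
      ∑ i, ∑ j, ∑ i', ∑ j', (η i * m j * η i' * m j' - m i * m j * η i' * η j') * (η i * y j * (η i' * y j')) := by
    intro m l l'
    simp only [Xm, Finset.mul_sum, vecMulVec_apply, hv]
    refine Finset.sum_congr rfl fun i _ => Finset.sum_congr rfl fun j _ => Finset.sum_congr rfl fun i' _ =>
      Finset.sum_congr rfl fun j' _ => ?_
    ring
  have hA : Adm η (vecMulVec v v) := by
    refine ⟨by simp [hη], by simpa using posSemidef_vecMulVec_self_star v, fun i j l i' j' l' => ?_,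
      fun i j l i' j' l' => ?_, fun l β => ?_, fun k k' a b c d => ?_⟩
    · simp only [vecMulVec_apply, hv]
      ring
    · simp only [vecMulVec_apply, hv]
      ring
    · simp [vecMulVec_apply, hv, hη]
    · simp only [e]
      ring
  have h1 := h η _ hA
  rw [bcore_P] at h1
  have e1 : ∑ α, vecMulVec v v α α = (y ⬝ᵥ y) * (w ⬝ᵥ w) := by
    simp [vecMulVec_apply, hv, hη, Fintype.sum_prod_type, Fin.sum_univ_three, dotProduct]
    ring
  have e2 : ∑ i, ∑ j, ∑ p, ∑ j', ∑ q, Gm 0 j p j' q * vecMulVec v v (i, j, p) (i, j', q) =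
      ∑ k, (al k ⬝ᵥ y) ^ 2 * (bt k ⬝ᵥ w) ^ 2 := by
    rw [Fin.sum_univ_three]
    simp only [vecMulVec_apply, hv, hη, Gm, ite_self, sub_zero, Finset.sum_mul]
    simp only [Pi.single_eq_same, one_mul, Pi.single_eq_of_ne (show (1 : Fin 3) ≠ 0 by decide),
      Pi.single_eq_of_ne (show (2 : Fin 3) ≠ 0 by decide), zero_mul, mul_zero, Finset.sum_const_zero, add_zero]
    simp only [Fin.sum_univ_three, ← Finset.sum_add_distrib, dotProduct]
    exact Finset.sum_congr rfl fun k _ => by ring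
  rw [e1, e2] at h1
  unfold cf
  linarith

end Crest.Agent.R237.B

end
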