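import Crest.Agent.R237.BAlg

/-!
# R237 / BCoreA: the core lemma, exact part (prefix `bcorea_`)
-/

set_option autoImplicit false

open Matrix

noncomputable section

namespace Crest.Agent.R237.B

/-- the tile of an entry: `F = [[a,a,b],[d,e,b],[d,c,c]]` -/
def tile : Fin 3 → Fin 3 → Fin 5 := ![![0, 0, 1], ![3, 4, 1], ![3, 2, 2]]

/-- the bound entangled state (9 times twice the projection on the complement of the product basis) -/
def rho (j l j' l' : Fin 3) : ℝ := (if tile j l = tile j' l' then (if tile j l = 4 then 18 else 9) else 0) - 2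

/-- Uniqueness: a symmetric form `S` on `ℝ³ ⊗ ℝ³` which is invariant under partial transposition and kills the five product
vectors is a multiple of `rho` (`μ = -S 0 0 0 2 / 2`).  The first four vectors give `S j l · · ` depends only on `tile j l`, partial
transposition makes all values between different tiles equal, the fifth vector gives the diagonal. -/
theorem eq_rho {S : Fin 3 → Fin 3 → Fin 3 → Fin 3 → ℝ} (h1 : ∀ j l j' l', S j l j' l' = S j' l' j l)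
    (h2 : ∀ j l j' l', S j l j' l' = S j l' j' l) (h3 : ∀ k j' l', ∑ j, ∑ l, al k j * bt k l * S j l j' l' = 0) :
    ∃ μ : ℝ, ∀ j l j' l', S j l j' l' = μ * rho j l j' l' := by
  have k0 : ∀ j' l', S 0 0 j' l' = S 0 1 j' l' := fun j' l' => by
    have := h3 0 j' l'
    simp [al, bt, Fin.sum_univ_three] at this
    linarith
  have k1 : ∀ j' l', S 0 2 j' l' = S 1 2 j' l' := fun j' l' => by
    have := h3 1 j' l'
    simp [al, bt, Fin.sum_univ_three] at this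
    linarith
  have k2 : ∀ j' l', S 2 1 j' l' = S 2 2 j' l' := fun j' l' => by
    have := h3 2 j' l'
    simp [al, bt, Fin.sum_univ_three] at this
    linarith
  have k3 : ∀ j' l', S 1 0 j' l' = S 2 0 j' l' := fun j' l' => by
    have := h3 3 j' l'
    simp [al, bt, Fin.sum_univ_three] at this
    linarith
  have k4 : ∀ j' l', S 0 0 j' l' + S 0 1 j' l' + S 0 2 j' l' + (S 1 0 j' l' + S 1 1 j' l' + S 1 2 j' l') +
      (S 2 0 j' l' + S 2 1 j' l' + S 2 2 j' l') = 0 := fun j' l' => by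
    have := h3 4 j' l'
    simpa [al, bt, Fin.sum_univ_three] using this
  let r1 : Fin 5 → Fin 3 := ![0, 0, 2, 2, 1]
  let r2 : Fin 5 → Fin 3 := ![0, 2, 2, 0, 1]
  have e1 : ∀ j l j' l', S j l j' l' = S (r1 (tile j l)) (r2 (tile j l)) j' l' := fun j l j' l' => by
    fin_cases j <;> fin_cases l
    exacts [rfl, (k0 _ _).symm, rfl, k3 _ _, rfl, (k1 _ _).symm, rfl, k2 _ _, rfl]
  obtain ⟨T, hT⟩ : ∃ T : Fin 5 → Fin 5 → ℝ, ∀ j l j' l', S j l j' l' = T (tile j l) (tile j' l') :=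
    ⟨fun p q => S (r1 p) (r2 p) (r1 q) (r2 q), fun j l j' l' => by
      rw [e1, h1, e1, h1]⟩
  simp only [hT] at h1 h2 k4
  have a1 : T 0 4 = T 0 3 := h2 0 0 1 1
  have a2 : T 0 1 = T 1 3 := h2 0 0 1 2
  have a3 : T 0 1 = T 1 4 := h2 0 1 1 2
  have a4 : T 0 2 = T 0 3 := h2 0 0 2 1
  have a5 : T 0 2 = T 1 3 := h2 0 0 2 2
  have a6 : T 0 2 = T 1 2 := h2 0 1 2 2
  have a7 : T 3 2 = T 4 3 := h2 1 0 2 1
  have a8 : T 3 2 = T 1 3 := h2 1 0 2 2
  have a9 : T 4 2 = T 1 2 := h2 1 1 2 2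
  have b1 : T 0 1 = T 1 0 := h1 0 0 0 2
  have b2 : T 0 2 = T 2 0 := h1 0 0 2 2
  have b3 : T 0 3 = T 3 0 := h1 0 0 2 0
  have b4 : T 0 4 = T 4 0 := h1 0 0 1 1
  have b5 : T 1 2 = T 2 1 := h1 0 2 2 2
  have b6 : T 1 3 = T 3 1 := h1 0 2 2 0
  have b7 : T 1 4 = T 4 1 := h1 0 2 1 1
  have b8 : T 2 3 = T 3 2 := h1 2 2 2 0
  have b9 : T 2 4 = T 4 2 := h1 2 2 1 1
  have b10 : T 3 4 = T 4 3 := h1 2 0 1 1
  have c0 : T 0 0 + T 0 0 + T 1 0 + (T 3 0 + T 4 0 + T 1 0) + (T 3 0 + T 2 0 + T 2 0) = 0 := k4 0 0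
  have c1 : T 0 1 + T 0 1 + T 1 1 + (T 3 1 + T 4 1 + T 1 1) + (T 3 1 + T 2 1 + T 2 1) = 0 := k4 0 2
  have c2 : T 0 2 + T 0 2 + T 1 2 + (T 3 2 + T 4 2 + T 1 2) + (T 3 2 + T 2 2 + T 2 2) = 0 := k4 2 2
  have c3 : T 0 3 + T 0 3 + T 1 3 + (T 3 3 + T 4 3 + T 1 3) + (T 3 3 + T 2 3 + T 2 3) = 0 := k4 2 0
  have c4 : T 0 4 + T 0 4 + T 1 4 + (T 3 4 + T 4 4 + T 1 4) + (T 3 4 + T 2 4 + T 2 4) = 0 := k4 1 1
  refine ⟨-T 0 1 / 2, fun j l j' l' => ?_⟩
  rw [hT, rho]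
  generalize tile j l = p
  generalize tile j' l' = q
  fin_cases p <;> fin_cases q <;> simp <;> linarith

theorem bcorea_kill {E : Matrix I3 I3 ℝ} (hE : E.PosSemidef)
    (h0 : ∑ i, ∑ j, ∑ p, ∑ j', ∑ q, Gm 0 j p j' q * E (i, j, p) (i, j', q) ≤ 0) (i : Fin 3) (k : Fin 5) (β : I3) :
    ∑ j, ∑ l, al k j * bt k l * E (i, j, l) β = 0 := by
  let v : Fin 3 → Fin 5 → I3 → ℝ := fun i k x => if x.1 = i then al k x.2.1 * bt k x.2.2 else 0
  have hv : ∀ i k (f : I3 → ℝ), v i k ⬝ᵥ f = ∑ j, ∑ l, al k j * bt k l * f (i, j, l) := fun i k f => by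
    rw [dotProduct, Fintype.sum_prod_type, Finset.sum_eq_single i (fun b _ hb => by simp [v, hb]) (by simp),
      Fintype.sum_prod_type]
    simp [v]
  have hs : ∀ a b, E a b = E b a := fun a b => by simpa using hE.1.apply b a
  have hm : ∀ i k β, (E *ᵥ v i k) β = ∑ j, ∑ l, al k j * bt k l * E (i, j, l) β := fun i k β => by
    rw [mulVec, dotProduct_comm, hv]
    simp only [hs β]
  have h1 : ∑ i, ∑ j, ∑ p, ∑ j', ∑ q, Gm 0 j p j' q * E (i, j, p) (i, j', q) =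
      ∑ x : Fin 3 × Fin 5, star (v x.1 x.2) ⬝ᵥ E *ᵥ v x.1 x.2 := by
    rw [Fintype.sum_prod_type]
    refine Finset.sum_congr rfl fun i _ => ?_
    simp only [star_trivial, hv, hm, Gm, ite_self, sub_zero, Finset.sum_mul, Finset.mul_sum]
    symm
    rw [Finset.sum_comm]
    refine Finset.sum_congr rfl fun j _ => ?_
    rw [Finset.sum_comm]
    refine Finset.sum_congr rfl fun p _ => ?_
    rw [Finset.sum_comm]
    refine Finset.sum_congr rfl fun j' _ => ?_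
    rw [Finset.sum_comm]
    refine Finset.sum_congr rfl fun q _ => Finset.sum_congr rfl fun k _ => ?_
    rw [hs (i, j', q)]
    ring
  rw [h1] at h0
  have h2 := (Finset.sum_eq_zero_iff_of_nonneg fun x _ => hE.dotProduct_mulVec_nonneg (v x.1 x.2)).1
    (le_antisymm h0 (Finset.sum_nonneg fun x _ => hE.dotProduct_mulVec_nonneg _)) (i, k) (Finset.mem_univ _)
  rw [← hm, (hE.dotProduct_mulVec_zero_iff _).1 h2]
  rfl

theorem bcorea_X {η m : V3} {E : Matrix I3 I3 ℝ} {γ : ℝ} (hη : η ⬝ᵥ η = 1) (hm : η ⬝ᵥ m = 0)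
    (hE : ∀ i j l i' j' l', E (i, j, l) (i', j', l') = γ * η i * η i' * rho j l j' l') (l l' : Fin 3) :
    Xm E η m l l' = γ * ∑ j, ∑ j', m j * m j' * rho j l j' l' := by
  have : Xm E η m l l' = γ * (η ⬝ᵥ η) * ((η ⬝ᵥ η) * (∑ j, ∑ j', m j * m j' * rho j l j' l') -
      (η ⬝ᵥ m) * ∑ j, ∑ j', m j * η j' * rho j l j' l') := by
    simp only [Xm, hE, dotProduct, Fin.sum_univ_three]
    ring
  rw [this, hη, hm]
  ring

theorem bcorea_X2 {η m : V3} {E : Matrix I3 I3 ℝ} {γ : ℝ} (hη : η ⬝ᵥ η = 1) (hm : η ⬝ᵥ m = 0)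
    (hE : ∀ i j l i' j' l', E (i, j, l) (i', j', l') = γ * η i * η i' * rho j l j' l') :
    Xm E η m 0 1 - Xm E η m 0 2 = 9 * γ * m 0 ^ 2 ∧ Xm E η m 1 2 - Xm E η m 0 2 = 9 * γ * m 2 ^ 2 ∧
      Xm E η m 1 1 - Xm E η m 0 1 - Xm E η m 1 2 + Xm E η m 0 2 = 18 * γ * m 1 ^ 2 := by
  simp only [bcorea_X hη hm hE, Fin.sum_univ_three]
  simp [rho, tile]
  refine ⟨by ring, by ring, by ring⟩

/-- If the `Gm 0` pairing vanishes, `E` kills the vectors `eᵢ ⊗ αₖ ⊗ βₖ` (sum of nonnegative terms,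
`PosSemidef.dotProduct_mulVec_zero_iff`), so `E (i,j,l) (i',j',l') = μ i i' * rho j l j' l'` (`eq_rho`, `s1`, `s2`), `μ` symmetric.
`ker` with `l = 1` and `β = (i',0,2), (i',0,1), (i',1,1), (i',2,1)` gives `η ⨯ μ · i' = 0`, hence `μ i i' = γ η i η i'` with
`γ = ηᵀ μ η`, and `Xm E η m l l' = γ ∑ m j m j' rho j l j' l'` for `m = η ⨯ eₖ`.  The entries of `ρ(m) = ∑ m m rho` are
`ρ02 = -2 s²` (`s = ∑ m`), `ρ01 - ρ02 = 9 m₀²`, `ρ12 - ρ02 = 9 m₂²`, `ρ11 - ρ01 - ρ12 + ρ02 = 18 m₁²`; `prop` gives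
`γ² η₀⁴ = γ² η₁⁴ = γ² η₂⁴ = 0`, so `γ = 0`. -/
theorem Adm.eq_zero {η : V3} {E : Matrix I3 I3 ℝ} (h : Adm η E)
    (h0 : ∑ i, ∑ j, ∑ p, ∑ j', ∑ q, Gm 0 j p j' q * E (i, j, p) (i, j', q) ≤ 0) : E = 0 := by
  have hs : ∀ a b, E a b = E b a := fun a b => by simpa using h.psd.1.apply b a
  have h1 : ∀ i i', ∃ μ : ℝ, ∀ j l j' l', E (i, j, l) (i', j', l') = μ * rho j l j' l' := fun i i' =>
    eq_rho (fun j l j' l' => by rw [h.s1, hs]) (fun j l j' l' => h.s2 _ _ _ _ _ _)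
      fun k j' l' => bcorea_kill h.psd h0 i k _
  choose μ hμ using h1
  have hsym : ∀ i i', μ i i' = μ i' i := fun i i' => by
    have := h.s1 i 0 0 i' 0 2
    rw [hμ, hμ] at this
    simpa [rho, tile] using this
  have hu : η 0 * η 0 + η 1 * η 1 + η 2 * η 2 = 1 := by simpa [dotProduct, Fin.sum_univ_three] using h.unit
  have h2 : ∀ i i', μ i i' = (η 0 * μ 0 i' + η 1 * μ 1 i' + η 2 * μ 2 i') * η i := fun i i' => by
    have a1 := h.ker 1 (i', 0, 2)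
    have a2 := h.ker 1 (i', 0, 1)
    have a3 := h.ker 1 (i', 1, 1)
    have a4 := h.ker 1 (i', 2, 1)
    simp only [hμ] at a1 a2 a3 a4
    simp [rho, tile] at a1 a2 a3 a4
    have A : η 1 * μ 2 i' - η 2 * μ 1 i' = 0 := by linear_combination (a2 - a1) / 9
    have B : η 2 * μ 0 i' - η 0 * μ 2 i' = 0 := by linear_combination (a3 - a1) / 18
    have C : η 0 * μ 1 i' - η 1 * μ 0 i' = 0 := by linear_combination (a4 - a1) / 9
    fin_cases i
    · show μ 0 i' = _ * η 0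
      linear_combination (-μ 0 i') * hu - η 1 * C + η 2 * B
    · show μ 1 i' = _ * η 1
      linear_combination (-μ 1 i') * hu + η 0 * C - η 2 * A
    · show μ 2 i' = _ * η 2
      linear_combination (-μ 2 i') * hu - η 0 * B + η 1 * A
  obtain ⟨γ, hγ⟩ : ∃ γ : ℝ, ∀ i i', μ i i' = γ * η i * η i' := by
    refine ⟨∑ i, η i * (η 0 * μ 0 i + η 1 * μ 1 i + η 2 * μ 2 i), fun i i' => ?_⟩
    have a0 := (hsym 0 i').trans (h2 i' 0)
    have a1 := (hsym 1 i').trans (h2 i' 1)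
    have a2 := (hsym 2 i').trans (h2 i' 2)
    rw [Fin.sum_univ_three]
    linear_combination h2 i i' + η i * (η 0 * a0 + η 1 * a1 + η 2 * a2)
  have hE : ∀ i j l i' j' l', E (i, j, l) (i', j', l') = γ * η i * η i' * rho j l j' l' := fun i j l i' j' l' => by
    rw [hμ, hγ]
  have hX := fun k : Fin 3 => bcorea_X2 (m := η ⨯₃ Pi.single k 1) h.unit (dot_self_cross _ _) hE
  obtain ⟨x0, x2, x1⟩ := hX 0
  obtain ⟨y0, y2, y1⟩ := hX 1
  obtain ⟨z0, z2, z1⟩ := hX 2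
  have p01 := h.prop 0 1
  have p02 := h.prop 0 2
  have p12 := h.prop 1 2
  generalize Xm E η (η ⨯₃ Pi.single 0 1) = X at *
  generalize Xm E η (η ⨯₃ Pi.single 1 1) = Y at *
  generalize Xm E η (η ⨯₃ Pi.single 2 1) = Z at *
  simp [crossProduct] at x0 x1 x2 y0 y1 y2 z0 z1 z2
  have c2 : (X 0 1 - X 0 2) * (Y 1 1 - Y 0 1 - Y 1 2 + Y 0 2) = (X 1 1 - X 0 1 - X 1 2 + X 0 2) * (Y 0 1 - Y 0 2) := by
    linear_combination p01 0 1 1 1 - p01 0 1 1 2 + p01 0 1 0 2 - p01 0 2 1 1 + p01 0 2 0 1 + p01 0 2 1 2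
  have c1 : (X 0 1 - X 0 2) * (Z 1 2 - Z 0 2) = (X 1 2 - X 0 2) * (Z 0 1 - Z 0 2) := by
    linear_combination p02 0 1 1 2 - p02 0 1 0 2 - p02 0 2 1 2
  have c0 : (Y 1 2 - Y 0 2) * (Z 1 1 - Z 0 1 - Z 1 2 + Z 0 2) = (Y 1 1 - Y 0 1 - Y 1 2 + Y 0 2) * (Z 1 2 - Z 0 2) := by
    linear_combination p12 1 2 1 1 - p12 1 2 0 1 + p12 1 2 0 2 - p12 0 2 1 1 + p12 0 2 0 1 + p12 0 2 1 2
  rw [x0, x1, y0] at c2
  rw [x0, x2, z0] at c1
  rw [y2, z1, z2] at c0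
  have d0 : γ * η 0 ^ 2 = 0 := pow_eq_zero_iff two_ne_zero |>.1 (by linear_combination c0 / 162)
  have d1 : γ * η 1 ^ 2 = 0 := pow_eq_zero_iff two_ne_zero |>.1 (by linear_combination -c1 / 81)
  have d2 : γ * η 2 ^ 2 = 0 := pow_eq_zero_iff two_ne_zero |>.1 (by linear_combination -c2 / 162)
  have hγ0 : γ = 0 := by linear_combination d0 + d1 + d2 - γ * hu
  ext ⟨i, j, l⟩ ⟨i', j', l'⟩
  rw [hE, hγ0]
  simp

end Crest.Agent.R237.B

end
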