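import Mathlib
import Crest.Prelude.Def_Hyperbolic

/-!
# R237 / BDefs (owner helper35, DO NOT CHANGE): definitions for S0368

Variables `(X, Z, y) ∈ Sym⁴ × Sym⁴ × ℝ³`.  `cf δ y w = ∑ₖ (αₖ·y)² (βₖ·w)² - δ |y|² |w|²` (`αₖ ⊗ βₖ` = the "tiles" unextendible
product basis) is a positive biquadratic form, `gᵀ Phi y (v vᵀ) g = cf δ y (be g v)`.  The cone is the closure of
`{Z ≻ 0, X ⪰ Phi y Z⁻¹}`, the polynomial is `qq = det Z ^ 3 * det (X - Phi y Z⁻¹)`.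
-/

set_option autoImplicit false

open Matrix

noncomputable section

namespace Crest.Agent.R237.B

abbrev M4 (R : Type) : Type := Matrix (Fin 4) (Fin 4) R
abbrev V3 : Type := Fin 3 → ℝ
abbrev V4 : Type := Fin 4 → ℝ
abbrev I3 : Type := Fin 3 × Fin 3 × Fin 3

def al : Fin 5 → V3 := ![![1, 0, 0], ![1, -1, 0], ![0, 0, 1], ![0, 1, -1], ![1, 1, 1]]
def bt : Fin 5 → V3 := ![![1, -1, 0], ![0, 0, 1], ![0, 1, -1], ![1, 0, 0], ![1, 1, 1]]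

/-- Gram matrix of `cf` -/
def Gm (δ : ℝ) (j p j' q : Fin 3) : ℝ :=
  ∑ k, al k j * bt k p * (al k j' * bt k q) - if j = j' ∧ p = q then δ else 0

/-- the biquadratic form -/
def cf (δ : ℝ) (y w : V3) : ℝ := ∑ k, (al k ⬝ᵥ y) ^ 2 * (bt k ⬝ᵥ w) ^ 2 - δ * (y ⬝ᵥ y) * (w ⬝ᵥ w)

/-- the antisymmetric bilinear map `ℝ⁴ × ℝ⁴ → ℝ³` -/
def be (g v : V4) : V3 := fun p => g p.succ * v 0 - g 0 * v p.succ

/-- the matrix of `be g` -/
def Bm (g : V4) : Matrix (Fin 3) (Fin 4) ℝ := Matrix.of fun p a => be g (Pi.single a 1) p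

section ring

variable {R : Type} [CommRing R] [Algebra ℝ R]

/-- `gᵀ (Em p) v = be g v p` -/
def Em (R : Type) [CommRing R] (p : Fin 3) : M4 R := Matrix.single p.succ 0 1 - Matrix.single 0 p.succ 1

def Th (δ : ℝ) (Γ : Fin 3 → Fin 3 → M4 R) : M4 R :=
  ∑ j, ∑ p, ∑ j', ∑ q, Gm δ j p j' q • (Em R p * Γ j j' * (Em R q)ᵀ)

def Phi (δ : ℝ) (y : Fin 3 → R) (W : M4 R) : M4 R := Th δ fun j j' => (y j * y j') • W

/-- the Hodge star of an antisymmetric matrix -/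
def star4 (S : M4 R) : M4 R :=
  !![0, S 2 3, -S 1 3, S 1 2; -S 2 3, 0, S 0 3, -S 0 2; S 1 3, -S 0 3, 0, S 0 1; -S 1 2, S 0 2, -S 0 1, 0]

/-- `Z * Fm Z q * Z = det Z • (Em q)ᵀ` for symmetric `Z` -/
def Fm (Z : M4 R) (q : Fin 3) : M4 R := star4 (Z * star4 (Em R q)ᵀ * Z)

/-- `Phi y Z⁻¹ * adjugate Z` as a polynomial -/
def Rm (δ : ℝ) (y : Fin 3 → R) (Z : M4 R) : M4 R :=
  ∑ j, ∑ p, ∑ j', ∑ q, Gm δ j p j' q • ((y j * y j') • (Em R p * Fm Z q))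

abbrev Idx : Type := Sym2 (Fin 4) ⊕ Sym2 (Fin 4) ⊕ Fin 3

def eI : Idx ≃ Fin 23 := Fintype.equivFinOfCardEq (by simp [Sym2.card, Nat.choose])

def cX (x : Fin 23 → R) : M4 R := Matrix.of fun a b => x (eI (.inl s(a, b)))
def cZ (x : Fin 23 → R) : M4 R := Matrix.of fun a b => x (eI (.inr (.inl s(a, b))))
def cy (x : Fin 23 → R) : Fin 3 → R := fun j => x (eI (.inr (.inr j)))

/-- the value of the polynomial of degree 16 -/
def qv (δ : ℝ) (x : Fin 23 → R) : R := (cX x * (cZ x).adjugate - Rm δ (cy x) (cZ x)).det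

end ring

/-- the symmetric part as a function on unordered pairs -/
def sy (X : M4 ℝ) : Sym2 (Fin 4) → ℝ := Sym2.lift ⟨fun a b => (X a b + X b a) / 2, fun a b => by ring⟩

/-- the point with coordinates `X`, `Z`, `y` -/
def pt (X Z : M4 ℝ) (y : V3) : Fin 23 → ℝ := fun ν => Sum.elim (sy X) (Sum.elim (sy Z) y) (eI.symm ν)

/-- the direction of hyperbolicity -/
def ee : Fin 23 → ℝ := pt 1 1 0

def qq (δ : ℝ) : MvPolynomial (Fin 23) ℝ := qv δ MvPolynomial.X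
def dd : MvPolynomial (Fin 23) ℝ := (cZ MvPolynomial.X).det

def K0 (δ : ℝ) : Set (Fin 23 → ℝ) := {x | (cZ x).PosDef ∧ (cX x - Phi δ (cy x) (cZ x)⁻¹).PosSemidef}

/-- the cone -/
def KK (δ : ℝ) : Set (Fin 23 → ℝ) := {x | ∀ s : ℝ, 0 < s → x + s • ee ∈ K0 δ}

/-- positivity of the form -/
def Pos (δ : ℝ) : Prop := 0 < δ ∧ ∀ y w, δ * (y ⬝ᵥ y) * (w ⬝ᵥ w) ≤ cf δ y w

/-- `-E[(m,m,l),(η,η,l')] + E[(η,m,l),(η,m,l')]` -/
def Xm (E : Matrix I3 I3 ℝ) (η m : V3) (l l' : Fin 3) : ℝ :=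
  ∑ i, ∑ j, ∑ i', ∑ j', (η i * m j * η i' * m j' - m i * m j * η i' * η j') * E (i, j, l) (i', j', l')

/-- admissible moment matrices -/
structure Adm (η : V3) (E : Matrix I3 I3 ℝ) : Prop where
  unit : η ⬝ᵥ η = 1
  psd : E.PosSemidef
  s1 : ∀ i j l i' j' l', E (i, j, l) (i', j', l') = E (i', j, l) (i, j', l')
  s2 : ∀ i j l i' j' l', E (i, j, l) (i', j', l') = E (i, j, l') (i', j', l)
  ker : ∀ l β, η 0 * (E (1, 2, l) β - E (2, 1, l) β) + η 1 * (E (2, 0, l) β - E (0, 2, l) β) +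
    η 2 * (E (0, 1, l) β - E (1, 0, l) β) = 0
  prop : ∀ k k' a b c d, Xm E η (η ⨯₃ Pi.single k 1) a b * Xm E η (η ⨯₃ Pi.single k' 1) c d =
    Xm E η (η ⨯₃ Pi.single k 1) c d * Xm E η (η ⨯₃ Pi.single k' 1) a b

def Core (δ : ℝ) : Prop := ∀ η E, Adm η E → 0 ≤ ∑ i, ∑ j, ∑ p, ∑ j', ∑ q, Gm δ j p j' q * E (i, j, p) (i, j', q)

/-- `|u|² I - u uᵀ` -/
def Mt (u : V4) : M4 ℝ := (u ⬝ᵥ u) • (1 : M4 ℝ) - vecMulVec u u

end Crest.Agent.R237.B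

end
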