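import Crest.Agent.R237.BDefs

/-!
# R237 / BFeas (owner helper35, DO NOT CHANGE): feasible points of the lift
-/

set_option autoImplicit false

open Matrix

noncomputable section

namespace Crest.Agent.R237.B

/-- the moment matrix of `(n ⊗ n ⊗ a, n ⊗ b)` -/
def Mom (G : Fin 3 → Fin 3 → Fin 3 → Fin 3 → M4 ℝ) (Y : Fin 3 → Fin 3 → Fin 3 → ℝ) (H : Fin 3 → Fin 3 → M4 ℝ) :
    Matrix ((Fin 3 × Fin 3 × Fin 4) ⊕ (Fin 3 × Fin 4)) ((Fin 3 × Fin 3 × Fin 4) ⊕ (Fin 3 × Fin 4)) ℝ :=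
  Matrix.fromBlocks (Matrix.of fun α β => G α.1 α.2.1 β.1 β.2.1 α.2.2 β.2.2)
    (Matrix.of fun α β => if α.2.2 = β.2 then Y α.1 α.2.1 β.1 else 0)
    (Matrix.of fun β α => if α.2.2 = β.2 then Y α.1 α.2.1 β.1 else 0) (Matrix.of fun α β => H α.1 β.1 α.2 β.2)

/-- a feasible point of the lift -/
structure Feas (δ : ℝ) (X Z : M4 ℝ) (y : V3) (G : Fin 3 → Fin 3 → Fin 3 → Fin 3 → M4 ℝ) (Y : Fin 3 → Fin 3 → Fin 3 → ℝ)
    (H : Fin 3 → Fin 3 → M4 ℝ) : Prop where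
  G1 : ∀ i j k l, G i j k l = G j i k l
  G2 : ∀ i j k l, G i j k l = G k j i l
  G3 : ∀ i j k l, G i j k l = G k l i j
  G4 : ∀ i j k l, (G i j k l).IsSymm
  Y1 : ∀ i j k, Y i j k = Y j i k
  Y2 : ∀ i j k, Y i j k = Y k j i
  H1 : ∀ i k, H i k = H k i
  H2 : ∀ i k, (H i k).IsSymm
  trY : ∀ j, ∑ i, Y i j i = y j
  trH : ∑ i, H i i = Z
  psd : (Mom G Y H).PosSemidef
  top : (X - Th δ fun j j' => ∑ i, G i j i j').PosSemidef

end Crest.Agent.R237.B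

end
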