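import Crest.Agent.R237.BAlg
import Crest.Agent.R237.BFeas

/-!
# R237 / BMap: the linear map of the lift (prefix `bmap_`)
-/

set_option autoImplicit false

open Matrix

noncomputable section

namespace Crest.Agent.R237.B

theorem bmap_bd {m n : Type} [Fintype m] [Fintype n] (A : Matrix m m ℝ) (B : Matrix n n ℝ) :
    (fromBlocks A 0 0 B).PosSemidef ↔ A.PosSemidef ∧ B.PosSemidef := by
  constructor
  · intro h
    exact ⟨h.submatrix Sum.inl, h.submatrix Sum.inr⟩
  · rintro ⟨hA, hB⟩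
    refine .of_dotProduct_mulVec_nonneg (hA.1.fromBlocks (by simp) hB.1) fun x => ?_
    have h1 := hA.dotProduct_mulVec_nonneg (x ∘ Sum.inl)
    have h2 := hB.dotProduct_mulVec_nonneg (x ∘ Sum.inr)
    rw [star_trivial] at h1 h2 ⊢
    rw [fromBlocks_mulVec, zero_mulVec, zero_mulVec, add_zero, zero_add]
    nth_rewrite 1 [← Sum.elim_comp_inl_inr x]
    rw [sumElim_dotProduct_sumElim]
    linarith

theorem bmap_zero {n : Type} [Fintype n] (A : Matrix n n ℝ) : A.PosSemidef ∧ (-A).PosSemidef ↔ A = 0 := by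
  constructor
  · rintro ⟨h1, h2⟩
    have h3 := h2.trace_nonneg
    rw [trace_neg] at h3
    exact h1.trace_eq_zero_iff.1 (le_antisymm (by linarith) h1.trace_nonneg)
  · rintro rfl
    rw [neg_zero]
    exact ⟨.zero, .zero⟩

theorem bmap_lin {V m n : Type} [AddCommGroup V] [Module ℝ V] {f : V → Matrix m m ℝ} {g : V → Matrix n n ℝ}
    (hf : IsLinearMap ℝ f) (hg : IsLinearMap ℝ g) : IsLinearMap ℝ fun p => fromBlocks (f p) 0 0 (g p) :=
  ⟨fun p q => by rw [fromBlocks_add, hf.1, hg.1, add_zero, add_zero],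
    fun c p => by rw [fromBlocks_smul, hf.2, hg.2, smul_zero, smul_zero]⟩

theorem bmap_ce {α : Type} {f : Fin 3 → Fin 3 → α} (h : ∀ a b, f a b = f b a) (a b : Fin 3) :
    f a b = f (min a b) (max a b) := by
  rcases le_total a b with h1 | h1
  · rw [min_eq_left h1, max_eq_right h1]
  · rw [min_eq_right h1, max_eq_left h1, h]

/-- sorted quadruples -/
abbrev bmapT : Type := {p : Fin 3 × Fin 3 × Fin 3 × Fin 3 // p.1 ≤ p.2.1 ∧ p.2.1 ≤ p.2.2.1 ∧ p.2.2.1 ≤ p.2.2.2}

/-- sorting network for four entries -/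
def bmap_s4 (i j k l : Fin 3) : bmapT :=
  ⟨(min (min i j) (min k l), min (min (max i j) (max k l)) (max (min i j) (min k l)),
    max (min (max i j) (max k l)) (max (min i j) (min k l)), max (max i j) (max k l)), by revert i j k l; decide⟩

/-- sorting network for three entries -/
def bmap_s3 (i j k : Fin 3) : Fin 3 × Fin 3 × Fin 3 :=
  (min (min i j) (min (max i j) k), max (min i j) (min (max i j) k), max (max i j) k)

theorem bmap_s4_symm : ∀ i j k l : Fin 3, bmap_s4 i j k l = bmap_s4 j i k l ∧ bmap_s4 i j k l = bmap_s4 k j i l ∧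
    bmap_s4 i j k l = bmap_s4 k l i j := by decide

theorem bmap_s3_symm : ∀ i j k : Fin 3, bmap_s3 i j k = bmap_s3 j i k ∧ bmap_s3 i j k = bmap_s3 k j i := by decide

theorem bmap_f4 {α : Type} {f : Fin 3 → Fin 3 → Fin 3 → Fin 3 → α} (h1 : ∀ i j k l, f i j k l = f j i k l)
    (h2 : ∀ i j k l, f i j k l = f k j i l) (h3 : ∀ i j k l, f i j k l = f k l i j) (i j k l : Fin 3) :
    f (bmap_s4 i j k l).1.1 (bmap_s4 i j k l).1.2.1 (bmap_s4 i j k l).1.2.2.1 (bmap_s4 i j k l).1.2.2.2 = f i j k l := by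
  have h34 : ∀ i j k l, f i j k l = f i j l k := fun i j k l => by rw [h3, h1, h3]
  have h24 : ∀ i j k l, f i j k l = f i l k j := fun i j k l => by rw [h3, h2]
  have h23 : ∀ i j k l, f i j k l = f i k j l := fun i j k l => by rw [h1, h2, h1]
  rw [bmap_ce (f := fun a b => f a b k l) (fun a b => h1 a b k l) i j,
    bmap_ce (f := fun a b => f (min i j) (max i j) a b) (fun a b => h34 _ _ a b) k l,
    bmap_ce (f := fun a b => f a (max i j) b (max k l)) (fun a b => h2 a _ b _) (min i j) (min k l),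
    bmap_ce (f := fun a b => f (min (min i j) (min k l)) a (max (min i j) (min k l)) b) (fun a b => h24 _ a _ b)
      (max i j) (max k l),
    bmap_ce (f := fun a b => f (min (min i j) (min k l)) a b (max (max i j) (max k l))) (fun a b => h23 _ a b _)
      (min (max i j) (max k l)) (max (min i j) (min k l))]
  rfl

theorem bmap_f3 {α : Type} {f : Fin 3 → Fin 3 → Fin 3 → α} (h1 : ∀ i j k, f i j k = f j i k)
    (h2 : ∀ i j k, f i j k = f k j i) (i j k : Fin 3) :
    f (bmap_s3 i j k).1 (bmap_s3 i j k).2.1 (bmap_s3 i j k).2.2 = f i j k := by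
  have h23 : ∀ i j k, f i j k = f i k j := fun i j k => by rw [h1, h2, h1]
  rw [bmap_ce (f := fun a b => f a b k) (fun a b => h1 a b k) i j,
    bmap_ce (f := fun a b => f (min i j) a b) (fun a b => h23 _ a b) (max i j) k,
    bmap_ce (f := fun a b => f a b (max (max i j) k)) (fun a b => h1 a b _) (min i j) (min (max i j) k)]
  rfl

/-- the auxiliary variables -/
abbrev bmapK : Type := (bmapT × Sym2 (Fin 4)) ⊕ (Fin 3 × Fin 3 × Fin 3) ⊕ (Fin 3 × Fin 3 × Sym2 (Fin 4))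

def bmap_G (v : bmapK → ℝ) (i j k l : Fin 3) : M4 ℝ := Matrix.of fun a b => v (.inl (bmap_s4 i j k l, s(a, b)))
def bmap_Y (v : bmapK → ℝ) (i j k : Fin 3) : ℝ := v (.inr (.inl (bmap_s3 i j k)))
def bmap_H (v : bmapK → ℝ) (i k : Fin 3) : M4 ℝ := Matrix.of fun a b => v (.inr (.inr (min i k, max i k, s(a, b))))

/-- the defect of the trace conditions -/
def bmap_E (p : (Fin 23 → ℝ) × (bmapK → ℝ)) : Matrix (Fin 4 ⊕ Fin 3) (Fin 4 ⊕ Fin 3) ℝ :=
  fromBlocks (cZ p.1 - ∑ i, bmap_H p.2 i i) 0 0 (diagonal fun j => cy p.1 j - ∑ i, bmap_Y p.2 i j i)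

theorem bmap_G4 (v : bmapK → ℝ) (i j k l : Fin 3) : (bmap_G v i j k l).IsSymm :=
  IsSymm.ext fun a b => by simp only [bmap_G, of_apply, Sym2.eq_swap (a := a)]

theorem bmap_G3 (v : bmapK → ℝ) (i j k l : Fin 3) : bmap_G v i j k l = bmap_G v k l i j := by
  rw [bmap_G, (bmap_s4_symm i j k l).2.2, bmap_G]

theorem bmap_H2 (v : bmapK → ℝ) (i k : Fin 3) : (bmap_H v i k).IsSymm :=
  IsSymm.ext fun a b => by simp only [bmap_H, of_apply, Sym2.eq_swap (a := a)]

theorem bmap_H1 (v : bmapK → ℝ) (i k : Fin 3) : bmap_H v i k = bmap_H v k i := by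
  rw [bmap_H, min_comm, max_comm, bmap_H]

theorem bmap_sy {X : M4 ℝ} (h : X.IsSymm) (a b : Fin 4) : sy X s(a, b) = X a b := by
  rw [sy, Sym2.lift_mk]
  show (X a b + X b a) / 2 = X a b
  rw [h.apply a b]
  ring

theorem bmap_lin1 : IsLinearMap ℝ fun p : (Fin 23 → ℝ) × (bmapK → ℝ) => Mom (bmap_G p.2) (bmap_Y p.2) (bmap_H p.2) := by
  constructor
  · intro p q
    ext (α | α) (β | β) <;> simp [Mom, bmap_G, bmap_Y, bmap_H] <;> split_ifs <;> simp
  · intro c p
    ext (α | α) (β | β) <;> simp [Mom, bmap_G, bmap_Y, bmap_H]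

theorem bmap_lin2 (δ : ℝ) : IsLinearMap ℝ fun p : (Fin 23 → ℝ) × (bmapK → ℝ) =>
    cX p.1 - Th δ fun j j' => ∑ i, bmap_G p.2 i j i j' := by
  constructor
  · intro p q
    have e : ∀ i j k l, bmap_G (p + q).2 i j k l = bmap_G p.2 i j k l + bmap_G q.2 i j k l := fun _ _ _ _ => rfl
    simp only [e, Prod.fst_add, cX_add, Th, Finset.sum_add_distrib, Matrix.mul_add, Matrix.add_mul, smul_add]
    abel
  · intro c p
    have e : ∀ i j k l, bmap_G (c • p).2 i j k l = c • bmap_G p.2 i j k l := fun _ _ _ _ => rfl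
    simp only [e, Prod.smul_fst, cX_smul, Th, ← Finset.smul_sum, Matrix.mul_smul, Matrix.smul_mul, smul_sub,
      smul_comm _ c]

theorem bmap_lin3 : IsLinearMap ℝ bmap_E := by
  refine bmap_lin ⟨fun p q => ?_, fun c p => ?_⟩ ⟨fun p q => ?_, fun c p => ?_⟩
  · have e : ∀ i j, bmap_H (p + q).2 i j = bmap_H p.2 i j + bmap_H q.2 i j := fun _ _ => rfl
    simp only [e, Prod.fst_add, cZ_add, Finset.sum_add_distrib]
    abel
  · have e : ∀ i j, bmap_H (c • p).2 i j = c • bmap_H p.2 i j := fun _ _ => rfl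
    simp only [e, Prod.smul_fst, cZ_smul, ← Finset.smul_sum, smul_sub]
  · have e : ∀ i j k, bmap_Y (p + q).2 i j k = bmap_Y p.2 i j k + bmap_Y q.2 i j k := fun _ _ _ => rfl
    rw [diagonal_add]
    congr 1
    funext j
    simp only [e, Prod.fst_add, cy_add, Finset.sum_add_distrib, Pi.add_apply]
    ring
  · have e : ∀ i j k, bmap_Y (c • p).2 i j k = c * bmap_Y p.2 i j k := fun _ _ _ => rfl
    rw [← diagonal_smul]
    congr 1
    funext j
    simp only [e, Prod.smul_fst, cy_smul, ← Finset.mul_sum, Pi.smul_apply, smul_eq_mul]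
    ring

theorem bmap_E_symm (p : (Fin 23 → ℝ) × (bmapK → ℝ)) : (bmap_E p).IsSymm := by
  refine IsSymm.fromBlocks ((cZ_symm _).sub ?_) (by simp) (isSymm_diagonal _)
  unfold IsSymm
  rw [transpose_sum]
  exact Finset.sum_congr rfl fun i _ => bmap_H2 _ i i

theorem bmap_E_zero (p : (Fin 23 → ℝ) × (bmapK → ℝ)) :
    bmap_E p = 0 ↔ (∀ j, ∑ i, bmap_Y p.2 i j i = cy p.1 j) ∧ ∑ i, bmap_H p.2 i i = cZ p.1 := by
  rw [bmap_E, ← fromBlocks_zero, fromBlocks_inj, ← diagonal_zero (n := Fin 3), diagonal_eq_diagonal_iff]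
  simp only [sub_eq_zero]
  exact ⟨fun h => ⟨fun j => (h.2.2.2 j).symm, h.1.symm⟩, fun h => ⟨h.2.symm, trivial, trivial, fun j => (h.1 j).symm⟩⟩

/-- Variables: `κ = (Sym (Fin 3) 4 × Sym2 (Fin 4)) ⊕ Sym (Fin 3) 3 ⊕ (Sym2 (Fin 3) × Sym2 (Fin 4))` (150 + 10 + 60), `G i j k l a b = v (inl
(⟨{i,j,k,l}, _⟩, s(a,b)))`, `Y i j k = Y' i j k + (if i = j ∧ j = k then y i - ∑ₘ Y' m i m else 0)`,
`H i k = H' i k + (if i = 0 ∧ k = 0 then Z - ∑ₘ H' m m else 0)`; matrix `fromBlocks (Mom G Y H) 0 0 (X - Th ..)` of size 52. -/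
theorem exists_map (δ : ℝ) : ∃ (ι κ : Type) (_ : Fintype ι) (_ : DecidableEq ι) (_ : Fintype κ)
    (M : ((Fin 23 → ℝ) × (κ → ℝ)) →ₗ[ℝ] Matrix ι ι ℝ), Fintype.card ι ≤ 100 ∧ Fintype.card κ ≤ 307 ∧ (∀ p, (M p).IsSymm) ∧
      ∀ x, (∃ v, (M (x, v)).PosSemidef) ↔ ∃ G Y H, Feas δ (cX x) (cZ x) (cy x) G Y H := by
  refine ⟨_, bmapK, inferInstance, inferInstance, inferInstance,
    (bmap_lin bmap_lin1 (bmap_lin (bmap_lin2 δ) (bmap_lin bmap_lin3 (g := fun p => -bmap_E p)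
      ⟨fun p q => by rw [bmap_lin3.1, neg_add], fun c p => by rw [bmap_lin3.2, smul_neg]⟩))).mk' _,
    by simp, ?_, fun p => ?_, fun x => ?_⟩
  · have h1 : Fintype.card bmapT = 15 := by decide
    have h2 : Fintype.card (Sym2 (Fin 4)) = 10 := by simp [Sym2.card, Nat.choose]
    simp only [Fintype.card_sum, Fintype.card_prod, h1, h2, Fintype.card_fin]
    norm_num
  · rw [IsLinearMap.mk'_apply]
    refine IsSymm.fromBlocks (IsSymm.fromBlocks (IsSymm.ext fun α β => ?_) rfl (IsSymm.ext fun α β => ?_)) (by simp)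
      (IsSymm.fromBlocks ((cX_symm _).sub (Th_symm δ fun j j' => ?_)) (by simp)
        (IsSymm.fromBlocks (bmap_E_symm p) (by simp) (bmap_E_symm p).neg))
    · simp only [of_apply]
      rw [bmap_G3, (bmap_G4 _ _ _ _ _).apply]
    · simp only [of_apply]
      rw [bmap_H1, (bmap_H2 _ _ _).apply]
    · rw [transpose_sum]
      exact Finset.sum_congr rfl fun i _ => (bmap_G4 _ _ _ _ _).trans (bmap_G3 _ _ _ _ _)
  · simp only [IsLinearMap.mk'_apply, bmap_bd, bmap_zero, bmap_E_zero]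
    constructor
    · rintro ⟨v, h1, h2, h3, h4⟩
      exact ⟨_, _, _, fun i j k l => by rw [bmap_G, (bmap_s4_symm i j k l).1, bmap_G],
        fun i j k l => by rw [bmap_G, (bmap_s4_symm i j k l).2.1, bmap_G], bmap_G3 v, bmap_G4 v,
        fun i j k => by rw [bmap_Y, (bmap_s3_symm i j k).1, bmap_Y],
        fun i j k => by rw [bmap_Y, (bmap_s3_symm i j k).2, bmap_Y], bmap_H1 v, bmap_H2 v, h3, h4, h1, h2⟩
    · rintro ⟨G, Y, H, h⟩
      obtain ⟨v, e1, e2, e3⟩ : ∃ v, bmap_G v = G ∧ bmap_Y v = Y ∧ bmap_H v = H := by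
        refine ⟨Sum.elim (fun q => sy (G q.1.1.1 q.1.1.2.1 q.1.1.2.2.1 q.1.1.2.2.2) q.2)
          (Sum.elim (fun q => Y q.1 q.2.1 q.2.2) fun q => sy (H q.1 q.2.1) q.2.2), ?_, ?_, ?_⟩
        · funext i j k l
          ext a b
          simp only [bmap_G, of_apply, Sum.elim_inl]
          rw [bmap_f4 h.G1 h.G2 h.G3, bmap_sy (h.G4 _ _ _ _)]
        · funext i j k
          exact bmap_f3 h.Y1 h.Y2 i j k
        · funext i k
          ext a b
          simp only [bmap_H, of_apply, Sum.elim_inr]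
          rw [← bmap_ce h.H1, bmap_sy (h.H2 _ _)]
      subst e1 e2 e3
      exact ⟨v, h.psd, h.top, h.trY, h.trH⟩

end Crest.Agent.R237.B

end
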