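import Crest.Agent.R237.BDefs

/-!
# R237 / BPad: padding of a semidefinite lift (prefix `bpad_`)
-/

set_option autoImplicit false

open Matrix

noncomputable section

namespace Crest.Agent.R237.B

/-- Embed `ι` in `Fin 100` by a 0/1 matrix `P` with `P * Pᵀ = 1` (`Pᵀ * M * P ⪰ 0 ↔ M ⪰ 0`), `κ` in `Fin 307`. -/
theorem pad {ι κ : Type} [Fintype ι] [DecidableEq ι] [Fintype κ] (hι : Fintype.card ι ≤ 100) (hκ : Fintype.card κ ≤ 307)
    (M : ((Fin 23 → ℝ) × (κ → ℝ)) →ₗ[ℝ] Matrix ι ι ℝ) (hM : ∀ p, (M p).IsSymm) :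
    ∃ (A : Fin 23 → Matrix (Fin 100) (Fin 100) ℝ) (B : Fin 307 → Matrix (Fin 100) (Fin 100) ℝ),
      (∀ ν, (A ν).IsSymm) ∧ (∀ j, (B j).IsSymm) ∧
        {x | ∃ v, (M (x, v)).PosSemidef} = {x | ∃ v : Fin 307 → ℝ, (∑ ν, x ν • A ν + ∑ j, v j • B j).PosSemidef} := by
  obtain ⟨f⟩ : Nonempty (ι ↪ Fin 100) := Function.Embedding.nonempty_of_card_le (by simpa using hι)
  obtain ⟨g⟩ : Nonempty (κ ↪ Fin 307) := Function.Embedding.nonempty_of_card_le (by simpa using hκ)
  let P : Matrix ι (Fin 100) ℝ := Matrix.of fun i a => if f i = a then 1 else 0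
  have hP : P * Pᵀ = 1 := by
    ext i j
    simp [P, Matrix.mul_apply, Matrix.one_apply, eq_comm]
  let N : ((Fin 23 → ℝ) × (Fin 307 → ℝ)) →ₗ[ℝ] Matrix (Fin 100) (Fin 100) ℝ :=
    { toFun := fun p => Pᵀ * M (p.1, p.2 ∘ g) * P
      map_add' := fun p q => by
        rw [← Matrix.add_mul, ← Matrix.mul_add, ← map_add]
        rfl
      map_smul' := fun c p => by
        rw [RingHom.id_apply, ← Matrix.smul_mul, ← Matrix.mul_smul, ← map_smul]
        rfl }
  have hN : ∀ x v, N (x, v) = Pᵀ * M (x, v ∘ g) * P := fun _ _ => rfl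
  have hs : ∀ p, (N p).IsSymm := fun p => by
    show (Pᵀ * M (p.1, p.2 ∘ g) * P)ᵀ = Pᵀ * M (p.1, p.2 ∘ g) * P
    rw [Matrix.transpose_mul, Matrix.transpose_mul, Matrix.transpose_transpose, (hM _).eq, Matrix.mul_assoc]
  have hsum : ∀ (x : Fin 23 → ℝ) (v : Fin 307 → ℝ),
      ∑ ν, x ν • N (Pi.single ν 1, 0) + ∑ j, v j • N (0, Pi.single j 1) = N (x, v) := by
    intro x v
    simp only [← map_smul, ← map_sum, ← map_add]
    congr 1
    ext k
    · simp [Prod.fst_sum, Finset.sum_apply, Pi.single_apply]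
    · simp [Prod.snd_sum, Finset.sum_apply, Pi.single_apply]
  have hiff : ∀ X : Matrix ι ι ℝ, (Pᵀ * X * P).PosSemidef ↔ X.PosSemidef := fun X => by
    constructor
    · intro h
      have h1 := h.mul_mul_conjTranspose_same P
      rw [Matrix.conjTranspose_eq_transpose_of_trivial, ← Matrix.mul_assoc, ← Matrix.mul_assoc, hP,
        Matrix.one_mul, Matrix.mul_assoc, hP, Matrix.mul_one] at h1
      exact h1
    · intro h
      have h1 := h.conjTranspose_mul_mul_same P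
      rwa [Matrix.conjTranspose_eq_transpose_of_trivial] at h1
  refine ⟨fun ν => N (Pi.single ν 1, 0), fun j => N (0, Pi.single j 1), fun _ => hs _, fun _ => hs _, ?_⟩
  ext x
  simp only [Set.mem_setOf_eq, hsum]
  simp only [hN, hiff]
  constructor
  · rintro ⟨w, hw⟩
    refine ⟨Function.extend g w 0, ?_⟩
    rwa [Function.extend_comp g.injective]
  · rintro ⟨v, hv⟩
    exact ⟨_, hv⟩

end Crest.Agent.R237.B

end
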