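import Crest.Agent.R237.BSound
import Crest.Agent.R237.BPad
import Crest.Agent.R237.BMap

/-!
# R237 / BLift: the lift (prefix `blift_`)
-/

set_option autoImplicit false

open Matrix

noncomputable section

namespace Crest.Agent.R237.B

theorem lift {δ : ℝ} (hδ : Pos δ) (hc : Core δ) :
    ∃ (A : Fin 23 → Matrix (Fin 100) (Fin 100) ℝ) (B : Fin 307 → Matrix (Fin 100) (Fin 100) ℝ),
      (∀ ν, (A ν).IsSymm) ∧ (∀ j, (B j).IsSymm) ∧
        KK δ = {x | ∃ v : Fin 307 → ℝ, (∑ ν, x ν • A ν + ∑ j, v j • B j).PosSemidef} := by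
  obtain ⟨ι, κ, _, _, _, M, h1, h2, h3, h4⟩ := exists_map δ
  obtain ⟨A, B, a1, a2, a3⟩ := pad h1 h2 M h3
  refine ⟨A, B, a1, a2, Eq.trans (Set.ext fun x => ?_) a3⟩
  exact ⟨fun h => (h4 x).2 (exists_feas hδ h), fun h => let ⟨_, _, _, h'⟩ := (h4 x).1 h; h'.sound hc⟩

end Crest.Agent.R237.B

end
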