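import Crest.Agent.R237.BNonB

/-!
# R237 / BNon: the cone is not a spectrahedron (helper35)
-/

set_option autoImplicit false

open Matrix Filter Topology

noncomputable section

namespace Crest.Agent.R237.B

variable {n : Type} [Fintype n] {δ : ℝ} {A B : M4 ℝ →ₗ[ℝ] Matrix n n ℝ} {C : V3 →ₗ[ℝ] Matrix n n ℝ}

def hh (w : V3) : V4 := Fin.cons 0 w

def Dm (u h : V4) : M4 ℝ := (2 * (u ⬝ᵥ h)) • (1 : M4 ℝ) - vecMulVec u h - vecMulVec h u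

theorem hh_add (w w' : V3) : hh (w + w') = hh w + hh w' := by
  funext a
  refine Fin.cases ?_ (fun p => ?_) a <;> simp [hh]

theorem Dm_add (u h h' : V4) : Dm u (h + h') = Dm u h + Dm u h' := by
  ext a b
  simp only [Dm, dotProduct_add, Matrix.sub_apply, Matrix.add_apply, Matrix.smul_apply, vecMulVec_apply, Pi.add_apply, smul_eq_mul]
  ring

theorem Mt_add (u h : V4) (s : ℝ) : Mt (u + s • h) = Mt u + s • (Dm u h + s • Mt h) := by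
  ext a b
  simp only [Mt, Dm, dotProduct_add, add_dotProduct, dotProduct_smul, smul_dotProduct, dotProduct_comm h u,
    Matrix.sub_apply, Matrix.add_apply, Matrix.smul_apply, vecMulVec_apply, Pi.add_apply, Pi.smul_apply, smul_eq_mul]
  ring

theorem be_hh {u : V4} (hu : u 0 = 1) (w : V3) (s : ℝ) : be (u + s • hh w) u = s • w := by
  funext p
  simp [be, hh, hu]

theorem hh_zero {u : V4} (hu : u 0 = 1) (w : V3) (s : ℝ) : (u + s • hh w) 0 = 1 := by simp [hh, hu]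

theorem bnon_ne {u : V4} (hu : u 0 = 1) : u ≠ 0 := fun h => by simp [h] at hu

/-- the difference quotient -/
def Dl (A : M4 ℝ →ₗ[ℝ] Matrix n n ℝ) (u : V4) (w : V3) (s : ℝ) : Matrix n n ℝ := A (Dm u (hh w)) + s • A (Mt (hh w))

omit [Fintype n] in
theorem A_Mt (A : M4 ℝ →ₗ[ℝ] Matrix n n ℝ) (u : V4) (w : V3) (s : ℝ) :
    A (Mt (u + s • hh w)) = A (Mt u) + s • Dl A u w s := by
  simp only [Mt_add, map_add, map_smul, Dl]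

theorem bnon_mem {J : Matrix n n ℝ} {u : V4} (hJ : ∀ ξ, A (Mt u) *ᵥ (ξ - J *ᵥ (A (Mt u) *ᵥ ξ)) = 0) {w : V3} {s : ℝ}
    {ξ : n → ℝ} (h : A (Mt (u + s • hh w)) *ᵥ ξ = 0) : A (Mt u) *ᵥ (ξ + s • J *ᵥ (Dl A u w s *ᵥ ξ)) = 0 := by
  rw [A_Mt, add_mulVec, smul_mulVec, add_eq_zero_iff_eq_neg] at h
  have := hJ ξ
  rwa [h, mulVec_neg, sub_neg_eq_add, mulVec_smul] at this

theorem Rep.dec (h : Rep δ A B C) {J : Matrix n n ℝ} {u : V4} (hu : u 0 = 1)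
    (hJ : ∀ ξ, A (Mt u) *ᵥ (ξ - J *ᵥ (A (Mt u) *ᵥ ξ)) = 0) {w : V3} {s : ℝ} (y : V3) {ξ ζ : n → ℝ}
    (h1 : A (Mt (u + s • hh w)) *ᵥ ξ = 0) (h2 : A 1 *ᵥ ζ = 0) (h3 : B (Mt u) *ᵥ ζ = 0) :
    ξ ⬝ᵥ C y *ᵥ ζ = -(s * ((J *ᵥ (Dl A u w s *ᵥ ξ)) ⬝ᵥ C y *ᵥ ζ)) := by
  have := h.orth (bnon_ne hu) y (bnon_mem hJ h1) h2 h3
  rw [add_dotProduct, smul_dotProduct, smul_eq_mul] at this
  linarith

theorem Rep.up_lim [DecidableEq n] (h : Rep δ A B C) {J : Matrix n n ℝ} {u : V4} (hu : u 0 = 1)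
    (hmin : ∀ v : V4, v 0 = 1 → Module.finrank ℝ (LinearMap.ker (A (Mt u)).mulVecLin) ≤
      Module.finrank ℝ (LinearMap.ker (A (Mt v)).mulVecLin))
    (hJ : ∀ ξ, A (Mt u) *ᵥ (ξ - J *ᵥ (A (Mt u) *ᵥ ξ)) = 0) {y w : V3} {l : ℝ} (hl : 0 < l) (hc : cf δ y w < l ^ 2)
    {ξ ζ : n → ℝ} (h1 : A (Mt u) *ᵥ ξ = 0) (h2 : A 1 *ᵥ ζ = 0) (h3 : B (Mt u) *ᵥ ζ = 0) :
    0 ≤ l / (u ⬝ᵥ u) * (ξ ⬝ᵥ A 1 *ᵥ ξ + ζ ⬝ᵥ B 1 *ᵥ ζ) - 2 * ((J *ᵥ (A (Dm u (hh w)) *ᵥ ξ)) ⬝ᵥ C y *ᵥ ζ) := by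
  have hp := bnon_pos (bnon_ne hu)
  obtain ⟨x, c1, c2, c3⟩ := perturb (M := fun s => A (Mt (u + s • hh w)))
    (by simp only [A_Mt, Dl]; fun_prop) (h.sA _) (fun s => by
      have e : u + (0 : ℝ) • hh w = u := by simp
      rw [e]
      exact hmin _ (hh_zero hu w s)) (ξ₀ := ξ) (by simpa using h1)
  have c4 : ∀ᶠ s in 𝓝 (0 : ℝ), cf δ y w < (l / (u ⬝ᵥ u)) ^ 2 * ((u + s • hh w) ⬝ᵥ (u + s • hh w)) * (u ⬝ᵥ u) := by
    refine ContinuousAt.eventually_lt continuousAt_const (Continuous.continuousAt (by fun_prop)) ?_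
    simp only [zero_smul, add_zero]
    have : (l / (u ⬝ᵥ u)) ^ 2 * (u ⬝ᵥ u) * (u ⬝ᵥ u) = l ^ 2 := by field_simp
    rwa [this]
  have c5 : ContinuousAt (fun s => l / (u ⬝ᵥ u) * (x s ⬝ᵥ A 1 *ᵥ x s + ζ ⬝ᵥ B 1 *ᵥ ζ) -
      2 * ((J *ᵥ (Dl A u w s *ᵥ x s)) ⬝ᵥ C y *ᵥ ζ)) 0 := by
    refine ContinuousAt.comp (f := fun s => (s, x s)) (g := fun q : ℝ × (n → ℝ) =>
      l / (u ⬝ᵥ u) * (q.2 ⬝ᵥ A 1 *ᵥ q.2 + ζ ⬝ᵥ B 1 *ᵥ ζ) - 2 * ((J *ᵥ (Dl A u w q.1 *ᵥ q.2)) ⬝ᵥ C y *ᵥ ζ))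
      (Continuous.continuousAt ?_) (continuousAt_id.prodMk c1)
    simp only [Dl]
    fun_prop
  have c6 := ge_of_tendsto (b := 0) (c5.tendsto.mono_left (nhdsWithin_le_nhds (s := Set.Ioi 0))) (by
    filter_upwards [c3.filter_mono nhdsWithin_le_nhds, c4.filter_mono nhdsWithin_le_nhds, self_mem_nhdsWithin]
      with s e1 e2 e3
    have hs : 0 < s := e3
    have := h.upper (bnon_ne (hh_zero hu w s)) (bnon_ne hu) (y := y) (l := s * (l / (u ⬝ᵥ u))) (by positivity) (by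
      rw [be_hh hu, cf_smul, mul_pow, mul_assoc, mul_assoc, ← mul_assoc _ _ (u ⬝ᵥ u)]
      exact mul_lt_mul_of_pos_left e2 (by positivity)) e1 h2 h3
    rw [h.dec hu hJ y e1 h2 h3] at this
    refine nonneg_of_mul_nonneg_right (a := s) ?_ hs
    linarith)
  simpa only [c2, Dl, zero_smul, add_zero] using c6

/-- the standard basis -/
def ev (j : Fin 3) : V3 := Pi.single j 1

theorem cf1 (δ : ℝ) : cf δ (ev 2) (ev 1 + ev 2) = 4 - 2 * δ := by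
  simp [cf, al, bt, ev, Fin.sum_univ_succ, dotProduct]; ring
theorem cf2 (δ : ℝ) : cf δ (ev 1) (ev 1) = 1 - δ := by
  simp [cf, al, bt, ev, Fin.sum_univ_succ, dotProduct]
theorem cf3 (δ : ℝ) : cf δ (ev 1 + ev 2) (ev 0) = 4 - 2 * δ := by
  simp [cf, al, bt, ev, Fin.sum_univ_succ, dotProduct]; ring
theorem cf4 (δ : ℝ) : cf δ (ev 0 + ev 1) (ev 2) = 4 - 2 * δ := by
  simp [cf, al, bt, ev, Fin.sum_univ_succ, dotProduct]; ring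
theorem cf6 (δ : ℝ) : cf δ (ev 0) (ev 0 + ev 1) = 4 - 2 * δ := by
  simp [cf, al, bt, ev, Fin.sum_univ_succ, dotProduct]; ring
theorem cf5 (δ : ℝ) : cf δ (ev 0 + ev 1 + ev 2) (ev 0 + ev 1 + ev 2) = 81 - 9 * δ := by
  simp [cf, al, bt, ev, Fin.sum_univ_succ, dotProduct]; ring

theorem Pos.le_half (hδ : Pos δ) : δ ≤ 1 / 2 := by
  have := hδ.2 (ev 1) (ev 1)
  rw [cf2] at this
  simp only [ev, single_dotProduct, Pi.single_eq_same, mul_one] at this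
  linarith

theorem Rep.false [DecidableEq n] (hδ : Pos δ) (h : Rep δ A B C) : False := by
  have d0 := hδ.1
  have d1 := hδ.le_half
  obtain ⟨u, hu, hm⟩ := exists_minimalFor_of_wellFoundedLT (fun u : V4 => u 0 = 1)
    (fun u => Module.finrank ℝ (LinearMap.ker (A (Mt u)).mulVecLin)) ⟨fun _ => 1, rfl⟩
  have hmin : ∀ v : V4, v 0 = 1 → Module.finrank ℝ (LinearMap.ker (A (Mt u)).mulVecLin) ≤
      Module.finrank ℝ (LinearMap.ker (A (Mt v)).mulVecLin) := fun v hv => by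
    rcases le_total (Module.finrank ℝ (LinearMap.ker (A (Mt u)).mulVecLin))
      (Module.finrank ℝ (LinearMap.ker (A (Mt v)).mulVecLin)) with h' | h'
    exacts [h', hm hv h']
  obtain ⟨J, hJ⟩ := exists_ginv (h.sA (Mt u))
  obtain ⟨P, hP⟩ := exists_pr (h.sA 1)
  obtain ⟨Q, hQ⟩ := exists_pr ((h.sA 1).add (h.sB 1))
  have hp := bnon_pos (bnon_ne hu)
  set o : V3 := ev 0 + ev 1 + ev 2 with ho
  -- the sum of the five upper bounds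
  have sum : ∀ ξ ζ : n → ℝ, A (Mt u) *ᵥ ξ = 0 → A 1 *ᵥ ζ = 0 → B (Mt u) *ᵥ ζ = 0 →
      0 ≤ (9 - 5 / 2 * δ) / (u ⬝ᵥ u) * (ξ ⬝ᵥ A 1 *ᵥ ξ + ζ ⬝ᵥ B 1 *ᵥ ζ) -
        2 * ((J *ᵥ (A (Dm u (hh o)) *ᵥ ξ)) ⬝ᵥ C o *ᵥ ζ) := fun ξ ζ h1 h2 h3 => by
    have l2 : (0 : ℝ) < 2 - δ / 2 := by linarith
    have l1 : (0 : ℝ) < 1 - δ / 2 := by linarith
    have k2 : 4 - 2 * δ < (2 - δ / 2) ^ 2 := by nlinarith
    have k1 : 1 - δ < (1 - δ / 2) ^ 2 := by nlinarith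
    have a1 := h.up_lim hu hmin hJ l2 ((cf1 δ).trans_lt k2) h1 h2 h3
    have a2 := h.up_lim hu hmin hJ l1 ((cf2 δ).trans_lt k1) h1 h2 h3
    have a3 := h.up_lim hu hmin hJ l2 ((cf3 δ).trans_lt k2) h1 h2 h3
    have a4 := h.up_lim hu hmin hJ l2 ((cf4 δ).trans_lt k2) h1 h2 h3
    have a6 := h.up_lim hu hmin hJ l2 ((cf6 δ).trans_lt k2) h1 h2 h3
    simp only [ho, hh_add, Dm_add, map_add, add_mulVec, mulVec_add, add_dotProduct, dotProduct_add, div_eq_mul_inv]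
      at a1 a2 a3 a4 a6 ⊢
    linarith
  have e1 : ∀ᶠ s in 𝓝 (0 : ℝ), ((9 - δ) / (u ⬝ᵥ u)) ^ 2 * ((u + s • hh o) ⬝ᵥ (u + s • hh o)) * (u ⬝ᵥ u) < 81 - 9 * δ := by
    refine ContinuousAt.eventually_lt (Continuous.continuousAt (by fun_prop)) continuousAt_const ?_
    simp only [zero_smul, add_zero]
    have : ((9 - δ) / (u ⬝ᵥ u)) ^ 2 * (u ⬝ᵥ u) * (u ⬝ᵥ u) = (9 - δ) ^ 2 := by field_simp
    rw [this]
    nlinarith
  have e2 : ∀ᶠ s in 𝓝 (0 : ℝ), ∀ p ∈ Sph (A 1) P Q,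
      (9 - 5 / 2 * δ) / (u ⬝ᵥ u) * ((p.1 + s • J *ᵥ (Dl A u o s *ᵥ p.1)) ⬝ᵥ A 1 *ᵥ (p.1 + s • J *ᵥ (Dl A u o s *ᵥ p.1)) +
        p.2 ⬝ᵥ B 1 *ᵥ p.2) - 2 * ((J *ᵥ (A (Dm u (hh o)) *ᵥ (p.1 + s • J *ᵥ (Dl A u o s *ᵥ p.1)))) ⬝ᵥ C o *ᵥ p.2) <
      (9 - δ) / (u ⬝ᵥ u) * (p.1 ⬝ᵥ A 1 *ᵥ p.1 + p.2 ⬝ᵥ B 1 *ᵥ p.2) - 2 * ((J *ᵥ (Dl A u o s *ᵥ p.1)) ⬝ᵥ C o *ᵥ p.2) := by
    refine (Sph_compact (A 1) P Q).eventually_forall_of_forall_eventually fun p hp' => ?_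
    refine ContinuousAt.eventually_lt (x₀ := ((0 : ℝ), p)) (Continuous.continuousAt (by simp only [Dl]; fun_prop))
      (Continuous.continuousAt (by simp only [Dl]; fun_prop)) ?_
    have := Sph_pos hP hQ (h.pA _ PosSemidef.one) (h.pB _ PosSemidef.one) hp'
    simp only [Dl, zero_smul, add_zero]
    have h2 : (9 - 5 / 2 * δ) / (u ⬝ᵥ u) < (9 - δ) / (u ⬝ᵥ u) := div_lt_div_of_pos_right (by linarith) hp
    linarith [mul_lt_mul_of_pos_right h2 this]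
  obtain ⟨s, ⟨f1, f2⟩, hs⟩ := (((e1.and e2).filter_mono nhdsWithin_le_nhds).and
    (self_mem_nhdsWithin (a := (0 : ℝ)) (s := Set.Ioi 0))).exists
  have hs : 0 < s := hs
  have l5 : (0 : ℝ) < 9 - δ := by linarith
  have := h.lower hP hQ (u := u + s • hh o) (bnon_ne hu) (y := o) (l := s * ((9 - δ) / (u ⬝ᵥ u))) (by positivity)
    fun p hp' h1 h3 => by
      have g1 := sum _ _ (bnon_mem hJ h1) hp'.2.2.1 h3
      have g2 := mul_pos hs (g1.trans_lt (f2 p hp'))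
      rw [h.dec hu hJ o h1 hp'.2.2.1 h3]
      linarith
  rw [be_hh hu, cf_smul, ho, cf5, ← ho, mul_pow, mul_assoc, mul_assoc, ← mul_assoc _ _ (u ⬝ᵥ u)] at this
  exact absurd (mul_lt_mul_of_pos_left f1 (by positivity : 0 < s ^ 2)) (not_lt.2 this)

theorem bnon_posDef {l t : ℝ} (hl : 0 < l) (ht : 0 ≤ t) (v : V4) : (l • (1 : M4 ℝ) + t • Mt v).PosDef :=
  (PosDef.one.smul hl).add_posSemidef ((Mt_psd v).smul ht)

theorem bnon_symm (l t : ℝ) (v : V4) : (l • (1 : M4 ℝ) + t • Mt v).IsSymm := by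
  have : (Mt v)ᵀ = Mt v := by
    simpa [IsHermitian, conjTranspose_eq_transpose_of_trivial] using (Mt_psd v).1
  exact (isSymm_one.smul _).add (IsSymm.smul this _)

theorem nonspec {δ : ℝ} (hδ : Pos δ) {N : ℕ} (L : (Fin 23 → ℝ) →ₗ[ℝ] Matrix (Fin N) (Fin N) ℝ) (hL : ∀ x, (L x).IsSymm) :
    KK δ ≠ {x | (L x).PosSemidef} := by
  intro hK
  have hK' : ∀ x, x ∈ KK δ ↔ (L x).PosSemidef := fun x => by rw [hK]; rfl
  let pX : M4 ℝ →ₗ[ℝ] (Fin 23 → ℝ) :=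
    { toFun := fun X => pt X 0 0
      map_add' := fun X X' => by rw [← pt_add]; simp
      map_smul' := fun c X => by rw [RingHom.id_apply, ← pt_smul]; simp }
  let pZ : M4 ℝ →ₗ[ℝ] (Fin 23 → ℝ) :=
    { toFun := fun X => pt 0 X 0
      map_add' := fun X X' => by rw [← pt_add]; simp
      map_smul' := fun c X => by rw [RingHom.id_apply, ← pt_smul]; simp }
  let py : V3 →ₗ[ℝ] (Fin 23 → ℝ) :=
    { toFun := fun X => pt 0 0 X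
      map_add' := fun X X' => by rw [← pt_add]; simp
      map_smul' := fun c X => by rw [RingHom.id_apply, ← pt_smul]; simp }
  have e : ∀ (X Z : M4 ℝ) (y : V3) (ε : ℝ), (L ∘ₗ pX) X + ε ^ 2 • (L ∘ₗ pZ) Z + ε • (L ∘ₗ py) y =
      L (pt X (ε ^ 2 • Z) (ε • y)) := fun X Z y ε => by
    rw [← map_smul, ← map_smul, LinearMap.comp_apply, LinearMap.comp_apply, LinearMap.comp_apply, ← map_add, ← map_add]
    congr 1
    change pt X 0 0 + pt 0 (ε ^ 2 • Z) 0 + pt 0 0 (ε • y) = _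
    rw [← pt_add, ← pt_add]
    simp
  refine Rep.false hδ (A := L ∘ₗ pX) (B := L ∘ₗ pZ) (C := L ∘ₗ py) ⟨fun _ => hL _, fun _ => hL _, fun _ => hL _,
    fun X h => (hK' _).1 (zero_mem h PosSemidef.zero), fun X h => (hK' _).1 (zero_mem PosSemidef.zero h),
    fun u v y l hu hv hl h => ?_, fun u v y l t ε hv hl ht hε h => ?_⟩
  · obtain ⟨t, _, h1⟩ := exists_mem hδ hu hv hl h
    refine ⟨t, fun ε hε => ?_⟩
    rw [e]
    exact (hK' _).1 (K0_sub hδ ((K0_scale (bnon_symm _ _ _) (bnon_symm _ _ _) y hε).2 h1))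
  · rw [e] at h
    refine le_of_mem hδ hv hl ht ((K0_scale (bnon_symm _ _ _) (bnon_symm _ _ _) y hε).1 (KK.mem_K0 ((hK' _).2 h) ?_))
    rw [cZ_pt _ ((bnon_symm _ _ _).smul _)]
    exact (bnon_posDef hl ht v).smul (by positivity)

end Crest.Agent.R237.B

end
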