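import Mathlib

/-!
# R237 / BNonA: linear algebra for the non-spectrahedrality proof (helper35)
-/

set_option autoImplicit false

open Matrix Filter Topology

noncomputable section

namespace Crest.Agent.R237.B

variable {n : Type} [Fintype n]

theorem bnon_comm {M : Matrix n n ℝ} (hM : M.IsSymm) (x y : n → ℝ) : x ⬝ᵥ M *ᵥ y = y ⬝ᵥ M *ᵥ x := by
  rw [dotProduct_mulVec, ← mulVec_transpose, hM.eq, dotProduct_comm]

theorem bnon_nonneg {M : Matrix n n ℝ} (h : M.PosSemidef) (x : n → ℝ) : 0 ≤ x ⬝ᵥ M *ᵥ x := by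
  simpa using h.dotProduct_mulVec_nonneg x

theorem bnon_ker {M : Matrix n n ℝ} (h : M.PosSemidef) {x : n → ℝ} (hx : x ⬝ᵥ M *ᵥ x = 0) : M *ᵥ x = 0 :=
  (h.dotProduct_mulVec_zero_iff x).1 (by simpa using hx)

theorem bnon_psd {M : Matrix n n ℝ} (hM : M.IsSymm) (h : ∀ x, 0 ≤ x ⬝ᵥ M *ᵥ x) : M.PosSemidef :=
  PosSemidef.of_dotProduct_mulVec_nonneg (by simpa [IsHermitian, conjTranspose_eq_transpose_of_trivial] using hM.eq)
    fun x => by simpa using h x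

/-- a projection on the kernel along the range -/
structure IsPr (M P : Matrix n n ℝ) : Prop where
  h1 : ∀ ξ, M *ᵥ (P *ᵥ ξ) = 0
  h2 : ∀ ξ, P *ᵥ (M *ᵥ ξ) = 0
  h3 : ∀ ξ, M *ᵥ ξ = 0 → P *ᵥ ξ = ξ

theorem exists_pr [DecidableEq n] {M : Matrix n n ℝ} (hM : M.IsSymm) : ∃ P, IsPr M P := by
  have hd : Disjoint (LinearMap.ker M.mulVecLin) (LinearMap.range M.mulVecLin) := by
    rw [Submodule.disjoint_def]
    rintro x hx ⟨y, rfl⟩
    have hx' : M *ᵥ (M *ᵥ y) = 0 := hx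
    have : (M *ᵥ y) ⬝ᵥ (M *ᵥ y) = 0 := by rw [bnon_comm hM, hx', dotProduct_zero]
    exact dotProduct_self_eq_zero.1 this
  have hc : IsCompl (LinearMap.ker M.mulVecLin) (LinearMap.range M.mulVecLin) := by
    refine ⟨hd, codisjoint_iff.2 (Submodule.eq_top_of_disjoint _ _ ?_ hd)⟩
    rw [add_comm, LinearMap.finrank_range_add_finrank_ker]
  refine ⟨LinearMap.toMatrix' (Submodule.projection _ _ hc), fun ξ => ?_, fun ξ => ?_, fun ξ h => ?_⟩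
  · rw [LinearMap.toMatrix'_mulVec]
    exact Submodule.projection_apply_mem hc ξ
  · rw [LinearMap.toMatrix'_mulVec]
    exact Submodule.projection_apply_of_mem_right hc ⟨ξ, rfl⟩
  · rw [LinearMap.toMatrix'_mulVec]
    exact Submodule.projection_apply_of_mem_left hc h

theorem IsPr.det_ne [DecidableEq n] {M P : Matrix n n ℝ} (h : IsPr M P) : (M + P).det ≠ 0 := by
  intro h0
  obtain ⟨v, hv, h1⟩ := exists_mulVec_eq_zero_iff.2 h0
  have h2 : P *ᵥ v = 0 := by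
    have := congrArg (P *ᵥ ·) h1
    simp only [add_mulVec, mulVec_add, h.h2, h.h3 _ (h.h1 v), zero_add, mulVec_zero] at this
    exact this
  rw [add_mulVec, h2, add_zero] at h1
  exact hv ((h.h3 v h1).symm.trans h2)

theorem exists_ginv [DecidableEq n] {M : Matrix n n ℝ} (hM : M.IsSymm) :
    ∃ J : Matrix n n ℝ, ∀ ξ, M *ᵥ (ξ - J *ᵥ (M *ᵥ ξ)) = 0 := by
  obtain ⟨P, h⟩ := exists_pr hM
  have hu : ∀ ξ, (M + P)⁻¹ *ᵥ ((M + P) *ᵥ ξ) = ξ := fun ξ => by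
    rw [mulVec_mulVec, nonsing_inv_mul _ (Ne.isUnit h.det_ne), one_mulVec]
  refine ⟨(M + P)⁻¹, fun ξ => ?_⟩
  have h1 := hu ξ
  have h2 := hu (P *ᵥ ξ)
  rw [add_mulVec, h.h1, h.h3 _ (h.h1 ξ), zero_add] at h2
  rw [add_mulVec, mulVec_add, h2] at h1
  have : ξ - (M + P)⁻¹ *ᵥ (M *ᵥ ξ) = P *ᵥ ξ := by rw [sub_eq_iff_eq_add, add_comm]; exact h1.symm
  rw [this, h.h1]

/-- at a point of minimal kernel dimension every kernel vector extends to a continuous family of kernel vectors -/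
theorem perturb [DecidableEq n] {M : ℝ → Matrix n n ℝ} (hc : Continuous M) (hM : (M 0).IsSymm)
    (hmin : ∀ s, Module.finrank ℝ (LinearMap.ker (M 0).mulVecLin) ≤ Module.finrank ℝ (LinearMap.ker (M s).mulVecLin))
    {ξ₀ : n → ℝ} (h0 : M 0 *ᵥ ξ₀ = 0) :
    ∃ ξ : ℝ → n → ℝ, ContinuousAt ξ 0 ∧ ξ 0 = ξ₀ ∧ ∀ᶠ s in 𝓝 0, M s *ᵥ ξ s = 0 := by
  obtain ⟨P, h⟩ := exists_pr hM
  have hc' : Continuous fun s => M s + P := hc.add continuous_const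
  have key : ∀ s, (M s + P).det ≠ 0 → ∀ ξ, (M s + P)⁻¹ *ᵥ ((M s + P) *ᵥ ξ) = ξ := fun s hs ξ => by
    rw [mulVec_mulVec, nonsing_inv_mul _ (Ne.isUnit hs), one_mulVec]
  refine ⟨fun s => (M s + P)⁻¹ *ᵥ ξ₀, ?_, ?_, ?_⟩
  · have h1 : ContinuousAt (fun s => (M s + P)⁻¹) 0 := by
      refine ContinuousAt.comp (f := fun s => M s + P) (g := Inv.inv) (continuousAt_matrix_inv _ ?_) hc'.continuousAt
      rw [Ring.inverse_eq_inv']
      exact continuousAt_inv₀ h.det_ne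
    exact ContinuousAt.comp (f := fun s => (M s + P)⁻¹) (g := fun A => A *ᵥ ξ₀)
      (continuous_id.matrix_mulVec continuous_const).continuousAt h1
  · have := key 0 h.det_ne ξ₀
    rwa [add_mulVec, h0, h.h3 _ h0, zero_add] at this
  · filter_upwards [hc'.matrix_det.continuousAt.eventually_ne h.det_ne] with s hs
    let f : LinearMap.ker (M s).mulVecLin →ₗ[ℝ] LinearMap.ker (M 0).mulVecLin :=
      (P.mulVecLin.domRestrict _).codRestrict _ fun x => h.h1 x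
    have hf : ∀ x : LinearMap.ker (M s).mulVecLin, (M s + P)⁻¹ *ᵥ (f x : n → ℝ) = x := fun x => by
      have h1 := key s hs x
      have h2 : M s *ᵥ (x : n → ℝ) = 0 := x.2
      rwa [add_mulVec, h2, zero_add] at h1
    have hi : Function.Injective f := fun x y hxy => Subtype.ext (by rw [← hf x, ← hf y, hxy])
    have hsurj := (LinearMap.injective_iff_surjective_of_finrank_eq_finrank
      (le_antisymm (LinearMap.finrank_le_finrank_of_injective hi) (hmin s))).1 hi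
    obtain ⟨x, hx⟩ := hsurj ⟨ξ₀, h0⟩
    have h1 := hf x
    rw [hx] at h1
    rw [h1]
    exact x.2

theorem bnon_expand {X Z C : Matrix n n ℝ} (hX : X.IsSymm) (hZ : Z.IsSymm) (hC : C.IsSymm) (ξ : n → ℝ) {ζ : n → ℝ}
    (h1 : X *ᵥ ζ = 0) (h2 : ζ ⬝ᵥ C *ᵥ ζ = 0) {ε : ℝ} (hε : ε ≠ 0) :
    (ξ + ε⁻¹ • ζ) ⬝ᵥ (X + ε ^ 2 • Z + ε • C) *ᵥ (ξ + ε⁻¹ • ζ) = ξ ⬝ᵥ X *ᵥ ξ + ζ ⬝ᵥ Z *ᵥ ζ + 2 * (ξ ⬝ᵥ C *ᵥ ζ) +
      ε * (2 * (ξ ⬝ᵥ Z *ᵥ ζ) + ξ ⬝ᵥ C *ᵥ ξ) + ε ^ 2 * (ξ ⬝ᵥ Z *ᵥ ξ) := by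
  simp only [add_mulVec, mulVec_add, smul_mulVec, mulVec_smul, add_dotProduct, dotProduct_add, smul_dotProduct,
    dotProduct_smul, smul_eq_mul, bnon_comm hX ζ ξ, bnon_comm hZ ζ ξ, bnon_comm hC ζ ξ, h1, h2, dotProduct_zero]
  field_simp
  ring

/-- the compact set of test pairs -/
def Sph (A P Q : Matrix n n ℝ) : Set ((n → ℝ) × (n → ℝ)) :=
  {p | p.1 ⬝ᵥ p.1 + p.2 ⬝ᵥ p.2 = 1 ∧ P *ᵥ p.1 = 0 ∧ A *ᵥ p.2 = 0 ∧ Q *ᵥ p.2 = 0}

theorem bnon_self_nonneg (x : n → ℝ) : 0 ≤ x ⬝ᵥ x := Finset.sum_nonneg fun i _ => mul_self_nonneg (x i)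

theorem bnon_norm_le {x : n → ℝ} (h : x ⬝ᵥ x ≤ 1) : ‖x‖ ≤ 1 := by
  refine (pi_norm_le_iff_of_nonneg zero_le_one).2 fun i => ?_
  have : x i * x i ≤ x ⬝ᵥ x := Finset.single_le_sum (f := fun i => x i * x i) (fun i _ => mul_self_nonneg (x i)) (Finset.mem_univ i)
  rw [Real.norm_eq_abs, ← abs_one, ← sq_le_sq]
  nlinarith

theorem Sph_compact (A P Q : Matrix n n ℝ) : IsCompact (Sph A P Q) := by
  refine Metric.isCompact_of_isClosed_isBounded ?_ ?_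
  · refine (isClosed_eq (by fun_prop) continuous_const).inter ((isClosed_eq (by fun_prop) continuous_const).inter
      ((isClosed_eq (by fun_prop) continuous_const).inter (isClosed_eq (by fun_prop) continuous_const)))
  · refine (Metric.isBounded_closedBall (x := 0) (r := 1)).subset fun p hp => ?_
    have h1 := bnon_self_nonneg p.1
    have h2 := bnon_self_nonneg p.2
    have h3 := hp.1
    rw [mem_closedBall_zero_iff, Prod.norm_def]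
    exact max_le (bnon_norm_le (by linarith)) (bnon_norm_le (by linarith))

/-- positivity on the compact set gives positive semidefiniteness -/
theorem psd_of_Sph {A B N P Q : Matrix n n ℝ} (hP : IsPr A P) (hQ : IsPr (A + B) Q) (hN : N.IsSymm)
    (hA : ∀ κ, (A + B) *ᵥ κ = 0 → A *ᵥ κ = 0) (hk : ∀ κ, (A + B) *ᵥ κ = 0 → N *ᵥ κ = 0) {ε : ℝ} (hε : ε ≠ 0)
    (h : ∀ p ∈ Sph A P Q, 0 ≤ (p.1 + ε⁻¹ • p.2) ⬝ᵥ N *ᵥ (p.1 + ε⁻¹ • p.2)) : N.PosSemidef := by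
  refine bnon_psd hN fun η => ?_
  obtain ⟨ξ, ζ, κ, e, h1, h2, h3, h4⟩ : ∃ ξ ζ κ : n → ℝ, η = ξ + ε⁻¹ • ζ + κ ∧ P *ᵥ ξ = 0 ∧ A *ᵥ ζ = 0 ∧ Q *ᵥ ζ = 0 ∧
      N *ᵥ κ = 0 := by
    refine ⟨η - P *ᵥ η, ε • (P *ᵥ η - Q *ᵥ (P *ᵥ η)), Q *ᵥ (P *ᵥ η), ?_, ?_, ?_, ?_, hk _ (hQ.h1 _)⟩
    · rw [smul_smul, inv_mul_cancel₀ hε, one_smul]; abel
    · rw [mulVec_sub, hP.h3 _ (hP.h1 _), sub_self]
    · rw [mulVec_smul, mulVec_sub, hP.h1, hA _ (hQ.h1 _), sub_self, smul_zero]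
    · rw [mulVec_smul, mulVec_sub, hQ.h3 _ (hQ.h1 _), sub_self, smul_zero]
  have e1 : η ⬝ᵥ N *ᵥ η = (ξ + ε⁻¹ • ζ) ⬝ᵥ N *ᵥ (ξ + ε⁻¹ • ζ) := by
    rw [e, mulVec_add, h4, add_zero, add_dotProduct, bnon_comm hN κ, h4, dotProduct_zero, add_zero]
  rw [e1]
  have a1 := bnon_self_nonneg ξ
  have a2 := bnon_self_nonneg ζ
  rcases (add_nonneg a1 a2).eq_or_lt with h0 | h0
  · have b1 : ξ = 0 := dotProduct_self_eq_zero.1 (by linarith)
    have b2 : ζ = 0 := dotProduct_self_eq_zero.1 (by linarith)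
    simp [b1, b2]
  · set r := Real.sqrt (ξ ⬝ᵥ ξ + ζ ⬝ᵥ ζ) with hr
    have hr0 : 0 < r := Real.sqrt_pos.2 h0
    have hr2 : r * r = ξ ⬝ᵥ ξ + ζ ⬝ᵥ ζ := Real.mul_self_sqrt h0.le
    have := h (r⁻¹ • ξ, r⁻¹ • ζ) ⟨?_, ?_, ?_, ?_⟩
    · rw [smul_comm, ← smul_add, mulVec_smul, smul_dotProduct, dotProduct_smul, smul_eq_mul, smul_eq_mul] at this
      have hi := inv_pos.2 hr0
      exact nonneg_of_mul_nonneg_right (nonneg_of_mul_nonneg_right this hi) hi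
    · simp only [smul_dotProduct, dotProduct_smul, smul_eq_mul]
      field_simp
      linarith
    · simp only [mulVec_smul, h1, smul_zero]
    · simp only [mulVec_smul, h2, smul_zero]
    · simp only [mulVec_smul, h3, smul_zero]

theorem Sph_pos {A B P Q : Matrix n n ℝ} (hP : IsPr A P) (hQ : IsPr (A + B) Q) (hA : A.PosSemidef) (hB : B.PosSemidef)
    {p : (n → ℝ) × (n → ℝ)} (hp : p ∈ Sph A P Q) : 0 < p.1 ⬝ᵥ A *ᵥ p.1 + p.2 ⬝ᵥ B *ᵥ p.2 := by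
  have a1 := bnon_nonneg hA p.1
  have a2 := bnon_nonneg hB p.2
  refine (add_nonneg a1 a2).lt_of_ne' fun h0 => ?_
  obtain ⟨h1, h2, h3, h4⟩ := hp
  have b1 : p.1 = 0 := (hP.h3 _ (bnon_ker hA (by linarith))).symm.trans h2
  have b2 : p.2 = 0 := (hQ.h3 _ (by rw [add_mulVec, h3, bnon_ker hB (by linarith), add_zero])).symm.trans h4
  simp [b1, b2] at h1

end Crest.Agent.R237.B

end
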