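import Crest.Agent.R237.BCone
import Crest.Agent.R237.BNonA

/-!
# R237 / BNonB: consequences of a spectrahedral representation (helper35)
-/

set_option autoImplicit false

open Matrix Filter Topology

noncomputable section

namespace Crest.Agent.R237.B

variable {n : Type} [Fintype n]

/-- what is used of a spectrahedral representation of the cone -/
structure Rep (δ : ℝ) (A B : M4 ℝ →ₗ[ℝ] Matrix n n ℝ) (C : V3 →ₗ[ℝ] Matrix n n ℝ) : Prop where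
  sA : ∀ X, (A X).IsSymm
  sB : ∀ X, (B X).IsSymm
  sC : ∀ y, (C y).IsSymm
  pA : ∀ X, X.PosSemidef → (A X).PosSemidef
  pB : ∀ X, X.PosSemidef → (B X).PosSemidef
  up : ∀ (u v : V4) (y : V3) (l : ℝ), u ≠ 0 → v ≠ 0 → 0 < l → cf δ y (be u v) < l ^ 2 * (u ⬝ᵥ u) * (v ⬝ᵥ v) →
    ∃ t : ℝ, ∀ ε : ℝ, ε ≠ 0 → (A (l • 1 + t • Mt u) + ε ^ 2 • B (l • 1 + t • Mt v) + ε • C y).PosSemidef
  low : ∀ (u v : V4) (y : V3) (l t ε : ℝ), v ≠ 0 → 0 < l → 0 ≤ t → ε ≠ 0 →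
    (A (l • 1 + t • Mt u) + ε ^ 2 • B (l • 1 + t • Mt v) + ε • C y).PosSemidef →
      cf δ y (be u v) ≤ l ^ 2 * (u ⬝ᵥ u) * (v ⬝ᵥ v)

variable {δ : ℝ} {A B : M4 ℝ →ₗ[ℝ] Matrix n n ℝ} {C : V3 →ₗ[ℝ] Matrix n n ℝ}

theorem bnon_kerMt {A : M4 ℝ →ₗ[ℝ] Matrix n n ℝ} (pA : ∀ X, X.PosSemidef → (A X).PosSemidef) (u : V4) {ζ : n → ℝ}
    (h : A 1 *ᵥ ζ = 0) : A (Mt u) *ᵥ ζ = 0 := by
  refine bnon_ker (pA _ (Mt_psd u)) (le_antisymm ?_ (bnon_nonneg (pA _ (Mt_psd u)) ζ))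
  have := bnon_nonneg (pA _ (by simpa using posSemidef_vecMulVec_self_star u : (vecMulVec u u).PosSemidef)) ζ
  rw [Mt, map_sub, map_smul, sub_mulVec, smul_mulVec, h, smul_zero, zero_sub, dotProduct_neg]
  linarith

theorem bnon_be_self (u : V4) : be u u = 0 := funext fun p => by simp [be, mul_comm]

theorem bnon_cf_zero (δ : ℝ) (y : V3) : cf δ y 0 = 0 := by simp [cf]

theorem bnon_pos {u : V4} (hu : u ≠ 0) : 0 < u ⬝ᵥ u :=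
  (bnon_self_nonneg u).lt_of_ne' fun h => hu (dotProduct_self_eq_zero.1 h)

omit [Fintype n] in
theorem Rep.up0 (h : Rep δ A B C) {u : V4} (hu : u ≠ 0) (y : V3) {l : ℝ} (hl : 0 < l) :
    ∃ t : ℝ, ∀ ε : ℝ, ε ≠ 0 → (A (l • 1 + t • Mt u) + ε ^ 2 • B (l • 1 + t • Mt u) + ε • C y).PosSemidef :=
  h.up u u y l hu hu hl (by
    have := bnon_pos hu
    rw [bnon_be_self, bnon_cf_zero]
    positivity)

theorem bnon_one_ne : (fun _ => 1 : V4) ≠ 0 := fun h => one_ne_zero (congrFun h 0)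

theorem bnon_kerX {A : M4 ℝ →ₗ[ℝ] Matrix n n ℝ} (pA : ∀ X, X.PosSemidef → (A X).PosSemidef) (u : V4) {ζ : n → ℝ}
    (h : A 1 *ᵥ ζ = 0) (l t : ℝ) : A (l • 1 + t • Mt u) *ᵥ ζ = 0 := by
  rw [map_add, map_smul, map_smul, add_mulVec, smul_mulVec, smul_mulVec, h, bnon_kerMt pA u h]
  simp

theorem bnon_lim {a b c : ℝ} (h : ∀ ε : ℝ, 0 < ε → 0 ≤ a + ε * b + ε ^ 2 * c) : 0 ≤ a := by
  have h1 : Tendsto (fun ε : ℝ => a + ε * b + ε ^ 2 * c) (𝓝[>] 0) (𝓝 (a + 0 * b + 0 ^ 2 * c)) :=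
    (Continuous.tendsto (by fun_prop) 0).mono_left nhdsWithin_le_nhds
  have := ge_of_tendsto h1 (eventually_nhdsWithin_of_forall h)
  simpa using this

theorem Rep.CC (h : Rep δ A B C) (y : V3) {ζ : n → ℝ} (hζ : A 1 *ᵥ ζ = 0) : ζ ⬝ᵥ C y *ᵥ ζ = 0 := by
  have key : ∀ y : V3, 0 ≤ ζ ⬝ᵥ C y *ᵥ ζ := fun y => by
    obtain ⟨t, ht⟩ := h.up0 bnon_one_ne y one_pos
    refine bnon_lim (b := ζ ⬝ᵥ B ((1 : ℝ) • 1 + t • Mt fun _ => 1) *ᵥ ζ) (c := 0) fun ε hε => ?_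
    have := bnon_nonneg (ht ε hε.ne') ζ
    rw [add_mulVec, add_mulVec, bnon_kerX h.pA _ hζ, zero_add, smul_mulVec, smul_mulVec, dotProduct_add, dotProduct_smul,
      dotProduct_smul, smul_eq_mul, smul_eq_mul] at this
    refine nonneg_of_mul_nonneg_right (a := ε) ?_ hε
    linarith
  have := key (-y)
  rw [map_neg, neg_mulVec, dotProduct_neg] at this
  linarith [key y]

theorem Rep.ker1 (h : Rep δ A B C) {κ : n → ℝ} (hκ : (A 1 + B 1) *ᵥ κ = 0) : A 1 *ᵥ κ = 0 ∧ B 1 *ᵥ κ = 0 := by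
  have h1 := bnon_nonneg (h.pA _ PosSemidef.one) κ
  have h2 := bnon_nonneg (h.pB _ PosSemidef.one) κ
  have h3 := congrArg (κ ⬝ᵥ ·) hκ
  simp only [add_mulVec, dotProduct_add, dotProduct_zero] at h3
  exact ⟨bnon_ker (h.pA _ PosSemidef.one) (by linarith), bnon_ker (h.pB _ PosSemidef.one) (by linarith)⟩

theorem Rep.kerC (h : Rep δ A B C) (y : V3) {κ : n → ℝ} (hκ : (A 1 + B 1) *ᵥ κ = 0) : C y *ᵥ κ = 0 := by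
  obtain ⟨h1, h2⟩ := h.ker1 hκ
  obtain ⟨t, ht⟩ := h.up0 bnon_one_ne y one_pos
  have e : (A ((1 : ℝ) • 1 + t • Mt fun _ => 1) + (1 : ℝ) ^ 2 • B ((1 : ℝ) • 1 + t • Mt fun _ => 1) + (1 : ℝ) • C y) *ᵥ κ =
      C y *ᵥ κ := by
    rw [add_mulVec, add_mulVec, smul_mulVec, smul_mulVec, bnon_kerX h.pA _ h1, bnon_kerX h.pB _ h2]
    simp
  rw [← e]
  exact bnon_ker (ht 1 one_ne_zero) (by rw [e, h.CC y h1])

theorem bnon_form (A : M4 ℝ →ₗ[ℝ] Matrix n n ℝ) (l t : ℝ) (u : V4) (ξ : n → ℝ) :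
    ξ ⬝ᵥ A (l • 1 + t • Mt u) *ᵥ ξ = l * (ξ ⬝ᵥ A 1 *ᵥ ξ) + t * (ξ ⬝ᵥ A (Mt u) *ᵥ ξ) := by
  simp only [map_add, map_smul, add_mulVec, smul_mulVec, dotProduct_add, dotProduct_smul, smul_eq_mul]

theorem Rep.upper (h : Rep δ A B C) {u v : V4} (hu : u ≠ 0) (hv : v ≠ 0) {y : V3} {l : ℝ} (hl : 0 < l)
    (hc : cf δ y (be u v) < l ^ 2 * (u ⬝ᵥ u) * (v ⬝ᵥ v)) {ξ ζ : n → ℝ} (h1 : A (Mt u) *ᵥ ξ = 0) (h2 : A 1 *ᵥ ζ = 0)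
    (h3 : B (Mt v) *ᵥ ζ = 0) : 0 ≤ l * (ξ ⬝ᵥ A 1 *ᵥ ξ + ζ ⬝ᵥ B 1 *ᵥ ζ) + 2 * (ξ ⬝ᵥ C y *ᵥ ζ) := by
  obtain ⟨t, ht⟩ := h.up u v y l hu hv hl hc
  refine bnon_lim (b := 2 * (ξ ⬝ᵥ B (l • 1 + t • Mt v) *ᵥ ζ) + ξ ⬝ᵥ C y *ᵥ ξ) (c := ξ ⬝ᵥ B (l • 1 + t • Mt v) *ᵥ ξ)
    fun ε hε => ?_
  have := bnon_nonneg (ht ε hε.ne') (ξ + ε⁻¹ • ζ)
  rw [bnon_expand (h.sA _) (h.sB _) (h.sC _) ξ (bnon_kerX h.pA u h2 l t) (h.CC y h2) hε.ne', bnon_form A, bnon_form B l t v ζ,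
    h1, h3] at this
  simp only [dotProduct_zero, mul_zero, add_zero] at this
  linarith

theorem Rep.orth (h : Rep δ A B C) {u : V4} (hu : u ≠ 0) (y : V3) {ξ ζ : n → ℝ} (h1 : A (Mt u) *ᵥ ξ = 0)
    (h2 : A 1 *ᵥ ζ = 0) (h3 : B (Mt u) *ᵥ ζ = 0) : ξ ⬝ᵥ C y *ᵥ ζ = 0 := by
  have key : ∀ y : V3, 0 ≤ 2 * (ξ ⬝ᵥ C y *ᵥ ζ) := fun y => by
    refine bnon_lim (b := ξ ⬝ᵥ A 1 *ᵥ ξ + ζ ⬝ᵥ B 1 *ᵥ ζ) (c := 0) fun l hl => ?_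
    have := h.upper hu hu (y := y) hl (by
      have := bnon_pos hu
      rw [bnon_be_self, bnon_cf_zero]
      positivity) h1 h2 h3
    linarith
  have := key (-y)
  rw [map_neg, neg_mulVec, dotProduct_neg] at this
  linarith [key y]

theorem Rep.lower (h : Rep δ A B C) {P Q : Matrix n n ℝ} (hP : IsPr (A 1) P) (hQ : IsPr (A 1 + B 1) Q) {u v : V4}
    (hv : v ≠ 0) {y : V3} {l : ℝ} (hl : 0 < l)
    (hpos : ∀ p ∈ Sph (A 1) P Q, A (Mt u) *ᵥ p.1 = 0 → B (Mt v) *ᵥ p.2 = 0 →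
      0 < l * (p.1 ⬝ᵥ A 1 *ᵥ p.1 + p.2 ⬝ᵥ B 1 *ᵥ p.2) + 2 * (p.1 ⬝ᵥ C y *ᵥ p.2)) :
    cf δ y (be u v) ≤ l ^ 2 * (u ⬝ᵥ u) * (v ⬝ᵥ v) := by
  have pu := h.pA _ (Mt_psd u)
  have pv := h.pB _ (Mt_psd v)
  obtain ⟨t, κ, ht, hκ, hf⟩ := finsler (Sph_compact (A 1) P Q)
    (f := fun p => l * (p.1 ⬝ᵥ A 1 *ᵥ p.1 + p.2 ⬝ᵥ B 1 *ᵥ p.2) + 2 * (p.1 ⬝ᵥ C y *ᵥ p.2))
    (g := fun p => p.1 ⬝ᵥ A (Mt u) *ᵥ p.1 + p.2 ⬝ᵥ B (Mt v) *ᵥ p.2) (Continuous.continuousOn (by fun_prop))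
    (Continuous.continuousOn (by fun_prop)) (fun p _ => add_nonneg (bnon_nonneg pu _) (bnon_nonneg pv _)) fun p hp h0 => by
      have a1 := bnon_nonneg pu p.1
      have a2 := bnon_nonneg pv p.2
      exact hpos p hp (bnon_ker pu (by linarith)) (bnon_ker pv (by linarith))
  set X := A (l • 1 + t • Mt u) with hX
  set Z := B (l • 1 + t • Mt v) with hZ
  have hev : ∀ᶠ ε in 𝓝 (0 : ℝ), ∀ p ∈ Sph (A 1) P Q, 0 < p.1 ⬝ᵥ X *ᵥ p.1 + p.2 ⬝ᵥ Z *ᵥ p.2 + 2 * (p.1 ⬝ᵥ C y *ᵥ p.2) +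
      ε * (2 * (p.1 ⬝ᵥ Z *ᵥ p.2) + p.1 ⬝ᵥ C y *ᵥ p.1) + ε ^ 2 * (p.1 ⬝ᵥ Z *ᵥ p.1) := by
    refine (Sph_compact (A 1) P Q).eventually_forall_of_forall_eventually fun p hp => ?_
    refine ContinuousAt.eventually_lt (x₀ := ((0 : ℝ), p)) continuousAt_const (Continuous.continuousAt (by fun_prop)) ?_
    have := hf p hp
    simp only [hX, hZ, bnon_form A, bnon_form B l t v p.2]
    linarith
  obtain ⟨ε, h1, h2⟩ := ((hev.filter_mono nhdsWithin_le_nhds).and (self_mem_nhdsWithin (a := (0 : ℝ)) (s := {0}ᶜ))).exists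
  have hε : ε ≠ 0 := h2
  refine h.low u v y l t ε hv hl ht hε (psd_of_Sph hP hQ (((h.sA _).add ((h.sB _).smul _)).add ((h.sC _).smul _))
    (fun κ hκ => (h.ker1 hκ).1) (fun κ hκ => ?_) hε fun p hp => ?_)
  · rw [add_mulVec, add_mulVec, smul_mulVec, smul_mulVec, bnon_kerX h.pA _ (h.ker1 hκ).1, bnon_kerX h.pB _ (h.ker1 hκ).2,
      h.kerC y hκ]
    simp
  · rw [bnon_expand (h.sA _) (h.sB _) (h.sC _) p.1 (bnon_kerX h.pA u hp.2.2.1 l t) (h.CC y hp.2.2.1) hε]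
    exact (h1 p hp).le

end Crest.Agent.R237.B

end
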