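import Crest.Agent.R237.BPolyA

/-!
# R237 / BPoly: hyperbolicity (prefix `bpoly_`)
-/

set_option autoImplicit false

open Matrix

noncomputable section

namespace Crest.Agent.R237.B

open Crest.GeometryTopology

/-- the complex point `z e - x` -/
def bpoly_pt (x : Fin 23 → ℝ) (z : ℂ) : Fin 23 → ℂ := fun i => z * (ee i : ℂ) - (x i : ℂ)

theorem bpoly_cX (x : Fin 23 → ℝ) (z : ℂ) :
    cX (bpoly_pt x z) = z • (1 : M4 ℂ) - (cX x).map Complex.ofRealAm := by
  have h : cX ee = 1 := cX_pt Matrix.isSymm_one _ _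
  ext a b
  have h1 : ee (eI (.inl s(a, b))) = (1 : M4 ℝ) a b := by rw [← h]; rfl
  simp only [cX, bpoly_pt, Matrix.of_apply, h1, Matrix.sub_apply, Matrix.smul_apply, Matrix.map_apply,
    Matrix.one_apply, Complex.ofRealAm_coe, smul_eq_mul]
  split_ifs <;> simp

theorem bpoly_cZ (x : Fin 23 → ℝ) (z : ℂ) :
    cZ (bpoly_pt x z) = z • (1 : M4 ℂ) - (cZ x).map Complex.ofRealAm := by
  have h : cZ ee = 1 := cZ_pt _ Matrix.isSymm_one _
  ext a b
  have h1 : ee (eI (.inr (.inl s(a, b)))) = (1 : M4 ℝ) a b := by rw [← h]; rfl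
  simp only [cZ, bpoly_pt, Matrix.of_apply, h1, Matrix.sub_apply, Matrix.smul_apply, Matrix.map_apply,
    Matrix.one_apply, Complex.ofRealAm_coe, smul_eq_mul]
  split_ifs <;> simp

theorem bpoly_cy (x : Fin 23 → ℝ) (z : ℂ) :
    cy (bpoly_pt x z) = fun j => Complex.ofRealAm ((-cy x) j) := by
  have h : cy ee = 0 := cy_pt _ _ _
  ext j
  have h1 : ee (eI (.inr (.inr j))) = 0 := congrFun h j
  simp [cy, bpoly_pt, h1]

theorem bpoly_ne {z : ℂ} (hz : z.im ≠ 0) (l : ℝ) : z - (l : ℂ) ≠ 0 := by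
  intro h
  apply hz
  have := congrArg Complex.im h
  simpa using this

theorem bpoly_inv {Z : M4 ℝ} {l : Fin 4 → ℝ} {v : Fin 4 → V4}
    (h1 : ∀ k k', v k ⬝ᵥ v k' = if k = k' then 1 else 0) (h2 : Z = ∑ k, l k • vecMulVec (v k) (v k))
    (h3 : ∑ k, vecMulVec (v k) (v k) = 1) {z : ℂ} (hz : z.im ≠ 0) :
    (z • (1 : M4 ℂ) - Z.map Complex.ofRealAm) *
      (∑ k, (z - (l k : ℂ))⁻¹ • (vecMulVec (v k) (v k)).map Complex.ofRealAm) = 1 := by
  set P : Fin 4 → M4 ℂ := fun k => (vecMulVec (v k) (v k)).map Complex.ofRealAm with hP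
  have e1 : ∑ k, P k = 1 := by
    ext a b
    have := congrFun (congrFun h3 a) b
    rw [Matrix.sum_apply] at this ⊢
    simp only [hP, Matrix.map_apply, Complex.ofRealAm_coe]
    rw [← Complex.ofReal_sum, this, Matrix.one_apply, Matrix.one_apply]
    split_ifs <;> simp
  have e2 : Z.map Complex.ofRealAm = ∑ k, (l k : ℂ) • P k := by
    ext a b
    rw [h2, Matrix.map_apply, Matrix.sum_apply, Matrix.sum_apply]
    simp [hP]
  have e3 : ∀ k k', P k * P k' = if k = k' then P k else 0 := by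
    intro k k'
    have : P k * P k' = (vecMulVec (v k) (v k) * vecMulVec (v k') (v k')).map Complex.ofRealAm := by
      simp only [hP]
      exact (Matrix.map_mul (f := (Complex.ofRealAm : ℝ →+* ℂ))).symm
    rw [this, Matrix.vecMulVec_mul_vecMulVec, h1]
    split_ifs with h
    · subst h
      simp [hP]
    · ext a b
      simp
  have e4 : z • (1 : M4 ℂ) - Z.map Complex.ofRealAm = ∑ k, (z - (l k : ℂ)) • P k := by
    rw [e2, ← e1, Finset.smul_sum, ← Finset.sum_sub_distrib]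
    exact Finset.sum_congr rfl fun k _ => (sub_smul _ _ _).symm
  rw [e4, Finset.sum_mul, ← e1]
  refine Finset.sum_congr rfl fun k _ => ?_
  rw [Finset.mul_sum, Finset.sum_eq_single k]
  · rw [Matrix.smul_mul, Matrix.mul_smul, e3, if_pos rfl, smul_smul, mul_inv_cancel₀ (bpoly_ne hz _), one_smul]
  · intro k' _ hk
    rw [Matrix.smul_mul, Matrix.mul_smul, e3, if_neg (Ne.symm hk), smul_zero, smul_zero]
  · intro h
    exact absurd (Finset.mem_univ k) h

theorem bpoly_form {M : M4 ℝ} (h : M.IsSymm) (u : Fin 4 → ℂ) :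
    star u ⬝ᵥ (M.map Complex.ofRealAm *ᵥ u) =
      (((fun a => (u a).re) ⬝ᵥ (M *ᵥ fun a => (u a).re) + (fun a => (u a).im) ⬝ᵥ (M *ᵥ fun a => (u a).im) : ℝ) : ℂ) := by
  have hs : ∀ a b, M b a = M a b := fun a b => h.apply a b
  apply Complex.ext
  · simp [dotProduct, mulVec, Fin.sum_univ_four]
    ring
  · simp [dotProduct, mulVec, Fin.sum_univ_four]
    rw [hs 0 1, hs 0 2, hs 0 3, hs 1 2, hs 1 3, hs 2 3]
    ring

/-- With `exists_spec` for `Z = cZ x`: `z - Z = ∑ (z - l k) v vᵀ` has the inverse `∑ (z - l k)⁻¹ v vᵀ` if `z.im ≠ 0`. -/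
theorem dd_ne (x : Fin 23 → ℝ) {z : ℂ} (hz : z.im ≠ 0) : Hyperbolic.lineEvalC dd ee x z ≠ 0 := by
  obtain ⟨l, v, h1, h2, h3⟩ := exists_spec (cZ_symm x)
  have h := bpoly_inv h1 h2 h3 hz
  show MvPolynomial.aeval (bpoly_pt x z) dd ≠ 0
  rw [aeval_dd, bpoly_cZ]
  exact Matrix.det_ne_zero_of_right_inverse h

theorem bpoly_nn {n : ℕ} (a : Fin n → ℝ) : 0 ≤ a ⬝ᵥ a :=
  Finset.sum_nonneg fun i _ => mul_self_nonneg (a i)

/-- If `z.im ≠ 0` and `(z - X - Phi y (z - Z)⁻¹) u = 0` (`exists_mulVec_eq_zero_iff`), `u = a + i b`: the imaginary part of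
`u* (…) u` is `z.im (|u|² + ∑ τ k / |z - l k|²)`, `τ k = cf y (be a (v k)) + cf y (be b (v k)) ≥ 0` (`Phi_vv`, `Phi_symm`,
`Phi_map`). -/
theorem qq_ne {δ : ℝ} (hδ : Pos δ) (x : Fin 23 → ℝ) {z : ℂ} (hz : z.im ≠ 0) :
    Hyperbolic.lineEvalC (qq δ) ee x z ≠ 0 := by
  obtain ⟨l, v, h1, h2, h3⟩ := exists_spec (cZ_symm x)
  have h := bpoly_inv h1 h2 h3 hz
  have hd : (cZ (bpoly_pt x z)).det ≠ 0 := by
    rw [bpoly_cZ]
    exact Matrix.det_ne_zero_of_right_inverse h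
  show MvPolynomial.aeval (bpoly_pt x z) (qq δ) ≠ 0
  rw [aeval_qq, qv_eq δ hd]
  refine mul_ne_zero (pow_ne_zero _ hd) fun h0 => ?_
  obtain ⟨u, hu, hu0⟩ := Matrix.exists_mulVec_eq_zero_iff.2 h0
  rw [bpoly_cZ, Matrix.inv_eq_right_inv h, bpoly_cX, bpoly_cy, Phi_sum] at hu0
  simp only [Phi_smul, ← Phi_map] at hu0
  have hsv : ∀ k, (Phi δ (-cy x) (vecMulVec (v k) (v k))).IsSymm := fun k =>
    Phi_symm _ _ (by rw [Matrix.IsSymm, Matrix.transpose_vecMulVec])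
  have h4 := congrArg (fun w => star u ⬝ᵥ w) hu0
  simp only [Matrix.sub_mulVec, Matrix.smul_mulVec, Matrix.sum_mulVec, dotProduct_sub, dotProduct_smul,
    dotProduct_sum, dotProduct_zero, smul_eq_mul] at h4
  have h5 := bpoly_form (Matrix.isSymm_one : (1 : M4 ℝ).IsSymm) u
  rw [Matrix.map_one _ (map_zero _) (map_one _)] at h5
  simp only [Matrix.one_mulVec] at h5
  rw [Matrix.one_mulVec, h5, bpoly_form (cX_symm x)] at h4
  simp only [bpoly_form (hsv _), Phi_vv] at h4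
  set a : V4 := fun a => (u a).re with ha
  set b : V4 := fun a => (u a).im with hb
  have hτ : ∀ w, 0 ≤ cf δ (-cy x) w := fun w =>
    le_trans (mul_nonneg (mul_nonneg hδ.1.le (bpoly_nn _)) (bpoly_nn _)) (hδ.2 _ w)
  have hN : 0 < a ⬝ᵥ a + b ⬝ᵥ b := by
    have a0 : 0 ≤ a ⬝ᵥ a := bpoly_nn _
    have b0 : 0 ≤ b ⬝ᵥ b := bpoly_nn _
    rcases (add_nonneg a0 b0).lt_or_eq with h | h
    · exact h
    · exfalso
      apply hu
      have a1 : a = 0 := dotProduct_self_eq_zero.1 (by linarith)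
      have b1 : b = 0 := dotProduct_self_eq_zero.1 (by linarith)
      ext i
      exact Complex.ext (congrFun a1 i) (congrFun b1 i)
  have h6 := congrArg Complex.im h4
  simp only [Complex.sub_im, Complex.mul_im, Complex.ofReal_re, Complex.ofReal_im, Complex.im_sum, Complex.inv_im,
    mul_zero, zero_add, sub_zero, Complex.zero_im] at h6
  have h7 : z.im * ((a ⬝ᵥ a + b ⬝ᵥ b) + ∑ k, (cf δ (-cy x) (be a (v k)) + cf δ (-cy x) (be b (v k))) /
      Complex.normSq (z - (l k : ℂ))) = 0 := by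
    rw [← h6, mul_add, Finset.mul_sum, sub_eq_add_neg, ← Finset.sum_neg_distrib]
    congr 1
    refine Finset.sum_congr rfl fun k _ => ?_
    ring
  have h8 : 0 ≤ ∑ k, (cf δ (-cy x) (be a (v k)) + cf δ (-cy x) (be b (v k))) / Complex.normSq (z - (l k : ℂ)) :=
    Finset.sum_nonneg fun k _ => div_nonneg (add_nonneg (hτ _) (hτ _)) (Complex.normSq_nonneg _)
  rcases mul_eq_zero.1 h7 with h | h
  · exact hz h
  · linarith

theorem hyp_q {δ : ℝ} (hδ : Pos δ) : Hyperbolic.IsHyperbolic (qq δ) ee := by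
  refine ⟨⟨16, qq_hom δ⟩, by rw [eval_qq]; exact one_pos, fun x z h => ?_⟩
  by_contra hz
  exact qq_ne hδ x hz h

theorem hyp_p {δ : ℝ} (hδ : Pos δ) : Hyperbolic.IsHyperbolic (dd * qq δ) ee := by
  refine ⟨⟨4 + 16, dd_hom.mul (qq_hom δ)⟩, by rw [map_mul, eval_dd, eval_qq]; norm_num, fun x z h => ?_⟩
  by_contra hz
  unfold Hyperbolic.lineEvalC at h
  rw [map_mul] at h
  rcases mul_eq_zero.1 h with h | h
  · exact dd_ne x hz h
  · exact qq_ne hδ x hz h

end Crest.Agent.R237.B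

end
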