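import Crest.Agent.R237.BAlg

/-!
# R237 / BPolyA: the polynomials (prefix `bpolya_`)
-/

set_option autoImplicit false

open Matrix

noncomputable section

namespace Crest.Agent.R237.B

open Crest.GeometryTopology

/-- a determinant of homogeneous entries (`det_apply`, `IsHomogeneous.sum`, `.prod`) -/
theorem det_hom {σ ι : Type} [Fintype ι] [DecidableEq ι] {A : Matrix ι ι (MvPolynomial σ ℝ)} {d : ℕ}
    (h : ∀ i j, (A i j).IsHomogeneous d) : A.det.IsHomogeneous (Fintype.card ι * d) := by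
  rw [det_apply]
  refine MvPolynomial.IsHomogeneous.sum _ _ _ fun s _ => ?_
  have h1 : (∏ i, A (s i) i).IsHomogeneous (Fintype.card ι * d) := by
    simpa using MvPolynomial.IsHomogeneous.prod Finset.univ (fun i => A (s i) i) (fun _ => d) fun i _ => h _ _
  rcases Int.units_eq_one_or (Equiv.Perm.sign s) with e | e <;> rw [e]
  · rwa [one_smul]
  · rw [Units.neg_smul, one_smul]
    exact h1.neg

/-- all entries are homogeneous of degree `d` -/
def bpolya_H (d : ℕ) (A : M4 (MvPolynomial (Fin 23) ℝ)) : Prop := ∀ i j, (A i j).IsHomogeneous d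

theorem bpolya_mul {a b : ℕ} {A B : M4 (MvPolynomial (Fin 23) ℝ)} (hA : bpolya_H a A) (hB : bpolya_H b B) :
    bpolya_H (a + b) (A * B) := fun i j =>
  MvPolynomial.IsHomogeneous.sum _ _ _ fun k _ => (hA i k).mul (hB k j)

theorem bpolya_sum {ι : Type} [Fintype ι] {a : ℕ} {A : ι → M4 (MvPolynomial (Fin 23) ℝ)} (h : ∀ k, bpolya_H a (A k)) :
    bpolya_H a (∑ k, A k) := fun i j => by
  rw [Matrix.sum_apply]
  exact MvPolynomial.IsHomogeneous.sum _ _ _ fun k _ => h k i j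

theorem bpolya_star {a : ℕ} {A : M4 (MvPolynomial (Fin 23) ℝ)} (h : bpolya_H a A) : bpolya_H a (star4 A) := by
  intro i j
  fin_cases i <;> fin_cases j <;>
    first | exact MvPolynomial.isHomogeneous_zero _ _ _ | exact h _ _ | exact (h _ _).neg

theorem bpolya_Em (p : Fin 3) : bpolya_H 0 (Em _ p) := by
  have h : ∀ a b, bpolya_H 0 (Matrix.single a b 1) := fun a b i j => by
    rw [Matrix.single_apply]
    split_ifs
    · exact MvPolynomial.isHomogeneous_one _ _
    · exact MvPolynomial.isHomogeneous_zero _ _ _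
  exact fun i j => (h _ _ i j).sub (h _ _ i j)

theorem bpolya_adj {A : M4 (MvPolynomial (Fin 23) ℝ)} (h : bpolya_H 1 A) : bpolya_H 3 A.adjugate := by
  intro i j
  rw [adjugate_fin_succ_eq_det_submatrix]
  have h1 : (A.submatrix j.succAbove i.succAbove).det.IsHomogeneous 3 := det_hom (d := 1) fun a b => h _ _
  rcases neg_one_pow_eq_or (MvPolynomial (Fin 23) ℝ) (j + i : ℕ) with e | e <;> rw [e]
  · rwa [one_mul]
  · rw [neg_one_mul]
    exact h1.neg

theorem dd_hom : dd.IsHomogeneous 4 := by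
  exact det_hom (d := 1) fun _ _ => MvPolynomial.isHomogeneous_X _ _

/-- the entries of the adjugate have degree 3 (`adjugate_fin_succ_eq_det_submatrix`), those of `Fm` degree 2 -/
theorem qq_hom (δ : ℝ) : (qq δ).IsHomogeneous 16 := by
  have hX : bpolya_H 1 (cX MvPolynomial.X) := fun _ _ => MvPolynomial.isHomogeneous_X _ _
  have hZ : bpolya_H 1 (cZ MvPolynomial.X) := fun _ _ => MvPolynomial.isHomogeneous_X _ _
  have hy : ∀ j, (cy (MvPolynomial.X : Fin 23 → MvPolynomial (Fin 23) ℝ) j).IsHomogeneous 1 :=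
    fun _ => MvPolynomial.isHomogeneous_X _ _
  have hF : ∀ q, bpolya_H 2 (Fm (cZ MvPolynomial.X) q) := fun q =>
    bpolya_star (bpolya_mul (bpolya_mul hZ (bpolya_star fun i j => bpolya_Em q j i)) hZ)
  have hR : bpolya_H 4 (Rm δ (cy MvPolynomial.X) (cZ MvPolynomial.X)) :=
    bpolya_sum fun j => bpolya_sum fun p => bpolya_sum fun j' => bpolya_sum fun q a b =>
      (MvPolynomial.homogeneousSubmodule _ _ 4).smul_mem _
        (((hy j).mul (hy j')).mul (bpolya_mul (bpolya_Em p) (hF q) a b))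
  exact det_hom (d := 4) fun a b => (bpolya_mul hX (bpolya_adj hZ) a b).sub (hR a b)

theorem bpolya_map_Em {R S : Type} [CommRing R] [Algebra ℝ R] [CommRing S] [Algebra ℝ S] (f : R →ₐ[ℝ] S) (p : Fin 3) :
    f.mapMatrix (Em R p) = Em S p := by
  ext i j
  simp [Em, Matrix.single_apply, apply_ite f]

theorem bpolya_map_star {R S : Type} [CommRing R] [Algebra ℝ R] [CommRing S] [Algebra ℝ S] (f : R →ₐ[ℝ] S) (A : M4 R) :
    f.mapMatrix (star4 A) = star4 (f.mapMatrix A) := by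
  ext i j
  fin_cases i <;> fin_cases j <;> simp [star4]

theorem bpolya_map_Rm {R S : Type} [CommRing R] [Algebra ℝ R] [CommRing S] [Algebra ℝ S] (f : R →ₐ[ℝ] S) (δ : ℝ)
    (y : Fin 3 → R) (Z : M4 R) : f.mapMatrix (Rm δ y Z) = Rm δ (fun j => f (y j)) (f.mapMatrix Z) := by
  have h1 : ∀ (c : R) (A : M4 R), f.mapMatrix (c • A) = f c • f.mapMatrix A := fun c A => by
    ext i j
    simp
  have h2 : ∀ q, f.mapMatrix (Em R q)ᵀ = (Em S q)ᵀ := fun q => by
    rw [← bpolya_map_Em f q]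
    rfl
  simp only [Rm, Fm, map_sum, map_smul, h1, map_mul, bpolya_map_star, bpolya_map_Em, h2]

theorem aeval_dd {S : Type} [CommRing S] [Algebra ℝ S] (x : Fin 23 → S) : MvPolynomial.aeval x dd = (cZ x).det := by
  rw [dd, AlgHom.map_det]
  congr 1
  ext a b
  simp [cZ]

/-- `AlgHom.map_det`, `AlgHom.map_adjugate` -/
theorem aeval_qq {S : Type} [CommRing S] [Algebra ℝ S] (δ : ℝ) (x : Fin 23 → S) :
    MvPolynomial.aeval x (qq δ) = qv δ x := by
  have hX : (MvPolynomial.aeval x : MvPolynomial (Fin 23) ℝ →ₐ[ℝ] S).mapMatrix (cX MvPolynomial.X) = cX x := by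
    ext a b
    simp [cX]
  have hZ : (MvPolynomial.aeval x : MvPolynomial (Fin 23) ℝ →ₐ[ℝ] S).mapMatrix (cZ MvPolynomial.X) = cZ x := by
    ext a b
    simp [cZ]
  have hy : (fun j => (MvPolynomial.aeval x : MvPolynomial (Fin 23) ℝ →ₐ[ℝ] S) (cy MvPolynomial.X j)) = cy x := by
    ext a
    simp [cy]
  rw [qq, qv, qv, AlgHom.map_det, map_sub, map_mul, AlgHom.map_adjugate, bpolya_map_Rm, hX, hZ, hy]

/-- `X adj Z - Rm = (X - Phi y Z⁻¹) adj Z` since `Z⁻¹ Eᵀ adj Z = Fm` (`Fm_spec`); `det_adjugate` -/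
theorem qv_eq {S : Type} [Field S] [Algebra ℝ S] (δ : ℝ) {x : Fin 23 → S} (h : (cZ x).det ≠ 0) :
    qv δ x = (cZ x).det ^ 3 * (cX x - Phi δ (cy x) (cZ x)⁻¹).det := by
  have hu : IsUnit (cZ x).det := h.isUnit
  have h1 : ∀ q, (cZ x)⁻¹ * (Em S q)ᵀ * (cZ x).adjugate = Fm (cZ x) q := fun q => by
    apply smul_right_injective _ h
    calc (cZ x).det • ((cZ x)⁻¹ * (Em S q)ᵀ * (cZ x).adjugate)
        = (cZ x)⁻¹ * (cZ x * Fm (cZ x) q * cZ x) * (cZ x).adjugate := by
          rw [Fm_spec (cZ_symm x), Matrix.mul_smul, Matrix.smul_mul]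
      _ = (cZ x)⁻¹ * cZ x * Fm (cZ x) q * (cZ x * (cZ x).adjugate) := by simp only [Matrix.mul_assoc]
      _ = (cZ x).det • Fm (cZ x) q := by
          rw [nonsing_inv_mul _ hu, mul_adjugate, Matrix.one_mul, Matrix.mul_smul, Matrix.mul_one]
  have h2 : Phi δ (cy x) (cZ x)⁻¹ * (cZ x).adjugate = Rm δ (cy x) (cZ x) := by
    simp only [Phi, Th, Rm, Finset.sum_mul, smul_mul_assoc, mul_smul_comm, ← h1, Matrix.mul_assoc]
  rw [qv, ← h2, ← sub_mul, det_mul, det_adjugate, mul_comm]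
  simp

theorem eval_dd : MvPolynomial.eval ee dd = 1 := by
  rw [← MvPolynomial.coe_aeval_eq_eval]
  change MvPolynomial.aeval ee dd = 1
  rw [aeval_dd, ee, cZ_pt _ isSymm_one, det_one]

theorem eval_qq (δ : ℝ) : MvPolynomial.eval ee (qq δ) = 1 := by
  have hZ : cZ ee = 1 := cZ_pt _ isSymm_one _
  have hX : cX ee = 1 := cX_pt isSymm_one _ _
  have hy : cy ee = 0 := cy_pt _ _ _
  rw [← MvPolynomial.coe_aeval_eq_eval]
  change MvPolynomial.aeval ee (qq δ) = 1
  rw [aeval_qq, qv_eq δ (by simp [hZ]), hZ, hX, hy, Phi_zero]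
  simp

end Crest.Agent.R237.B

end
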