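import Crest.Agent.R237.BPolyA
import Crest.Agent.R237.BConeA

/-!
# R237 / BRootA: the hyperbolicity cones, first half (prefix `broota_`)
-/

set_option autoImplicit false

open Matrix

noncomputable section

namespace Crest.Agent.R237.B

open Crest.GeometryTopology

variable {δ : ℝ}

theorem broota_neg {σ : Type} {p : MvPolynomial σ ℝ} {d : ℕ} (hp : p.IsHomogeneous d) (hd : Even d) (v : σ → ℝ) :
    MvPolynomial.eval (-v) p = MvPolynomial.eval v p := by
  rw [MvPolynomial.eval_eq, MvPolynomial.eval_eq]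
  refine Finset.sum_congr rfl fun m hm => ?_
  have h1 : m.degree = d := by
    by_contra h
    exact MvPolynomial.mem_support_iff.1 hm (hp.coeff_eq_zero h)
  have h2 : ∏ i ∈ m.support, (-v) i ^ m i = (-1) ^ d * ∏ i ∈ m.support, v i ^ m i := by
    rw [← h1, Finsupp.degree_apply, ← Finset.prod_pow_eq_pow_sum, ← Finset.prod_mul_distrib]
    exact Finset.prod_congr rfl fun i _ => neg_pow _ _
  rw [h2, hd.neg_one_pow, one_mul]

theorem broota_cone {p : MvPolynomial (Fin 23) ℝ} {d : ℕ} (hp : p.IsHomogeneous d) (hd : Even d) (x : Fin 23 → ℝ) :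
    x ∈ Hyperbolic.closedCone p ee ↔ ∀ s : ℝ, 0 < s → MvPolynomial.eval (x + s • ee) p ≠ 0 := by
  have e : ∀ t : ℝ, MvPolynomial.eval (fun i => t * ee i - x i) p = MvPolynomial.eval (x + (-t) • ee) p := fun t => by
    rw [← broota_neg hp hd (x + _)]
    congr 2
    funext i
    simp only [Pi.neg_apply, Pi.add_apply, Pi.smul_apply, smul_eq_mul]
    ring
  simp only [Hyperbolic.closedCone, Set.mem_ofPred_eq, e]
  refine ⟨fun h s hs h0 => ?_, fun h t h0 => not_lt.1 fun ht => h (-t) (neg_pos.2 ht) h0⟩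
  have := h (-s) (by rwa [neg_neg])
  linarith

theorem broota_q (δ : ℝ) (x : Fin 23 → ℝ) : MvPolynomial.eval x (qq δ) = qv δ x := by
  rw [← aeval_qq, MvPolynomial.aeval_eq_eval]

theorem broota_d (x : Fin 23 → ℝ) : MvPolynomial.eval x dd = (cZ x).det := by
  rw [← aeval_dd, MvPolynomial.aeval_eq_eval]

/-- the value at `t e - x`, `t = -s`, is the value at `x + s e` (even degrees: `IsHomogeneous.eval₂`/`det_neg`) -/
theorem mem_cone_q (δ : ℝ) (x : Fin 23 → ℝ) :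
    x ∈ Hyperbolic.closedCone (qq δ) ee ↔ ∀ s : ℝ, 0 < s → qv δ (x + s • ee) ≠ 0 := by
  simp only [broota_cone (qq_hom δ) (by decide), broota_q]

theorem mem_cone_p (δ : ℝ) (x : Fin 23 → ℝ) : x ∈ Hyperbolic.closedCone (dd * qq δ) ee ↔
    ∀ s : ℝ, 0 < s → (cZ (x + s • ee)).det ≠ 0 ∧ qv δ (x + s • ee) ≠ 0 := by
  simp only [broota_cone (dd_hom.mul (qq_hom δ)) (by decide), map_mul, broota_q, broota_d, mul_ne_zero_iff]

/-- a continuous family of symmetric invertible matrices which is positive definite somewhere is positive definite (the set of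
`s` where it is positive definite is open and relatively closed: a limit is positive semidefinite and invertible) -/
theorem posDef_of_family {M : ℝ → M4 ℝ} {a : ℝ} (hc : ContinuousOn M (Set.Ioi a)) (hs : ∀ s, a < s → (M s).IsSymm)
    (hd : ∀ s, a < s → (M s).det ≠ 0) {b : ℝ} (hb : a < b) (h : (M b).PosDef) : ∀ s, a < s → (M s).PosDef := by
  have hf : Continuous fun p : Set.Ioi a × V4 => p.2 ⬝ᵥ (M p.1 *ᵥ p.2) :=
    continuous_snd.dotProduct (((continuousOn_iff_continuous_domRestrict.1 hc).comp continuous_fst).matrix_mulVec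
      continuous_snd)
  have hK := isCompact_sphere (0 : V4) 1
  obtain ⟨m, hm⟩ : ∃ m : Set.Ioi a → ℝ,
      m = fun s : Set.Ioi a => sInf ((fun v : V4 => v ⬝ᵥ (M s *ᵥ v)) '' Metric.sphere 0 1) := ⟨_, rfl⟩
  have hmc : Continuous m := hm ▸ hK.continuous_sInf (f := fun (s : Set.Ioi a) (v : V4) => v ⬝ᵥ (M s *ᵥ v)) hf
  have h1 : ∀ s : Set.Ioi a, ∃ v ∈ Metric.sphere (0 : V4) 1, m s = v ⬝ᵥ (M s *ᵥ v) ∧
      ∀ w ∈ Metric.sphere (0 : V4) 1, v ⬝ᵥ (M s *ᵥ v) ≤ w ⬝ᵥ (M s *ᵥ w) := fun s =>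
    hm ▸ hK.exists_sInf_image_eq_and_le (NormedSpace.sphere_nonempty.2 zero_le_one)
      (hf.comp (Continuous.prodMk_right s)).continuousOn
  have h2 : ∀ s : Set.Ioi a, (M s).PosDef → 0 < m s := fun s h => by
    obtain ⟨v, hv, e, -⟩ := h1 s
    rw [e]
    exact h.dotProduct_mulVec_pos (x := v) (by rintro rfl; simp at hv)
  have h3 : ∀ s : Set.Ioi a, 0 ≤ m s → (M s).PosDef := fun s h => by
    obtain ⟨v, -, e, hv⟩ := h1 s
    refine (PosSemidef.posDef_iff_det_ne_zero (.of_dotProduct_mulVec_nonneg (hs s s.2) fun w => ?_)).2 (hd s s.2)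
    rcases eq_or_ne w 0 with rfl | hw
    · simp
    have h4 := h.trans (e.trans_le (hv (‖w‖⁻¹ • w) (by simp [norm_smul, hw])))
    rw [mulVec_smul, dotProduct_smul, smul_dotProduct, smul_eq_mul, smul_eq_mul] at h4
    have h5 : 0 < ‖w‖⁻¹ := inv_pos.2 (norm_pos_iff.2 hw)
    exact nonneg_of_mul_nonneg_right (nonneg_of_mul_nonneg_right h4 h5) h5
  intro s hs'
  refine h3 ⟨s, hs'⟩ (not_lt.1 fun h4 => ?_)
  have : PreconnectedSpace (Set.Ioi a) := Subtype.preconnectedSpace isPreconnected_Ioi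
  obtain ⟨t, ht⟩ := intermediate_value_univ ⟨s, hs'⟩ ⟨b, hb⟩ hmc ⟨h4.le, (h2 ⟨b, hb⟩ h).le⟩
  exact (h2 t (h3 t ht.ge)).ne' ht

/-- `x + (s/2) e ∈ K0`, so `x + s e - (s / 4) (1, 0, 0)`-type monotonicity (`K0_sub`) makes `X + s - Phi y (Z + s)⁻¹` positive
definite; `qv_eq` -/
theorem ne_of_KK (hδ : Pos δ) {x : Fin 23 → ℝ} (h : x ∈ KK δ) {s : ℝ} (hs : 0 < s) :
    (cZ (x + s • ee)).det ≠ 0 ∧ qv δ (x + s • ee) ≠ 0 := by
  have h1 := (h s hs).1.det_pos.ne'
  refine ⟨h1, ?_⟩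
  rw [qv_eq δ h1]
  refine mul_ne_zero (pow_ne_zero _ h1) (PosDef.det_pos ?_).ne'
  have h2 := h (s / 2) (by positivity)
  rw [← pt_c (x + (s / 2) • ee), ← K0_scale (cX_symm _) (cZ_symm _) _ (ε := 1 / 2) (by norm_num)] at h2
  have h3 := K0_sub hδ h2 (s / 8) (by positivity)
  have e : (1 / 2 : ℝ) ^ 2 • cZ (x + (s / 2) • ee) + (s / 8) • (1 : M4 ℝ) = (1 / 2 : ℝ) ^ 2 • cZ (x + s • ee) := by
    rw [cZ_shift, cZ_shift]
    module
  have hX : (cX (x + (s / 2) • ee) + (s / 8) • (1 : M4 ℝ)).IsSymm := (cX_symm _).add (isSymm_one.smul _)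
  rw [show (s / 8) • ee = _ from (pt_smul _ _ _ _).symm, ← pt_add, e, smul_zero, add_zero, K0_scale hX (cZ_symm _) _ (by norm_num)] at h3
  have h4 := h3.2
  rw [cX_pt hX, cZ_pt _ (cZ_symm _), cy_pt, cy_shift] at h4
  have h5 := PosDef.posSemidef_add h4 ((PosDef.one (n := Fin 4) (R := ℝ)).smul (show 0 < 3 * s / 8 by positivity))
  refine Eq.mp (congrArg PosDef ?_) h5
  rw [cX_shift, cX_shift, cy_shift]
  module

end Crest.Agent.R237.B

end
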