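import Crest.Agent.R237.BPoly
import Crest.Agent.R237.BRootA

/-!
# R237 / BRoot: the hyperbolicity cones (prefix `broot_`)
-/

set_option autoImplicit false

open Matrix

noncomputable section

namespace Crest.Agent.R237.B

open Crest.GeometryTopology

variable {δ : ℝ}

theorem broot_spec_pos {Z : M4 ℝ} {l : Fin 4 → ℝ} {v : Fin 4 → V4} (h1 : Z = ∑ k, l k • vecMulVec (v k) (v k))
    (h2 : ∑ k, vecMulVec (v k) (v k) = 1) {s : ℝ} (hs : ∀ k, 0 < l k + s) : (Z + s • (1 : M4 ℝ)).PosDef := by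
  obtain ⟨k₀, hk₀⟩ := Finite.exists_min l
  have e : Z + s • (1 : M4 ℝ) = ∑ k, (l k - l k₀) • vecMulVec (v k) (v k) + (l k₀ + s) • (1 : M4 ℝ) := by
    simp only [sub_smul, Finset.sum_sub_distrib, ← Finset.smul_sum, h2, ← h1, add_smul]
    abel
  rw [e]
  refine PosDef.posSemidef_add (posSemidef_sum _ fun k _ => PosSemidef.smul ?_ (sub_nonneg.2 (hk₀ k)))
    (PosDef.one.smul (hs k₀))
  simpa using posSemidef_vecMulVec_self_star (v k)

theorem broot_big {A : M4 ℝ} (h : A.IsSymm) : ∃ b : ℝ, ∀ s, b < s → (A + s • (1 : M4 ℝ)).PosDef := by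
  obtain ⟨l, v, -, h1, h2⟩ := exists_spec h
  obtain ⟨k₀, hk₀⟩ := Finite.exists_min l
  exact ⟨-l k₀, fun s hs => broot_spec_pos h1 h2 fun k => by linarith [hk₀ k]⟩

theorem broot_inv_symm {Z : M4 ℝ} (h : Z.IsSymm) : Z⁻¹.IsSymm := by
  rw [IsSymm, transpose_nonsing_inv, h.eq]

theorem broot_add_symm {Z : M4 ℝ} (h : Z.IsSymm) (s : ℝ) : (Z + s • (1 : M4 ℝ)).IsSymm :=
  h.add (isSymm_one.smul s)

theorem broot_inv_anti {Z : M4 ℝ} (hZ : Z.PosDef) {t : ℝ} (ht : 0 ≤ t) : (Z⁻¹ - (Z + t • (1 : M4 ℝ))⁻¹).PosSemidef := by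
  have hW : (Z + t • (1 : M4 ℝ)).PosDef := hZ.add_posSemidef (PosSemidef.one.smul ht)
  have d1 : IsUnit Z.det := (isUnit_iff_isUnit_det _).1 hZ.isUnit
  have d2 : IsUnit (Z + t • (1 : M4 ℝ)).det := (isUnit_iff_isUnit_det _).1 hW.isUnit
  have h1 : (t • (1 : M4 ℝ) + t ^ 2 • Z⁻¹).PosSemidef :=
    (PosSemidef.one.smul ht).add (hZ.inv.posSemidef.smul (sq_nonneg t))
  have h2 := h1.conjTranspose_mul_mul_same (Z + t • (1 : M4 ℝ))⁻¹
  rw [hW.inv.isHermitian.eq] at h2
  have h3 : t • (1 : M4 ℝ) + t ^ 2 • Z⁻¹ = (Z + t • (1 : M4 ℝ)) * Z⁻¹ * (Z + t • (1 : M4 ℝ)) - (Z + t • (1 : M4 ℝ)) := by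
    simp only [Matrix.add_mul, Matrix.mul_add, Matrix.smul_mul, Matrix.mul_smul, Matrix.one_mul, Matrix.mul_one,
      mul_nonsing_inv _ d1, nonsing_inv_mul _ d1, smul_add, smul_smul, sq]
    abel
  generalize Z + t • (1 : M4 ℝ) = W at h2 h3 d2 ⊢
  have h4 : W⁻¹ * (W * Z⁻¹ * W - W) * W⁻¹ = Z⁻¹ - W⁻¹ := by
    rw [Matrix.mul_sub, Matrix.sub_mul, nonsing_inv_mul _ d2, Matrix.one_mul, ← Matrix.mul_assoc, ← Matrix.mul_assoc,
      nonsing_inv_mul _ d2, Matrix.one_mul, Matrix.mul_assoc, mul_nonsing_inv _ d2, Matrix.mul_one]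
  rwa [h3, h4] at h2

theorem broot_entry {M : M4 ℝ} (h : M.PosSemidef) (i j : Fin 4) : |M i j| ≤ M.trace := by
  have hd : ∀ k, M k k ≤ M.trace := fun k =>
    Finset.single_le_sum (f := fun k => M k k) (fun k _ => h.diag_nonneg) (Finset.mem_univ k)
  have hs : M j i = M i j := by simpa using h.isHermitian.apply i j
  have h1 : ∀ c : ℝ, 0 ≤ M i i + 2 * c * M i j + c ^ 2 * M j j := fun c => by
    have := h.dotProduct_mulVec_nonneg (Pi.single i 1 + c • Pi.single j 1)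
    simp only [star_trivial, mulVec_add, mulVec_smul, add_dotProduct, dotProduct_add, smul_dotProduct, dotProduct_smul,
      single_dotProduct, mulVec_single_one, col_apply, one_mul, smul_eq_mul, hs] at this
    linarith
  rw [abs_le]
  constructor <;> nlinarith [h1 1, h1 (-1), hd i, hd j]

theorem broot_cont_Phi (δ : ℝ) (y : V3) : Continuous fun W : M4 ℝ => Phi δ y W := by
  unfold Phi Th
  refine continuous_finsetSum _ fun _ _ => continuous_finsetSum _ fun _ _ => continuous_finsetSum _ fun _ _ =>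
    continuous_finsetSum _ fun _ _ => Continuous.fun_const_smul ?_ _
  exact (continuous_const.matrix_mul (continuous_id.fun_const_smul _)).matrix_mul continuous_const

theorem broot_cont_qv (δ : ℝ) (x : Fin 23 → ℝ) : Continuous fun s : ℝ => qv δ (x + s • ee) := by
  have : (fun s : ℝ => qv δ (x + s • ee)) = fun s : ℝ => MvPolynomial.eval (x + s • ee) (qq δ) := by
    funext s
    rw [← aeval_qq, MvPolynomial.aeval_eq_eval]
  rw [this]
  exact (MvPolynomial.continuous_eval _).comp (by fun_prop)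

theorem broot_qv (δ : ℝ) (x : Fin 23 → ℝ) {s : ℝ} (h : (cZ x + s • (1 : M4 ℝ)).PosDef) :
    qv δ (x + s • ee) = (cZ x + s • (1 : M4 ℝ)).det ^ 3 *
      (cX x + s • (1 : M4 ℝ) - Phi δ (cy x) (cZ x + s • (1 : M4 ℝ))⁻¹).det := by
  rw [qv_eq δ (by rw [cZ_shift]; exact h.det_pos.ne'), cX_shift, cZ_shift, cy_shift]

theorem broot_pos (hδ : Pos δ) {x : Fin 23 → ℝ} {a : ℝ} (h : ∀ s : ℝ, a < s → qv δ (x + s • ee) ≠ 0)
    (hZ : ∀ s : ℝ, a < s → (cZ x + s • (1 : M4 ℝ)).PosDef) :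
    ∀ s : ℝ, a < s → (cX x + s • (1 : M4 ℝ) - Phi δ (cy x) (cZ x + s • (1 : M4 ℝ))⁻¹).PosDef := by
  have hP : ∀ s : ℝ, (Phi δ (cy x) (cZ x + s • (1 : M4 ℝ))⁻¹).IsSymm := fun s =>
    Phi_symm δ _ (broot_inv_symm (broot_add_symm (cZ_symm x) s))
  obtain ⟨b, hb⟩ := broot_big ((cX_symm x).sub (hP (a + 1)))
  refine posDef_of_family (b := max b (a + 1) + 1) (fun s hs => ContinuousAt.continuousWithinAt ?_)
    (fun s _ => (broot_add_symm (cX_symm x) s).sub (hP s)) (fun s hs h0 => h s hs (by rw [broot_qv δ x (hZ s hs), h0, mul_zero]))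
    (by linarith [le_max_right b (a + 1)]) ?_
  · refine ContinuousAt.sub (by fun_prop) ((broot_cont_Phi δ _).continuousAt.comp ?_)
    refine ContinuousAt.comp (g := Inv.inv) (f := fun s : ℝ => cZ x + s • (1 : M4 ℝ))
      (continuousAt_matrix_inv _ ?_) (by fun_prop)
    rw [Ring.inverse_eq_inv']
    exact continuousAt_inv₀ (hZ s hs).det_pos.ne'
  · set t := max b (a + 1) + 1 with ht
    have h1 := broot_inv_anti (hZ (a + 1) (by linarith)) (t := t - (a + 1)) (by linarith [le_max_right b (a + 1)])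
    rw [add_assoc, ← add_smul, add_sub_cancel] at h1
    have h2 := (hb t (by linarith [le_max_left b (a + 1)])).add_posSemidef (Phi_psd hδ (cy x) h1)
    have h3 := Phi_add δ (cy x) ((cZ x + (a + 1) • (1 : M4 ℝ))⁻¹ - (cZ x + t • (1 : M4 ℝ))⁻¹) (cZ x + t • (1 : M4 ℝ))⁻¹
    rw [sub_add_cancel] at h3
    convert h2 using 1
    rw [h3]
    abel

/-- Let `s₀ = max 0 (-min l k)` (`exists_spec` for `Z`).  For `s > s₀`: `Z + s ≻ 0`, `M s = X + s - Phi y (Z + s)⁻¹` is invertible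
(`qv_eq`) and positive definite for large `s`, so `M s ≻ 0` (`posDef_of_family`).  Then `0 ≺ M s ⪯ X + s` (`Phi_psd`), the entries
of `M s` stay bounded as `s ↓ s₀`; if `s₀ > 0` then `det (Z + s) → 0`, so `qv (x + s₀ e) = 0` by continuity, a contradiction. -/
theorem KK_of_ne (hδ : Pos δ) {x : Fin 23 → ℝ} (h : ∀ s : ℝ, 0 < s → qv δ (x + s • ee) ≠ 0) : x ∈ KK δ := by
  obtain ⟨l, v, h0, h1, h2⟩ := exists_spec (cZ_symm x)
  obtain ⟨k, hk⟩ := Finite.exists_min l
  rcases le_or_gt 0 (l k) with hl | hl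
  · have hZ : ∀ s : ℝ, 0 < s → (cZ x + s • (1 : M4 ℝ)).PosDef := fun s hs =>
      broot_spec_pos h1 h2 fun k' => by linarith [hk k']
    intro s hs
    rw [K0, Set.mem_ofPred_eq, cX_shift, cZ_shift, cy_shift]
    exact ⟨hZ s hs, (broot_pos hδ h hZ s hs).posSemidef⟩
  · exfalso
    have hZ : ∀ s : ℝ, -l k < s → (cZ x + s • (1 : M4 ℝ)).PosDef := fun s hs =>
      broot_spec_pos h1 h2 fun k' => by linarith [hk k']
    have hM := broot_pos hδ (fun s hs => h s (by linarith)) hZ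
    have hd : (cZ x + (-l k) • (1 : M4 ℝ)).det = 0 := by
      refine exists_mulVec_eq_zero_iff.1 ⟨v k, fun hv => by simpa [hv] using h0 k k, ?_⟩
      rw [add_mulVec, smul_mulVec, one_mulVec, h1, sum_mulVec, Finset.sum_eq_single k]
      · rw [smul_mulVec, vecMulVec_mulVec, h0]
        simp
      · intro k' _ hk'
        rw [smul_mulVec, vecMulVec_mulVec, h0]
        simp [hk']
      · simp
    have hle : ∀ s ∈ Set.Ioi (-l k), |qv δ (x + s • ee)| ≤
        |(cZ x + s • (1 : M4 ℝ)).det ^ 3| * (24 * (cX x + s • (1 : M4 ℝ)).trace ^ 4) := fun s hs => by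
      rw [broot_qv δ x (hZ s hs), abs_mul]
      refine mul_le_mul_of_nonneg_left ?_ (abs_nonneg _)
      have h3 := det_le (abv := AbsoluteValue.abs) (x := (cX x + s • (1 : M4 ℝ)).trace) fun i j =>
        (broot_entry (hM s hs).posSemidef i j).trans (by
          rw [trace_sub]
          linarith [(Phi_psd hδ (cy x) (hZ s hs).inv.posSemidef).trace_nonneg])
      simpa [Nat.factorial] using h3
    have c1 : Continuous fun s : ℝ => cZ x + s • (1 : M4 ℝ) := by fun_prop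
    have c2 : Continuous fun s : ℝ => cX x + s • (1 : M4 ℝ) := by fun_prop
    have h4 := ContinuousWithinAt.closure_le (x := -l k) (s := Set.Ioi (-l k)) (by simp)
      (broot_cont_qv δ x).abs.continuousWithinAt
      ((c1.matrix_det.pow 3).abs.mul (continuous_const.mul (c2.matrix_trace.pow 4))).continuousWithinAt hle
    simp only [Pi.mul_apply, Pi.pow_apply, hd] at h4
    exact h (-l k) (by linarith) (by simpa using h4)

theorem cone_q (hδ : Pos δ) : Hyperbolic.closedCone (qq δ) ee = KK δ :=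
  Set.ext fun x => (mem_cone_q δ x).trans ⟨KK_of_ne hδ, fun h _ hs => (ne_of_KK hδ h hs).2⟩

theorem cone_p (hδ : Pos δ) : Hyperbolic.closedCone (dd * qq δ) ee = KK δ :=
  Set.ext fun x => (mem_cone_p δ x).trans ⟨fun h => KK_of_ne hδ fun s hs => (h s hs).2, fun h _ hs => ne_of_KK hδ h hs⟩

end Crest.Agent.R237.B

end
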