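import Crest.Agent.R237.BAlg
import Crest.Agent.R237.BFeas

/-!
# R237 / BSoundA: soundness of the lift, main step (prefix `bsounda_`)
-/

set_option autoImplicit false

open Matrix

noncomputable section

namespace Crest.Agent.R237.B

variable {δ : ℝ} {X Z : M4 ℝ} {y : V3} {G : Fin 3 → Fin 3 → Fin 3 → Fin 3 → M4 ℝ} {Y : Fin 3 → Fin 3 → Fin 3 → ℝ}
  {H : Fin 3 → Fin 3 → M4 ℝ}

/-- the transformation matrix -/
def bsounda_T (B C : Matrix (Fin 3) (Fin 4) ℝ) (u : V3) :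
    Matrix I3 ((Fin 3 × Fin 3 × Fin 4) ⊕ (Fin 3 × Fin 4)) ℝ :=
  Matrix.of fun α => Sum.elim (fun β => if α.1 = β.1 ∧ α.2.1 = β.2.1 then B α.2.2 β.2.2 else 0)
    (fun β => if α.1 = β.1 then -(u α.2.1 * C α.2.2 β.2) else 0)

theorem bsounda_sum (B C : Matrix (Fin 3) (Fin 4) ℝ) (u : V3) (i j l : Fin 3)
    (f : (Fin 3 × Fin 3 × Fin 4) ⊕ (Fin 3 × Fin 4) → ℝ) :
    ∑ γ, bsounda_T B C u (i, j, l) γ * f γ =
      ∑ a, B l a * f (.inl (i, j, a)) - u j * ∑ b, C l b * f (.inr (i, b)) := by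
  rw [Fintype.sum_sum_type]
  simp only [bsounda_T, Matrix.of_apply, Sum.elim_inl, Sum.elim_inr, Fintype.sum_prod_type]
  rw [sub_eq_add_neg]
  congr 1
  · rw [Finset.sum_eq_single i, Finset.sum_eq_single j]
    · simp
    · intro b _ hb
      simp [Ne.symm hb]
    · simp
    · intro b _ hb
      simp [Ne.symm hb]
    · simp
  · rw [Finset.sum_eq_single i]
    · simp [Finset.mul_sum, mul_assoc]
    · intro b _ hb
      simp [Ne.symm hb]
    · simp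

theorem bsounda_entry (B C : Matrix (Fin 3) (Fin 4) ℝ) (u : V3) (i j l i' j' l' : Fin 3) :
    (bsounda_T B C u * Mom G Y H * (bsounda_T B C u)ᵀ) (i, j, l) (i', j', l') =
      (B * G i j i' j' * Bᵀ) l l' - u j' * Y i j i' * (B * Cᵀ) l l' - u j * Y i' j' i * (C * Bᵀ) l l' +
        u j * u j' * (C * H i i' * Cᵀ) l l' := by
  rw [Matrix.mul_apply]
  simp only [Matrix.transpose_apply]
  have e : ∀ γ, (bsounda_T B C u * Mom G Y H) (i, j, l) γ * bsounda_T B C u (i', j', l') γ =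
      bsounda_T B C u (i', j', l') γ * (bsounda_T B C u * Mom G Y H) (i, j, l) γ := fun γ => mul_comm _ _
  simp only [e]
  rw [bsounda_sum]
  simp only [Matrix.mul_apply (M := bsounda_T B C u), bsounda_sum]
  simp only [Mom, Matrix.fromBlocks_apply₁₁, Matrix.fromBlocks_apply₁₂, Matrix.fromBlocks_apply₂₁,
    Matrix.fromBlocks_apply₂₂, Matrix.of_apply, mul_ite, mul_zero, Finset.sum_ite_eq, Finset.sum_ite_eq',
    Finset.mem_univ, if_true, Matrix.mul_apply, Matrix.transpose_apply]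
  simp only [Fin.sum_univ_four]
  ring

theorem bsounda_xm (η m : V3) (hη : η ⬝ᵥ η = 1) (hm : m ⬝ᵥ η = 0) (r w : ℝ)
    (A : Fin 3 → Fin 3 → Fin 3 → Fin 3 → ℝ) (hA : ∀ i j k l, A i j k l = A l j k i)
    (Y : Fin 3 → Fin 3 → Fin 3 → ℝ) (K : Fin 3 → Fin 3 → ℝ) :
    ∑ i, ∑ j, ∑ i', ∑ j', (η i * m j * η i' * m j' - m i * m j * η i' * η j') *
      (A i j i' j' - r * η j' * Y i j i' * w - r * η j * Y i' j' i * w + r * η j * (r * η j') * K i i') =
      r * (∑ i, ∑ j, ∑ i', m i * m j * η i' * Y i j i') * w := by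
  have h1 : ∑ i, ∑ j, ∑ i', ∑ j', η i * m j * η i' * m j' * A i j i' j' =
      ∑ i, ∑ j, ∑ i', ∑ j', m i * m j * η i' * η j' * A i j i' j' := by
    have : ∑ i, ∑ j, ∑ i', ∑ j', m i * m j * η i' * η j' * A i j i' j' =
        ∑ i, ∑ j, ∑ i', ∑ j', m i * m j * η i' * η j' * A j' j i' i := by
      simp only [← hA]
    rw [this]
    simp only [Fin.sum_univ_three]
    ring
  have h2 : ∑ i, ∑ j, ∑ i', ∑ j', (η i * m j * η i' * m j' - m i * m j * η i' * η j') *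
      (A i j i' j' - r * η j' * Y i j i' * w - r * η j * Y i' j' i * w + r * η j * (r * η j') * K i i') =
      ((∑ i, ∑ j, ∑ i', ∑ j', η i * m j * η i' * m j' * A i j i' j') -
        ∑ i, ∑ j, ∑ i', ∑ j', m i * m j * η i' * η j' * A i j i' j') -
      r * w * ((m ⬝ᵥ η) * (∑ i, ∑ j, ∑ i', η i * m j * η i' * Y i j i') -
        (η ⬝ᵥ η) * (∑ i, ∑ j, ∑ i', m i * m j * η i' * Y i j i')) -
      r * w * (m ⬝ᵥ η) * ((∑ i, ∑ i', ∑ j', η i * η i' * m j' * Y i' j' i) -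
        (∑ i, ∑ i', ∑ j', m i * η i' * η j' * Y i' j' i)) +
      r ^ 2 * (m ⬝ᵥ η) * ((m ⬝ᵥ η) * (∑ i, ∑ i', η i * η i' * K i i') -
        (η ⬝ᵥ η) * (∑ i, ∑ i', m i * η i' * K i i')) := by
    simp only [dotProduct, Fin.sum_univ_three]
    ring
  rw [h2, h1, hm, hη]
  ring

theorem bsounda_polar (y : V3) : ∃ (r : ℝ) (η : V3), η ⬝ᵥ η = 1 ∧ ∀ j, y j = r * η j := by
  by_cases hy : y = 0
  · exact ⟨0, Pi.single 0 1, by simp, fun j => by simp [hy]⟩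
  · have h0 : 0 < y ⬝ᵥ y := by
      have h1 : 0 ≤ y ⬝ᵥ y := Finset.sum_nonneg fun i _ => mul_self_nonneg _
      exact lt_of_le_of_ne h1 fun h => hy (dotProduct_self_eq_zero.1 h.symm)
    have hs : 0 < Real.sqrt (y ⬝ᵥ y) := Real.sqrt_pos.2 h0
    refine ⟨Real.sqrt (y ⬝ᵥ y), (Real.sqrt (y ⬝ᵥ y))⁻¹ • y, ?_, fun j => ?_⟩
    · rw [smul_dotProduct, dotProduct_smul, smul_eq_mul, smul_eq_mul, ← mul_assoc, ← mul_inv,
        Real.mul_self_sqrt h0.le, inv_mul_cancel₀ h0.ne']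
    · rw [Pi.smul_apply, smul_eq_mul, ← mul_assoc, mul_inv_cancel₀ hs.ne', one_mul]

theorem bsounda_conj_symm (B : Matrix (Fin 3) (Fin 4) ℝ) {M : M4 ℝ} (h : M.IsSymm) (l l' : Fin 3) :
    (B * M * Bᵀ) l l' = (B * M * Bᵀ) l' l := by
  have : (B * M * Bᵀ)ᵀ = B * M * Bᵀ := by
    rw [Matrix.transpose_mul, Matrix.transpose_mul, Matrix.transpose_transpose, h.eq, Matrix.mul_assoc]
  conv_lhs => rw [← this]
  rfl

theorem bsounda_adm (h : Feas δ X Z y G Y H) (B C : Matrix (Fin 3) (Fin 4) ℝ) (W : Matrix (Fin 3) (Fin 3) ℝ)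
    (hW : ∀ l l', W l l' = W l' l) (h1 : B * Cᵀ = W) (h2 : C * Bᵀ = W) {r : ℝ} {η : V3} (hη : η ⬝ᵥ η = 1)
    (hy : ∀ j, y j = r * η j) : Adm η (bsounda_T B C y * Mom G Y H * (bsounda_T B C y)ᵀ) := by
  have hG34 : ∀ i j k l, G i j k l = G i j l k := fun i j k l => by
    rw [h.G3 i j k l, h.G1 k l i j, h.G3 l k i j]
  have hG14 : ∀ i j k l, G i j k l = G l j k i := fun i j k l => by
    rw [hG34 i j k l, h.G2 i j l k, hG34 l j i k]
  refine ⟨hη, ?_, ?_, ?_, ?_, ?_⟩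
  · have := h.psd.mul_mul_conjTranspose_same (bsounda_T B C y)
    rwa [Matrix.conjTranspose_eq_transpose_of_trivial] at this
  · intro i j l i' j' l'
    rw [bsounda_entry, bsounda_entry, h.G2 i j i' j', h.Y2 i j i', h.Y2 i' j' i, h.H1 i i']
  · intro i j l i' j' l'
    rw [bsounda_entry, bsounda_entry, h1, h2, hW l l', bsounda_conj_symm B (h.G4 i j i' j') l l',
      bsounda_conj_symm C (h.H2 i i') l l']
  · rintro l ⟨i', j', l'⟩
    simp only [bsounda_entry, hy]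
    rw [h.G1 1 2 i' j', h.G1 2 0 i' j', h.G1 0 1 i' j', h.Y1 1 2 i', h.Y1 2 0 i', h.Y1 0 1 i']
    ring
  · have key : ∀ m : V3, m ⬝ᵥ η = 0 → ∀ a b,
        Xm (bsounda_T B C y * Mom G Y H * (bsounda_T B C y)ᵀ) η m a b =
          r * (∑ i, ∑ j, ∑ i', m i * m j * η i' * Y i j i') * W a b := by
      intro m hm a b
      unfold Xm
      simp only [bsounda_entry, hy, h1, h2]
      exact bsounda_xm η m hη hm r (W a b) (fun i j i' j' => (B * G i j i' j' * Bᵀ) a b)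
        (fun i j k l => by rw [hG14 i j k l]) Y (fun i i' => (C * H i i' * Cᵀ) a b)
    have hp : ∀ v : V3, (η ⨯₃ v) ⬝ᵥ η = 0 := fun v => by
      rw [dotProduct_comm]; exact dot_self_cross η v
    intro k k' a b c d
    rw [key _ (hp _), key _ (hp _), key _ (hp _), key _ (hp _)]
    ring

/-- Fix `g`, `B = Bm g`, write `y = r • η` with `η ⬝ᵥ η = 1` (`η = e₀`, `r = 0` if `y = 0`), `W = B Z⁻¹ Bᵀ`, and let `E = T * Mom * Tᵀ` where
`T (i,j,l) (inl (i',j',a)) = δ_{ii'} δ_{jj'} B l a`, `T (i,j,l) (inr (i',b)) = -η j δ_{ii'} r (B Z⁻¹) l b`, i.e.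
`E (i,j,l) (i',j',l') = (B G i j i' j' Bᵀ) l l' - η j' Y i j i' r W l l' - η j Y i' j' i r W l l' + η j η j' r² (B Z⁻¹ H i i' Z⁻¹ Bᵀ) l l'`.
`Adm η E` holds (`Xm E η m = r Y(m,m,η) W` for `m ⊥ η`), `∑ᵢ E (i,j,l) (i,j',l') = (B (∑ᵢ G i j i j') Bᵀ) l l' - y j y j' W l l'`; now
`Core` and `Th_form` give `gᵀ Phi y Z⁻¹ g ≤ gᵀ Th(..) g ≤ gᵀ X g`. -/
theorem Feas.sound0 (hc : Core δ) (h : Feas δ X Z y G Y H) (hZ : Z.PosDef) : (X - Phi δ y Z⁻¹).PosSemidef := by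
  have hZs : Z.IsSymm := by
    have := hZ.isHermitian
    rwa [Matrix.IsHermitian, Matrix.conjTranspose_eq_transpose_of_trivial] at this
  have hZi : (Z⁻¹)ᵀ = Z⁻¹ := by rw [Matrix.transpose_nonsing_inv, hZs.eq]
  have hdet : IsUnit Z.det := (Matrix.isUnit_iff_isUnit_det Z).1 hZ.isUnit
  have hTh : (Th δ fun j j' => ∑ i, G i j i j').IsSymm := by
    refine Th_symm δ fun j j' => ?_
    rw [Matrix.transpose_sum]
    exact Finset.sum_congr rfl fun i _ => by rw [(h.G4 i j i j').eq, h.G3 i j i j']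
  have hXs : X.IsSymm := by
    have h1 := h.top.isHermitian
    rw [Matrix.IsHermitian, Matrix.conjTranspose_eq_transpose_of_trivial, Matrix.transpose_sub, hTh.eq,
      sub_left_inj] at h1
    exact h1
  refine Matrix.PosSemidef.of_dotProduct_mulVec_nonneg ?_ fun g => ?_
  · rw [Matrix.IsHermitian, Matrix.conjTranspose_eq_transpose_of_trivial, Matrix.transpose_sub, hXs.eq,
      (Phi_symm δ y (W := Z⁻¹) hZi).eq]
  obtain ⟨r, η, hη, hy⟩ := bsounda_polar y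
  set B := Bm g with hB
  have h1 : B * (B * Z⁻¹)ᵀ = B * Z⁻¹ * Bᵀ := by rw [Matrix.transpose_mul, hZi, Matrix.mul_assoc]
  have hadm := bsounda_adm h B (B * Z⁻¹) (B * Z⁻¹ * Bᵀ) (bsounda_conj_symm B (M := Z⁻¹) hZi) h1 rfl hη hy
  have hcore := hc η _ hadm
  have htr : ∀ j p j' q, ∑ i, (bsounda_T B (B * Z⁻¹) y * Mom G Y H * (bsounda_T B (B * Z⁻¹) y)ᵀ) (i, j, p) (i, j', q) =
      (B * (∑ i, G i j i j') * Bᵀ) p q - (B * ((y j * y j') • Z⁻¹) * Bᵀ) p q := by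
    intro j p j' q
    have e1 : (B * (∑ i, G i j i j') * Bᵀ) p q = ∑ i, (B * G i j i j' * Bᵀ) p q := by
      rw [Matrix.mul_sum, Matrix.sum_mul, Matrix.sum_apply]
    have e2 : ∑ i, (B * Z⁻¹ * H i i * (B * Z⁻¹)ᵀ) p q = (B * Z⁻¹ * Bᵀ) p q := by
      rw [← Matrix.sum_apply, ← Matrix.sum_mul, ← Matrix.mul_sum, h.trH, Matrix.mul_assoc B Z⁻¹ Z,
        Matrix.nonsing_inv_mul Z hdet, Matrix.mul_one, h1]
    have e3 : (B * ((y j * y j') • Z⁻¹) * Bᵀ) p q = y j * y j' * (B * Z⁻¹ * Bᵀ) p q := by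
      rw [Matrix.mul_smul, Matrix.smul_mul, Matrix.smul_apply, smul_eq_mul]
    simp only [bsounda_entry, h1]
    rw [e1, e3, Finset.sum_add_distrib, Finset.sum_sub_distrib, Finset.sum_sub_distrib, ← Finset.mul_sum, e2,
      ← Finset.sum_mul, ← Finset.sum_mul, ← Finset.mul_sum, ← Finset.mul_sum, h.trY, h.trY]
    ring
  have hsum : ∑ i, ∑ j, ∑ p, ∑ j', ∑ q, Gm δ j p j' q *
      (bsounda_T B (B * Z⁻¹) y * Mom G Y H * (bsounda_T B (B * Z⁻¹) y)ᵀ) (i, j, p) (i, j', q) =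
      g ⬝ᵥ ((Th δ fun j j' => ∑ i, G i j i j') *ᵥ g) - g ⬝ᵥ (Phi δ y Z⁻¹ *ᵥ g) := by
    rw [Phi, Th_form, Th_form, ← hB]
    simp only [← Finset.sum_sub_distrib, ← mul_sub, ← htr, Finset.mul_sum]
    rw [Finset.sum_comm]
    refine Finset.sum_congr rfl fun j _ => ?_
    rw [Finset.sum_comm]
    refine Finset.sum_congr rfl fun p _ => ?_
    rw [Finset.sum_comm]
    refine Finset.sum_congr rfl fun j' _ => ?_
    rw [Finset.sum_comm]
  have htop := h.top.dotProduct_mulVec_nonneg g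
  rw [hsum] at hcore
  rw [star_trivial, Matrix.sub_mulVec, dotProduct_sub] at htop ⊢
  linarith

end Crest.Agent.R237.B

end
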