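import Crest.Agent.R237.BConeA
import Crest.Agent.R237.BSoundA

/-!
# R237 / BSound: soundness of the lift (prefix `bsound_`)
-/

set_option autoImplicit false

open Matrix

noncomputable section

namespace Crest.Agent.R237.B

variable {δ : ℝ} {X Z : M4 ℝ} {y : V3} {G : Fin 3 → Fin 3 → Fin 3 → Fin 3 → M4 ℝ} {Y : Fin 3 → Fin 3 → Fin 3 → ℝ}
  {H : Fin 3 → Fin 3 → M4 ℝ}

/-- add `s` to `X` and to `H 0 0` -/
theorem Feas.shift (h : Feas δ X Z y G Y H) {s : ℝ} (hs : 0 ≤ s) :
    Feas δ (X + s • 1) (Z + s • 1) y G Y fun i k => H i k + if i = 0 ∧ k = 0 then s • 1 else 0 := by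
  have hM : Mom G Y (fun i k => H i k + if i = 0 ∧ k = 0 then s • 1 else 0) =
      Mom G Y H + Matrix.diagonal (Sum.elim (fun _ => 0) (fun β : Fin 3 × Fin 4 => if β.1 = 0 then s else 0)) := by
    ext α β
    rcases α with α | ⟨i, a⟩ <;> rcases β with β | ⟨k, b⟩
    · simp [Mom, Matrix.diagonal_apply]
    · simp [Mom]
    · simp [Mom]
    · simp only [Mom, Matrix.fromBlocks_apply₂₂, Matrix.of_apply, Matrix.add_apply, Matrix.diagonal_apply,
        Sum.inr.injEq, Prod.mk.injEq, Sum.elim_inr, add_right_inj]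
      by_cases hi : i = 0
      · subst hi
        by_cases hk : k = 0
        · subst hk
          by_cases hab : a = b
          · subst hab; simp
          · simp [hab]
        · simp [hk, Ne.symm hk]
      · simp [hi]
  have h1 : (s • (1 : M4 ℝ)).PosSemidef := Matrix.PosSemidef.one.smul hs
  refine ⟨h.G1, h.G2, h.G3, h.G4, h.Y1, h.Y2, fun i k => ?_, fun i k => ?_, h.trY, ?_, ?_, ?_⟩
  · rw [h.H1 i k]
    simp only [and_comm]
  · refine (h.H2 i k).add ?_
    split_ifs
    · exact Matrix.isSymm_one.smul s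
    · exact Matrix.isSymm_zero
  · rw [Finset.sum_add_distrib, h.trH]
    simp
  · rw [hM]
    refine h.psd.add (Matrix.PosSemidef.diagonal ?_)
    rintro (α | ⟨i, a⟩)
    · simp
    · simp only [Pi.zero_apply, Sum.elim_inr]
      split_ifs
      · exact hs
      · exact le_rfl
  · have := h.top.add h1
    rwa [sub_add_eq_add_sub] at this

/-- `Z = ∑ H i i` is a sum of principal submatrices of `Mom` -/
theorem Feas.psd_Z (h : Feas δ X Z y G Y H) : Z.PosSemidef := by
  rw [← h.trH]
  refine Matrix.posSemidef_sum _ fun i _ => ?_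
  exact h.psd.submatrix fun a : Fin 4 => Sum.inr (i, a)

theorem Feas.sound (hc : Core δ) {x : Fin 23 → ℝ} (h : Feas δ (cX x) (cZ x) (cy x) G Y H) : x ∈ KK δ := by
  intro s hs
  have hZ : (cZ x + s • (1 : M4 ℝ)).PosDef := Matrix.PosDef.posSemidef_add h.psd_Z (Matrix.PosDef.one.smul hs)
  refine ⟨?_, ?_⟩
  · rw [cZ_shift]
    exact hZ
  · rw [cX_shift, cZ_shift, cy_shift]
    exact (h.shift hs.le).sound0 hc hZ

theorem bsound_ent (Z A B : M4 ℝ) (c d : ℝ) (a b : Fin 4) :
    ∑ q, (∑ p, c * A p a * Z p q) * (d * B q b) = c * d * (Aᵀ * Z * B) a b := by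
  simp only [Matrix.mul_apply, Matrix.transpose_apply, Finset.mul_sum, Finset.sum_mul]
  exact Finset.sum_congr rfl fun q _ => Finset.sum_congr rfl fun p _ => by ring

/-- the rank-one feasible point -/
theorem bsound_feas {W : M4 ℝ} {r : ℝ} {η : V3} (hη : η ⬝ᵥ η = 1) (hy : ∀ j, y j = r * η j) (hZ : Z.PosSemidef)
    (hW : W.IsSymm) (hWZ : r • (W * Z) = r • (1 : M4 ℝ)) (hX : (X - Phi δ y W).PosSemidef) :
    Feas δ X Z y (fun i j k l => (r * η i * η j * (r * η k * η l)) • W) (fun i j k => r * η i * η j * η k)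
      fun i k => (η i * η k) • Z := by
  have hZs : Z.IsSymm := by
    have := hZ.isHermitian
    rwa [Matrix.IsHermitian, Matrix.conjTranspose_eq_transpose_of_trivial] at this
  have hη' : ∑ i, η i * η i = 1 := hη
  have hZW : r • (Z * W) = r • (1 : M4 ℝ) := by
    have := congrArg Matrix.transpose hWZ
    rwa [Matrix.transpose_smul, Matrix.transpose_smul, Matrix.transpose_mul, hZs.eq, hW.eq,
      Matrix.transpose_one] at this
  have e1 : ∀ a b, r * (W * Z) a b = r * (if a = b then 1 else 0) := fun a b => by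
    have := congrFun (congrFun hWZ a) b
    simpa only [Matrix.smul_apply, smul_eq_mul, Matrix.one_apply] using this
  have e2 : ∀ a b, r * (Z * W) a b = r * (if a = b then 1 else 0) := fun a b => by
    have := congrFun (congrFun hZW a) b
    simpa only [Matrix.smul_apply, smul_eq_mul, Matrix.one_apply] using this
  have e3 : ∀ a b, r * (W * Z * W) a b = r * W a b := fun a b => by
    have : r • (W * Z * W) = r • W := by rw [← Matrix.smul_mul, hWZ, Matrix.smul_mul, Matrix.one_mul]
    have := congrFun (congrFun this a) b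
    simpa only [Matrix.smul_apply, smul_eq_mul] using this
  refine ⟨fun i j k l => ?_, fun i j k l => ?_, fun i j k l => ?_, fun i j k l => hW.smul _, fun i j k => ?_,
    fun i j k => ?_, fun i k => ?_, fun i k => hZs.smul _, fun j => ?_, ?_, ?_, ?_⟩
  · congr 1; ring
  · congr 1; ring
  · congr 1; ring
  · ring
  · ring
  · rw [mul_comm]
  · rw [hy j]
    calc ∑ i, r * η i * η j * η i = r * η j * ∑ i, η i * η i := by
          rw [Finset.mul_sum]; exact Finset.sum_congr rfl fun i _ => by ring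
      _ = r * η j := by rw [hη', mul_one]
  · rw [← Finset.sum_smul, hη', one_smul]
  · obtain ⟨T, hT⟩ : ∃ T : Matrix (Fin 4) ((Fin 3 × Fin 3 × Fin 4) ⊕ (Fin 3 × Fin 4)) ℝ,
        T = Matrix.of fun a => Sum.elim (fun β => r * η β.1 * η β.2.1 * W a β.2.2)
          (fun β => η β.1 * (1 : M4 ℝ) a β.2) := ⟨_, rfl⟩
    have hP := hZ.conjTranspose_mul_mul_same T
    rw [Matrix.conjTranspose_eq_transpose_of_trivial] at hP
    convert hP using 1
    ext α β
    rw [Matrix.mul_apply]
    simp only [Matrix.mul_apply (M := Tᵀ), Matrix.transpose_apply]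
    subst hT
    rcases α with ⟨i, j, a⟩ | ⟨i, a⟩ <;> rcases β with ⟨k, l, b⟩ | ⟨k, b⟩ <;>
      simp only [Mom, Matrix.fromBlocks_apply₁₁, Matrix.fromBlocks_apply₁₂, Matrix.fromBlocks_apply₂₁,
        Matrix.fromBlocks_apply₂₂, Matrix.of_apply, Sum.elim_inl, Sum.elim_inr, bsound_ent, hW.eq,
        Matrix.transpose_one, Matrix.mul_one, Matrix.one_mul, Matrix.smul_apply, smul_eq_mul]
    · linear_combination (-(η i * η j * (r * η k * η l))) * e3 a b
    · have := e1 a b
      split_ifs at this ⊢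
      · linear_combination (-(η i * η j * η k)) * this
      · linear_combination (-(η i * η j * η k)) * this
    · have := e2 a b
      by_cases hab : a = b
      · rw [if_pos hab] at this
        rw [if_pos hab.symm]
        linear_combination (-(η i * η k * η l)) * this
      · rw [if_neg hab] at this
        rw [if_neg (Ne.symm hab)]
        linear_combination (-(η i * η k * η l)) * this
  · have e : (fun j j' => ∑ i, (r * η i * η j * (r * η i * η j')) • W) = fun j j' => (y j * y j') • W := by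
      funext j j'
      rw [← Finset.sum_smul, hy j, hy j']
      congr 1
      calc ∑ i, r * η i * η j * (r * η i * η j') = r * η j * (r * η j') * ∑ i, η i * η i := by
            rw [Finset.mul_sum]; exact Finset.sum_congr rfl fun i _ => by ring
        _ = r * η j * (r * η j') := by rw [hη', mul_one]
    rw [e]
    exact hX

/-- `KK.cases`.  In `K0`: `y = r • n`, `|n| = 1`, `G = r² n n n n Z⁻¹`, `Y = r n n n`, `H = n n Z`; `Mom = Tᵀ Z T` with
`T = (r (n ⊗ n)ᵀ ⊗ Z⁻¹, nᵀ ⊗ 1)`.  For `y = 0`: `G = 0`, `Y = 0`, `H = e₀ e₀ᵀ ⊗ Z`. -/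
theorem exists_feas (hδ : Pos δ) {x : Fin 23 → ℝ} (h : x ∈ KK δ) : ∃ G Y H, Feas δ (cX x) (cZ x) (cy x) G Y H := by
  rcases KK.cases hδ h with ⟨hZ, hX⟩ | ⟨hy, hX, hZ⟩
  · obtain ⟨r, η, hη, hy⟩ := bsounda_polar (cy x)
    have hdet : IsUnit (cZ x).det := (Matrix.isUnit_iff_isUnit_det _).1 hZ.isUnit
    have hW : ((cZ x)⁻¹).IsSymm := by
      rw [Matrix.IsSymm, Matrix.transpose_nonsing_inv, (cZ_symm x).eq]
    exact ⟨_, _, _, bsound_feas hη hy hZ.posSemidef hW (by rw [Matrix.nonsing_inv_mul _ hdet]) hX⟩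
  · refine ⟨_, _, _, bsound_feas (W := 0) (r := 0) (η := Pi.single 0 1) (by simp) (fun j => by simp [hy]) hZ
      Matrix.isSymm_zero (by simp) ?_⟩
    rw [hy, Phi_zero, sub_zero]
    exact hX

end Crest.Agent.R237.B

end
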