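import Mathlib
import Crest.Prelude.Def_Hyperbolic

/-!
# S0367 (row 237): framework, definitions (owner helper7)

Affine functions on `ℝ^m` have the basis `x_0 = 1, x_{i+1} = X i`, indexed by `Fin (m+1)`.
A point of the ambient space is a triple `(M, c, k)`: `M a b = L (x_a x_b)`,
`c i j l = L (X i X j X l)`, `k = Λ ∑_{i ≠ j} L ((X i X j)^2)`.
For `q = X i X j` (`i ≠ j`) let `t_q = (L (q x_a))_a` (`tv`), `γ_q` the linear part of
`M⁻¹ t_q` (`gam`), `w = tr (P (M⁻¹)_{LL})` (`hh`).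
`F = k - Λ ∑ t_qᵀ M⁻¹ t_q + β(γ)/w`, `G = F w` (`GG`), and the polynomial is
`p = det(M)^2 G` (`pf`), homogeneous of degree `2m+2`.
-/

set_option autoImplicit false
set_option linter.unusedSectionVars false

namespace Crest.Agent.R237.H

open Matrix

/-- index type of the arrays `γ i j l`. -/
abbrev Ix (m : ℕ) : Type := Fin m × Fin m × Fin m

/-- arrays `γ i j l` with values in `R`. -/
abbrev Ar (m : ℕ) (R : Type) : Type := Fin m → Fin m → Fin m → R

/-- `(m+1) × (m+1)` matrices. -/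
abbrev Mt (m : ℕ) (R : Type) : Type := Matrix (Fin (m + 1)) (Fin (m + 1)) R

section ring

variable {m : ℕ} {R : Type} [CommRing R] [Algebra ℝ R]

/-- the vectors `t_{ij}` (zero for `i = j`). -/
def tv (M : Mt m R) (c : Ar m R) (i j : Fin m) : Fin (m + 1) → R :=
  if i = j then 0 else Fin.cons (M i.succ j.succ) (c i j)

/-- `tr (P N_{LL})`. -/
def hh (P : Matrix (Fin m) (Fin m) ℝ) (N : Mt m R) : R :=
  ∑ a, ∑ b, P a b • N a.succ b.succ

/-- bilinear form with real coefficients on arrays. -/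
def bil (B : Ix m → Ix m → ℝ) (g g' : Ar m R) : R :=
  ∑ I : Ix m, ∑ J : Ix m, B I J • (g I.1 I.2.1 I.2.2 * g' J.1 J.2.1 J.2.2)

/-- the quadratic form `β`. -/
def qf (B : Ix m → Ix m → ℝ) (g : Ar m R) : R := bil B g g

/-- linear parts of `N t_{ij}`. -/
def gam (N : Mt m R) (t : Fin m → Fin m → Fin (m + 1) → R) : Ar m R :=
  fun i j l => (N *ᵥ t i j) l.succ

/-- `∑_{ij} t_{ij}ᵀ N t_{ij}`. -/
def en (N : Mt m R) (t : Fin m → Fin m → Fin (m + 1) → R) : R :=
  ∑ i, ∑ j, t i j ⬝ᵥ N *ᵥ t i j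

/-- `G = F w` as a function of `N = M⁻¹`, `t`, `k`. -/
def GG (P : Matrix (Fin m) (Fin m) ℝ) (B : Ix m → Ix m → ℝ) (Λ : ℝ) (N : Mt m R)
    (t : Fin m → Fin m → Fin (m + 1) → R) (k : R) : R :=
  (k - Λ • en N t) * hh P N + qf B (gam N t)

/-- the hyperbolic polynomial as a function of `(M, c, k)`. -/
def pf (P : Matrix (Fin m) (Fin m) ℝ) (B : Ix m → Ix m → ℝ) (Λ : ℝ) (M : Mt m R) (c : Ar m R)
    (k : R) : R :=
  (k * M.det - Λ • en M.adjugate (tv M c)) * hh P M.adjugate + qf B (gam M.adjugate (tv M c))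

/-- fully symmetric arrays. -/
def Sym3 (c : Ar m R) : Prop := (∀ i j l, c i j l = c j i l) ∧ ∀ i j l, c i j l = c i l j

end ring

variable {m : ℕ}

/-- the arrays `u_i e_j + u_j e_i` (`i ≠ j`) created by translations. -/
def ush (u : Fin m → ℝ) : Ar m ℝ := fun i j l =>
  if i = j then 0 else u i * (if l = j then 1 else 0) + u j * (if l = i then 1 else 0)

/-- `γ_{ij} = W θ_{ij·}` for `i ≠ j`, zero for `i = j`. -/
def wth (W : Matrix (Fin m) (Fin m) ℝ) (θ : Ar m ℝ) : Ar m ℝ := fun i j l =>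
  if i = j then 0 else (W *ᵥ θ i j) l

/-- the cone on which `β` has to be nonnegative. -/
def cone (P : Matrix (Fin m) (Fin m) ℝ) : Set (Ar m ℝ) :=
  {g | ∃ (W : Matrix (Fin m) (Fin m) ℝ) (θ : Ar m ℝ) (u : Fin m → ℝ),
    W.IsSymm ∧ W.det ≠ 0 ∧ (P * W).trace = 0 ∧ Sym3 θ ∧ g = wth W θ + ush u}

/-- THE INPUT of the framework (to be constructed by helper71's group). -/
structure Example (m : ℕ) where
  two_le : 2 ≤ m
  P : Matrix (Fin m) (Fin m) ℝ
  W : Matrix (Fin m) (Fin m) ℝ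
  θ : Ar m ℝ
  Ppd : P.PosDef
  Wpd : W.PosDef
  θs : Sym3 θ
  one : ∀ i j k l : Fin m, i ≠ j → i ≠ k → i ≠ l → j ≠ k → j ≠ l → k ≠ l →
    θ i j ⬝ᵥ W *ᵥ θ k l = θ i k ⬝ᵥ W *ᵥ θ j l
  gap : wth W θ ∉ closure (cone P)

/-- the data of the polynomial. -/
structure Data (m : ℕ) where
  two_le : 2 ≤ m
  P : Matrix (Fin m) (Fin m) ℝ
  B : Ix m → Ix m → ℝ
  Λ : ℝ
  ρ : ℝ
  Λpos : 0 < Λ
  ρpos : 0 < ρ
  Ppd : P.PosDef
  Pge : ∀ v : Fin m → ℝ, ρ * (v ⬝ᵥ v) ≤ v ⬝ᵥ P *ᵥ v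
  bound : ∀ g : Ar m ℝ, |qf B g| ≤ Λ * ρ * ∑ i, ∑ j, ∑ l, g i j l ^ 2
  shift : ∀ (g : Ar m ℝ) (u : Fin m → ℝ), qf B (g + ush u) = qf B g
  sign : ∀ (M : Mt m ℝ) (c : Ar m ℝ), M.IsSymm → M.det ≠ 0 → Sym3 c → hh P M⁻¹ = 0 →
    0 ≤ qf B (gam M⁻¹ (tv M c))

/-! ### moments of a linear functional -/

/-- `x_0 = 1`, `x_{i+1} = X i`. -/
noncomputable def xh (m : ℕ) : Fin (m + 1) → MvPolynomial (Fin m) ℝ :=
  Fin.cons 1 MvPolynomial.X

/-- `∑_{i ≠ j} (X i X j)^2`. -/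
noncomputable def ff (m : ℕ) : MvPolynomial (Fin m) ℝ :=
  ∑ i : Fin m, ∑ j : Fin m, if i = j then 0 else (MvPolynomial.X i * MvPolynomial.X j) ^ 2

/-- moment matrix on affine functions. -/
noncomputable def mM (L : MvPolynomial (Fin m) ℝ →ₗ[ℝ] ℝ) : Mt m ℝ :=
  Matrix.of fun a b => L (xh m a * xh m b)

/-- cubic moments. -/
noncomputable def mC (L : MvPolynomial (Fin m) ℝ →ₗ[ℝ] ℝ) : Ar m ℝ :=
  fun i j l => L (MvPolynomial.X i * MvPolynomial.X j * MvPolynomial.X l)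

/-- the affine substitution `X j ↦ ξ j + t X j`. -/
noncomputable def sub (ξ : Fin m → ℝ) (t : ℝ) :
    MvPolynomial (Fin m) ℝ →ₐ[ℝ] MvPolynomial (Fin m) ℝ :=
  MvPolynomial.aeval fun j => MvPolynomial.C (ξ j) + MvPolynomial.C t * MvPolynomial.X j

/-- `p` at the moment vector of `L`. -/
noncomputable def pL (D : Data m) (L : MvPolynomial (Fin m) ℝ →ₗ[ℝ] ℝ) : ℝ :=
  pf D.P D.B D.Λ (mM L) (mC L) (D.Λ * L (ff m))

/-- `G` at the moment vector of `L`. -/
noncomputable def gL (D : Data m) (L : MvPolynomial (Fin m) ℝ →ₗ[ℝ] ℝ) : ℝ :=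
  GG D.P D.B D.Λ (mM L)⁻¹ (tv (mM L) (mC L)) (D.Λ * L (ff m))

/-! ### basic algebra -/

section basic

variable {R : Type} [CommRing R] [Algebra ℝ R]

theorem hh_smul (P : Matrix (Fin m) (Fin m) ℝ) (s : R) (N : Mt m R) :
    hh P (s • N) = s * hh P N := by
  simp only [hh, Matrix.smul_apply, smul_eq_mul, Finset.mul_sum, mul_smul_comm]

theorem en_smul (s : R) (N : Mt m R) (t : Fin m → Fin m → Fin (m + 1) → R) :
    en (s • N) t = s * en N t := by
  simp only [en, Matrix.smul_mulVec, dotProduct_smul, smul_eq_mul, Finset.mul_sum]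

theorem en_smul_right (s : R) (N : Mt m R) (t : Fin m → Fin m → Fin (m + 1) → R) :
    en N (s • t) = s ^ 2 * en N t := by
  simp only [en, Pi.smul_apply, Matrix.mulVec_smul, dotProduct_smul, smul_dotProduct,
    smul_eq_mul, Finset.mul_sum]
  refine Finset.sum_congr rfl fun i _ => Finset.sum_congr rfl fun j _ => by ring

theorem gam_smul (s : R) (N : Mt m R) (t : Fin m → Fin m → Fin (m + 1) → R) :
    gam (s • N) t = s • gam N t := by
  funext i j l
  simp only [gam, Matrix.smul_mulVec, Pi.smul_apply]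

theorem gam_smul_right (s : R) (N : Mt m R) (t : Fin m → Fin m → Fin (m + 1) → R) :
    gam N (s • t) = s • gam N t := by
  funext i j l
  simp only [gam, Matrix.mulVec_smul, Pi.smul_apply]

theorem qf_smul (B : Ix m → Ix m → ℝ) (s : R) (g : Ar m R) :
    qf B (s • g) = s ^ 2 * qf B g := by
  simp only [qf, bil, Pi.smul_apply, smul_eq_mul, Finset.mul_sum, mul_smul_comm]
  refine Finset.sum_congr rfl fun I _ => Finset.sum_congr rfl fun J _ => ?_
  congr 1
  ring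

theorem tv_smul (s : R) (M : Mt m R) (c : Ar m R) : tv (s • M) (s • c) = s • tv M c := by
  funext i j a
  by_cases h : i = j
  · simp [tv, h]
  · refine Fin.cases ?_ (fun l => ?_) a <;> simp [tv, h]

/-- `p = det(M)^2 G(M⁻¹)`. -/
theorem pf_eq_GG {K : Type} [Field K] [Algebra ℝ K] (P : Matrix (Fin m) (Fin m) ℝ)
    (B : Ix m → Ix m → ℝ) (Λ : ℝ) (M : Mt m K) (c : Ar m K) (k : K) (hM : M.det ≠ 0) :
    pf P B Λ M c k = M.det ^ 2 * GG P B Λ M⁻¹ (tv M c) k := by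
  have hadj : M.adjugate = M.det • M⁻¹ := by
    rw [Matrix.inv_def, smul_smul, Ring.inverse_eq_inv', mul_inv_cancel₀ hM, one_smul]
  rw [pf, GG, hadj, hh_smul, en_smul, gam_smul, qf_smul]
  simp only [Algebra.smul_def]
  ring

/-- homogeneity of degree `2m+2`. -/
theorem pf_smul (P : Matrix (Fin m) (Fin m) ℝ) (B : Ix m → Ix m → ℝ) (Λ : ℝ) (s : R)
    (M : Mt m R) (c : Ar m R) (k : R) :
    pf P B Λ (s • M) (s • c) (s * k) = s ^ (2 * m + 2) * pf P B Λ M c k := by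
  rw [pf, pf, tv_smul, Matrix.adjugate_smul, Matrix.det_smul, hh_smul, en_smul, en_smul_right,
    gam_smul, gam_smul_right, qf_smul, qf_smul]
  simp only [Fintype.card_fin, Nat.add_sub_cancel, Algebra.smul_def]
  ring

/-- naturality in the coefficient ring. -/
theorem map_pf {S : Type} [CommRing S] [Algebra ℝ S] (f : R →ₐ[ℝ] S)
    (P : Matrix (Fin m) (Fin m) ℝ) (B : Ix m → Ix m → ℝ) (Λ : ℝ) (M : Mt m R) (c : Ar m R)
    (k : R) :
    f (pf P B Λ M c k) = pf P B Λ (M.map f) (fun i j l => f (c i j l)) (f k) := by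
  have hadj : (M.map f).adjugate = M.adjugate.map f :=
    (RingHom.map_adjugate (f : R →+* S) M).symm
  have hdet : (M.map f).det = f M.det := (RingHom.map_det (f : R →+* S) M).symm
  have htv : ∀ i j a, tv (M.map f) (fun i j l => f (c i j l)) i j a = f (tv M c i j a) := by
    intro i j a
    by_cases h : i = j
    · simp [tv, h]
    · refine Fin.cases ?_ (fun l => ?_) a <;> simp [tv, h]
  have hmv : ∀ i j a, ((M.adjugate.map f) *ᵥ tv (M.map f) (fun i j l => f (c i j l)) i j) a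
      = f ((M.adjugate *ᵥ tv M c i j) a) := by
    intro i j a
    simp only [Matrix.mulVec, dotProduct, map_sum, map_mul, Matrix.map_apply, htv]
  simp only [pf, hadj, hdet, map_add, map_mul, map_sub, map_smul, hh, en, qf, bil, gam, map_sum,
    Matrix.map_apply, hmv]
  simp only [dotProduct, map_sum, map_mul, hmv, htv]

end basic

end Crest.Agent.R237.H
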