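import Mathlib
import Crest.Agent.R237.HDefs

/-!
# S0367 example: the linear system satisfied on the cone (helper86)

For `g = wth W θ + ush u` put `R j k = w_j ∧ w_k` (rows of `W`), `Y k = w_k ∧ (-W u)`.
Then `Sol g R Y` holds (`cone_sol`, file `ExCone`).  For the special point `γ*` the solutions of
`Sol γ* R Y` are the multiples of `(Λ² W*, 0)` (`ker`, file `ExKer`, a rank computation).
-/

set_option autoImplicit false

namespace Crest.Agent.R237.Ex

variable {m : ℕ}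

/-- unit vector. -/
def ev (j : Fin m) : Fin m → ℝ := fun a => if a = j then 1 else 0

/-- components of `x ∧ y`. -/
def w2 (x y : Fin m → ℝ) : Fin m → Fin m → ℝ := fun a b => x a * y b - x b * y a

/-- components of `x ∧ β`, `β` a 2-form. -/
def w3 (x : Fin m → ℝ) (β : Fin m → Fin m → ℝ) (a b c : Fin m) : ℝ :=
  x a * β b c + x b * β c a + x c * β a b

/-- components of `α ∧ β` for 2-forms. -/
def w4 (α β : Fin m → Fin m → ℝ) (a b c d : Fin m) : ℝ :=
  α a b * β c d - α a c * β b d + α a d * β b c + α b c * β a d - α b d * β a c + α c d * β a b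

/-- equation (A)_j : `∑_k γ_jk ∧ R_jk + e_j ∧ Y_j`. -/
def eqA (g : Fin m → Fin m → Fin m → ℝ) (R : Fin m → Fin m → Fin m → Fin m → ℝ)
    (Y : Fin m → Fin m → Fin m → ℝ) (j a b c : Fin m) : ℝ :=
  ∑ k, w3 (g j k) (R j k) a b c + w3 (ev j) (Y j) a b c

/-- equation (B)_j : `∑_{k,l} γ_jk ∧ γ_jl ∧ R_kl + 2 ∑_k γ_jk ∧ e_j ∧ Y_k`. -/
def eqB (g : Fin m → Fin m → Fin m → ℝ) (R : Fin m → Fin m → Fin m → Fin m → ℝ)
    (Y : Fin m → Fin m → Fin m → ℝ) (j a b c d : Fin m) : ℝ :=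
  ∑ k, ∑ l, w4 (w2 (g j k) (g j l)) (R k l) a b c d
    + 2 * ∑ k, w4 (w2 (g j k) (ev j)) (Y k) a b c d

/-- the linear system in `(R, Y)` with coefficients depending on `g`. -/
structure Sol (g : Fin m → Fin m → Fin m → ℝ) (R : Fin m → Fin m → Fin m → Fin m → ℝ)
    (Y : Fin m → Fin m → Fin m → ℝ) : Prop where
  r1 : ∀ j k a b, R j k a b = - R k j a b
  r2 : ∀ j k a b, R j k a b = - R j k b a
  r3 : ∀ j k a b, R j k a b = R a b j k
  r4 : ∀ j k a b, R j k a b + R j a b k + R j b k a = 0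
  y1 : ∀ k a b, Y k a b = - Y k b a
  y2 : ∀ k a b, Y k a b + Y a b k + Y b k a = 0
  hA : ∀ j a b c, eqA g R Y j a b c = 0
  hB : ∀ j a b c d, eqB g R Y j a b c d = 0

/-- `Λ² W`. -/
def L2 (W : Fin m → Fin m → ℝ) : Fin m → Fin m → Fin m → Fin m → ℝ :=
  fun j k => w2 (W j) (W k)

/-- THE RANK FACT at `(g, W)`: the solutions of `Sol g` are the multiples of `(Λ² W, 0)`. -/
def RankFact (g : Fin m → Fin m → Fin m → ℝ) (W : Fin m → Fin m → ℝ) : Prop :=
  ∀ (R : Fin m → Fin m → Fin m → Fin m → ℝ) (Y : Fin m → Fin m → Fin m → ℝ), Sol g R Y →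
    (∃ lam : ℝ, ∀ j k a b, R j k a b = lam * L2 W j k a b) ∧ ∀ k a b, Y k a b = 0

end Crest.Agent.R237.Ex
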