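import Mathlib
import Crest.Agent.R237.ExDefs

/-!
# S0367 example: the points of the cone solve the linear system (helper86)
-/

set_option autoImplicit false

namespace Crest.Agent.R237.Ex

open Matrix Crest.Agent.R237.H

variable {m : ℕ}

theorem w3_w2_swap (x y z : Fin m → ℝ) (a b c : Fin m) :
    w3 x (w2 y z) a b c = - w3 y (w2 x z) a b c := by
  simp only [w3, w2]; ring

theorem w4_w2_swap (x y z t : Fin m → ℝ) (a b c d : Fin m) :
    w4 (w2 x y) (w2 z t) a b c d = - w4 (w2 x z) (w2 y t) a b c d := by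
  simp only [w4, w2]; ring

theorem w3_sum (x : Fin m → ℝ) (β : Fin m → Fin m → Fin m → ℝ) (a b c : Fin m) :
    ∑ k, w3 x (β k) a b c = w3 x (fun p q => ∑ k, β k p q) a b c := by
  simp only [w3, Finset.sum_add_distrib, Finset.mul_sum]

theorem w4_sum_left (α : Fin m → Fin m → Fin m → ℝ) (β : Fin m → Fin m → ℝ) (a b c d : Fin m) :
    ∑ k, w4 (α k) β a b c d = w4 (fun p q => ∑ k, α k p q) β a b c d := by
  simp only [w4, Finset.sum_add_distrib, Finset.sum_sub_distrib, Finset.sum_mul]

theorem w4_sum_right (α : Fin m → Fin m → ℝ) (β : Fin m → Fin m → Fin m → ℝ) (a b c d : Fin m) :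
    ∑ k, w4 α (β k) a b c d = w4 α (fun p q => ∑ k, β k p q) a b c d := by
  simp only [w4, Finset.sum_add_distrib, Finset.sum_sub_distrib, Finset.mul_sum]

/-- `Ω_j = e_j ∧ W u + z ∧ w_j`. -/
theorem omega_eq (W : Matrix (Fin m) (Fin m) ℝ) (hW : W.IsSymm) (θ : Ar m ℝ) (hθ : Sym3 θ)
    (u : Fin m → ℝ) (j : Fin m) : ∃ z : Fin m → ℝ, ∀ a b,
      ∑ k, w2 ((wth W θ + ush u) j k) (W k) a b
        = w2 (ev j) (W *ᵥ u) a b + w2 z (W j) a b := by
  have hs : ∀ a b, W a b = W b a := fun a b => (hW.apply b a)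
  set g' : Fin m → Fin m → ℝ := fun k l =>
    (W *ᵥ θ j k) l + (u j * (if l = k then 1 else 0) + u k * (if l = j then 1 else 0)) with hg'
  refine ⟨fun l => - g' j l, fun a b => ?_⟩
  have h1 : ∀ k, w2 ((wth W θ + ush u) j k) (W k) a b
      = w2 (g' k) (W k) a b - (if k = j then w2 (g' j) (W j) a b else 0) := by
    intro k
    by_cases h : k = j
    · subst h
      simp [w2, wth, ush]
    · have h' : ¬ j = k := fun e => h e.symm
      simp only [w2, Pi.add_apply, wth, ush, if_neg h, if_neg h', hg', sub_zero]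
  have h2 : ∑ k, ((W *ᵥ θ j k) a * W k b - (W *ᵥ θ j k) b * W k a) = 0 := by
    simp only [Matrix.mulVec, dotProduct, Finset.sum_mul, Finset.sum_sub_distrib]
    rw [sub_eq_zero, Finset.sum_comm]
    refine Finset.sum_congr rfl fun k _ => Finset.sum_congr rfl fun l _ => ?_
    rw [hθ.2 j l k, hs a k, hs b l]
    ring
  have h3 : ∑ k, w2 (g' k) (W k) a b = w2 (ev j) (W *ᵥ u) a b := by
    have : ∀ k, w2 (g' k) (W k) a b = ((W *ᵥ θ j k) a * W k b - (W *ᵥ θ j k) b * W k a)
        + (u j * ((if a = k then W k b else 0) - (if b = k then W k a else 0))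
        + ((if a = j then 1 else 0) * (W b k * u k) - (if b = j then 1 else 0) * (W a k * u k))) := by
      intro k
      simp only [w2, hg', hs b k, hs a k]
      split_ifs <;> ring
    rw [Finset.sum_congr rfl fun k _ => this k, Finset.sum_add_distrib, h2, Finset.sum_add_distrib,
      ← Finset.mul_sum, Finset.sum_sub_distrib, Finset.sum_sub_distrib, ← Finset.mul_sum,
      ← Finset.mul_sum]
    simp only [Finset.sum_ite_eq, Finset.mem_univ, if_true, hs a b, w2, ev, Matrix.mulVec,
      dotProduct]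
    ring
  simp only [h1, Finset.sum_sub_distrib, h3, Finset.sum_ite_eq', Finset.mem_univ, if_true]
  simp only [w2]
  ring

/-- the points of the cone solve the linear system. -/
theorem cone_sol (W : Matrix (Fin m) (Fin m) ℝ) (hW : W.IsSymm) (θ : Ar m ℝ) (hθ : Sym3 θ)
    (u : Fin m → ℝ) :
    Sol (wth W θ + ush u) (L2 W) (fun k => w2 (W k) (-(W *ᵥ u))) := by
  have hs : ∀ a b, W a b = W b a := fun a b => (hW.apply b a)
  refine ⟨?_, ?_, ?_, ?_, ?_, ?_, ?_, ?_⟩
  · intro j k a b; simp only [L2, w2]; ring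
  · intro j k a b; simp only [L2, w2]; ring
  · intro j k a b; simp only [L2, w2, hs a j, hs b k, hs a k, hs b j]; ring
  · intro j k a b; simp only [L2, w2, hs a k, hs b k, hs b a]; ring
  · intro k a b; simp only [w2]; ring
  · intro k a b; simp only [w2, hs a k, hs b k, hs b a]; ring
  · intro j a b c
    obtain ⟨z, hz⟩ := omega_eq W hW θ hθ u j
    simp only [eqA, L2, w3_w2_swap _ (W j), Finset.sum_neg_distrib, w3_sum, hz]
    simp only [w3, w2, Pi.neg_apply]
    ring
  · intro j a b c d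
    obtain ⟨z, hz⟩ := omega_eq W hW θ hθ u j
    have e1 : ∀ k l, w4 (w2 ((wth W θ + ush u) j k) ((wth W θ + ush u) j l)) (L2 W k l) a b c d
        = - w4 (w2 ((wth W θ + ush u) j k) (W k)) (w2 ((wth W θ + ush u) j l) (W l)) a b c d :=
      fun k l => w4_w2_swap _ _ _ _ a b c d
    have e2 : ∀ k, w4 (w2 ((wth W θ + ush u) j k) (ev j)) (w2 (W k) (-(W *ᵥ u))) a b c d
        = - w4 (w2 ((wth W θ + ush u) j k) (W k)) (w2 (ev j) (-(W *ᵥ u))) a b c d :=
      fun k => w4_w2_swap _ _ _ _ a b c d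
    simp only [eqB, e1, e2, Finset.sum_neg_distrib, w4_sum_right, w4_sum_left, hz]
    simp only [w4, w2, Pi.neg_apply]
    ring

end Crest.Agent.R237.Ex
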