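import Mathlib
import Crest.Agent.R237.HDefs

/-! S0367 example: the integer data on the wheel with hub `0` and rim `1,…,5` (found by helper34,
helper71), positivity, symmetry and condition (1) (helper7). -/

set_option autoImplicit false

namespace Crest.Agent.R237.Ex

open Matrix Crest.Agent.R237.H

/-- the matrix `W*`. -/
def Wz : Fin 6 → Fin 6 → ℤ :=
  ![![8, 0, -15, 5, 4, 12],
    ![0, 4, -1, -5, 4, 4],
    ![-15, -1, 50, -11, -11, -21],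
    ![5, -5, -11, 10, -3, 3],
    ![4, 4, -11, -3, 12, 12],
    ![12, 4, -21, 3, 12, 36]]

/-- the symmetric tensor `θ*`. -/
def thz : Fin 6 → Fin 6 → Fin 6 → ℤ :=
  ![![![0, 0, -1, 1, -1, 0], ![0, -1, 1, 0, 0, 2], ![-1, 1, 0, 1, 0, 0], ![1, 0, 1, 1, 1, 0], ![-1, 0, 0, 1, -1, 1], ![0, 2, 0, 0, 1, -1]],
    ![![0, -1, 1, 0, 0, 2], ![-1, 0, 1, 0, 0, -1], ![1, 1, 0, 0, 0, 0], ![0, 0, 0, 0, 0, 0], ![0, 0, 0, 0, 0, 0], ![2, -1, 0, 0, 0, -1]],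
    ![![-1, 1, 0, 1, 0, 0], ![1, 1, 0, 0, 0, 0], ![0, 0, 0, -1, 0, 0], ![1, 0, -1, -1, 0, 0], ![0, 0, 0, 0, 0, 0], ![0, 0, 0, 0, 0, 0]],
    ![![1, 0, 1, 1, 1, 0], ![0, 0, 0, 0, 0, 0], ![1, 0, -1, -1, 0, 0], ![1, 0, -1, 0, -1, 0], ![1, 0, 0, -1, -1, 0], ![0, 0, 0, 0, 0, 0]],
    ![![-1, 0, 0, 1, -1, 1], ![0, 0, 0, 0, 0, 0], ![0, 0, 0, 0, 0, 0], ![1, 0, 0, -1, -1, 0], ![-1, 0, 0, -1, 0, -1], ![1, 0, 0, 0, -1, 0]],
    ![![0, 2, 0, 0, 1, -1], ![2, -1, 0, 0, 0, -1], ![0, 0, 0, 0, 0, 0], ![0, 0, 0, 0, 0, 0], ![1, 0, 0, 0, -1, 0], ![-1, -1, 0, 0, 0, 0]]]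

/-- the array `γ* = wth W* θ*`. -/
def gz : Fin 6 → Fin 6 → Fin 6 → ℤ :=
  ![![![0, 0, 0, 0, 0, 0], ![9, 3, 9, 0, 9, 47], ![-3, -1, 3, 0, -3, -5], ![2, -2, 13, 1, 2, 6], ![5, -5, -6, 11, -7, 15], ![-8, 8, 8, -16, 8, -16]],
    ![![9, 3, 9, 0, 9, 47], ![0, 0, 0, 0, 0, 0], ![8, 4, -16, 0, 8, 16], ![0, 0, 0, 0, 0, 0], ![0, 0, 0, 0, 0, 0], ![4, -8, -8, 12, -8, -16]],
    ![![-3, -1, 3, 0, -3, -5], ![8, 4, -16, 0, 8, 16], ![0, 0, 0, 0, 0, 0], ![18, 6, -54, 6, 18, 30], ![0, 0, 0, 0, 0, 0], ![0, 0, 0, 0, 0, 0]],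
    ![![2, -2, 13, 1, 2, 6], ![0, 0, 0, 0, 0, 0], ![18, 6, -54, 6, 18, 30], ![0, 0, 0, 0, 0, 0], ![-1, 1, 7, -2, -5, -3], ![0, 0, 0, 0, 0, 0]],
    ![![5, -5, -6, 11, -7, 15], ![0, 0, 0, 0, 0, 0], ![0, 0, 0, 0, 0, 0], ![-1, 1, 7, -2, -5, -3], ![0, 0, 0, 0, 0, 0], ![4, -4, -4, 8, -8, 0]],
    ![![-8, 8, 8, -16, 8, -16], ![4, -8, -8, 12, -8, -16], ![0, 0, 0, 0, 0, 0], ![0, 0, 0, 0, 0, 0], ![4, -4, -4, 8, -8, 0], ![0, 0, 0, 0, 0, 0]]]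

/-- `W*` over `ℝ`. -/
noncomputable def W0 : Matrix (Fin 6) (Fin 6) ℝ := Matrix.of fun a b => (Wz a b : ℝ)

/-- `θ*` over `ℝ`. -/
noncomputable def th0 : Ar 6 ℝ := fun i j l => (thz i j l : ℝ)

theorem Wz_symm : ∀ a b, Wz a b = Wz b a := by decide +kernel

theorem thz_symm1 : ∀ i j l, thz i j l = thz j i l := by decide +kernel

theorem thz_symm2 : ∀ i j l, thz i j l = thz i l j := by decide +kernel

theorem gz_eq : ∀ i j l, gz i j l = if i = j then 0 else ∑ b, Wz l b * thz i j b := by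
  decide +kernel

theorem one_z : ∀ i j k l : Fin 6, i ≠ j → i ≠ k → i ≠ l → j ≠ k → j ≠ l → k ≠ l →
    ∑ a, thz i j a * gz k l a = ∑ a, thz i k a * gz j l a := by
  have h : ∀ i j k l : Fin 6, (i ≠ j ∧ i ≠ k ∧ i ≠ l ∧ j ≠ k ∧ j ≠ l ∧ k ≠ l) →
      ∑ a, thz i j a * gz k l a = ∑ a, thz i k a * gz j l a := by
    decide +kernel
  exact fun i j k l h1 h2 h3 h4 h5 h6 => h i j k l ⟨h1, h2, h3, h4, h5, h6⟩

theorem th0_sym : Sym3 th0 :=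
  ⟨fun i j l => by simp only [th0, thz_symm1 i j l], fun i j l => by
    simp only [th0, thz_symm2 i j l]⟩

/-- `γ*` is the integer array `gz`. -/
theorem wth_W0 : wth W0 th0 = fun i j l => (gz i j l : ℝ) := by
  funext i j l
  rw [gz_eq, wth]
  split_ifs
  · simp
  · simp [W0, th0, mulVec, dotProduct]

theorem dot_W0 (i j k l : Fin 6) (h : k ≠ l) :
    th0 i j ⬝ᵥ W0 *ᵥ th0 k l = ((∑ a, thz i j a * gz k l a : ℤ) : ℝ) := by
  have : W0 *ᵥ th0 k l = fun a => (gz k l a : ℝ) := by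
    funext a
    have := congrFun (congrFun (congrFun wth_W0 k) l) a
    rwa [wth, if_neg h] at this
  rw [this]
  simp [th0, dotProduct]

theorem one_W0 (i j k l : Fin 6) (h1 : i ≠ j) (h2 : i ≠ k) (h3 : i ≠ l) (h4 : j ≠ k) (h5 : j ≠ l)
    (h6 : k ≠ l) : th0 i j ⬝ᵥ W0 *ᵥ th0 k l = th0 i k ⬝ᵥ W0 *ᵥ th0 j l := by
  rw [dot_W0 i j k l h6, dot_W0 i k j l h5, one_z i j k l h1 h2 h3 h4 h5 h6]

theorem W0_symm : W0.IsSymm := by
  ext a b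
  simp only [W0, transpose_apply, of_apply, Wz_symm b a]

theorem W0_quad (x : Fin 6 → ℝ) : x ⬝ᵥ W0 *ᵥ x = (1 / 10000 : ℝ) * (x ⬝ᵥ x) +
    ((79999 / 10000 : ℝ) * (x 0 + (-150000 / 79999 : ℝ) * x 2 + (50000 / 79999 : ℝ) * x 3 + (40000 / 79999 : ℝ) * x 4 + (120000 / 79999 : ℝ) * x 5) ^ 2 +
      (39999 / 10000 : ℝ) * (x 1 + (-10000 / 39999 : ℝ) * x 2 + (-50000 / 39999 : ℝ) * x 3 + (40000 / 39999 : ℝ) * x 4 + (40000 / 39999 : ℝ) * x 5) ^ 2 +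
      (691959400619999 / 31998800010000 : ℝ) * (x 2 + (-91993800110000 / 691959400619999 : ℝ) * x 3 + (-79993200110000 / 691959400619999 : ℝ) * x 4 + (80006799790000 / 691959400619999 : ℝ) * x 5) ^ 2 +
      (1677960085499280001 / 6919594006199990000 : ℝ) * (x 3 + (-5758884030699970000 / 1677960085499280001 : ℝ) * x 4 + (5760139991499970000 / 1677960085499280001 : ℝ) * x 5) ^ 2 +
      (47895847649844300839999 / 16779600854992800010000 : ℝ) * (x 4 + (86345524493942200120000 / 47895847649844300839999 : ℝ) * x 5) ^ 2 +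
      (754849392998332382698800001 / 478958476498443008399990000 : ℝ) * (x 5) ^ 2) := by
  simp [W0, Wz, dotProduct, mulVec, Fin.sum_univ_six]
  ring

theorem W0_pd : W0.PosDef := by
  refine Matrix.PosDef.of_dotProduct_mulVec_pos ?_ fun x hx => ?_
  · rw [Matrix.IsHermitian, conjTranspose_eq_transpose_of_trivial]
    exact W0_symm
  · have h0 : 0 < x ⬝ᵥ x := by
      rcases (dotProduct_self_star_nonneg x).lt_or_eq with h | h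
      · simpa using h
      · exact absurd (dotProduct_self_star_eq_zero.1 h.symm) hx
    rw [star_trivial, W0_quad]
    positivity

/-- the example, given the gap with `P = W*⁻¹`. -/
theorem example_of_gap (h : wth W0 th0 ∉ closure (cone W0⁻¹)) : Nonempty (Example 6) :=
  ⟨⟨by norm_num, W0⁻¹, W0, th0, W0_pd.inv, W0_pd, th0_sym, one_W0, h⟩⟩

end Crest.Agent.R237.Ex
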