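import Crest.Agent.R237.ExCone

/-! S0367 example: the rank fact implies the gap (argument of helper34, written by helper7). -/

set_option autoImplicit false

namespace Crest.Agent.R237.Ex

open Matrix Crest.Agent.R237.H

variable {m : ℕ}

theorem gap7_contract (X Q : Matrix (Fin m) (Fin m) ℝ) (j a : Fin m) :
    ∑ k, ∑ b, Q b k * L2 X j k a b = X j a * (Q * X).trace - (X * Q * X) j a := by
  have e1 : (Q * X).trace = ∑ k, ∑ b, Q b k * X k b := by
    rw [Finset.sum_comm]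
    simp only [Matrix.trace, Matrix.diag_apply, Matrix.mul_apply]
  have e2 : (X * Q * X) j a = ∑ k, ∑ b, X j b * Q b k * X k a := by
    simp only [Matrix.mul_apply, Finset.sum_mul]
  rw [e1, e2, Finset.mul_sum, ← Finset.sum_sub_distrib]
  refine Finset.sum_congr rfl fun k _ => ?_
  rw [Finset.mul_sum, ← Finset.sum_sub_distrib]
  refine Finset.sum_congr rfl fun b _ => ?_
  simp only [L2, w2]
  ring

theorem gap7_alg (hm : 3 ≤ m) (W : Matrix (Fin m) (Fin m) ℝ) (hW : W.PosDef)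
    (X : Matrix (Fin m) (Fin m) ℝ) (hX : X.IsSymm) (ht : (W⁻¹ * X).trace = 0) (lam : ℝ)
    (h : ∀ j k a b, L2 X j k a b = lam * L2 W j k a b) : X = 0 := by
  have hu : IsUnit W.det := hW.det_pos.ne'.isUnit
  have h1 : W⁻¹ * W = 1 := Matrix.nonsing_inv_mul W hu
  have h2 : W * W⁻¹ = 1 := Matrix.mul_nonsing_inv W hu
  have key : ∀ Q : Matrix (Fin m) (Fin m) ℝ,
      (Q * X).trace • X - X * Q * X = lam • ((Q * W).trace • W - W * Q * W) := by
    intro Q
    ext j a
    have e1 := gap7_contract X Q j a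
    have e2 := gap7_contract W Q j a
    simp only [Matrix.sub_apply, Matrix.smul_apply, smul_eq_mul]
    rw [mul_comm (Q * X).trace, mul_comm (Q * W).trace, ← e1, ← e2, Finset.mul_sum]
    refine Finset.sum_congr rfl fun k _ => ?_
    rw [Finset.mul_sum]
    refine Finset.sum_congr rfl fun b _ => ?_
    rw [h]
    ring
  have k1 : X * W⁻¹ * X = (-(lam * ((m : ℝ) - 1))) • W := by
    have := key W⁻¹
    rw [ht, h1, h2, Matrix.trace_one, Fintype.card_fin, zero_smul, zero_sub, Matrix.one_mul,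
      neg_eq_iff_eq_neg] at this
    rw [this]
    ext j a
    simp only [Matrix.neg_apply, Matrix.sub_apply, Matrix.smul_apply, smul_eq_mul]
    ring
  have k2 : (lam * (1 - ((m : ℝ) - 1) ^ 2)) • X = 0 := by
    have := key (W⁻¹ * X * W⁻¹)
    have a1 : W⁻¹ * X * W⁻¹ * X = (-(lam * ((m : ℝ) - 1))) • (1 : Matrix (Fin m) (Fin m) ℝ) := by
      rw [Matrix.mul_assoc, Matrix.mul_assoc, ← Matrix.mul_assoc X, k1, Matrix.mul_smul, h1]
    have a2 : X * (W⁻¹ * X * W⁻¹) * X = (-(lam * ((m : ℝ) - 1))) • X := by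
      rw [Matrix.mul_assoc, a1, Matrix.mul_smul, Matrix.mul_one]
    have a3 : W⁻¹ * X * W⁻¹ * W = W⁻¹ * X := by rw [Matrix.mul_assoc, h1, Matrix.mul_one]
    have a4 : W * (W⁻¹ * X * W⁻¹) * W = X := by
      rw [Matrix.mul_assoc, a3, ← Matrix.mul_assoc, h2, Matrix.one_mul]
    rw [a1, a2, a3, a4, ht, Matrix.trace_smul, Matrix.trace_one, Fintype.card_fin] at this
    ext j a
    have e := congrFun (congrFun this j) a
    simp only [Matrix.sub_apply, Matrix.smul_apply, smul_eq_mul, Matrix.zero_apply] at e ⊢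
    linear_combination e
  by_cases hl : lam = 0
  · rw [hl] at k1
    simp only [zero_mul, neg_zero, zero_smul] at k1
    ext j a
    by_contra hne
    have hx : X *ᵥ Pi.single a 1 ≠ 0 := by
      intro h0
      apply hne
      have := congrFun h0 j
      simpa using this
    have hp := hW.inv.dotProduct_mulVec_pos hx
    rw [star_trivial, Matrix.mulVec_mulVec] at hp
    have e : X *ᵥ Pi.single a 1 = Pi.single a 1 ᵥ* X := by
      rw [← Matrix.mulVec_transpose, hX.eq]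
    nth_rewrite 1 [e] at hp
    rw [← Matrix.dotProduct_mulVec, Matrix.mulVec_mulVec, ← Matrix.mul_assoc, k1] at hp
    simp at hp
  · have h3 : (3 : ℝ) ≤ m := by exact_mod_cast hm
    have hne : lam * (1 - ((m : ℝ) - 1) ^ 2) ≠ 0 := mul_ne_zero hl (by nlinarith)
    exact (smul_eq_zero.1 k2).resolve_left hne

theorem gap7_scale {g : Fin m → Fin m → Fin m → ℝ} {X : Fin m → Fin m → ℝ}
    {Y : Fin m → Fin m → Fin m → ℝ} (h : Sol g (L2 X) Y) (t : ℝ) :
    Sol g (L2 (t • X)) (t ^ 2 • Y) := by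
  have e : ∀ j k a b, L2 (t • X) j k a b = t ^ 2 * L2 X j k a b := by
    intro j k a b
    simp only [L2, w2, Pi.smul_apply, smul_eq_mul]
    ring
  refine ⟨fun j k a b => ?_, fun j k a b => ?_, fun j k a b => ?_, fun j k a b => ?_,
    fun k a b => ?_, fun k a b => ?_, fun j a b c => ?_, fun j a b c d => ?_⟩
  · rw [e, e, h.r1]; ring
  · rw [e, e, h.r2]; ring
  · rw [e, e, h.r3]
  · rw [e, e, e]; linear_combination t ^ 2 * h.r4 j k a b
  · simp only [Pi.smul_apply, smul_eq_mul]; rw [h.y1]; ring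
  · simp only [Pi.smul_apply, smul_eq_mul]; linear_combination t ^ 2 * h.y2 k a b
  · have : eqA g (L2 (t • X)) (t ^ 2 • Y) j a b c = t ^ 2 * eqA g (L2 X) Y j a b c := by
      simp only [eqA, w3, e, Pi.smul_apply, smul_eq_mul, mul_add, Finset.mul_sum]
      congr 1
      · exact Finset.sum_congr rfl fun k _ => by ring
      · ring
    rw [this, h.hA, mul_zero]
  · have : eqB g (L2 (t • X)) (t ^ 2 • Y) j a b c d = t ^ 2 * eqB g (L2 X) Y j a b c d := by
      simp only [eqB, w4, e, Pi.smul_apply, smul_eq_mul, mul_add, Finset.mul_sum]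
      congr 1
      · exact Finset.sum_congr rfl fun k _ => Finset.sum_congr rfl fun l _ => by ring
      · exact Finset.sum_congr rfl fun k _ => by ring
    rw [this, h.hB, mul_zero]

theorem gap7_closed : IsClosed {p : (Fin m → Fin m → Fin m → ℝ) ×
    ((Fin m → Fin m → ℝ) × (Fin m → Fin m → Fin m → ℝ)) | Sol p.1 (L2 p.2.1) p.2.2} := by
  have e : {p : (Fin m → Fin m → Fin m → ℝ) ×
      ((Fin m → Fin m → ℝ) × (Fin m → Fin m → Fin m → ℝ)) | Sol p.1 (L2 p.2.1) p.2.2} =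
      {p | (∀ j k a b, L2 p.2.1 j k a b = - L2 p.2.1 k j a b) ∧
        (∀ j k a b, L2 p.2.1 j k a b = - L2 p.2.1 j k b a) ∧
        (∀ j k a b, L2 p.2.1 j k a b = L2 p.2.1 a b j k) ∧
        (∀ j k a b, L2 p.2.1 j k a b + L2 p.2.1 j a b k + L2 p.2.1 j b k a = 0) ∧
        (∀ k a b, p.2.2 k a b = - p.2.2 k b a) ∧
        (∀ k a b, p.2.2 k a b + p.2.2 a b k + p.2.2 b k a = 0) ∧
        (∀ j a b c, eqA p.1 (L2 p.2.1) p.2.2 j a b c = 0) ∧
        (∀ j a b c d, eqB p.1 (L2 p.2.1) p.2.2 j a b c d = 0)} := by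
    ext p
    exact ⟨fun h => ⟨h.1, h.2, h.3, h.4, h.5, h.6, h.7, h.8⟩,
      fun ⟨a, b, c, d, e, f, g, h⟩ => ⟨a, b, c, d, e, f, g, h⟩⟩
  rw [e]
  simp only [Set.ofPred_and, Set.ofPred_forall]
  refine IsClosed.inter ?_ (IsClosed.inter ?_ (IsClosed.inter ?_ (IsClosed.inter ?_
    (IsClosed.inter ?_ (IsClosed.inter ?_ (IsClosed.inter ?_ ?_))))))
  all_goals
    repeat' refine isClosed_iInter fun _ => ?_
    refine isClosed_eq ?_ ?_
    all_goals
      try simp only [eqA, eqB, L2, w2, w3, w4]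
      fun_prop

theorem gap_of_rank7 (hm : 3 ≤ m) (W : Matrix (Fin m) (Fin m) ℝ) (hW : W.PosDef) (θ : Ar m ℝ)
    (h : RankFact (wth W θ) W) : wth W θ ∉ closure (cone W⁻¹) := by
  intro hmem
  let C : Set ((Fin m → Fin m → ℝ) × (Fin m → Fin m → Fin m → ℝ)) := Metric.closedBall 0 1
  have : CompactSpace C := isCompact_iff_compactSpace.1 (isCompact_closedBall 0 1)
  let Z : Set ((Fin m → Fin m → Fin m → ℝ) × C) :=
    {p | Sol p.1 (L2 p.2.1.1) p.2.1.2} ∩ ({p | ∀ a b, p.2.1.1 a b = p.2.1.1 b a} ∩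
      ({p | ∑ a, ∑ b, W⁻¹ a b * p.2.1.1 b a = 0} ∩ {p | ‖p.2.1.1‖ ^ 2 + ‖p.2.1.2‖ = 1}))
  have hZ : IsClosed Z := by
    refine IsClosed.inter ?_ (IsClosed.inter ?_ (IsClosed.inter ?_ ?_))
    · exact gap7_closed.preimage (f := fun p : (Fin m → Fin m → Fin m → ℝ) × C => (p.1, p.2.1))
        (by fun_prop)
    · simp only [Set.ofPred_forall]
      exact isClosed_iInter fun _ => isClosed_iInter fun _ => isClosed_eq (by fun_prop)
        (by fun_prop)
    · exact isClosed_eq (by fun_prop) (by fun_prop)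
    · exact isClosed_eq (by fun_prop) (by fun_prop)
  have hsub : cone W⁻¹ ⊆ Prod.fst '' Z := by
    rintro g ⟨X, θ', u, hX, hd, ht, hθ', rfl⟩
    have hs := cone_sol X hX θ' hθ' u
    set Y : Fin m → Fin m → Fin m → ℝ := fun k => w2 (X k) (-(X *ᵥ u)) with hY
    let X' : Fin m → Fin m → ℝ := fun a b => X a b
    have hX0 : X' ≠ 0 := by
      intro h0
      apply hd
      have hX00 : X = 0 := h0
      have : Nonempty (Fin m) := ⟨⟨0, by omega⟩⟩
      rw [hX00, Matrix.det_zero]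
    have hs0 : 0 < ‖X'‖ ^ 2 + ‖Y‖ := by
      have := norm_pos_iff.2 hX0
      positivity
    set t : ℝ := (Real.sqrt (‖X'‖ ^ 2 + ‖Y‖))⁻¹ with htdef
    have ht0 : 0 < t := inv_pos.2 (Real.sqrt_pos.2 hs0)
    have ht2 : t ^ 2 * (‖X'‖ ^ 2 + ‖Y‖) = 1 := by
      rw [htdef, inv_pow, Real.sq_sqrt hs0.le, inv_mul_cancel₀ hs0.ne']
    have hn : ‖t • X'‖ ^ 2 + ‖t ^ 2 • Y‖ = 1 := by
      rw [norm_smul, norm_smul, Real.norm_of_nonneg ht0.le, Real.norm_of_nonneg (sq_nonneg t),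
        ← ht2]
      ring
    have hC : (t • X', t ^ 2 • Y) ∈ C := by
      rw [mem_closedBall_zero_iff, Prod.norm_def]
      have a1 := norm_nonneg (t • X')
      have a2 := norm_nonneg (t ^ 2 • Y)
      refine max_le ?_ ?_
      · change ‖t • X'‖ ≤ 1
        nlinarith
      · change ‖t ^ 2 • Y‖ ≤ 1
        nlinarith
    refine ⟨(_, ⟨_, hC⟩), ⟨gap7_scale (X := X') hs t, fun a b => ?_, ?_, hn⟩, rfl⟩
    · change t * X a b = t * X b a
      rw [hX.apply a b]
    · change ∑ a, ∑ b, W⁻¹ a b * (t * X b a) = 0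
      have : ∑ a, ∑ b, W⁻¹ a b * (t * X b a) = t * (W⁻¹ * X).trace := by
        simp only [Matrix.trace, Matrix.diag_apply, Matrix.mul_apply, Finset.mul_sum]
        exact Finset.sum_congr rfl fun a _ => Finset.sum_congr rfl fun b _ => by ring
      rw [this, ht, mul_zero]
  have hcl : IsClosed (Prod.fst '' Z) := isClosedMap_fst_of_compactSpace Z hZ
  obtain ⟨⟨g, ⟨⟨X, Y⟩, hC⟩⟩, ⟨h1, h2, h3, h4⟩, hg⟩ := closure_minimal hsub hcl hmem
  change g = _ at hg
  subst hg
  obtain ⟨⟨lam, hl⟩, hY⟩ := h _ _ h1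
  have hX : Matrix.of X = 0 := by
    refine gap7_alg hm W hW (Matrix.of X) ?_ ?_ lam hl
    · ext a b
      exact h2 b a
    · exact h3
  have hX' : X = 0 := hX
  have hY' : Y = 0 := by
    funext k a b
    exact hY k a b
  change ‖X‖ ^ 2 + ‖Y‖ = 1 at h4
  rw [hX', hY'] at h4
  simp at h4

end Crest.Agent.R237.Ex
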