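import Mathlib
import Crest.Agent.R237.ExCone
import Crest.Agent.R237.ExRows
import Crest.Agent.R237.ExData

/-!
# S0367 example: the rank fact at `γ*` (helper86)
-/

set_option autoImplicit false

namespace Crest.Agent.R237.Ex

open Matrix Crest.Agent.R237.H Crest.Agent.R237.Rk

/-- the increasing pairs. -/
def PL : List (Fin 6 × Fin 6) := [(0, 1), (0, 2), (0, 3), (0, 4), (0, 5), (1, 2), (1, 3), (1, 4),
  (1, 5), (2, 3), (2, 4), (2, 5), (3, 4), (3, 5), (4, 5)]

/-- the pair with number `p`. -/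
def pr (p : ℕ) : Fin 6 × Fin 6 := PL.getD p (0, 0)

/-- the pairs of pairs. -/
def TL : List (ℕ × ℕ) := (List.range 15).flatMap fun q => (List.range (q + 1)).map fun p => (p, q)

/-- the pair of pairs with number `v`. -/
def tp (v : ℕ) : ℕ × ℕ := TL.getD v (0, 0)

theorem pr_spec : ∀ j k : Fin 6, pidx j k < 15 ∧
    ((pr (pidx j k) = (j, k) ∧ sg j k = 1) ∨ (pr (pidx j k) = (k, j) ∧ sg j k = -1) ∨
      (j = k ∧ sg j k = 0)) := by decide +kernel

theorem tp_spec : ∀ p < 15, ∀ q < 15, tidx p q < 120 ∧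
    (tp (tidx p q) = (p, q) ∨ tp (tidx p q) = (q, p)) := by decide +kernel

theorem dz_cast (j a : Fin 6) : ((dz j a : ℤ) : ℝ) = ev j a := by
  have : ∀ j a : Fin 6, dz j a = if a = j then 1 else 0 := by decide +kernel
  rw [this, ev]
  split_ifs <;> simp

section link

variable (R : Fin 6 → Fin 6 → Fin 6 → Fin 6 → ℝ) (Y : Fin 6 → Fin 6 → Fin 6 → ℝ)

/-- the 210 unknowns. -/
noncomputable def xx (v : ℕ) : ℝ :=
  if v < 120 then R (pr (tp v).1).1 (pr (tp v).1).2 (pr (tp v).2).1 (pr (tp v).2).2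
  else Y (Fin.ofNat 6 ((v - 120) / 15)) (pr ((v - 120) % 15)).1 (pr ((v - 120) % 15)).2

variable {R Y} {g : Fin 6 → Fin 6 → Fin 6 → ℝ}

theorem R_eq (h : Sol g R Y) (j k a b : Fin 6) :
    R j k a b = ((sg j k * sg a b : ℤ) : ℝ) * xx R Y (tidx (pidx j k) (pidx a b)) := by
  obtain ⟨hp, hjk⟩ := pr_spec j k
  obtain ⟨hq, hab⟩ := pr_spec a b
  obtain ⟨ht, hpq⟩ := tp_spec _ hp _ hq
  have h1 : xx R Y (tidx (pidx j k) (pidx a b)) = R (pr (pidx j k)).1 (pr (pidx j k)).2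
      (pr (pidx a b)).1 (pr (pidx a b)).2 := by
    rw [xx, if_pos ht]
    rcases hpq with e | e
    · rw [e]
    · rw [e]; exact h.r3 _ _ _ _
  have z1 : ∀ j a b, R j j a b = 0 := fun j a b => by linarith [h.r1 j j a b]
  have z2 : ∀ j k a, R j k a a = 0 := fun j k a => by linarith [h.r2 j k a a]
  rw [h1]
  rcases hjk with ⟨e1, s1⟩ | ⟨e1, s1⟩ | ⟨e1, s1⟩ <;>
    rcases hab with ⟨e2, s2⟩ | ⟨e2, s2⟩ | ⟨e2, s2⟩ <;> rw [s1, s2] <;> push_cast
  · rw [e1, e2]; ring
  · rw [e1, e2]; linarith [h.r2 j k a b]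
  · rw [e2, z2]; ring
  · rw [e1, e2]; linarith [h.r1 j k a b]
  · rw [e1, e2]; linarith [h.r1 j k a b, h.r2 k j a b]
  · rw [e2, z2]; ring
  · rw [e1, z1]; ring
  · rw [e1, z1]; ring
  · rw [e1, z1]; ring

theorem Y_eq (h : Sol g R Y) (k a b : Fin 6) :
    Y k a b = ((sg a b : ℤ) : ℝ) * xx R Y (120 + 15 * k.1 + pidx a b) := by
  obtain ⟨hq, hab⟩ := pr_spec a b
  have h1 : xx R Y (120 + 15 * k.1 + pidx a b) = Y k (pr (pidx a b)).1 (pr (pidx a b)).2 := by
    rw [xx, if_neg (by omega)]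
    have e1 : (120 + 15 * k.1 + pidx a b - 120) / 15 = k.1 := by omega
    have e2 : (120 + 15 * k.1 + pidx a b - 120) % 15 = pidx a b := by omega
    have e3 : Fin.ofNat 6 k.1 = k := Fin.ext (Nat.mod_eq_of_lt k.2)
    rw [e1, e2, e3]
  have z2 : ∀ k a, Y k a a = 0 := fun k a => by linarith [h.y1 k a a]
  rw [h1]
  rcases hab with ⟨e2, s2⟩ | ⟨e2, s2⟩ | ⟨e2, s2⟩ <;> rw [s2] <;> push_cast
  · rw [e2]; ring
  · rw [e2]; linarith [h.y1 k a b]
  · rw [e2, z2]; ring

theorem ev_nil (x : ℕ → ℝ) : Rk.ev x [] = 0 := by simp [Rk.ev]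

theorem ev_cons (x : ℕ → ℝ) (t : ℤ × ℕ) (e : List (ℤ × ℕ)) :
    Rk.ev x (t :: e) = (t.1 : ℝ) * x t.2 + Rk.ev x e := by simp [Rk.ev]

theorem ev_append (x : ℕ → ℝ) (e e' : List (ℤ × ℕ)) :
    Rk.ev x (e ++ e') = Rk.ev x e + Rk.ev x e' := by simp [Rk.ev]

theorem ev_flat (x : ℕ → ℝ) (f : Fin 6 → List (ℤ × ℕ)) :
    Rk.ev x (F6.flatMap f) = ∑ k, Rk.ev x (f k) := by
  simp only [F6, List.flatMap_cons, List.flatMap_nil, ev_append, ev_nil, Fin.sum_univ_six]
  ring

theorem tR_val (h : Sol g R Y) (c : ℤ) (j k a b : Fin 6) :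
    ((tR c j k a b).1 : ℝ) * xx R Y (tR c j k a b).2 = c * R j k a b := by
  rw [R_eq h j k a b, tR]
  push_cast
  ring

theorem tY_val (h : Sol g R Y) (c : ℤ) (k a b : Fin 6) :
    ((tY c k a b).1 : ℝ) * xx R Y (tY c k a b).2 = c * Y k a b := by
  rw [Y_eq h k a b, tY]
  push_cast
  ring

theorem ev_rowA (h : Sol g R Y) (hg : ∀ j k a, g j k a = gzt j k a) (j a b c : Fin 6) :
    Rk.ev (xx R Y) (rowA j a b c) = eqA g R Y j a b c := by
  simp only [rowA, ev_append, ev_flat, ev_cons, ev_nil, tR_val h, tY_val h, eqA, w3, hg, dz_cast,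
    add_zero, add_assoc]

theorem ev_rowB (h : Sol g R Y) (hg : ∀ j k a, g j k a = gzt j k a) (j a b c d : Fin 6) :
    Rk.ev (xx R Y) (rowB j a b c d) = eqB g R Y j a b c d := by
  simp only [rowB, sh, ev_append, ev_flat, ev_cons, ev_nil, tR_val h, tY_val h, eqB, w4, w2, z2,
    hg, Finset.mul_sum]
  push_cast
  simp only [dz_cast]
  congr 1
  · refine Finset.sum_congr rfl fun k _ => Finset.sum_congr rfl fun l _ => by ring
  · refine Finset.sum_congr rfl fun k _ => by ring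

/-- a solution with `R 0 1 0 1 = 0` vanishes. -/
theorem zero_of_sol (h : Sol g R Y) (hg : ∀ j k a, g j k a = gzt j k a) (h0 : R 0 1 0 1 = 0) :
    (∀ j k a b, R j k a b = 0) ∧ ∀ k a b, Y k a b = 0 := by
  have key : ∀ v < 210, xx R Y v = 0 := by
    refine Rk.zero_of_check EE 210 5 15 BB check_EE (xx R Y) ?_
    intro e he
    simp only [EE, List.mem_append, List.mem_flatMap, List.mem_map, List.mem_singleton] at he
    rcases he with ⟨j, -, t, -, rfl⟩ | ⟨j, -, t, -, rfl⟩ | ⟨t, -, rfl⟩ | ⟨t, -, rfl⟩ | rfl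
    · rw [ev_rowA h hg, h.hA]
    · rw [ev_rowB h hg, h.hB]
    · simp only [ev_cons, ev_nil, tR_val h]
      have := h.r4 t.1 t.2.1 t.2.2.1 t.2.2.2
      push_cast
      linarith
    · simp only [ev_cons, ev_nil, tY_val h]
      have := h.y2 t.1 t.2.1 t.2.2
      push_cast
      linarith
    · have e : xx R Y 0 = R 0 1 0 1 := by
        rw [xx, if_pos (by norm_num)]
        rfl
      simp only [ev_cons, ev_nil, e, h0]
      simp
  refine ⟨fun j k a b => ?_, fun k a b => ?_⟩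
  · have := (tp_spec _ (pr_spec j k).1 _ (pr_spec a b).1).1
    rw [R_eq h, key _ (by omega), mul_zero]
  · have := (pr_spec a b).1
    have := k.2
    rw [Y_eq h, key _ (by omega), mul_zero]

end link

/-- the system is linear. -/
theorem Sol.sub_smul {m : ℕ} {g : Fin m → Fin m → Fin m → ℝ}
    {R R' : Fin m → Fin m → Fin m → Fin m → ℝ} {Y Y' : Fin m → Fin m → Fin m → ℝ}
    (h : Sol g R Y) (h' : Sol g R' Y') (s : ℝ) :
    Sol g (fun j k a b => R j k a b - s * R' j k a b) (fun k a b => Y k a b - s * Y' k a b) := by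
  refine ⟨?_, ?_, ?_, ?_, ?_, ?_, ?_, ?_⟩
  · intro j k a b; rw [h.r1 j k a b, h'.r1 j k a b]; ring
  · intro j k a b; rw [h.r2 j k a b, h'.r2 j k a b]; ring
  · intro j k a b; rw [h.r3 j k a b, h'.r3 j k a b]
  · intro j k a b; linear_combination h.r4 j k a b - s * h'.r4 j k a b
  · intro k a b; rw [h.y1 k a b, h'.y1 k a b]; ring
  · intro k a b; linear_combination h.y2 k a b - s * h'.y2 k a b
  · intro j a b c
    have e : eqA g (fun j k a b => R j k a b - s * R' j k a b)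
        (fun k a b => Y k a b - s * Y' k a b) j a b c
        = eqA g R Y j a b c - s * eqA g R' Y' j a b c := by
      simp only [eqA, w3, mul_add, Finset.mul_sum]
      rw [add_sub_add_comm, ← Finset.sum_sub_distrib]
      congr 1
      · refine Finset.sum_congr rfl fun k _ => by ring
      · ring
    rw [e, h.hA, h'.hA]; ring
  · intro j a b c d
    have e : eqB g (fun j k a b => R j k a b - s * R' j k a b)
        (fun k a b => Y k a b - s * Y' k a b) j a b c d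
        = eqB g R Y j a b c d - s * eqB g R' Y' j a b c d := by
      simp only [eqB, w4, mul_add, Finset.mul_sum]
      rw [add_sub_add_comm, ← Finset.sum_sub_distrib, ← Finset.sum_sub_distrib]
      congr 1
      · refine Finset.sum_congr rfl fun k _ => ?_
        rw [← Finset.sum_sub_distrib]
        refine Finset.sum_congr rfl fun l _ => by ring
      · refine Finset.sum_congr rfl fun k _ => by ring
    rw [e, h.hB, h'.hB]; ring

/-- THE RANK FACT for data `(W, θ)` with `wth W θ = γ*` (table `gzt`). -/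
theorem rankFact (W : Matrix (Fin 6) (Fin 6) ℝ) (hW : W.IsSymm) (θ : Ar 6 ℝ) (hθ : Sym3 θ)
    (hg : ∀ j k a, wth W θ j k a = (gzt j k a : ℝ)) (h0 : W 0 0 * W 1 1 - W 0 1 * W 1 0 ≠ 0) :
    RankFact (wth W θ) W := by
  intro R Y h
  have h1 := cone_sol W hW θ hθ 0
  have e1 : wth W θ + ush (0 : Fin 6 → ℝ) = wth W θ := by
    funext i j l
    simp [ush]
  rw [e1] at h1
  have h00 : L2 W 0 1 0 1 ≠ 0 := h0
  obtain ⟨h2, h3⟩ := zero_of_sol (h.sub_smul h1 (R 0 1 0 1 / L2 W 0 1 0 1)) hg (by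
    field_simp
    ring)
  refine ⟨⟨R 0 1 0 1 / L2 W 0 1 0 1, fun j k a b => sub_eq_zero.1 (h2 j k a b)⟩, fun k a b => ?_⟩
  have := h3 k a b
  simpa [w2] using this

theorem gz_eq_gzt : ∀ j k a, gz j k a = gzt j k a := by decide +kernel

/-- THE RANK FACT for the wheel example. -/
theorem rankFact_W0 : RankFact (wth W0 th0) W0 := by
  refine rankFact W0 W0_symm th0 th0_sym (fun j k a => by rw [wth_W0, ← gz_eq_gzt]) ?_
  simp [W0, Wz]

end Crest.Agent.R237.Ex
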