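import Crest.Agent.R237.HCone

/-! S0367 framework: the quadratic form `β` and the data. -/

set_option autoImplicit false
set_option linter.unusedSectionVars false

namespace Crest.Agent.R237.H

open Matrix

variable {m : ℕ}

/-- arrays as Euclidean vectors -/
noncomputable def hbetaφ (m : ℕ) : Ar m ℝ →ₗ[ℝ] EuclideanSpace ℝ (Ix m) where
  toFun g := WithLp.toLp 2 fun I => g I.1 I.2.1 I.2.2
  map_add' _ _ := rfl
  map_smul' _ _ := rfl

/-- `ush` as a linear map -/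
noncomputable def hbetaU (m : ℕ) : (Fin m → ℝ) →ₗ[ℝ] Ar m ℝ where
  toFun := ush
  map_add' u v := by
    funext i j l
    simp only [ush, Pi.add_apply]
    split_ifs <;> ring
  map_smul' s u := by
    funext i j l
    simp only [ush, Pi.smul_apply, smul_eq_mul, RingHom.id_apply]
    split_ifs <;> ring

/-- the basis arrays -/
def hbetaE (I : Ix m) : Ar m ℝ := fun i j l => if I = (i, j, l) then 1 else 0

theorem hbeta_sum (g : Ar m ℝ) : g = ∑ I : Ix m, g I.1 I.2.1 I.2.2 • hbetaE I := by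
  funext i j l
  simp [Finset.sum_apply, hbetaE]

theorem hbeta_norm (g : Ar m ℝ) : ‖g‖ ≤ ‖hbetaφ m g‖ :=
  (pi_norm_le_iff_of_nonneg (norm_nonneg _)).2 fun i => (pi_norm_le_iff_of_nonneg (norm_nonneg _)).2 fun j =>
    (pi_norm_le_iff_of_nonneg (norm_nonneg _)).2 fun l => PiLp.norm_apply_le (hbetaφ m g) (i, j, l)

theorem hbeta_add {P : Matrix (Fin m) (Fin m) ℝ} {g : Ar m ℝ} (hg : g ∈ cone P) (u : Fin m → ℝ) :
    g + ush u ∈ cone P := by
  obtain ⟨W, θ, v, h1, h2, h3, h4, rfl⟩ := hg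
  exact ⟨W, θ, v + u, h1, h2, h3, h4, by rw [add_assoc]; exact congrArg _ ((hbetaU m).map_add v u).symm⟩

theorem hbeta_smul {P : Matrix (Fin m) (Fin m) ℝ} {g : Ar m ℝ} (hg : g ∈ cone P) (s : ℝ) : s • g ∈ cone P := by
  obtain ⟨W, θ, v, h1, h2, h3, h4, rfl⟩ := hg
  refine ⟨W, s • θ, s • v, h1, h2, h3, ⟨fun i j l => congrArg (s * ·) (h4.1 i j l),
    fun i j l => congrArg (s * ·) (h4.2 i j l)⟩, ?_⟩
  rw [smul_add]
  refine congrArg₂ _ ?_ ((hbetaU m).map_smul s v).symm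
  funext i j l
  simp only [wth, Pi.smul_apply, mulVec_smul]
  split_ifs <;> simp

/-- Work in `E = EuclideanSpace ℝ (Ix m)` (arrays `g ↦ fun I => g I.1 I.2.1 I.2.2`), `U₁` the
range of the linear map `ush`, `π` the orthogonal projection onto `U₁ᗮ`, `n = π γ*`.
The cone is stable under real scalars and under adding `ush u`, and contains `U₁`
(`exists_traceless`, `θ = 0`), so `n ≠ 0`. The gap gives `r > 0` with `‖γ* - g‖ ≥ r` on the cone;
for `g` in the cone and real `s`, `s g + u` is in the cone for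
`u = (γ* - n) - s (g - π g) ∈ U₁`, so `‖n - s π g‖ ≥ r` for all `s`, hence (discriminant)
`⟪n, π g⟫^2 ≤ (‖n‖^2 - r^2) ‖π g‖^2`. Take `β g = (‖n‖^2 - r^2) ‖π g‖^2 - ⟪n, π g⟫^2`,
`β γ* = -r^2 ‖n‖^2`; `B I J` = the polar bilinear form on the basis vectors. -/
theorem exists_beta (ex : Example m) :
    ∃ B : Ix m → Ix m → ℝ, (∀ (g : Ar m ℝ) (u : Fin m → ℝ), qf B (g + ush u) = qf B g) ∧
      (∀ g ∈ cone ex.P, 0 ≤ qf B g) ∧ qf B (wth ex.W ex.θ) < 0 := by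
  obtain ⟨r, hr, hgap⟩ : ∃ r > 0, ∀ g ∈ cone ex.P, r ≤ ‖wth ex.W ex.θ - g‖ := by
    have h := ex.gap
    rw [Metric.mem_closure_iff] at h
    push Not at h
    simpa only [dist_eq_norm] using h
  obtain ⟨U, hU⟩ : ∃ U, U = LinearMap.range ((hbetaφ m).comp (hbetaU m)) := ⟨_, rfl⟩
  obtain ⟨L, hL⟩ : ∃ L : Ar m ℝ →ₗ[ℝ] EuclideanSpace ℝ (Ix m),
      ∀ g, L g = hbetaφ m g - U.starProjection (hbetaφ m g) :=
    ⟨hbetaφ m - (U.starProjection : _ →ₗ[ℝ] _).comp (hbetaφ m), fun _ => rfl⟩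
  have hLu : ∀ u, L (ush u) = 0 := fun u => by
    rw [hL, Submodule.starProjection_eq_self_iff.2 (hU ▸ ⟨u, rfl⟩), sub_self]
  have hgap' : ∀ g ∈ cone ex.P, r ≤ ‖L (wth ex.W ex.θ) - L g‖ := fun g hg => by
    have h1 := U.starProjection_apply_mem (hbetaφ m (wth ex.W ex.θ - g))
    obtain ⟨u, hu⟩ := hU.le h1
    refine (hgap _ (hbeta_add hg u)).trans ((hbeta_norm _).trans_eq ?_)
    rw [← map_sub L, hL, ← hu, ← sub_sub, map_sub]
    rfl
  obtain ⟨n, hn⟩ : ∃ n, n = L (wth ex.W ex.θ) := ⟨_, rfl⟩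
  rw [← hn] at hgap'
  have hq : ∀ g : Ar m ℝ, qf (fun I J => (‖n‖ ^ 2 - r ^ 2) * inner ℝ (L (hbetaE I)) (L (hbetaE J)) -
      inner ℝ n (L (hbetaE I)) * inner ℝ n (L (hbetaE J))) g =
        (‖n‖ ^ 2 - r ^ 2) * ‖L g‖ ^ 2 - inner ℝ n (L g) ^ 2 := fun g => by
    have e : L g = ∑ I : Ix m, g I.1 I.2.1 I.2.2 • L (hbetaE I) := by
      conv_lhs => rw [hbeta_sum g]
      simp only [map_sum, map_smul]
    rw [← real_inner_self_eq_norm_sq (L g), sq (inner ℝ n (L g)), e]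
    simp only [qf, bil, sum_inner, inner_sum, real_inner_smul_left, real_inner_smul_right, Finset.sum_mul,
      Finset.mul_sum, ← Finset.sum_sub_distrib, smul_eq_mul]
    refine Finset.sum_congr rfl fun I _ => Finset.sum_congr rfl fun J _ => ?_
    rw [real_inner_comm (L (hbetaE I)) (L (hbetaE J))]
    ring
  refine ⟨_, fun g u => by rw [hq, hq, map_add, hLu, add_zero], fun g hg => ?_, ?_⟩
  · have h := discrim_le_zero (a := ‖L g‖ ^ 2) (b := -2 * inner ℝ n (L g)) (c := ‖n‖ ^ 2 - r ^ 2) fun s => by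
      have h1 := pow_le_pow_left₀ hr.le (hgap' _ (hbeta_smul hg s)) 2
      rw [map_smul, norm_sub_sq_real, real_inner_smul_right, norm_smul, mul_pow, Real.norm_eq_abs, sq_abs] at h1
      linarith
    rw [discrim] at h
    rw [hq]
    linarith
  · obtain ⟨N, h1, h2, h3⟩ := exists_traceless ex.two_le ex.P ex.Ppd
    have h0 : (0 : Ar m ℝ) ∈ cone ex.P := by
      simpa using hbeta_smul (show wth N 0 + ush 0 ∈ cone ex.P from
        ⟨N, 0, 0, h1, h2, h3, ⟨fun _ _ _ => rfl, fun _ _ _ => rfl⟩, rfl⟩) 0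
    have h4 := hgap' 0 h0
    rw [map_zero, sub_zero] at h4
    have h5 : 0 < r ^ 2 * ‖n‖ ^ 2 := mul_pos (pow_pos hr 2) (pow_pos (hr.trans_le h4) 2)
    rw [hq, ← hn, real_inner_self_eq_norm_sq]
    linarith

theorem hbeta_rho (hm : 0 < m) {P : Matrix (Fin m) (Fin m) ℝ} (hP : P.PosDef) :
    ∃ ρ > 0, ∀ v : Fin m → ℝ, ρ * (v ⬝ᵥ v) ≤ v ⬝ᵥ P *ᵥ v := by
  have : Nonempty (Fin m) := ⟨⟨0, hm⟩⟩
  have hc : Continuous fun v : Fin m → ℝ => v ⬝ᵥ P *ᵥ v := by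
    simp only [dotProduct, mulVec]
    fun_prop
  obtain ⟨w, hw, hmin⟩ := (isCompact_sphere (0 : Fin m → ℝ) 1).exists_isMinOn
    (NormedSpace.sphere_nonempty.2 zero_le_one) hc.continuousOn
  have hw0 : w ≠ 0 := by
    rintro rfl
    simp at hw
  have hpos : 0 < w ⬝ᵥ P *ᵥ w := by simpa using hP.dotProduct_mulVec_pos hw0
  have hm' : (0 : ℝ) < m := by exact_mod_cast hm
  refine ⟨w ⬝ᵥ P *ᵥ w / m, by positivity, fun v => ?_⟩
  rcases eq_or_ne v 0 with rfl | hv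
  · simp
  have hn := norm_pos_iff.2 hv
  have h1 : w ⬝ᵥ P *ᵥ w ≤ (‖v‖⁻¹ • v) ⬝ᵥ P *ᵥ (‖v‖⁻¹ • v) :=
    hmin (show ‖v‖⁻¹ • v ∈ Metric.sphere 0 1 by simp [norm_smul, hn.ne'])
  rw [mulVec_smul, dotProduct_smul, smul_dotProduct, smul_eq_mul, smul_eq_mul, le_inv_mul_iff₀ hn,
    le_inv_mul_iff₀ hn] at h1
  have h2 : v ⬝ᵥ v ≤ m * ‖v‖ ^ 2 := by
    refine (Finset.sum_le_card_nsmul _ _ (‖v‖ ^ 2) fun i _ => ?_).trans_eq (by simp)
    rw [← sq, ← sq_abs]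
    exact pow_le_pow_left₀ (abs_nonneg _) (norm_le_pi_norm v i) 2
  refine (mul_le_mul_of_nonneg_left h2 (by positivity)).trans (le_of_eq_of_le ?_ h1)
  field_simp

/-- `ρ` from positive definiteness (smallest eigenvalue, or compactness of the sphere),
`Λ = (1 + ∑ I J, |B I J|)/ρ` (as `|g I * g J| ≤ ∑ g^2`), `sign` from `gam_mem_closure` and
continuity of `qf B` (`{g | 0 ≤ qf B g}` is closed). -/
theorem exists_data (ex : Example m) :
    ∃ D : Data m, D.P = ex.P ∧ qf D.B (wth ex.W ex.θ) < 0 := by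
  obtain ⟨B, h1, h2, h3⟩ := exists_beta ex
  obtain ⟨ρ, hρ, hP⟩ := hbeta_rho (by have := ex.two_le; omega) ex.Ppd
  have hS : 0 ≤ ∑ I, ∑ J, |B I J| := by positivity
  refine ⟨⟨ex.two_le, ex.P, B, (1 + ∑ I, ∑ J, |B I J|) / ρ, ρ, by positivity, hρ, ex.Ppd, hP, fun g => ?_, h1,
    fun M c hM hd hc hw => ?_⟩, rfl, h3⟩
  · have e : ∑ i, ∑ j, ∑ l, g i j l ^ 2 = ∑ I : Ix m, g I.1 I.2.1 I.2.2 ^ 2 := by
      simp only [Fintype.sum_prod_type]
    rw [div_mul_cancel₀ _ hρ.ne', e]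
    obtain ⟨Q, hQ⟩ : ∃ Q, Q = ∑ I : Ix m, g I.1 I.2.1 I.2.2 ^ 2 := ⟨_, rfl⟩
    have hI : ∀ I : Ix m, g I.1 I.2.1 I.2.2 ^ 2 ≤ Q := fun I => hQ ▸
      Finset.single_le_sum (f := fun I : Ix m => g I.1 I.2.1 I.2.2 ^ 2) (fun _ _ => sq_nonneg _) (Finset.mem_univ I)
    have hQ0 : 0 ≤ Q := by rw [hQ]; positivity
    rw [← hQ, add_mul, Finset.sum_mul]
    refine le_trans ?_ (le_add_of_nonneg_left (by positivity))
    refine (Finset.abs_sum_le_sum_abs _ _).trans (Finset.sum_le_sum fun I _ => ?_)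
    rw [Finset.sum_mul]
    refine (Finset.abs_sum_le_sum_abs _ _).trans (Finset.sum_le_sum fun J _ => ?_)
    rw [smul_eq_mul, abs_mul]
    refine mul_le_mul_of_nonneg_left (abs_le.2 ⟨?_, ?_⟩) (abs_nonneg _)
    · nlinarith [hI I, hI J, sq_nonneg (g I.1 I.2.1 I.2.2 + g J.1 J.2.1 J.2.2)]
    · nlinarith [hI I, hI J, sq_nonneg (g I.1 I.2.1 I.2.2 - g J.1 J.2.1 J.2.2)]
  · have hcont : Continuous fun g : Ar m ℝ => qf B g := by
      simp only [qf, bil, smul_eq_mul]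
      fun_prop
    exact closure_minimal (t := {g | 0 ≤ qf B g}) h2 (isClosed_le continuous_const hcont)
      (gam_mem_closure ex.two_le ex.P ex.Ppd M c hM hd hc hw)

end Crest.Agent.R237.H
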