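import Crest.Agent.R237.HDefs

/-! S0367 framework: the arrays `γ` lie in the closure of the cone. -/

set_option autoImplicit false
set_option linter.unusedSectionVars false

namespace Crest.Agent.R237.H

open Matrix

variable {m : ℕ}

/-- `N = diagonal d`, `d i = 1` for `i ≠ i0`, `d i0 = -(∑_{i ≠ i0} P i i)/P i0 i0`. -/
theorem exists_traceless (hm : 2 ≤ m) (P : Matrix (Fin m) (Fin m) ℝ) (hP : P.PosDef) :
    ∃ N : Matrix (Fin m) (Fin m) ℝ, N.IsSymm ∧ N.det ≠ 0 ∧ (P * N).trace = 0 := by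
  let i0 : Fin m := ⟨0, by omega⟩
  let i1 : Fin m := ⟨1, by omega⟩
  have h10 : i1 ≠ i0 := by simp [i0, i1, Fin.ext_iff]
  have hpos : ∀ i, 0 < P i i := fun i => hP.diag_pos
  have hs : 0 < ∑ i ∈ Finset.univ.erase i0, P i i :=
    Finset.sum_pos (fun i _ => hpos i) ⟨i1, by simp [h10]⟩
  refine ⟨diagonal fun i => if i = i0 then -(∑ i ∈ Finset.univ.erase i0, P i i) / P i0 i0 else 1,
    isSymm_diagonal _, ?_, ?_⟩
  · rw [det_diagonal]
    refine Finset.prod_ne_zero_iff.2 fun i _ => ?_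
    split_ifs
    · exact div_ne_zero (neg_ne_zero.2 hs.ne') (hpos i0).ne'
    · exact one_ne_zero
  · simp only [trace, diag_apply, mul_diagonal]
    have e : ∀ x : ℝ, ∑ i ∈ Finset.univ.erase i0, P i i * (if i = i0 then x else 1) =
        ∑ i ∈ Finset.univ.erase i0, P i i := fun x => Finset.sum_congr rfl fun i hi => by
      rw [if_neg (Finset.ne_of_mem_erase hi), mul_one]
    rw [← Finset.add_sum_erase _ _ (Finset.mem_univ i0), if_pos rfl, e]
    have := (hpos i0).ne'
    field_simp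
    ring

/-- Centering. `a = M 0 0`, `y i = M 0 i.succ`, `S i j = M i.succ j.succ`, `Σ = S - y yᵀ/a`,
`W i j = M⁻¹ i.succ j.succ`, `n i = M⁻¹ i.succ 0`. From `M⁻¹ * M = 1` (rows `i.succ`, split the
sum with `Fin.sum_univ_succ`): `a n + W y = 0`, `n yᵀ + W S = 1`, hence `W Σ = 1` (so
`det W ≠ 0`). With `θ i j l = c i j l - (y i S j l + y j S i l + y l S i j)/a + 2 y i y j y l/a^2`
and `u = y/a`: for `i ≠ j`, `γ_{ij} = S i j n + W c_{ij·} = W θ_{ij·} + u_i e_j + u_j e_i`
because `c i j l - y l S i j/a = θ i j l + (y i Σ j l + y j Σ i l)/a`.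
`hh P M⁻¹ = tr (P W)` as `W` is symmetric. -/
theorem gam_mem_cone (P : Matrix (Fin m) (Fin m) ℝ) (M : Mt m ℝ) (c : Ar m ℝ) (hM : M.IsSymm)
    (hd : M.det ≠ 0) (hc : Sym3 c) (h0 : M 0 0 ≠ 0) (hw : hh P M⁻¹ = 0) :
    gam M⁻¹ (tv M c) ∈ cone P := by
  have hK : M⁻¹ * M = 1 := nonsing_inv_mul M (Ne.isUnit hd)
  have hKs : M⁻¹.IsSymm := hM.inv
  generalize M⁻¹ = K at hK hKs hw ⊢
  have hMs : ∀ a b, M a b = M b a := fun a b => hM.apply b a
  have hKs' : ∀ a b, K a b = K b a := fun a b => hKs.apply b a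
  have e1 : ∀ i : Fin m, K i.succ 0 * M 0 0 + ∑ l : Fin m, K i.succ l.succ * M 0 l.succ = 0 := fun i => by
    have := congrFun (congrFun hK i.succ) 0
    rw [mul_apply, Fin.sum_univ_succ, one_apply_ne (Fin.succ_ne_zero i)] at this
    simpa only [hMs 0] using this
  have e2 : ∀ i j : Fin m, K i.succ 0 * M 0 j.succ + ∑ l : Fin m, K i.succ l.succ * M j.succ l.succ =
      if i = j then 1 else 0 := fun i j => by
    have := congrFun (congrFun hK i.succ) j.succ
    rw [mul_apply, Fin.sum_univ_succ, one_apply] at this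
    simpa only [hMs j.succ, Fin.succ_inj] using this
  have e3 : ∀ i j : Fin m, ∑ l : Fin m, K i.succ l.succ * (M j.succ l.succ - M 0 j.succ * M 0 l.succ / M 0 0) =
      if i = j then 1 else 0 := fun i j => by
    have h1 : ∑ l : Fin m, K i.succ l.succ * (M j.succ l.succ - M 0 j.succ * M 0 l.succ / M 0 0) =
        ∑ l : Fin m, K i.succ l.succ * M j.succ l.succ -
          M 0 j.succ / M 0 0 * ∑ l : Fin m, K i.succ l.succ * M 0 l.succ := by
      rw [Finset.mul_sum, ← Finset.sum_sub_distrib]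
      exact Finset.sum_congr rfl fun l _ => by ring
    rw [h1, ← e2 i j, eq_neg_of_add_eq_zero_right (e1 i)]
    field_simp
    ring
  refine ⟨Matrix.of fun i j => K i.succ j.succ, fun i j l => c i j l - (M 0 i.succ * M j.succ l.succ +
    M 0 j.succ * M i.succ l.succ + M 0 l.succ * M i.succ j.succ) / M 0 0 +
    2 * (M 0 i.succ * M 0 j.succ * M 0 l.succ) / M 0 0 ^ 2, fun i => M 0 i.succ / M 0 0,
    IsSymm.ext fun i j => hKs' _ _, ?_, ?_, ⟨fun i j l => ?_, fun i j l => ?_⟩, ?_⟩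
  · refine (isUnit_det_of_right_inverse (B := Matrix.of fun l j =>
      M j.succ l.succ - M 0 j.succ * M 0 l.succ / M 0 0) ?_).ne_zero
    ext i j
    rw [mul_apply, one_apply]
    exact e3 i j
  · rw [← hw]
    simp only [trace, diag_apply, mul_apply, of_apply, hh, smul_eq_mul]
    exact Finset.sum_congr rfl fun a _ => Finset.sum_congr rfl fun b _ => by rw [hKs']
  · beta_reduce
    rw [hc.1 i j l, hMs i.succ j.succ]
    ring
  · beta_reduce
    rw [hc.2 i j l, hMs j.succ l.succ]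
    ring
  · funext i j l
    by_cases h : i = j
    · simp [gam, tv, wth, ush, h]
    · simp only [gam, tv, wth, ush, h, if_false, Pi.add_apply, mulVec, dotProduct, of_apply,
        Fin.sum_univ_succ, Fin.cons_zero, Fin.cons_succ]
      rw [← e3 l i, ← e3 l j, Finset.mul_sum, Finset.mul_sum, ← Finset.sum_add_distrib,
        ← Finset.sum_add_distrib]
      have h1 : K l.succ 0 = -(∑ x : Fin m, K l.succ x.succ * M 0 x.succ) / M 0 0 := by
        rw [eq_div_iff h0]
        linarith [e1 l]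
      rw [h1, neg_div, Finset.sum_div, neg_mul, Finset.sum_mul, neg_add_eq_sub, ← Finset.sum_sub_distrib]
      refine Finset.sum_congr rfl fun x _ => ?_
      field_simp
      ring

theorem hcone_det_ev (W N : Matrix (Fin m) (Fin m) ℝ) (hN : N.det ≠ 0) :
    ∀ᶠ η : ℝ in nhdsWithin 0 {0}ᶜ, (W + η • N).det ≠ 0 := by
  have h := Polynomial.eventually_cofinite_not_isRoot (charpoly_monic (-(W * N⁻¹))).ne_zero
  filter_upwards [nhdsNE_le_cofinite (0 : ℝ) h] with η hη
  have e : W + η • N = (Matrix.scalar _ η - -(W * N⁻¹)) * N := by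
    rw [sub_neg_eq_add, add_mul, Matrix.mul_assoc, nonsing_inv_mul N (Ne.isUnit hN), Matrix.mul_one,
      scalar_apply, ← smul_eq_diagonal_mul, add_comm]
  rw [e, det_mul, ← eval_charpoly]
  exact mul_ne_zero hη hN

theorem hcone_cont (c : Ar m ℝ) : Continuous fun p : Mt m ℝ × Mt m ℝ => gam p.1 (tv p.2 c) := by
  refine continuous_pi fun i => continuous_pi fun j => continuous_pi fun l => ?_
  by_cases h : i = j
  · simp only [gam, tv, h, if_true, mulVec_zero, Pi.zero_apply]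
    exact continuous_const
  · simp only [gam, tv, h, if_false, mulVec, dotProduct, Fin.sum_univ_succ, Fin.cons_zero, Fin.cons_succ]
    fun_prop

/-- If `M 0 0 = 0`, perturb the inverse: `N' a b = N i j` for `a = i.succ, b = j.succ`, zero in
row/column `0` (`N` from `exists_traceless`), `K η = M⁻¹ + η • N'`, `M η = (K η)⁻¹`. For small
`η ≠ 0`: `det (K η) ≠ 0` (continuity), `hh P (K η) = 0`, and
`M η 0 0 = adjugate (K η) 0 0 / det (K η) = det (W + η • N)/det (K η) ≠ 0`
(`Matrix.adjugate_fin_succ_eq_det_submatrix`; `η ↦ det (W + η • N) = det N * det (η • 1 + W N⁻¹)`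
is a non-zero polynomial (`charpoly`), so it has finitely many zeros). Then `gam_mem_cone` and
`gam (M η)⁻¹ (tv (M η) c) → gam M⁻¹ (tv M c)` (`mem_closure_of_tendsto`, filter `𝓝[≠] 0`). -/
theorem gam_mem_closure (hm : 2 ≤ m) (P : Matrix (Fin m) (Fin m) ℝ) (hP : P.PosDef) (M : Mt m ℝ)
    (c : Ar m ℝ) (hM : M.IsSymm) (hd : M.det ≠ 0) (hc : Sym3 c) (hw : hh P M⁻¹ = 0) :
    gam M⁻¹ (tv M c) ∈ closure (cone P) := by
  obtain ⟨N, hNs, hNd, hNt⟩ := exists_traceless hm P hP
  let N' : Mt m ℝ := Matrix.of fun a b =>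
    (Fin.cons 0 (fun i => (Fin.cons 0 (N i) : Fin (m + 1) → ℝ) b) : Fin (m + 1) → ℝ) a
  have hN's : N'.IsSymm := IsSymm.ext fun a b => by
    refine Fin.cases ?_ (fun i => ?_) a <;> refine Fin.cases ?_ (fun j => ?_) b <;>
      simp [N', hNs.apply]
  have hh' : hh P N' = 0 := by
    rw [← hNt]
    simp only [trace, diag_apply, mul_apply, of_apply, hh, smul_eq_mul, N', Fin.cons_succ]
    exact Finset.sum_congr rfl fun a _ => Finset.sum_congr rfl fun b _ => by rw [hNs.apply]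
  have hKd : M⁻¹.det ≠ 0 := (isUnit_nonsing_inv_det M (Ne.isUnit hd)).ne_zero
  have hK : Filter.Tendsto (fun η : ℝ => M⁻¹ + η • N') (nhdsWithin 0 {0}ᶜ) (nhds M⁻¹) := by
    have : Continuous fun η : ℝ => M⁻¹ + η • N' := by fun_prop
    simpa using (this.tendsto 0).mono_left nhdsWithin_le_nhds
  have hI : Filter.Tendsto (fun η : ℝ => (M⁻¹ + η • N')⁻¹) (nhdsWithin 0 {0}ᶜ) (nhds M) := by
    have h1 : ContinuousAt Inv.inv M⁻¹ := continuousAt_matrix_inv _ (by
      rw [Ring.inverse_eq_inv']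
      exact continuousAt_inv₀ hKd)
    have h2 := h1.tendsto.comp hK
    rwa [nonsing_inv_nonsing_inv M (Ne.isUnit hd)] at h2
  have hD : ∀ᶠ η : ℝ in nhdsWithin 0 {0}ᶜ, (M⁻¹ + η • N').det ≠ 0 :=
    ((continuous_id.matrix_det.tendsto M⁻¹).comp hK).eventually_ne hKd
  refine mem_closure_of_tendsto (((hcone_cont c).tendsto (M⁻¹, M)).comp (hK.prodMk_nhds hI)) ?_
  filter_upwards [hD, hcone_det_ev (Matrix.of fun i j => M⁻¹ i.succ j.succ) N hNd] with η h1 h2
  have hs : (M⁻¹ + η • N').IsSymm := hM.inv.add (hN's.smul η)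
  have hu := Ne.isUnit h1
  have key := gam_mem_cone P (M⁻¹ + η • N')⁻¹ c hs.inv (isUnit_nonsing_inv_det _ hu).ne_zero hc ?_ ?_
  · rwa [nonsing_inv_nonsing_inv _ hu] at key
  · rw [Matrix.inv_def, Matrix.smul_apply, adjugate_fin_succ_eq_det_submatrix, Ring.inverse_eq_inv',
      smul_eq_mul]
    refine mul_ne_zero (inv_ne_zero h1) (mul_ne_zero (by simp) ?_)
    convert h2 using 2
    ext i j
    simp [N']
  · rw [nonsing_inv_nonsing_inv _ hu]
    have : hh P (M⁻¹ + η • N') = hh P M⁻¹ + hh P (η • N') := by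
      simp only [hh, Matrix.add_apply, smul_add, Finset.sum_add_distrib]
    rw [this, hh_smul, hw, hh', mul_zero, add_zero]

end Crest.Agent.R237.H
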