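import Crest.Agent.R237.HDefs

/-! S0367 framework: the scalar partial fraction lemma. -/

set_option autoImplicit false
set_option linter.unusedSectionVars false

namespace Crest.Agent.R237.H

open Matrix

variable {m : ℕ}

open Polynomial in
/-- partial fractions with real simple poles and nonpositive residues. -/
theorem HPF_gen (N D : ℂ[X]) (hD : D ≠ 0) (hdeg : N.natDegree < D.natDegree)
    (hr : ∀ ν : ℂ, D.eval ν = 0 → ν.im = 0 ∧ (derivative D).eval ν ≠ 0 ∧
      ∃ r : ℝ, r ≤ 0 ∧ N.eval ν = r * (derivative D).eval ν)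
    (z : ℂ) (hz : 0 < z.im) : 0 ≤ (N.eval z / D.eval z).im := by
  classical
  have hnd : D.roots.Nodup := by
    rw [Multiset.nodup_iff_count_le_one]
    intro a
    rw [count_roots]
    by_contra h
    have h' := (one_lt_rootMultiplicity_iff_isRoot hD).1 (not_le.1 h)
    exact (hr a h'.1).2.1 h'.2
  set T : Finset ℂ := D.roots.toFinset with hT
  have hval : T.val = D.roots := by
    rw [hT, Multiset.toFinset_val, Multiset.dedup_eq_self.2 hnd]
  have hcard : T.card = D.natDegree := by
    rw [Finset.card, hval, IsAlgClosed.card_roots_eq_natDegree]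
  have hDe : D = C D.leadingCoeff * Lagrange.nodal T id := by
    have := C_leadingCoeff_mul_prod_multiset_X_sub_C
      (IsAlgClosed.card_roots_eq_natDegree (p := D))
    rw [Lagrange.nodal_eq, Finset.prod, hval]
    exact this.symm
  have hlc : D.leadingCoeff ≠ 0 := leadingCoeff_ne_zero.2 hD
  have hmem : ∀ ν ∈ T, D.eval ν = 0 := by
    intro ν hν
    rw [hT, Multiset.mem_toFinset, mem_roots hD] at hν
    exact hν
  have hzT : ∀ ν ∈ T, z ≠ id ν := by
    intro ν hν h
    have := (hr ν (hmem ν hν)).1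
    rw [h] at hz
    simp only [id] at hz
    linarith
  have hNdeg : N.degree < T.card := by
    rw [hcard]
    exact lt_of_le_of_lt degree_le_natDegree (by exact_mod_cast hdeg)
  have hN := Lagrange.eq_interpolate (s := T) (v := id) (f := N) (Set.injOn_id _) hNdeg
  have hev : N.eval z = eval z (Lagrange.nodal T id) *
      ∑ i ∈ T, Lagrange.nodalWeight T id i * (z - id i)⁻¹ * N.eval (id i) := by
    conv_lhs => rw [hN]
    exact Lagrange.eval_interpolate_not_at_node _ hzT
  have hnz : eval z (Lagrange.nodal T id) ≠ 0 := Lagrange.eval_nodal_not_at_node hzT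
  have hDz : D.eval z = D.leadingCoeff * eval z (Lagrange.nodal T id) := by
    conv_lhs => rw [hDe]
    rw [eval_mul, eval_C]
  have hq : N.eval z / D.eval z = ∑ i ∈ T,
      D.leadingCoeff⁻¹ * (Lagrange.nodalWeight T id i * (z - id i)⁻¹ * N.eval (id i)) := by
    rw [← Finset.mul_sum, hev, hDz]
    field_simp
  rw [hq, Complex.im_sum]
  refine Finset.sum_nonneg fun ν hν => ?_
  obtain ⟨him, hd, r, hr0, hrr⟩ := hr ν (hmem ν hν)
  have hD' : (derivative D).eval ν =
      D.leadingCoeff * eval ν (derivative (Lagrange.nodal T id)) := by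
    conv_lhs => rw [hDe]
    rw [derivative_C_mul, eval_mul, eval_C]
  have hw : Lagrange.nodalWeight T id ν = (eval ν (derivative (Lagrange.nodal T id)))⁻¹ :=
    Lagrange.nodalWeight_eq_eval_derivative_nodal hν
  have hne : eval ν (derivative (Lagrange.nodal T id)) ≠ 0 := by
    intro h
    rw [h, mul_zero] at hD'
    exact hd hD'
  have he : D.leadingCoeff⁻¹ * (Lagrange.nodalWeight T id ν * (z - id ν)⁻¹ * N.eval (id ν))
      = r * (z - ν)⁻¹ := by
    simp only [id]
    rw [hw, hrr, hD']
    field_simp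
  rw [he, Complex.im_ofReal_mul, Complex.inv_im, Complex.sub_im, him, sub_zero]
  have h1 : 0 ≤ Complex.normSq (z - ν) := Complex.normSq_nonneg _
  have h2 : -z.im / Complex.normSq (z - ν) ≤ 0 :=
    div_nonpos_of_nonpos_of_nonneg (by linarith) h1
  exact mul_nonneg_of_nonpos_of_nonpos hr0 h2

/-- `w` does not vanish off the real axis. -/
theorem HPF_w_ne {κ : Type} [Fintype κ] [Nonempty κ] (lam : κ → ℝ) (p : κ → ℝ)
    (hp : ∀ i, 0 < p i) (z : ℂ) (hz : z.im ≠ 0) : ∑ i, (p i : ℂ) / (z - lam i) ≠ 0 := by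
  intro h
  have h1 := congrArg Complex.im h
  rw [Complex.im_sum, Complex.zero_im] at h1
  have h2 : ∀ i, ((p i : ℂ) / (z - lam i)).im = -z.im * (p i / Complex.normSq (z - lam i)) := by
    intro i
    rw [div_eq_mul_inv, Complex.im_ofReal_mul, Complex.inv_im, Complex.sub_im, Complex.ofReal_im,
      sub_zero]
    ring
  simp only [h2, ← Finset.mul_sum] at h1
  have h3 : 0 < ∑ i, p i / Complex.normSq (z - lam i) := by
    refine Finset.sum_pos (fun i _ => div_pos (hp i) ?_) Finset.univ_nonempty
    rw [Complex.normSq_pos]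
    intro h4
    have := congrArg Complex.im h4
    simp at this
    exact hz this
  rcases mul_eq_zero.1 h1 with h4 | h4
  · exact hz (neg_eq_zero.1 h4)
  · exact h3.ne' h4

/-- Put `χ = ∏ (X - lam i)`, `π i = ∏_{j ≠ i} (X - lam j)`, `h = ∑ p i • π i` (so `h = χ w`,
`w z = ∑ p i/(z - lam i)`), `Dn = χ h` (degree `2n-1`, `n = card κ`, leading coefficient
`∑ p i > 0`), `Nn = -(∑ kk i π i) h + ∑∑ Bm i j π i π j` (degree `≤ 2n-2`); the function in the
statement is `Nn/Dn`. (Empty `κ`: everything is `0`.)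
Roots of `h` over `ℂ` (it splits, `n-1` roots with multiplicity): for `im z ≠ 0`,
`im (w z) = -im z * ∑ p i/|z - lam i|^2 ≠ 0`, so they are real; `h (lam i) = p i * π i (lam i) ≠ 0`;
at a real root `μ`, `h'(μ) = χ(μ) w'(μ)`, `w'(μ) = -∑ p i/(μ - lam i)^2 < 0`, so they are simple.
Hence `Dn = (∑ p i) * nodal T` for a finset `T ⊆ ℂ` of `2n-1` real points and Lagrange
interpolation (`Lagrange.eq_interpolate_of_eval_eq` / `Lagrange.eval_interpolate_not_at_node`,
`Lagrange.nodalWeight_eq_eval_nodal_derative`) gives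
`Nn z / Dn z = ∑_{ν ∈ T} r ν/(z - ν)`, `r ν = Nn(ν)/Dn'(ν)` real and `≤ 0`:
at `ν = lam i`, with `c = π i (lam i)`: `Nn = c^2 (Bm i i - kk i * p i) ≤ 0`, `Dn' = p i * c^2 > 0`;
at a root `μ` of `h`: `Nn = χ(μ)^2 ∑∑ Bm i j/((μ - lam i)(μ - lam j)) ≥ 0` (`hs`),
`Dn' = χ(μ)^2 w'(μ) < 0`. Finally `im (r/(z-ν)) = -r im z/|z-ν|^2 ≥ 0`. -/
theorem pf_scalar {κ : Type} [Fintype κ] [DecidableEq κ] (lam : κ → ℝ)
    (hl : Function.Injective lam) (p kk : κ → ℝ) (hp : ∀ i, 0 < p i) (Bm : κ → κ → ℝ)
    (hB : ∀ i, Bm i i ≤ kk i * p i)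
    (hs : ∀ μ : ℝ, (∀ i, μ ≠ lam i) → ∑ i, p i / (μ - lam i) = 0 →
      0 ≤ ∑ i, ∑ j, Bm i j / ((μ - lam i) * (μ - lam j)))
    (z : ℂ) (hz : 0 < z.im) :
    0 ≤ (-(∑ i, (kk i : ℂ) / (z - lam i)) +
      (∑ i, ∑ j, (Bm i j : ℂ) / ((z - lam i) * (z - lam j))) /
        ∑ i, (p i : ℂ) / (z - lam i)).im := by
  classical
  rcases isEmpty_or_nonempty κ with hκ | hκ
  · simp
  set v : κ → ℂ := fun i => (lam i : ℂ) with hv
  have hvi : Function.Injective v := fun i j h => hl (Complex.ofReal_injective h)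
  set χ : Polynomial ℂ := Lagrange.nodal Finset.univ v with hχ
  set π : κ → Polynomial ℂ := fun i => Lagrange.nodal (Finset.univ.erase i) v with hπ
  set h : Polynomial ℂ := ∑ i, Polynomial.C (p i : ℂ) * π i with hh
  set Nn : Polynomial ℂ := -((∑ i, Polynomial.C (kk i : ℂ) * π i) * h) +
    ∑ i, ∑ j, Polynomial.C (Bm i j : ℂ) * (π i * π j) with hNn
  have hχπ : ∀ i, χ = (Polynomial.X - Polynomial.C (v i)) * π i := fun i =>
    Lagrange.nodal_eq_mul_nodal_erase (Finset.mem_univ i)
  have hn : 0 < Fintype.card κ := Fintype.card_pos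
  have hπd : ∀ i, (π i).natDegree = Fintype.card κ - 1 := by
    intro i
    rw [hπ]
    simp only []
    rw [Lagrange.natDegree_nodal, Finset.card_erase_of_mem (Finset.mem_univ i), Finset.card_univ]
  have hπm : ∀ i, (π i).Monic := fun i => Lagrange.nodal_monic
  have hχd : χ.natDegree = Fintype.card κ := by
    rw [hχ, Lagrange.natDegree_nodal, Finset.card_univ]
  have hχ0 : χ ≠ 0 := Lagrange.nodal_ne_zero
  have hsum : ∀ c : κ → ℂ, (∑ i, Polynomial.C (c i) * π i).natDegree ≤ Fintype.card κ - 1 := by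
    intro c
    refine Polynomial.natDegree_sum_le_of_forall_le _ _ fun i _ => ?_
    exact (Polynomial.natDegree_C_mul_le _ _).trans (hπd i).le
  have hhc : h.coeff (Fintype.card κ - 1) ≠ 0 := by
    rw [hh, Polynomial.finsetSum_coeff]
    have : ∀ i, (Polynomial.C (p i : ℂ) * π i).coeff (Fintype.card κ - 1) = p i := by
      intro i
      rw [Polynomial.coeff_C_mul, ← hπd i, (hπm i).coeff_natDegree, mul_one]
    simp only [this]
    rw [← Complex.ofReal_sum]
    exact_mod_cast (Finset.sum_pos (fun i _ => hp i) Finset.univ_nonempty).ne'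
  have hh0 : h ≠ 0 := by
    intro h0
    rw [h0, Polynomial.coeff_zero] at hhc
    exact hhc rfl
  have hhd : h.natDegree = Fintype.card κ - 1 :=
    le_antisymm (hsum _) (Polynomial.le_natDegree_of_ne_zero hhc)
  have hNd : Nn.natDegree ≤ (Fintype.card κ - 1) + (Fintype.card κ - 1) := by
    rw [hNn]
    refine (Polynomial.natDegree_add_le _ _).trans (max_le ?_ ?_)
    · rw [Polynomial.natDegree_neg]
      exact Polynomial.natDegree_mul_le.trans (add_le_add (hsum _) hhd.le)
    · refine Polynomial.natDegree_sum_le_of_forall_le _ _ fun i _ => ?_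
      refine Polynomial.natDegree_sum_le_of_forall_le _ _ fun j _ => ?_
      refine (Polynomial.natDegree_C_mul_le _ _).trans ?_
      exact Polynomial.natDegree_mul_le.trans (add_le_add (hπd i).le (hπd j).le)
  have hDd : (χ * h).natDegree = Fintype.card κ + (Fintype.card κ - 1) := by
    rw [Polynomial.natDegree_mul hχ0 hh0, hχd, hhd]
  -- evaluation off the nodes
  have hπe : ∀ x : ℂ, (∀ i, x ≠ v i) → ∀ i, (π i).eval x = χ.eval x / (x - v i) := by
    intro x hx i
    have : x - v i ≠ 0 := sub_ne_zero.2 (hx i)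
    rw [hχπ i, Polynomial.eval_mul, Polynomial.eval_sub, Polynomial.eval_X, Polynomial.eval_C]
    field_simp
  have hχe : ∀ x : ℂ, (∀ i, x ≠ v i) → χ.eval x ≠ 0 := fun x hx =>
    Lagrange.eval_nodal_not_at_node fun i _ => hx i
  have hse : ∀ x : ℂ, (∀ i, x ≠ v i) → ∀ c : κ → ℂ,
      (∑ i, Polynomial.C (c i) * π i).eval x = χ.eval x * ∑ i, c i / (x - v i) := by
    intro x hx c
    rw [Polynomial.eval_finsetSum, Finset.mul_sum]
    refine Finset.sum_congr rfl fun i _ => ?_
    rw [Polynomial.eval_mul, Polynomial.eval_C, hπe x hx i]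
    ring
  have hBe : ∀ x : ℂ, (∀ i, x ≠ v i) →
      (∑ i, ∑ j, Polynomial.C (Bm i j : ℂ) * (π i * π j)).eval x =
        χ.eval x ^ 2 * ∑ i, ∑ j, (Bm i j : ℂ) / ((x - v i) * (x - v j)) := by
    intro x hx
    rw [Polynomial.eval_finsetSum, Finset.mul_sum]
    refine Finset.sum_congr rfl fun i _ => ?_
    rw [Polynomial.eval_finsetSum, Finset.mul_sum]
    refine Finset.sum_congr rfl fun j _ => ?_
    have h1 : x - v i ≠ 0 := sub_ne_zero.2 (hx i)
    have h2 : x - v j ≠ 0 := sub_ne_zero.2 (hx j)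
    rw [Polynomial.eval_mul, Polynomial.eval_mul, Polynomial.eval_C, hπe x hx i, hπe x hx j]
    field_simp
  have hχ' : ∀ i, ∀ x : ℂ, (Polynomial.derivative χ).eval x =
      (π i).eval x + (x - v i) * (Polynomial.derivative (π i)).eval x := by
    intro i x
    rw [hχπ i]
    simp [Polynomial.derivative_mul]
  have key := HPF_gen Nn (χ * h) (mul_ne_zero hχ0 hh0) (by rw [hDd]; omega) ?_ z hz
  · have hzv : ∀ i, z ≠ v i := by
      intro i hi
      rw [hi] at hz
      simp [hv] at hz
    have hw := HPF_w_ne lam p hp z hz.ne'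
    have hc := hχe z hzv
    have e1 : h.eval z = χ.eval z * ∑ i, (p i : ℂ) / (z - v i) := hse z hzv _
    have e2 : Nn.eval z / (χ * h).eval z = -(∑ i, (kk i : ℂ) / (z - v i)) +
      (∑ i, ∑ j, (Bm i j : ℂ) / ((z - v i) * (z - v j))) /
        ∑ i, (p i : ℂ) / (z - v i) := by
      rw [hNn, Polynomial.eval_add, Polynomial.eval_neg, Polynomial.eval_mul, Polynomial.eval_mul,
        hBe z hzv, hse z hzv, e1]
      have hw' : ∑ i, (p i : ℂ) / (z - v i) ≠ 0 := hw
      generalize (∑ i, (p i : ℂ) / (z - v i)) = w at hw' ⊢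
      generalize (∑ i, (kk i : ℂ) / (z - v i)) = a
      generalize (∑ i, ∑ j, (Bm i j : ℂ) / ((z - v i) * (z - v j))) = b
      field_simp
    rw [e2] at key
    exact key
  · intro ν hν
    by_cases hnode : ∃ i, ν = v i
    · obtain ⟨i, rfl⟩ := hnode
      have hc : (π i).eval (v i) ≠ 0 := by
        refine Lagrange.eval_nodal_not_at_node fun j hj h' => ?_
        exact (Finset.ne_of_mem_erase hj) (hvi h').symm
      have hz0 : ∀ j, j ≠ i → (π j).eval (v i) = 0 := fun j hj =>
        Lagrange.eval_nodal_at_node (Finset.mem_erase.2 ⟨hj.symm, Finset.mem_univ i⟩)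
      have hχz : χ.eval (v i) = 0 := Lagrange.eval_nodal_at_node (Finset.mem_univ i)
      have hs1 : ∀ c : κ → ℂ,
          (∑ j, Polynomial.C (c j) * π j).eval (v i) = c i * (π i).eval (v i) := by
        intro c
        rw [Polynomial.eval_finsetSum, Finset.sum_eq_single i]
        · rw [Polynomial.eval_mul, Polynomial.eval_C]
        · intro j _ hj
          rw [Polynomial.eval_mul, hz0 j hj, mul_zero]
        · intro h'
          exact absurd (Finset.mem_univ i) h'
      have hs2 : (∑ a, ∑ b, Polynomial.C (Bm a b : ℂ) * (π a * π b)).eval (v i) =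
          Bm i i * ((π i).eval (v i) * (π i).eval (v i)) := by
        rw [Polynomial.eval_finsetSum, Finset.sum_eq_single i]
        · rw [Polynomial.eval_finsetSum, Finset.sum_eq_single i]
          · rw [Polynomial.eval_mul, Polynomial.eval_mul, Polynomial.eval_C]
          · intro j _ hj
            rw [Polynomial.eval_mul, Polynomial.eval_mul, hz0 j hj, mul_zero, mul_zero]
          · intro h'
            exact absurd (Finset.mem_univ i) h'
        · intro a _ ha
          rw [Polynomial.eval_finsetSum]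
          refine Finset.sum_eq_zero fun b _ => ?_
          rw [Polynomial.eval_mul, Polynomial.eval_mul, hz0 a ha, zero_mul, mul_zero]
        · intro h'
          exact absurd (Finset.mem_univ i) h'
      have e1 : h.eval (v i) = p i * (π i).eval (v i) := hs1 _
      have e2 : (Polynomial.derivative (χ * h)).eval (v i) =
          p i * ((π i).eval (v i) * (π i).eval (v i)) := by
        rw [Polynomial.derivative_mul, Polynomial.eval_add, Polynomial.eval_mul,
          Polynomial.eval_mul, hχz, hχ' i, e1]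
        ring
      have hpi : (p i : ℂ) ≠ 0 := by exact_mod_cast (hp i).ne'
      refine ⟨by simp [hv], ?_, (Bm i i - kk i * p i) / p i, ?_, ?_⟩
      · rw [e2]
        exact mul_ne_zero hpi (mul_ne_zero hc hc)
      · exact div_nonpos_of_nonpos_of_nonneg (by linarith [hB i]) (hp i).le
      · rw [e2, hNn, Polynomial.eval_add, Polynomial.eval_neg, Polynomial.eval_mul, hs2, hs1, e1]
        push_cast
        field_simp
        ring
    · have hx : ∀ i, ν ≠ v i := fun i hi => hnode ⟨i, hi⟩
      have hc := hχe ν hx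
      have hh1 : h.eval ν = 0 := by
        rw [Polynomial.eval_mul] at hν
        exact (mul_eq_zero.1 hν).resolve_left hc
      have hw0 : ∑ i, (p i : ℂ) / (ν - v i) = 0 := by
        have e1 : h.eval ν = χ.eval ν * ∑ i, (p i : ℂ) / (ν - v i) := hse ν hx _
        rw [hh1] at e1
        exact (mul_eq_zero.1 e1.symm).resolve_left hc
      have him : ν.im = 0 := by
        by_contra him
        exact HPF_w_ne lam p hp ν him hw0
      obtain ⟨μ, rfl⟩ : ∃ μ : ℝ, ν = μ := ⟨ν.re, Complex.ext (by simp) (by simp [him])⟩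
      have hμ : ∀ i, μ ≠ lam i := fun i hi => hx i (by rw [hi])
      have hw1 : ∑ i, p i / (μ - lam i) = 0 := by
        have : ((∑ i, p i / (μ - lam i) : ℝ) : ℂ) = 0 := by
          push_cast
          exact hw0
        exact_mod_cast this
      have hb := hs μ hμ hw1
      set S : ℝ := ∑ i, p i / (μ - lam i) ^ 2 with hS
      have hS0 : 0 < S := Finset.sum_pos (fun i _ => div_pos (hp i)
        (sq_pos_of_ne_zero (sub_ne_zero.2 (hμ i)))) Finset.univ_nonempty
      have hd1 : (Polynomial.derivative h).eval (μ : ℂ) = -(χ.eval (μ : ℂ) * S) := by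
        have e0 : ∀ i, (Polynomial.derivative (Polynomial.C (p i : ℂ) * π i)).eval (μ : ℂ) =
            (Polynomial.derivative χ).eval (μ : ℂ) * ((p i : ℂ) / (μ - v i)) -
              χ.eval (μ : ℂ) * ((p i : ℂ) / ((μ : ℂ) - v i) ^ 2) := by
          intro i
          have h1 : (μ : ℂ) - v i ≠ 0 := sub_ne_zero.2 (hx i)
          rw [Polynomial.derivative_C_mul, Polynomial.eval_mul, Polynomial.eval_C, hχ' i,
            hπe _ hx i]
          field_simp
          ring
        rw [hh, Polynomial.derivative_sum, Polynomial.eval_finsetSum]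
        simp only [e0]
        rw [Finset.sum_sub_distrib, ← Finset.mul_sum, ← Finset.mul_sum, hw0, hS]
        push_cast
        simp [hv]
      have e2 : (Polynomial.derivative (χ * h)).eval (μ : ℂ) = -(χ.eval (μ : ℂ) ^ 2 * S) := by
        rw [Polynomial.derivative_mul, Polynomial.eval_add, Polynomial.eval_mul,
          Polynomial.eval_mul, hh1, hd1]
        ring
      have hSc : (S : ℂ) ≠ 0 := by exact_mod_cast hS0.ne'
      refine ⟨him, ?_, -((∑ i, ∑ j, Bm i j / ((μ - lam i) * (μ - lam j))) / S), ?_, ?_⟩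
      · rw [e2]
        exact neg_ne_zero.2 (mul_ne_zero (pow_ne_zero 2 hc) hSc)
      · exact neg_nonpos.2 (div_nonneg hb hS0.le)
      · rw [e2, hNn, Polynomial.eval_add, Polynomial.eval_neg, Polynomial.eval_mul, hh1,
          hBe _ hx]
        have e3 : ∑ i, ∑ j, (Bm i j : ℂ) / (((μ : ℂ) - v i) * ((μ : ℂ) - v j)) =
            ((∑ i, ∑ j, Bm i j / ((μ - lam i) * (μ - lam j)) : ℝ) : ℂ) := by
          push_cast
          rfl
        rw [e3]
        generalize (∑ i, ∑ j, Bm i j / ((μ - lam i) * (μ - lam j))) = b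
        push_cast
        field_simp
        ring

end Crest.Agent.R237.H
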