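import Crest.Agent.R237.HRes
import Crest.Agent.R237.HPF

/-! S0367 framework: the Pick property for matrices with simple spectrum. -/

set_option autoImplicit false
set_option linter.unusedSectionVars false

namespace Crest.Agent.R237.H

open Matrix

variable {m : ℕ}

section HDiagAux

variable {K : Type} [Field K] [Algebra ℝ K]

theorem HDiag_mulVec (U : Mt m ℝ) (e : Fin (m + 1) → K) (N : Mt m K)
    (hN : ∀ a b, N a b = ∑ r, algebraMap ℝ K (U a r * U b r) / e r)
    (t : Fin (m + 1) → ℝ) (a : Fin (m + 1)) :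
    (N *ᵥ fun b => algebraMap ℝ K (t b)) a =
      ∑ r, algebraMap ℝ K (U a r * ∑ b, U b r * t b) / e r := by
  simp only [Matrix.mulVec, dotProduct, hN, Finset.sum_mul, map_mul, map_sum, Finset.mul_sum,
    Finset.sum_div]
  rw [Finset.sum_comm]
  refine Finset.sum_congr rfl fun r _ => Finset.sum_congr rfl fun b _ => ?_
  ring

theorem HDiag_hh (P : Matrix (Fin m) (Fin m) ℝ) (U : Mt m ℝ) (e : Fin (m + 1) → K) (N : Mt m K)
    (hN : ∀ a b, N a b = ∑ r, algebraMap ℝ K (U a r * U b r) / e r) :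
    hh P N = ∑ r, algebraMap ℝ K (∑ a, ∑ b, P a b * (U a.succ r * U b.succ r)) / e r := by
  simp only [hh, hN, Algebra.smul_def, map_mul, map_sum, Finset.mul_sum, Finset.sum_div]
  calc ∑ a : Fin m, ∑ b : Fin m, ∑ r, algebraMap ℝ K (P a b) *
          (algebraMap ℝ K (U a.succ r) * algebraMap ℝ K (U b.succ r) / e r)
      = ∑ a : Fin m, ∑ r, ∑ b : Fin m, algebraMap ℝ K (P a b) *
          (algebraMap ℝ K (U a.succ r) * algebraMap ℝ K (U b.succ r) / e r) :=
        Finset.sum_congr rfl fun a _ => Finset.sum_comm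
    _ = ∑ r, ∑ a : Fin m, ∑ b : Fin m, algebraMap ℝ K (P a b) *
          (algebraMap ℝ K (U a.succ r) * algebraMap ℝ K (U b.succ r) / e r) := Finset.sum_comm
    _ = _ := by
        refine Finset.sum_congr rfl fun r _ => Finset.sum_congr rfl fun a _ =>
          Finset.sum_congr rfl fun b _ => ?_
        ring

theorem HDiag_en (U : Mt m ℝ) (e : Fin (m + 1) → K) (N : Mt m K)
    (hN : ∀ a b, N a b = ∑ r, algebraMap ℝ K (U a r * U b r) / e r)
    (t : Fin m → Fin m → Fin (m + 1) → ℝ) :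
    en N (fun i j a => algebraMap ℝ K (t i j a)) =
      ∑ r, algebraMap ℝ K (∑ i, ∑ j, (∑ a, U a r * t i j a) ^ 2) / e r := by
  have h : ∀ i j, (fun a => algebraMap ℝ K (t i j a)) ⬝ᵥ N *ᵥ (fun a => algebraMap ℝ K (t i j a))
      = ∑ r, algebraMap ℝ K ((∑ a, U a r * t i j a) ^ 2) / e r := by
    intro i j
    simp only [dotProduct, HDiag_mulVec U e N hN, Finset.mul_sum]
    rw [Finset.sum_comm]
    refine Finset.sum_congr rfl fun r _ => ?_
    rw [sq, Finset.sum_mul, map_sum, Finset.sum_div]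
    refine Finset.sum_congr rfl fun a _ => ?_
    rw [← Finset.mul_sum]
    simp only [map_mul]
    ring
  simp only [en, h]
  calc ∑ i : Fin m, ∑ j : Fin m, ∑ r, algebraMap ℝ K ((∑ a, U a r * t i j a) ^ 2) / e r
      = ∑ i : Fin m, ∑ r, ∑ j : Fin m, algebraMap ℝ K ((∑ a, U a r * t i j a) ^ 2) / e r :=
        Finset.sum_congr rfl fun a _ => Finset.sum_comm
    _ = ∑ r, ∑ i : Fin m, ∑ j : Fin m, algebraMap ℝ K ((∑ a, U a r * t i j a) ^ 2) / e r :=
        Finset.sum_comm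
    _ = _ := by
        refine Finset.sum_congr rfl fun r _ => ?_
        rw [map_sum, Finset.sum_div]
        refine Finset.sum_congr rfl fun i _ => ?_
        rw [map_sum, Finset.sum_div]

theorem HDiag_qf (B : Ix m → Ix m → ℝ) (U : Mt m ℝ) (e : Fin (m + 1) → K) (N : Mt m K)
    (hN : ∀ a b, N a b = ∑ r, algebraMap ℝ K (U a r * U b r) / e r)
    (t : Fin m → Fin m → Fin (m + 1) → ℝ) :
    qf B (gam N (fun i j a => algebraMap ℝ K (t i j a))) =
      ∑ r, ∑ s, algebraMap ℝ K (bil B (fun i j l => U l.succ r * ∑ a, U a r * t i j a)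
        (fun i j l => U l.succ s * ∑ a, U a s * t i j a)) / (e r * e s) := by
  have hg : gam N (fun i j a => algebraMap ℝ K (t i j a)) =
      fun i j l => ∑ r, algebraMap ℝ K (U l.succ r * ∑ a, U a r * t i j a) / e r := by
    funext i j l
    exact HDiag_mulVec U e N hN (t i j) l.succ
  rw [hg]
  generalize hb : (fun (r : Fin (m + 1)) (i j l : Fin m) =>
    U l.succ r * ∑ a, U a r * t i j a) = b
  have hb' : ∀ r i j l, U (Fin.succ l) r * ∑ a, U a r * t i j a = b r i j l := by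
    intro r i j l; rw [← hb]
  simp only [hb', qf, bil, Algebra.smul_def, map_sum, Finset.sum_div, Finset.sum_mul_sum]
  simp only [Finset.mul_sum]
  calc ∑ I : Ix m, ∑ J : Ix m, ∑ r, ∑ s, algebraMap ℝ K (B I J) *
          (algebraMap ℝ K (b r I.1 I.2.1 I.2.2) / e r *
            (algebraMap ℝ K (b s J.1 J.2.1 J.2.2) / e s))
      = ∑ I : Ix m, ∑ r, ∑ s, ∑ J : Ix m, algebraMap ℝ K (B I J) *
          (algebraMap ℝ K (b r I.1 I.2.1 I.2.2) / e r *
            (algebraMap ℝ K (b s J.1 J.2.1 J.2.2) / e s)) := by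
        refine Finset.sum_congr rfl fun I _ => ?_
        rw [Finset.sum_comm]
        exact Finset.sum_congr rfl fun r _ => Finset.sum_comm
    _ = ∑ r, ∑ s, ∑ I : Ix m, ∑ J : Ix m, algebraMap ℝ K (B I J) *
          (algebraMap ℝ K (b r I.1 I.2.1 I.2.2) / e r *
            (algebraMap ℝ K (b s J.1 J.2.1 J.2.2) / e s)) := by
        rw [Finset.sum_comm]
        exact Finset.sum_congr rfl fun r _ => Finset.sum_comm
    _ = _ := by
        refine Finset.sum_congr rfl fun r _ => Finset.sum_congr rfl fun s _ =>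
          Finset.sum_congr rfl fun I _ => Finset.sum_congr rfl fun J _ => ?_
        simp only [Algebra.algebraMap_self, RingHom.id_apply, map_mul]
        ring

end HDiagAux

theorem HDiag_tv_neg (A : Mt m ℝ) (c : Ar m ℝ) (μ : ℝ) :
    tv (μ • (1 : Mt m ℝ) - A) (-c) = (-1 : ℝ) • tv A c := by
  funext i j a
  by_cases h : i = j
  · simp [tv, h]
  · refine Fin.cases ?_ (fun l => ?_) a
    · simp [tv, h]
    · simp [tv, h]

theorem HDiag_p_eq (P : Matrix (Fin m) (Fin m) ℝ) (v : Fin m → ℝ) :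
    ∑ a, ∑ b, P a b * (v a * v b) = v ⬝ᵥ P *ᵥ v := by
  simp only [dotProduct, Matrix.mulVec, Finset.mul_sum]
  refine Finset.sum_congr rfl fun a _ => Finset.sum_congr rfl fun b _ => ?_
  ring

/-- Apply `pf_scalar` with `τ r i j = ∑ a, U a r * tv A c i j a`,
`b r i j l = U l.succ r * τ r i j`, `Bm r s = bil D.B (b r) (b s)`,
`kk r = D.Λ * ∑ i j, τ r i j ^ 2`, `p r = ∑ a b, D.P a b * (U a.succ r * U b.succ r)`.
By `resolvent_diag` (over `K = ℂ` at `z`, over `K = ℝ` at `μ`), with `N` the resolvent: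
`gam N t = ∑ r, b r /(z - lam r)`, `en N t = ∑ r, (∑ τ^2)/(z - lam r)`,
`hh P N = ∑ p r/(z - lam r)` (best proved once for a general field `K`).
`0 < p r` from `D.Pge`, `hU`; `Bm r r = qf (b r) ≤ Λ ρ (∑ τ^2) |v_r|^2 ≤ kk r * p r` from
`D.bound`, `D.Pge`. Sign condition: `D.sign` for `M = μ • 1 - A`, `c' = -c`, where
`tv (μ • 1 - A) (-c) = (-1) • tv A c`; use `gam_smul_right`, `qf_smul`. -/
theorem phi_im_diag (D : Data m) (U : Mt m ℝ) (lam : Fin (m + 1) → ℝ) (h1 : Uᵀ * U = 1)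
    (h2 : U * Uᵀ = 1) (hl : Function.Injective lam) (hU : ∀ r, ∃ a : Fin m, U a.succ r ≠ 0)
    (c : Ar m ℝ) (hc : Sym3 c) (z : ℂ) (hz : 0 < z.im) :
    0 ≤ (phi D (U * diagonal lam * Uᵀ) c z).im := by
  set A : Mt m ℝ := U * diagonal lam * Uᵀ with hA
  have hAs : A.IsSymm := by
    rw [hA]
    simp only [Matrix.IsSymm, Matrix.transpose_mul, Matrix.transpose_transpose,
      Matrix.diagonal_transpose, Matrix.mul_assoc]
  set τ : Fin (m + 1) → Fin m → Fin m → ℝ := fun r i j => ∑ a, U a r * tv A c i j a with hτ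
  set b : Fin (m + 1) → Ar m ℝ := fun r i j l => U l.succ r * τ r i j with hb
  set p : Fin (m + 1) → ℝ := fun r => ∑ a, ∑ b, D.P a b * (U a.succ r * U b.succ r) with hp
  have hpv : ∀ r, p r = (fun a : Fin m => U a.succ r) ⬝ᵥ D.P *ᵥ (fun a : Fin m => U a.succ r) :=
    fun r => HDiag_p_eq D.P _
  have hpge : ∀ r, D.ρ * ∑ l : Fin m, U l.succ r ^ 2 ≤ p r := by
    intro r
    have := D.Pge (fun a : Fin m => U a.succ r)
    rw [hpv r]
    simpa only [dotProduct, sq] using this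
  have hp0 : ∀ r, 0 < p r := by
    intro r
    obtain ⟨a, ha⟩ := hU r
    have h3 : 0 < ∑ l : Fin m, U l.succ r ^ 2 :=
      Finset.sum_pos' (fun l _ => sq_nonneg _) ⟨a, Finset.mem_univ _, by positivity⟩
    exact lt_of_lt_of_le (mul_pos D.ρpos h3) (hpge r)
  have hB : ∀ r, bil D.B (b r) (b r) ≤ (D.Λ * ∑ i, ∑ j, τ r i j ^ 2) * p r := by
    intro r
    have h3 := (le_abs_self _).trans (D.bound (b r))
    have h4 : ∑ i, ∑ j, ∑ l, b r i j l ^ 2 =
        (∑ i, ∑ j, τ r i j ^ 2) * ∑ l : Fin m, U l.succ r ^ 2 := by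
      rw [Finset.sum_mul]
      refine Finset.sum_congr rfl fun i _ => ?_
      rw [Finset.sum_mul]
      refine Finset.sum_congr rfl fun j _ => ?_
      rw [Finset.mul_sum]
      refine Finset.sum_congr rfl fun l _ => ?_
      simp only [hb]
      ring
    have h5 : 0 ≤ D.Λ * ∑ i, ∑ j, τ r i j ^ 2 :=
      mul_nonneg D.Λpos.le (Finset.sum_nonneg fun i _ => Finset.sum_nonneg fun j _ => sq_nonneg _)
    calc bil D.B (b r) (b r) ≤ D.Λ * D.ρ * ∑ i, ∑ j, ∑ l, b r i j l ^ 2 := h3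
      _ = (D.Λ * ∑ i, ∑ j, τ r i j ^ 2) * (D.ρ * ∑ l : Fin m, U l.succ r ^ 2) := by
          rw [h4]; ring
      _ ≤ _ := mul_le_mul_of_nonneg_left (hpge r) h5
  have hs : ∀ μ : ℝ, (∀ r, μ ≠ lam r) → ∑ r, p r / (μ - lam r) = 0 →
      0 ≤ ∑ r, ∑ s, bil D.B (b r) (b s) / ((μ - lam r) * (μ - lam s)) := by
    intro μ hμ h0
    obtain ⟨hdet, hN⟩ := resolvent_diag (K := ℝ) U lam h1 h2 μ (by simpa using hμ)
    have hmap : (U * diagonal lam * Uᵀ).map (algebraMap ℝ ℝ) = A := by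
      rw [hA]; ext a b; simp
    rw [hmap] at hdet hN
    have hMs : (μ • (1 : Mt m ℝ) - A).IsSymm :=
      (Matrix.IsSymm.smul Matrix.isSymm_one μ).sub hAs
    have hcs : Sym3 (-c) :=
      ⟨fun i j l => by simp only [Pi.neg_apply, hc.1 i j l],
        fun i j l => by simp only [Pi.neg_apply, hc.2 i j l]⟩
    have hh0 : hh D.P (μ • (1 : Mt m ℝ) - A)⁻¹ = 0 := by
      rw [HDiag_hh D.P U (fun r => μ - algebraMap ℝ ℝ (lam r)) _ hN]
      simpa using h0
    have h6 := D.sign _ _ hMs hdet hcs hh0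
    rw [HDiag_tv_neg, gam_smul_right, qf_smul] at h6
    have h7 := HDiag_qf D.B U (fun r => μ - algebraMap ℝ ℝ (lam r)) _ hN (tv A c)
    simp only [Algebra.algebraMap_self, RingHom.id_apply] at h7
    rw [h7] at h6
    simpa using h6
  have key := pf_scalar lam hl p (fun r => D.Λ * ∑ i, ∑ j, τ r i j ^ 2) hp0
    (fun r s => bil D.B (b r) (b s)) hB hs z hz
  have hzl : ∀ r, z ≠ algebraMap ℝ ℂ (lam r) := by
    intro r h
    rw [h] at hz
    simp at hz
  obtain ⟨-, hN⟩ := resolvent_diag (K := ℂ) U lam h1 h2 z hzl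
  have hz' : z • (1 : Mt m ℂ) - (U * diagonal lam * Uᵀ).map (algebraMap ℝ ℂ) = zA A z := rfl
  rw [hz'] at hN
  have e1 := HDiag_hh D.P U (fun r => z - algebraMap ℝ ℂ (lam r)) _ hN
  have e2 := HDiag_en U (fun r => z - algebraMap ℝ ℂ (lam r)) _ hN (tv A c)
  have e3 := HDiag_qf D.B U (fun r => z - algebraMap ℝ ℂ (lam r)) _ hN (tv A c)
  have ht : tC A c = fun i j a => algebraMap ℝ ℂ (tv A c i j a) := rfl
  rw [phi, ht, e1, e2, e3]
  convert key using 3
  · rw [Finset.smul_sum]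
    congr 1
    refine Finset.sum_congr rfl fun r _ => ?_
    simp only [Complex.coe_algebraMap, Complex.real_smul, Complex.ofReal_mul, hτ]
    ring
  · rfl

end Crest.Agent.R237.H
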