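import Crest.Agent.R237.HDefs

/-! S0367 framework: the evaluation points lie in the cone. -/

set_option autoImplicit false
set_option linter.unusedSectionVars false

namespace Crest.Agent.R237.H

open Matrix

variable {m : ℕ}

/-- `vᵀ P v ≤ tr P * vᵀ v` for `P` positive semidefinite (`P = Bᵀ B`, Cauchy-Schwarz). -/
theorem quad_le_trace (P : Matrix (Fin m) (Fin m) ℝ) (hP : P.PosSemidef) (v : Fin m → ℝ) :
    v ⬝ᵥ P *ᵥ v ≤ P.trace * (v ⬝ᵥ v) := by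
  have key : ∀ i j, v i * (P i j * v j) + v j * (P j i * v i) ≤
      P i i * (v j * v j) + P j j * (v i * v i) := by
    intro i j
    have h := hP.dotProduct_mulVec_nonneg (Pi.single i (v j) - Pi.single j (v i))
    simp only [star_trivial, mulVec_sub, sub_dotProduct, dotProduct_sub, single_dotProduct,
      mulVec_single, Pi.smul_apply, col_apply, MulOpposite.smul_eq_mul_unop,
      MulOpposite.unop_op] at h
    nlinarith
  have h1 := Finset.sum_le_sum fun i (_ : i ∈ Finset.univ) =>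
    Finset.sum_le_sum fun j (_ : j ∈ Finset.univ) => key i j
  simp only [Finset.sum_add_distrib] at h1
  rw [Finset.sum_comm (f := fun i j => v j * (P j i * v i)),
    Finset.sum_comm (f := fun i j => P j j * (v i * v i))] at h1
  have e1 : v ⬝ᵥ P *ᵥ v = ∑ i, ∑ j, v i * (P i j * v j) := by
    simp only [dotProduct, mulVec, Finset.mul_sum]
  have e2 : P.trace * (v ⬝ᵥ v) = ∑ i, ∑ j, P i i * (v j * v j) := by
    simp only [dotProduct, trace, diag, Finset.sum_mul_sum]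
  linarith

theorem hev_inv {n : ℕ} (η : Fin n → ℝ) {s σ : ℝ} (hs : s ≠ 0) (hσ : σ ≠ 0) (e : σ = s + η ⬝ᵥ η) :
    (s • (1 : Matrix (Fin n) (Fin n) ℝ) + vecMulVec η η) *
      (s⁻¹ • ((1 : Matrix (Fin n) (Fin n) ℝ) - σ⁻¹ • vecMulVec η η)) = 1 := by
  have h1 : vecMulVec η η * vecMulVec η η = (η ⬝ᵥ η) • vecMulVec η η := by
    ext i j
    simp only [Matrix.mul_apply, vecMulVec_apply, Matrix.smul_apply, dotProduct, smul_eq_mul,
      Finset.sum_mul]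
    exact Finset.sum_congr rfl fun k _ => by ring
  have h2 : η ⬝ᵥ η = σ - s := by rw [e]; ring
  simp only [Matrix.mul_smul, Matrix.add_mul, Matrix.mul_sub, Matrix.smul_mul, Matrix.mul_one,
    Matrix.one_mul, h1, h2]
  ext i j
  simp only [Matrix.smul_apply, Matrix.sub_apply, Matrix.add_apply, smul_eq_mul]
  field_simp
  ring

/-- `η = (1, ξ)`, `σ = s + ηᵀη`, `M = s + η ηᵀ`, `M⁻¹ = s⁻¹ • (1 - σ⁻¹ • η ηᵀ)` (multiply out; so
`det M ≠ 0`), `M⁻¹ η = σ⁻¹ η`, `tv M c i j = q i j • η` with `q i j = ξ i ξ j` (`i ≠ j`), `0` for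
`i = j`; `Q = ∑ q^2`. Then `en = Q ηᵀη/σ`, `gam i j l = q i j ξ l/σ`,
`hh = s⁻¹ (tr P - ξᵀ P ξ/σ) ≥ ρ/s` (apply `quad_le_trace` to `P - ρ • 1`, `ξᵀξ ≤ σ`, `m ≥ 2`),
`k - Λ en = s + Λ Q s/σ`, `|qf| ≤ Λ ρ Q ξᵀξ/σ^2 ≤ Λ ρ Q/σ`, so `GG ≥ ρ > 0`; `pf_eq_GG`. -/
theorem pf_ev_pos (D : Data m) (ξ : Fin m → ℝ) (s : ℝ) (hs : 0 < s) :
    0 < pf D.P D.B D.Λ
      (s • (1 : Mt m ℝ) + vecMulVec (Fin.cons 1 ξ : Fin (m + 1) → ℝ) (Fin.cons 1 ξ))
      (fun i j l => ξ i * ξ j * ξ l)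
      (s + D.Λ * ∑ i, ∑ j, if i = j then 0 else (ξ i * ξ j) ^ 2) := by
  set η : Fin (m + 1) → ℝ := Fin.cons 1 ξ with hη
  set M := s • (1 : Mt m ℝ) + vecMulVec η η with hM
  set x := ξ ⬝ᵥ ξ with hx
  have hx0 : 0 ≤ x := Finset.sum_nonneg fun i _ => mul_self_nonneg _
  have hηη : η ⬝ᵥ η = 1 + x := by
    simp only [hη, hx, dotProduct, Fin.sum_univ_succ, Fin.cons_zero, Fin.cons_succ, mul_one]
  have hηs : ∀ l : Fin m, η l.succ = ξ l := fun l => rfl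
  set σ := s + (1 + x) with hσ
  have hσ0 : 0 < σ := by positivity
  have hinv := hev_inv η hs.ne' hσ0.ne' (by rw [hηη])
  have hdet : M.det ≠ 0 := (Matrix.isUnit_det_of_right_inverse hinv).ne_zero
  have hMi : M⁻¹ = s⁻¹ • ((1 : Mt m ℝ) - σ⁻¹ • vecMulVec η η) := Matrix.inv_eq_right_inv hinv
  have hv : M⁻¹ *ᵥ η = σ⁻¹ • η := by
    rw [hMi, smul_mulVec, sub_mulVec, one_mulVec, smul_mulVec, vecMulVec_mulVec, hηη]
    ext a
    simp only [Pi.smul_apply, Pi.sub_apply, smul_eq_mul, MulOpposite.smul_eq_mul_unop,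
      MulOpposite.unop_op]
    field_simp
    rw [hσ]; ring
  set q : Fin m → Fin m → ℝ := fun i j => if i = j then 0 else ξ i * ξ j with hq
  have htv : tv M (fun i j l => ξ i * ξ j * ξ l) = fun i j => q i j • η := by
    funext i j a
    by_cases h : i = j
    · simp [tv, hq, h]
    · refine Fin.cases ?_ (fun l => ?_) a <;> simp [tv, hq, h, hM, hη, vecMulVec_apply]
  set Q := ∑ i, ∑ j, q i j ^ 2 with hQ
  have hQ0 : 0 ≤ Q := by positivity
  have hQe : (∑ i, ∑ j, if i = j then 0 else (ξ i * ξ j) ^ 2) = Q :=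
    Finset.sum_congr rfl fun i _ => Finset.sum_congr rfl fun j _ => by
      simp only [hq]; split_ifs <;> simp
  have hen : en M⁻¹ (fun i j => q i j • η) = Q * (σ⁻¹ * (1 + x)) := by
    simp only [en, mulVec_smul, hv, dotProduct_smul, smul_dotProduct, hηη, smul_eq_mul, hQ,
      Finset.sum_mul]
    exact Finset.sum_congr rfl fun i _ => Finset.sum_congr rfl fun j _ => by ring
  have hgam : gam M⁻¹ (fun i j => q i j • η) = fun i j l => q i j * (σ⁻¹ * ξ l) := by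
    funext i j l
    simp only [gam, mulVec_smul, hv, Pi.smul_apply, smul_eq_mul]
    rfl
  have hhh : hh D.P M⁻¹ = s⁻¹ * (D.P.trace - σ⁻¹ * (ξ ⬝ᵥ D.P *ᵥ ξ)) := by
    simp only [hh, hMi, Matrix.smul_apply, Matrix.sub_apply, Matrix.one_apply, vecMulVec_apply,
      smul_eq_mul, hηs, Fin.succ_inj, trace, diag, dotProduct, mulVec, Finset.mul_sum, mul_sub,
      Finset.sum_sub_distrib, mul_ite, mul_one, mul_zero, Finset.sum_ite_eq, Finset.mem_univ, if_true]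
    congr 1
    · exact Finset.sum_congr rfl fun a _ => by ring
    · exact Finset.sum_congr rfl fun a _ => Finset.sum_congr rfl fun b _ => by ring
  have hP' : (D.P - D.ρ • (1 : Matrix (Fin m) (Fin m) ℝ)).PosSemidef := by
    refine PosSemidef.of_dotProduct_mulVec_nonneg
      (D.Ppd.isHermitian.sub (isHermitian_one.smul (IsSelfAdjoint.all _))) fun v => ?_
    rw [star_trivial, sub_mulVec, smul_mulVec, one_mulVec, dotProduct_sub, dotProduct_smul,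
      smul_eq_mul]
    linarith [D.Pge v]
  have h1 := quad_le_trace _ hP' ξ
  have h2 := hP'.trace_nonneg
  rw [sub_mulVec, smul_mulVec, one_mulVec, dotProduct_sub, dotProduct_smul, smul_eq_mul] at h1
  rw [trace_sub, trace_smul, trace_one, Fintype.card_fin, smul_eq_mul] at h1 h2
  have hm : (2 : ℝ) ≤ m := by exact_mod_cast D.two_le
  have hρ := D.ρpos
  have hΛ := D.Λpos
  have hxσ : σ⁻¹ * x ≤ 1 := by
    rw [inv_mul_le_iff₀ hσ0, hσ]; linarith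
  have hσi : 0 < σ⁻¹ := inv_pos.2 hσ0
  have h3 : D.ρ ≤ D.P.trace - σ⁻¹ * (ξ ⬝ᵥ D.P *ᵥ ξ) := by
    have a1 : ξ ⬝ᵥ D.P *ᵥ ξ ≤ (D.P.trace - D.ρ * m + D.ρ) * x := by rw [← hx] at h1; linarith
    have a2 := mul_le_mul_of_nonneg_left a1 hσi.le
    have a3 : (D.P.trace - D.ρ * m + D.ρ) * (σ⁻¹ * x) ≤ D.P.trace - D.ρ * m + D.ρ :=
      mul_le_of_le_one_right (by linarith) hxσ
    nlinarith
  have h4 := D.bound fun i j l => q i j * (σ⁻¹ * ξ l)
  have e4 : ∑ i, ∑ j, ∑ l, (q i j * (σ⁻¹ * ξ l)) ^ 2 = Q * (σ⁻¹ * (σ⁻¹ * x)) := by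
    simp only [hQ, Finset.sum_mul]
    refine Finset.sum_congr rfl fun i _ => Finset.sum_congr rfl fun j _ => ?_
    simp only [hx, dotProduct, Finset.mul_sum]
    exact Finset.sum_congr rfl fun l _ => by ring
  rw [e4] at h4
  have h5 : D.Λ * D.ρ * (Q * (σ⁻¹ * (σ⁻¹ * x))) ≤ D.Λ * D.ρ * (Q * σ⁻¹) := by
    refine mul_le_mul_of_nonneg_left (mul_le_mul_of_nonneg_left ?_ hQ0) (by positivity)
    exact mul_le_of_le_one_right hσi.le hxσ
  rw [pf_eq_GG _ _ _ _ _ _ hdet, htv, GG, hen, hgam, hhh, hQe, smul_eq_mul]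
  refine mul_pos (by positivity) ?_
  have e5 : (s + D.Λ * Q - D.Λ * (Q * (σ⁻¹ * (1 + x)))) *
      (s⁻¹ * (D.P.trace - σ⁻¹ * (ξ ⬝ᵥ D.P *ᵥ ξ))) =
      (1 + D.Λ * (Q * σ⁻¹)) * (D.P.trace - σ⁻¹ * (ξ ⬝ᵥ D.P *ᵥ ξ)) := by
    have : 1 + x = σ - s := by rw [hσ]; ring
    rw [this]
    field_simp
    ring
  rw [e5]
  have h6 : (1 + D.Λ * (Q * σ⁻¹)) * D.ρ ≤
      (1 + D.Λ * (Q * σ⁻¹)) * (D.P.trace - σ⁻¹ * (ξ ⬝ᵥ D.P *ᵥ ξ)) :=
    mul_le_mul_of_nonneg_left h3 (by positivity)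
  nlinarith [neg_abs_le (qf D.B fun i j l => q i j * (σ⁻¹ * ξ l))]

end Crest.Agent.R237.H
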