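import Crest.Agent.R237.HDefs

/-! S0367 framework: symmetric 4-tensors and linear functionals on polynomials. -/

set_option autoImplicit false
set_option linter.unusedSectionVars false

namespace Crest.Agent.R237.H

open Matrix

variable {m : ℕ}

/-- fully symmetric 4-arrays. -/
def Sym4 {ι : Type} (H : ι → ι → ι → ι → ℝ) : Prop :=
  (∀ a b c d, H a b c d = H b a c d) ∧ (∀ a b c d, H a b c d = H a c b d) ∧
    ∀ a b c d, H a b c d = H a b d c

/-- exponent vectors of the `xh a`. -/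
noncomputable def hfun_n (m : ℕ) : Fin (m + 1) → (Fin m →₀ ℕ) :=
  Fin.cons 0 fun i => Finsupp.single i 1

theorem hfun_xh (a : Fin (m + 1)) : xh m a = MvPolynomial.monomial (hfun_n m a) (1 : ℝ) := by
  refine Fin.cases ?_ (fun i => ?_) a
  · simp [xh, hfun_n]
  · simp [xh, hfun_n, MvPolynomial.X]

theorem hfun_n_apply (a : Fin (m + 1)) (i : Fin m) :
    hfun_n m a i = if i.succ = a then 1 else 0 := by
  refine Fin.cases ?_ (fun j => ?_) a
  · simp [hfun_n]
  · simp [hfun_n, Finsupp.single_apply, eq_comm]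

theorem hfun_ms {s t : Multiset (Fin (m + 1))} (hc : Multiset.card s = Multiset.card t)
    (h : ∀ i : Fin m, s.count i.succ = t.count i.succ) : s = t := by
  have hs : ∑ a, s.count a = Multiset.card s :=
    Multiset.sum_count_eq_card fun a _ => Finset.mem_univ a
  have ht : ∑ a, t.count a = Multiset.card t :=
    Multiset.sum_count_eq_card fun a _ => Finset.mem_univ a
  rw [Fin.sum_univ_succ] at hs ht
  simp only [h] at hs
  refine Multiset.ext.2 fun a => Fin.cases ?_ h a
  omega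

theorem hfun_2 {ι : Type} (G : ι → ι → ℝ) (h : ∀ a b, G a b = G b a) {a b a' b' : ι}
    (e : a ::ₘ b ::ₘ (0 : Multiset ι) = a' ::ₘ b' ::ₘ 0) : G a b = G a' b' := by
  have hm : a' ∈ a ::ₘ b ::ₘ (0 : Multiset ι) := e ▸ Multiset.mem_cons_self _ _
  simp only [Multiset.mem_cons, Multiset.notMem_zero, or_false] at hm
  rcases hm with rfl | rfl
  · rw [Multiset.cons_inj_right, Multiset.cons_inj_left] at e
    rw [e]
  · rw [Multiset.cons_swap, Multiset.cons_inj_right, Multiset.cons_inj_left] at e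
    rw [h, e]

theorem hfun_3 {ι : Type} (G : ι → ι → ι → ℝ) (h1 : ∀ a b c, G a b c = G b a c)
    (h2 : ∀ a b c, G a b c = G a c b) {a b c a' b' c' : ι}
    (e : a ::ₘ b ::ₘ c ::ₘ (0 : Multiset ι) = a' ::ₘ b' ::ₘ c' ::ₘ 0) : G a b c = G a' b' c' := by
  have hm : a' ∈ a ::ₘ b ::ₘ c ::ₘ (0 : Multiset ι) := e ▸ Multiset.mem_cons_self _ _
  simp only [Multiset.mem_cons, Multiset.notMem_zero, or_false] at hm
  rcases hm with rfl | rfl | rfl
  · rw [Multiset.cons_inj_right] at e
    exact hfun_2 (G a') (h2 a') e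
  · rw [Multiset.cons_swap, Multiset.cons_inj_right] at e
    rw [h1]
    exact hfun_2 (G a') (h2 a') e
  · rw [Multiset.cons_swap b, Multiset.cons_swap a, Multiset.cons_inj_right] at e
    rw [h2, h1]
    exact hfun_2 (G a') (h2 a') e

theorem hfun_4 {ι : Type} {H : ι → ι → ι → ι → ℝ} (hH : Sym4 H) {a b c d a' b' c' d' : ι}
    (e : a ::ₘ b ::ₘ c ::ₘ d ::ₘ (0 : Multiset ι) = a' ::ₘ b' ::ₘ c' ::ₘ d' ::ₘ 0) :
    H a b c d = H a' b' c' d' := by
  obtain ⟨h1, h2, h3⟩ := hH
  have hm : a' ∈ a ::ₘ b ::ₘ c ::ₘ d ::ₘ (0 : Multiset ι) := e ▸ Multiset.mem_cons_self _ _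
  simp only [Multiset.mem_cons, Multiset.notMem_zero, or_false] at hm
  rcases hm with rfl | rfl | rfl | rfl
  · rw [Multiset.cons_inj_right] at e
    exact hfun_3 (H a') (h2 a') (h3 a') e
  · rw [Multiset.cons_swap, Multiset.cons_inj_right] at e
    rw [h1]
    exact hfun_3 (H a') (h2 a') (h3 a') e
  · rw [Multiset.cons_swap b, Multiset.cons_swap a, Multiset.cons_inj_right] at e
    rw [h2, h1]
    exact hfun_3 (H a') (h2 a') (h3 a') e
  · rw [Multiset.cons_swap c, Multiset.cons_swap b, Multiset.cons_swap a,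
      Multiset.cons_inj_right] at e
    rw [h3, h2, h1]
    exact hfun_3 (H a') (h2 a') (h3 a') e

theorem hfun_key {H : Fin (m + 1) → Fin (m + 1) → Fin (m + 1) → Fin (m + 1) → ℝ} (hH : Sym4 H)
    {a b c d a' b' c' d' : Fin (m + 1)}
    (e : hfun_n m a + hfun_n m b + hfun_n m c + hfun_n m d =
      hfun_n m a' + hfun_n m b' + hfun_n m c' + hfun_n m d') : H a b c d = H a' b' c' d' := by
  refine hfun_4 hH (hfun_ms (by simp) fun i => ?_)
  have := DFunLike.congr_fun e i
  simp only [Finsupp.add_apply, hfun_n_apply] at this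
  simp only [Multiset.count_cons, Multiset.count_zero]
  omega

theorem hfun_deg (d : Fin m →₀ ℕ) (hd : (d.sum fun _ e => e) ≤ 2) :
    ∃ a b, d = hfun_n m a + hfun_n m b := by
  have hc : Multiset.card (Finsupp.toMultiset d) ≤ 2 := by
    rw [Finsupp.card_toMultiset]
    exact hd
  have hd' : d = Multiset.toFinsupp (Finsupp.toMultiset d) :=
    (Finsupp.toMultiset_toFinsupp d).symm
  obtain h | h | h : Multiset.card (Finsupp.toMultiset d) = 0 ∨
      Multiset.card (Finsupp.toMultiset d) = 1 ∨ Multiset.card (Finsupp.toMultiset d) = 2 := by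
    omega
  · rw [Multiset.card_eq_zero] at h
    exact ⟨0, 0, by rw [hd', h]; simp [hfun_n]⟩
  · obtain ⟨i, hi⟩ := Multiset.card_eq_one.1 h
    exact ⟨0, i.succ, by rw [hd', hi]; simp [hfun_n]⟩
  · obtain ⟨i, j, hi⟩ := Multiset.card_eq_two.1 h
    refine ⟨i.succ, j.succ, ?_⟩
    rw [hd', hi, Multiset.insert_eq_cons, ← Multiset.singleton_add, map_add]
    simp [hfun_n]

theorem hfun_gram (q : MvPolynomial (Fin m) ℝ) (hq : q.totalDegree ≤ 2) :
    ∃ S : Mt m ℝ, q = ∑ a, ∑ b, S a b • (xh m a * xh m b) := by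
  rw [q.as_sum]
  refine Finset.sum_induction _ (fun q => ∃ S : Mt m ℝ, q = ∑ a, ∑ b, S a b • (xh m a * xh m b))
    ?_ ⟨0, by simp⟩ fun d hd => ?_
  · rintro _ _ ⟨S, rfl⟩ ⟨S', rfl⟩
    exact ⟨S + S', by simp only [Matrix.add_apply, add_smul, Finset.sum_add_distrib]⟩
  · obtain ⟨a, b, e⟩ := hfun_deg d ((MvPolynomial.le_totalDegree hd).trans hq)
    refine ⟨Matrix.of fun a' b' => if a' = a then if b' = b then q.coeff d else 0 else 0, ?_⟩
    rw [Finset.sum_eq_single a (fun a' _ h => by simp [h]) (by simp),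
      Finset.sum_eq_single b (fun b' _ h => by simp [h]) (by simp)]
    simp only [Matrix.of_apply, if_true]
    rw [hfun_xh, hfun_xh, MvPolynomial.monomial_mul, MvPolynomial.smul_monomial, ← e]
    simp

/-- `xh a = monomial (n a) 1` with `n 0 = 0`, `n i.succ = single i 1`. If
`n a + n b + n c + n d = n a' + n b' + n c' + n d'` then the multisets `{a,b,c,d}`,
`{a',b',c',d'}` agree (count of `i.succ` = value at `i`; count of `0` by cardinality), and a
`Sym4` array only depends on the multiset (prove it for 2, 3, 4 arguments in turn with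
`Multiset.cons_swap`, `Multiset.cons_inj_right`). Define `L` on the monomial basis
(`MvPolynomial.basisMonomials`, `Basis.constr`) by choice. -/
theorem exists_fun (H : Fin (m + 1) → Fin (m + 1) → Fin (m + 1) → Fin (m + 1) → ℝ)
    (hH : Sym4 H) :
    ∃ L : MvPolynomial (Fin m) ℝ →ₗ[ℝ] ℝ,
      ∀ a b c d, L (xh m a * xh m b * xh m c * xh m d) = H a b c d := by
  classical
  let F : (Fin m →₀ ℕ) → ℝ := fun n =>
    if h : ∃ v : Fin (m + 1) × Fin (m + 1) × Fin (m + 1) × Fin (m + 1),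
      hfun_n m v.1 + hfun_n m v.2.1 + hfun_n m v.2.2.1 + hfun_n m v.2.2.2 = n then
      H h.choose.1 h.choose.2.1 h.choose.2.2.1 h.choose.2.2.2 else 0
  refine ⟨(MvPolynomial.basisMonomials (Fin m) ℝ).constr ℝ F, fun a b c d => ?_⟩
  have e : xh m a * xh m b * xh m c * xh m d = MvPolynomial.basisMonomials (Fin m) ℝ
      (hfun_n m a + hfun_n m b + hfun_n m c + hfun_n m d) := by
    simp only [hfun_xh, MvPolynomial.monomial_mul, mul_one, MvPolynomial.coe_basisMonomials]
  rw [e, Module.Basis.constr_basis]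
  have h : ∃ v : Fin (m + 1) × Fin (m + 1) × Fin (m + 1) × Fin (m + 1),
      hfun_n m v.1 + hfun_n m v.2.1 + hfun_n m v.2.2.1 + hfun_n m v.2.2.2 =
        hfun_n m a + hfun_n m b + hfun_n m c + hfun_n m d := ⟨(a, b, c, d), rfl⟩
  simp only [F]
  rw [dif_pos h]
  exact hfun_key hH h.choose_spec

/-- every monomial of degree `≤ 2` is some `xh a * xh b`; symmetrise the coefficients. -/
theorem exists_gram (q : MvPolynomial (Fin m) ℝ) (hq : q.totalDegree ≤ 2) :
    ∃ S : Mt m ℝ, S.IsSymm ∧ q = ∑ a, ∑ b, S a b • (xh m a * xh m b) := by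
  obtain ⟨S, hS⟩ := hfun_gram q hq
  have hS' : q = ∑ a, ∑ b, S b a • (xh m a * xh m b) := by
    rw [hS, Finset.sum_comm]
    simp only [mul_comm]
  refine ⟨Matrix.of fun a b => (1 / 2 : ℝ) * (S a b + S b a), ?_, ?_⟩
  · ext a b
    simp [add_comm]
  · simp only [Matrix.of_apply, mul_smul, add_smul, ← Finset.smul_sum, Finset.sum_add_distrib]
    rw [← hS, ← hS', ← two_smul ℝ q, smul_smul]
    norm_num

/-- Gram form of `L (q q)`. -/
theorem pos_of_tensor (H : Fin (m + 1) → Fin (m + 1) → Fin (m + 1) → Fin (m + 1) → ℝ)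
    (L : MvPolynomial (Fin m) ℝ →ₗ[ℝ] ℝ)
    (hL : ∀ a b c d, L (xh m a * xh m b * xh m c * xh m d) = H a b c d)
    (hpos : ∀ S : Mt m ℝ, S.IsSymm → S ≠ 0 →
      0 < ∑ a, ∑ b, ∑ c, ∑ d, S a b * S c d * H a b c d)
    (q : MvPolynomial (Fin m) ℝ) (hq0 : q ≠ 0) (hq : q.totalDegree ≤ 2) :
    0 < L (q * q) := by
  obtain ⟨S, hs, hS⟩ := exists_gram q hq
  have h0 : S ≠ 0 := fun e => hq0 (by rw [hS, e]; simp)
  have := hpos S hs h0
  convert this using 1
  rw [hS]
  simp only [Finset.sum_mul, map_sum]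
  refine Finset.sum_congr rfl fun a _ => Finset.sum_congr rfl fun b _ => ?_
  simp only [Finset.mul_sum, map_sum]
  refine Finset.sum_congr rfl fun c _ => Finset.sum_congr rfl fun d _ => ?_
  rw [smul_mul_smul_comm, map_smul, ← mul_assoc, hL, smul_eq_mul]

end Crest.Agent.R237.H
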