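import Crest.Agent.R237.HDiag

/-! S0367 framework: the Pick property in general, and hyperbolicity. -/

set_option autoImplicit false
set_option linter.unusedSectionVars false

namespace Crest.Agent.R237.H

open Matrix

variable {m : ℕ}

/-- `A ↦ phi D A c z` is continuous at a symmetric `A` (inverse via `adjugate`/`det`:
`Matrix.inv_def`, `Continuous.matrix_adjugate`, `Continuous.matrix_det`, `det_zA_ne`;
the denominator is non-zero by `hh_im_neg`). -/
theorem continuousAt_phi (D : Data m) (A : Mt m ℝ) (hA : A.IsSymm) (c : Ar m ℝ) (z : ℂ)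
    (hz : 0 < z.im) : ContinuousAt (fun A' : Mt m ℝ => phi D A' c z) A := by
  have h1 : Continuous fun A' : Mt m ℝ => zA A' z :=
    continuous_const.sub (continuous_id.matrix_map Complex.continuous_ofReal)
  have hN : ContinuousAt (fun A' : Mt m ℝ => (zA A' z)⁻¹) A := by
    simp only [Matrix.inv_def, Ring.inverse_eq_inv']
    exact (h1.matrix_det.continuousAt.inv₀ (det_zA_ne A hA z hz.ne')).smul
      h1.matrix_adjugate.continuousAt
  have ht : Continuous fun A' : Mt m ℝ => tC A' c := by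
    refine continuous_pi fun i => continuous_pi fun j => continuous_pi fun a => ?_
    refine Complex.continuous_ofReal.comp ?_
    by_cases h : i = j
    · simp only [tv, h, if_true]; exact continuous_const
    · simp only [tv, h, if_false]
      refine Fin.cases ?_ (fun l => ?_) a
      · simp only [Fin.cons_zero]; fun_prop
      · simp only [Fin.cons_succ]; exact continuous_const
  have c1 : Continuous fun p : Mt m ℂ × (Fin m → Fin m → Fin (m + 1) → ℂ) => en p.1 p.2 := by
    simp only [en, dotProduct, Matrix.mulVec]; fun_prop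
  have c2 : Continuous fun p : Mt m ℂ × (Fin m → Fin m → Fin (m + 1) → ℂ) =>
      qf D.B (gam p.1 p.2) := by
    simp only [qf, bil, gam, dotProduct, Matrix.mulVec]; fun_prop
  have c3 : Continuous fun N : Mt m ℂ => hh D.P N := by
    simp only [hh]; fun_prop
  have hp := hN.prodMk ht.continuousAt
  have hne : hh D.P (zA A z)⁻¹ ≠ 0 := fun h => by
    have := hh_im_neg D A hA z hz
    rw [h] at this
    simp at this
  exact ((c1.continuousAt.comp hp).const_smul D.Λ).neg.add
    ((c2.continuousAt.comp hp).div (c3.continuousAt.comp hN) hne)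

theorem HHyp_ev (x y : ℝ) (hy : y ≠ 0) : ∀ᶠ δ in nhdsWithin (0 : ℝ) {0}ᶜ, x + δ * y ≠ 0 := by
  by_cases hx : x = 0
  · filter_upwards [self_mem_nhdsWithin] with δ hδ
    rw [hx, zero_add]
    exact mul_ne_zero hδ hy
  · have hc : ContinuousAt (fun δ : ℝ => x + δ * y) 0 := by fun_prop
    exact (hc.eventually_ne (by simpa using hx)).filter_mono nhdsWithin_le_nhds

theorem HHyp_lim (D : Data m) (A : Mt m ℝ) (hA : A.IsSymm) (c : Ar m ℝ) (z : ℂ) (hz : 0 < z.im)
    (F : ℝ → Mt m ℝ) (hF : Continuous F) (h0 : F 0 = A)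
    (h : ∀ᶠ δ in nhdsWithin (0 : ℝ) {0}ᶜ, 0 ≤ (phi D (F δ) c z).im) : 0 ≤ (phi D A c z).im := by
  have h1 : ContinuousAt (fun δ => (phi D (F δ) c z).im) 0 :=
    Complex.continuous_im.continuousAt.comp
      (ContinuousAt.comp (g := fun A' : Mt m ℝ => phi D A' c z)
        (h0 ▸ continuousAt_phi D A hA c z hz) hF.continuousAt)
  have h2 := ge_of_tendsto (h1.tendsto.mono_left nhdsWithin_le_nhds) h
  rwa [h0] at h2

theorem HHyp_one (D : Data m) (A : Mt m ℝ) (hA : A.IsSymm) (a : Fin m) (ha : A a.succ 0 ≠ 0)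
    (c : Ar m ℝ) (hc : Sym3 c) (z : ℂ) (hz : 0 < z.im) : 0 ≤ (phi D A c z).im := by
  obtain ⟨U, lam, h1, h2, h3⟩ := exists_diag A hA
  have hU : ∀ r, ∃ b : Fin m, U b.succ r ≠ 0 := by
    intro r
    by_contra hn
    push Not at hn
    have e1 : A * U = U * diagonal lam := by rw [h3, Matrix.mul_assoc, h1, Matrix.mul_one]
    have e2 := congrFun (congrFun e1 a.succ) r
    rw [Matrix.mul_diagonal, hn, zero_mul, Matrix.mul_apply, Fin.sum_univ_succ] at e2
    simp only [hn, mul_zero, Finset.sum_const_zero, add_zero] at e2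
    have e3 : U 0 r = 0 := (mul_eq_zero.1 e2).resolve_left ha
    have e4 := congrFun (congrFun h1 r) r
    rw [Matrix.mul_apply, Fin.sum_univ_succ] at e4
    simp [hn, e3] at e4
  refine HHyp_lim D A hA c z hz
    (fun δ => U * diagonal (fun r => lam r + δ * ((r : ℕ) : ℝ)) * Uᵀ) ?_ (by simp [h3]) ?_
  · refine (continuous_const.matrix_mul (Continuous.matrix_diagonal ?_)).matrix_mul continuous_const
    fun_prop
  · have hev : ∀ᶠ δ in nhdsWithin (0 : ℝ) {0}ᶜ, ∀ r s : Fin (m + 1), r ≠ s →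
        (lam r - lam s) + δ * (((r : ℕ) : ℝ) - ((s : ℕ) : ℝ)) ≠ 0 := by
      refine Filter.eventually_all.2 fun r => Filter.eventually_all.2 fun s =>
        Filter.eventually_all.2 fun hrs => HHyp_ev _ _ (sub_ne_zero.2 fun e => hrs ?_)
      exact Fin.ext (by exact_mod_cast e)
    filter_upwards [hev] with δ hδ
    refine phi_im_diag D U _ h1 h2 (fun r s e => ?_) hU c hc z hz
    by_contra hrs
    exact hδ r s hrs (by linarith)

/-- Two limits. (1) If `A 0 a.succ ≠ 0` for some `a`: `A = U diag(lam) Uᵀ`; no column of `U` is a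
multiple of `e_0` (if `U a.succ r = 0` for all `a`, then `A *ᵥ (U · r) = lam r • (U · r)` with
`U 0 r ≠ 0` gives `A a.succ 0 = 0` for all `a`); replace `lam r` by `lam r + δ * r`, injective for
all but finitely many `δ`, let `δ → 0` (filter `𝓝[≠] 0`), use `phi_im_diag`, `continuousAt_phi`,
`ge_of_tendsto`. (2) General `A`: add `δ` to the entries `(0, a.succ)`, `(a.succ, 0)` for one
`a` (`m ≥ 2`). -/
theorem phi_im_nonneg (D : Data m) (A : Mt m ℝ) (hA : A.IsSymm) (c : Ar m ℝ) (hc : Sym3 c)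
    (z : ℂ) (hz : 0 < z.im) : 0 ≤ (phi D A c z).im := by
  have h2 := D.two_le
  let a : Fin m := ⟨0, by omega⟩
  refine HHyp_lim D A hA c z hz (fun δ => A + Matrix.of fun _ _ => δ) ?_ ?_ ?_
  · exact continuous_const.add (continuous_pi fun _ => continuous_pi fun _ => continuous_id)
  · ext i j; simp
  · filter_upwards [HHyp_ev (A a.succ 0) 1 one_ne_zero] with δ hδ
    refine HHyp_one D _ (hA.add (by ext i j; rfl)) a ?_ c hc z hz
    simpa using hδ

theorem HHyp_pos (D : Data m) (A : Mt m ℝ) (hA : A.IsSymm) (c : Ar m ℝ) (hc : Sym3 c) (k : ℝ)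
    (z : ℂ) (hz : 0 < z.im) :
    pf D.P D.B D.Λ (zA A z) (fun i j l => -((c i j l : ℝ) : ℂ)) (z - k) ≠ 0 := by
  have hd := det_zA_ne A hA z hz.ne'
  have htv : tv (zA A z) (fun i j l => -((c i j l : ℝ) : ℂ)) = (-1 : ℂ) • tC A c := by
    funext i j a
    by_cases h : i = j
    · simp [tv, tC, h]
    · refine Fin.cases ?_ (fun l => ?_) a <;> simp [tv, tC, h, zA]
  have hne : hh D.P (zA A z)⁻¹ ≠ 0 := fun h => by
    have := hh_im_neg D A hA z hz
    rw [h] at this
    simp at this
  have hphi := phi_im_nonneg D A hA c hc z hz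
  have e : GG D.P D.B D.Λ (zA A z)⁻¹ ((-1 : ℂ) • tC A c) (z - k) =
      hh D.P (zA A z)⁻¹ * (z - k + phi D A c z) := by
    rw [GG, en_smul_right, gam_smul_right, qf_smul, phi]
    field_simp
    ring
  rw [pf_eq_GG _ _ _ _ _ _ hd, htv, e]
  refine mul_ne_zero (pow_ne_zero 2 hd) (mul_ne_zero hne fun h => ?_)
  have := congrArg Complex.im h
  simp only [Complex.add_im, Complex.sub_im, Complex.ofReal_im, Complex.zero_im] at this
  linarith

/-- For `0 < im z`: `pf_eq_GG`, `tv (zA A z) (-c) = (-1) • tC A c`, so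
`GG = hh * (z - k + phi)` and `im (z - k + phi) > 0`. For `im z < 0` apply this to
`(-A, -c, -k, -z)` and use `pf_smul` with `s = -1`. -/
theorem pf_ne_zero (D : Data m) (A : Mt m ℝ) (hA : A.IsSymm) (c : Ar m ℝ) (hc : Sym3 c) (k : ℝ)
    (z : ℂ) (hz : z.im ≠ 0) :
    pf D.P D.B D.Λ (zA A z) (fun i j l => -((c i j l : ℝ) : ℂ)) (z - k) ≠ 0 := by
  rcases lt_or_gt_of_ne hz with h | h
  · have h1 := HHyp_pos D (-A) hA.neg (-c)
      ⟨fun i j l => congrArg Neg.neg (hc.1 i j l), fun i j l => congrArg Neg.neg (hc.2 i j l)⟩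
      (-k) (-z) (by simpa using h)
    have e1 : zA (-A) (-z) = (-1 : ℂ) • zA A z := by
      ext i j; simp [zA]; ring
    have e2 : (fun i j l => -(((-c) i j l : ℝ) : ℂ)) =
        (-1 : ℂ) • fun i j l => -((c i j l : ℝ) : ℂ) := by
      funext i j l; simp
    have e3 : -z - ((-k : ℝ) : ℂ) = -1 * (z - k) := by push_cast; ring
    rw [e1, e2, e3, pf_smul] at h1
    exact right_ne_zero_of_mul h1
  · exact HHyp_pos D A hA c hc k z h

end Crest.Agent.R237.H
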