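import Crest.Agent.R237.HDefs

/-! S0367 framework: the value of `G` at the centred pseudo-moment vector. -/

set_option autoImplicit false
set_option linter.unusedSectionVars false

namespace Crest.Agent.R237.H

open Matrix

variable {m : ℕ}

open scoped MatrixOrder in
theorem hneg_trace {P W : Matrix (Fin m) (Fin m) ℝ} (hP : P.PosDef) (hW : W.PosDef) : 0 ≤ (P * W).trace := by
  obtain ⟨B, hB⟩ := CStarAlgebra.nonneg_iff_eq_star_mul_self.1 hW.posSemidef.nonneg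
  rw [hB, ← Matrix.mul_assoc, Matrix.trace_mul_comm, ← Matrix.mul_assoc]
  exact (hP.posSemidef.mul_mul_conjTranspose_same B).trace_nonneg

/-- block diagonal matrix -/
def hneg_blk (a : ℝ) (W : Matrix (Fin m) (Fin m) ℝ) : Mt m ℝ :=
  Matrix.of fun x y => Fin.cases (Fin.cases a (fun _ => 0) y) (fun i => Fin.cases 0 (fun j => W i j) y) x

theorem hneg_mul (a b : ℝ) (W W' : Matrix (Fin m) (Fin m) ℝ) (h : a * b = 1) (h' : W * W' = 1) :
    hneg_blk a W * hneg_blk b W' = 1 := by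
  ext x y
  rw [Matrix.mul_apply, Fin.sum_univ_succ]
  refine Fin.cases ?_ (fun i => ?_) x <;> refine Fin.cases ?_ (fun j => ?_) y
  · simp [hneg_blk, h]
  · simp [hneg_blk, (Fin.succ_ne_zero j).symm]
  · simp [hneg_blk]
  · have := congrFun (congrFun h' i) j
    rw [Matrix.mul_apply] at this
    simpa [hneg_blk, Matrix.one_apply] using this

theorem hneg_mulVec (a c : ℝ) (W : Matrix (Fin m) (Fin m) ℝ) (v : Fin m → ℝ) :
    hneg_blk a W *ᵥ (Fin.cons c v : Fin (m + 1) → ℝ) = Fin.cons (a * c) (W *ᵥ v) := by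
  funext x
  refine Fin.cases ?_ (fun i => ?_) x <;>
    simp [hneg_blk, Matrix.mulVec, dotProduct, Fin.sum_univ_succ]

open MvPolynomial in
/-- `mM L` is block diagonal `(a, W⁻¹)`, its inverse is `(a⁻¹, W)`. For `i ≠ j`,
`t_{ij} = (W⁻¹ i j, θ i j ·)`, `t_{ij}ᵀ M⁻¹ t_{ij} = (W⁻¹ i j)^2/a + θ_{ij}ᵀ W θ_{ij}`,
`gam = wth W θ`, `hh = tr (P W) ≥ 0` (both positive definite), and
`L (ff m) - en = ∑_{i ≠ j} (δ - (W⁻¹ i j)^2/a) ≤ m^2 δ`. -/
theorem gL_pm (D : Data m) (W : Matrix (Fin m) (Fin m) ℝ) (hW : W.PosDef) (θ : Ar m ℝ)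
    (a δ : ℝ) (ha : 0 < a) (hδ : 0 ≤ δ) (L : MvPolynomial (Fin m) ℝ →ₗ[ℝ] ℝ) (h0 : L 1 = a)
    (h1 : ∀ i, L (X i) = 0) (h2 : ∀ i j, L (X i * X j) = W⁻¹ i j)
    (h3 : ∀ i j l, L (X i * X j * X l) = θ i j l)
    (h4 : ∀ i j, i ≠ j → L ((X i * X j) ^ 2) = θ i j ⬝ᵥ W *ᵥ θ i j + δ) :
    (mM L).det ≠ 0 ∧ 0 ≤ (D.P * W).trace ∧
      gL D L ≤ D.Λ * (m : ℝ) ^ 2 * δ * (D.P * W).trace + qf D.B (wth W θ) := by
  have hWd : IsUnit W.det := hW.det_pos.ne'.isUnit
  have hM : mM L = hneg_blk a W⁻¹ := by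
    ext x y
    refine Fin.cases ?_ (fun i => ?_) x <;> refine Fin.cases ?_ (fun j => ?_) y <;>
      simp [mM, xh, hneg_blk, h0, h1, h2]
  have hmul := hneg_mul a a⁻¹ W⁻¹ W (mul_inv_cancel₀ ha.ne') (Matrix.nonsing_inv_mul W hWd)
  have hinv : (mM L)⁻¹ = hneg_blk a⁻¹ W := by
    rw [hM]
    exact Matrix.inv_eq_right_inv hmul
  have htr := hneg_trace D.Ppd hW
  refine ⟨?_, htr, ?_⟩
  · rw [hM]
    exact (Matrix.isUnit_det_of_right_inverse hmul).ne_zero
  have htv : ∀ i j, tv (mM L) (mC L) i j = if i = j then 0 else Fin.cons (W⁻¹ i j) (θ i j) := fun i j => by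
    have e1 : mM L i.succ j.succ = W⁻¹ i j := by rw [hM]; rfl
    have e2 : mC L i j = θ i j := funext fun l => h3 i j l
    rw [tv, e1, e2]
  have hgam : gam (mM L)⁻¹ (tv (mM L) (mC L)) = wth W θ := by
    funext i j l
    rw [gam, wth, htv, hinv]
    split_ifs
    · simp
    · rw [hneg_mulVec, Fin.cons_succ]
  have hhh : hh D.P (mM L)⁻¹ = (D.P * W).trace := by
    rw [hinv, hh, Matrix.trace]
    refine Finset.sum_congr rfl fun x _ => ?_
    rw [Matrix.diag_apply, Matrix.mul_apply]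
    refine Finset.sum_congr rfl fun y _ => ?_
    have : W y x = W x y := by simpa using hW.isHermitian.apply x y
    rw [this]
    rfl
  have hen : L (ff m) - en (mM L)⁻¹ (tv (mM L) (mC L)) ≤ (m : ℝ) ^ 2 * δ := by
    rw [ff, en, map_sum, ← Finset.sum_sub_distrib]
    refine (Finset.sum_le_card_nsmul _ _ (m * δ) fun i _ => ?_).trans (le_of_eq (by simp; ring))
    rw [map_sum, ← Finset.sum_sub_distrib]
    refine (Finset.sum_le_card_nsmul _ _ δ fun j _ => ?_).trans (le_of_eq (by simp))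
    rw [htv, hinv]
    split_ifs with hij
    · simpa using hδ
    · rw [h4 i j hij, hneg_mulVec, dotProduct, dotProduct, Fin.sum_univ_succ]
      simp only [Fin.cons_zero, Fin.cons_succ]
      have : 0 ≤ W⁻¹ i j * (a⁻¹ * W⁻¹ i j) := by
        rw [mul_left_comm]
        exact mul_nonneg (inv_pos.2 ha).le (mul_self_nonneg _)
      linarith
  rw [gL, GG, hgam, hhh, smul_eq_mul, ← mul_sub]
  have := mul_le_mul_of_nonneg_right (mul_le_mul_of_nonneg_left hen D.Λpos.le) htr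
  linarith [mul_assoc D.Λ ((m : ℝ) ^ 2) δ]

end Crest.Agent.R237.H
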