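import Crest.Agent.R237.HDefs

/-! S0367 framework: behaviour under the substitution `X ↦ ξ + t X`. -/

set_option autoImplicit false
set_option linter.unusedSectionVars false

namespace Crest.Agent.R237.H

open Matrix

variable {m : ℕ}

/-- the affine function with coefficient vector `v`. -/
noncomputable def hsub_lin (v : Fin (m + 1) → ℝ) : MvPolynomial (Fin m) ℝ := ∑ a, v a • xh m a

/-- the matrix of the substitution on affine functions. -/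
def hsub_S (ξ : Fin m → ℝ) (t : ℝ) : Mt m ℝ :=
  Matrix.of fun a b => Fin.cases (Fin.cases 1 (fun j => ξ j) b)
    (fun i => Fin.cases 0 (fun j => if i = j then t else 0) b) a

/-- its inverse. -/
noncomputable def hsub_Si (ξ : Fin m → ℝ) (t : ℝ) : Mt m ℝ :=
  Matrix.of fun a b => Fin.cases (Fin.cases 1 (fun j => -ξ j / t) b)
    (fun i => Fin.cases 0 (fun j => if i = j then t⁻¹ else 0) b) a

/-- the affine part of `sub (X i X j)`. -/
def hsub_u (ξ : Fin m → ℝ) (t : ℝ) (i j : Fin m) : Fin (m + 1) → ℝ :=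
  Fin.cons (ξ i * ξ j) fun l => t * ush ξ i j l

theorem hsub_S_Si (ξ : Fin m → ℝ) {t : ℝ} (ht : t ≠ 0) : hsub_S ξ t * hsub_Si ξ t = 1 := by
  ext a b
  rw [Matrix.mul_apply, Fin.sum_univ_succ]
  refine Fin.cases ?_ (fun i => ?_) a <;> refine Fin.cases ?_ (fun j => ?_) b
  · simp [hsub_S, hsub_Si]
  · simp [hsub_S, hsub_Si, (Fin.succ_ne_zero j).symm]
    field_simp
    ring
  · simp [hsub_S, hsub_Si]
  · by_cases h : i = j
    · subst h
      simp [hsub_S, hsub_Si, ht]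
    · simp [hsub_S, hsub_Si, h]

theorem hsub_Si_succ (ξ : Fin m → ℝ) (t : ℝ) (y : Fin (m + 1) → ℝ) (l : Fin m) :
    (hsub_Si ξ t *ᵥ y) l.succ = t⁻¹ * y l.succ := by
  simp [Matrix.mulVec, dotProduct, Fin.sum_univ_succ, hsub_Si]

theorem hsub_conj (ξ : Fin m → ℝ) (t : ℝ) (N : Mt m ℝ) (a b : Fin m) :
    (hsub_Si ξ t * N * (hsub_Si ξ t)ᵀ) a.succ b.succ = t⁻¹ ^ 2 * N a.succ b.succ := by
  simp [Matrix.mul_apply, Fin.sum_univ_succ, hsub_Si]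
  ring

theorem hsub_xh (ξ : Fin m → ℝ) (t : ℝ) (b : Fin (m + 1)) :
    sub ξ t (xh m b) = hsub_lin fun a => hsub_S ξ t a b := by
  refine Fin.cases ?_ (fun j => ?_) b
  · simp [hsub_lin, Fin.sum_univ_succ, hsub_S, xh]
  · simp [hsub_lin, Fin.sum_univ_succ, hsub_S, xh, sub, MvPolynomial.smul_eq_C_mul, ite_mul,
      apply_ite MvPolynomial.C]

theorem hsub_q (ξ : Fin m → ℝ) (t : ℝ) {i j : Fin m} (h : i ≠ j) :
    sub ξ t (MvPolynomial.X i * MvPolynomial.X j) =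
      t ^ 2 • (MvPolynomial.X i * MvPolynomial.X j) + hsub_lin (hsub_u ξ t i j) := by
  have e : hsub_lin (hsub_u ξ t i j) = MvPolynomial.C (ξ i * ξ j) +
      MvPolynomial.C (t * ξ i) * MvPolynomial.X j + MvPolynomial.C (t * ξ j) * MvPolynomial.X i := by
    simp only [hsub_lin, Fin.sum_univ_succ, hsub_u, xh, Fin.cons_zero, Fin.cons_succ, ush, if_neg h,
      mul_add, add_smul, Finset.sum_add_distrib, mul_ite, mul_one, mul_zero, ite_smul, zero_smul,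
      Finset.sum_ite_eq', Finset.mem_univ, if_true]
    simp only [MvPolynomial.smul_eq_C_mul]
    ring
  rw [e]
  simp only [sub, map_mul, MvPolynomial.aeval_X, MvPolynomial.smul_eq_C_mul, map_pow]
  ring

theorem hsub_L_lin (L : MvPolynomial (Fin m) ℝ →ₗ[ℝ] ℝ) (q : MvPolynomial (Fin m) ℝ)
    (v : Fin (m + 1) → ℝ) : L (q * hsub_lin v) = (fun a => L (q * xh m a)) ⬝ᵥ v := by
  simp only [hsub_lin, Finset.mul_sum, map_sum, mul_smul_comm, map_smul, smul_eq_mul, dotProduct]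
  exact Finset.sum_congr rfl fun a _ => mul_comm _ _

theorem hsub_lin_xh (L : MvPolynomial (Fin m) ℝ →ₗ[ℝ] ℝ) (v : Fin (m + 1) → ℝ) :
    (fun a => L (hsub_lin v * xh m a)) = mM L *ᵥ v := by
  funext a
  rw [mul_comm, hsub_L_lin]
  rfl

theorem hsub_symm (L : MvPolynomial (Fin m) ℝ →ₗ[ℝ] ℝ) : (mM L)ᵀ = mM L := by
  ext a b
  simp [mM, mul_comm]

theorem hsub_tv (L : MvPolynomial (Fin m) ℝ →ₗ[ℝ] ℝ) {i j : Fin m} (h : i ≠ j) :
    tv (mM L) (mC L) i j = fun a => L (MvPolynomial.X i * MvPolynomial.X j * xh m a) := by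
  funext a
  refine Fin.cases ?_ (fun l => ?_) a <;> simp [tv, h, mM, mC, xh]

theorem hsub_mM (L : MvPolynomial (Fin m) ℝ →ₗ[ℝ] ℝ) (ξ : Fin m → ℝ) (t : ℝ) :
    mM (L ∘ₗ (sub ξ t).toLinearMap) = (hsub_S ξ t)ᵀ * mM L * hsub_S ξ t := by
  ext a b
  have e : mM (L ∘ₗ (sub ξ t).toLinearMap) a b = L (sub ξ t (xh m a) * sub ξ t (xh m b)) := by
    simp [mM]
  rw [e, hsub_xh, hsub_xh, hsub_L_lin, hsub_lin_xh, ← hsub_symm L, Matrix.mul_apply]
  simp only [dotProduct, Matrix.mulVec, Matrix.mul_apply, Matrix.transpose_apply, hsub_symm]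
  refine Finset.sum_congr rfl fun c _ => ?_
  congr 1
  refine Finset.sum_congr rfl fun d _ => ?_
  simp [mM, mul_comm]

theorem hsub_tv' (L : MvPolynomial (Fin m) ℝ →ₗ[ℝ] ℝ) (ξ : Fin m → ℝ) (t : ℝ) {i j : Fin m} (h : i ≠ j) :
    tv (mM (L ∘ₗ (sub ξ t).toLinearMap)) (mC (L ∘ₗ (sub ξ t).toLinearMap)) i j =
      (hsub_S ξ t)ᵀ *ᵥ (t ^ 2 • tv (mM L) (mC L) i j + mM L *ᵥ hsub_u ξ t i j) := by
  rw [hsub_tv _ h, hsub_tv _ h, ← hsub_lin_xh]
  funext b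
  have e : (L ∘ₗ (sub ξ t).toLinearMap) (MvPolynomial.X i * MvPolynomial.X j * xh m b) =
      L (sub ξ t (MvPolynomial.X i * MvPolynomial.X j) * sub ξ t (xh m b)) := by
    rw [← map_mul]
    rfl
  rw [e, hsub_xh, hsub_L_lin, hsub_q ξ t h]
  simp only [add_mul, smul_mul_assoc, map_add, map_smul, dotProduct, Matrix.mulVec,
    Matrix.transpose_apply, Pi.add_apply, Pi.smul_apply, smul_eq_mul]
  exact Finset.sum_congr rfl fun a _ => by ring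

theorem hsub_sq (L : MvPolynomial (Fin m) ℝ →ₗ[ℝ] ℝ) (ξ : Fin m → ℝ) (t : ℝ) {i j : Fin m} (h : i ≠ j) :
    (L ∘ₗ (sub ξ t).toLinearMap) ((MvPolynomial.X i * MvPolynomial.X j) ^ 2) =
      t ^ 4 * L ((MvPolynomial.X i * MvPolynomial.X j) ^ 2) +
        2 * t ^ 2 * (tv (mM L) (mC L) i j ⬝ᵥ hsub_u ξ t i j) +
        (mM L *ᵥ hsub_u ξ t i j) ⬝ᵥ hsub_u ξ t i j := by
  have e : (L ∘ₗ (sub ξ t).toLinearMap) ((MvPolynomial.X i * MvPolynomial.X j) ^ 2) =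
      L (sub ξ t (MvPolynomial.X i * MvPolynomial.X j) ^ 2) := by
    rw [← map_pow]
    rfl
  have e2 : ∀ q r : MvPolynomial (Fin m) ℝ, (t ^ 2 • q + r) ^ 2 =
      t ^ 4 • q ^ 2 + (2 * t ^ 2) • (q * r) + r * r := fun q r => by
    simp only [MvPolynomial.smul_eq_C_mul, map_mul, map_pow, map_ofNat]
    ring
  rw [e, hsub_q ξ t h, e2, map_add, map_add, map_smul, map_smul, hsub_L_lin, hsub_L_lin, hsub_lin_xh,
    hsub_tv _ h]
  rfl

/-- Let `M = mM L`, `L' = L ∘ sub ξ t`, `S` the matrix with `S 0 0 = 1`, `S i.succ 0 = 0`,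
`S 0 j.succ = ξ j`, `S i.succ j.succ = if i = j then t else 0`, so that
`sub (xh b) = ∑ a, S a b • xh a`, `mM L' = Sᵀ M S`; `S` is invertible (`S⁻¹ 0 j.succ = -ξ j/t`,
`S⁻¹ i.succ i.succ = 1/t`). For `i ≠ j`: `sub (X i X j) = t^2 X i X j + ∑ a, u a • xh a` with
`u 0 = ξ i ξ j`, `u l.succ = t * ush ξ i j l`, and `tv M (mC L) i j a = L (X i X j xh a)`, so
`t'_{ij} = Sᵀ (t^2 t_{ij} + M u)`, `M'⁻¹ t' = S⁻¹ (t^2 M⁻¹ t + u)`, `gam' = t • gam + ush ξ`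
(`D.shift`, `qf_smul`), `hh' = hh/t^2`,
`t'ᵀ M'⁻¹ t' = t^4 tᵀ M⁻¹ t + 2 t^2 t·u + uᵀ M u` and
`L' ((X i X j)^2) = t^4 L ((X i X j)^2) + 2 t^2 t·u + uᵀ M u`. -/
theorem gL_sub (D : Data m) (L : MvPolynomial (Fin m) ℝ →ₗ[ℝ] ℝ) (hd : (mM L).det ≠ 0)
    (ξ : Fin m → ℝ) (t : ℝ) (ht : t ≠ 0) :
    (mM (L ∘ₗ (sub ξ t).toLinearMap)).det ≠ 0 ∧
      gL D (L ∘ₗ (sub ξ t).toLinearMap) = t ^ 2 * gL D L := by
  have hS := hsub_S_Si ξ ht
  have hdS : (hsub_S ξ t).det ≠ 0 := by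
    intro h0
    have := congrArg Matrix.det hS
    rw [Matrix.det_mul, h0, zero_mul, Matrix.det_one] at this
    exact zero_ne_one this
  have hu : IsUnit (mM L).det := isUnit_iff_ne_zero.2 hd
  have hMN : mM L * (mM L)⁻¹ = 1 := Matrix.mul_nonsing_inv _ hu
  have hNM : (mM L)⁻¹ * mM L = 1 := Matrix.nonsing_inv_mul _ hu
  have hT : (hsub_Si ξ t)ᵀ * (hsub_S ξ t)ᵀ = 1 := by
    rw [← Matrix.transpose_mul, hS, Matrix.transpose_one]
  have hinv : (mM (L ∘ₗ (sub ξ t).toLinearMap))⁻¹ = hsub_Si ξ t * (mM L)⁻¹ * (hsub_Si ξ t)ᵀ := by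
    refine Matrix.inv_eq_right_inv ?_
    rw [hsub_mM]
    calc (hsub_S ξ t)ᵀ * mM L * hsub_S ξ t * (hsub_Si ξ t * (mM L)⁻¹ * (hsub_Si ξ t)ᵀ)
        = (hsub_S ξ t)ᵀ * (mM L * ((hsub_S ξ t * hsub_Si ξ t) * (mM L)⁻¹)) * (hsub_Si ξ t)ᵀ := by
          simp only [Matrix.mul_assoc]
      _ = 1 := by
          rw [hS, Matrix.one_mul, hMN, Matrix.mul_one]
          exact mul_eq_one_comm.1 hT
  refine ⟨?_, ?_⟩
  · rw [hsub_mM, Matrix.det_mul, Matrix.det_mul, Matrix.det_transpose]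
    exact mul_ne_zero (mul_ne_zero hdS hd) hdS
  have hNt : ∀ i j, i ≠ j → (mM (L ∘ₗ (sub ξ t).toLinearMap))⁻¹ *ᵥ
      tv (mM (L ∘ₗ (sub ξ t).toLinearMap)) (mC (L ∘ₗ (sub ξ t).toLinearMap)) i j =
      hsub_Si ξ t *ᵥ (t ^ 2 • ((mM L)⁻¹ *ᵥ tv (mM L) (mC L) i j) + hsub_u ξ t i j) := by
    intro i j h
    rw [hsub_tv' L ξ t h, hinv, Matrix.mulVec_mulVec, Matrix.mul_assoc, hT, Matrix.mul_one,
      ← Matrix.mulVec_mulVec, Matrix.mulVec_add (mM L)⁻¹, Matrix.mulVec_mulVec, hNM, Matrix.one_mulVec,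
      Matrix.mulVec_smul]
  have hgam : gam (mM (L ∘ₗ (sub ξ t).toLinearMap))⁻¹
      (tv (mM (L ∘ₗ (sub ξ t).toLinearMap)) (mC (L ∘ₗ (sub ξ t).toLinearMap))) =
      t • gam (mM L)⁻¹ (tv (mM L) (mC L)) + ush ξ := by
    funext i j l
    by_cases h : i = j
    · simp [gam, tv, h, ush]
    · simp only [gam, Pi.add_apply, Pi.smul_apply, smul_eq_mul]
      rw [hNt i j h, hsub_Si_succ]
      simp only [Pi.add_apply, Pi.smul_apply, smul_eq_mul, hsub_u, Fin.cons_succ]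
      field_simp
  have hhh : hh D.P (mM (L ∘ₗ (sub ξ t).toLinearMap))⁻¹ = t⁻¹ ^ 2 * hh D.P (mM L)⁻¹ := by
    rw [hinv]
    simp only [hh, hsub_conj, Finset.mul_sum, mul_smul_comm]
  have hen : (L ∘ₗ (sub ξ t).toLinearMap) (ff m) - en (mM (L ∘ₗ (sub ξ t).toLinearMap))⁻¹
      (tv (mM (L ∘ₗ (sub ξ t).toLinearMap)) (mC (L ∘ₗ (sub ξ t).toLinearMap))) =
      t ^ 4 * (L (ff m) - en (mM L)⁻¹ (tv (mM L) (mC L))) := by
    simp only [ff, en, map_sum, ← Finset.sum_sub_distrib, Finset.mul_sum]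
    refine Finset.sum_congr rfl fun i _ => Finset.sum_congr rfl fun j _ => ?_
    by_cases h : i = j
    · simp [tv, h]
    rw [if_neg h, hsub_sq L ξ t h, hNt i j h, hsub_tv' L ξ t h, Matrix.mulVec_transpose,
      ← Matrix.dotProduct_mulVec, Matrix.mulVec_mulVec, hS, Matrix.one_mulVec]
    have e : (mM L *ᵥ hsub_u ξ t i j) ⬝ᵥ ((mM L)⁻¹ *ᵥ tv (mM L) (mC L) i j) =
        tv (mM L) (mC L) i j ⬝ᵥ hsub_u ξ t i j := by
      conv_lhs => rw [← hsub_symm L, Matrix.mulVec_transpose, hsub_symm L]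
      rw [← Matrix.dotProduct_mulVec, Matrix.mulVec_mulVec, hMN, Matrix.one_mulVec, dotProduct_comm]
    simp only [add_dotProduct, dotProduct_add, smul_dotProduct, dotProduct_smul, smul_eq_mul, e]
    ring
  simp only [gL, GG, smul_eq_mul]
  rw [hgam, D.shift, qf_smul, hhh, ← mul_sub, ← mul_sub, hen]
  field_simp

end Crest.Agent.R237.H
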