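import Crest.Agent.R237.HFun

/-! S0367 framework: the pseudo-moment tensor. -/

set_option autoImplicit false
set_option linter.unusedSectionVars false

namespace Crest.Agent.R237.H

open Matrix

variable {m : ℕ}

theorem hten_s1 (ex : Example m) (i j : Fin m) : ex.θ i j = ex.θ j i := funext fun l => ex.θs.1 i j l

theorem hten_s2 (ex : Example m) (u v : Fin m → ℝ) : u ⬝ᵥ ex.W *ᵥ v = v ⬝ᵥ ex.W *ᵥ u := by
  have h : ex.Wᵀ = ex.W := by simpa using ex.Wpd.isHermitian.eq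
  rw [dotProduct_mulVec, ← mulVec_transpose, h, dotProduct_comm]

theorem hten_key (ex : Example m) {i j k l : Fin m} (h1 : i ≠ j) (h2 : k ≠ l) (h3 : i ≠ k) (h4 : j ≠ l) :
    ex.θ i k ⬝ᵥ ex.W *ᵥ ex.θ j l = ex.θ i j ⬝ᵥ ex.W *ᵥ ex.θ k l := by
  by_cases h5 : i = l
  · subst h5
    rw [hten_s2, hten_s1 ex j i, hten_s1 ex i k]
  by_cases h6 : j = k
  · subst h6; rfl
  exact (ex.one i j k l h1 h3 h5 h6 h4 h2).symm

/-- indicator of an admissible pairing -/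
noncomputable def hten_n (i j k l : Fin m) : ℝ := if i ≠ j ∧ k ≠ l then 1 else 0

theorem hten_n1 (i j k l : Fin m) : hten_n i j k l = hten_n j i k l := by simp only [hten_n, ne_comm (a := i)]
theorem hten_n2 (i j k l : Fin m) : hten_n i j k l = hten_n i j l k := by simp only [hten_n, ne_comm (a := k)]
theorem hten_n3 (i j k l : Fin m) : hten_n i j k l = hten_n k l i j := by simp only [hten_n, and_comm]

/-- Average over the admissible pairings: `g i j k l = θ_{ij}ᵀ W θ_{kl}` if `i ≠ j ∧ k ≠ l`,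
else `0`; `n i j k l` = number of admissible pairings among `(ij|kl), (ik|jl), (il|jk)`;
`H0 = (g i j k l + g i k j l + g i l j k)/n`. `g` is symmetric in `i ↔ j`, `k ↔ l`,
`(ij) ↔ (kl)` (`W` symmetric). All indices distinct: `ex.one` (twice). Otherwise `i = k`,
`i = l`, `j = k` or `j = l`, and the admissible pairings agree by the symmetries of `g`. -/
theorem exists_H0 (ex : Example m) :
    ∃ H0 : Fin m → Fin m → Fin m → Fin m → ℝ, Sym4 H0 ∧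
      ∀ i j k l, i ≠ j → k ≠ l → H0 i j k l = ex.θ i j ⬝ᵥ ex.W *ᵥ ex.θ k l := by
  refine ⟨fun i j k l => (hten_n i j k l * (ex.θ i j ⬝ᵥ ex.W *ᵥ ex.θ k l) + hten_n i k j l * (ex.θ i k ⬝ᵥ ex.W *ᵥ ex.θ j l) +
    hten_n i l j k * (ex.θ i l ⬝ᵥ ex.W *ᵥ ex.θ j k)) / (hten_n i j k l + hten_n i k j l + hten_n i l j k),
    ⟨fun i j k l => ?_, fun i j k l => ?_, fun i j k l => ?_⟩, fun i j k l h1 h2 => ?_⟩
  · beta_reduce
    rw [hten_n1 j i, hten_n3 j k, hten_n3 j l, hten_s1 ex j i, hten_s2 ex (ex.θ j k), hten_s2 ex (ex.θ j l)]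
    congr 1 <;> ring
  · beta_reduce
    rw [hten_n2 i l k j, hten_s1 ex k j]
    congr 1 <;> ring
  · beta_reduce
    rw [hten_n2 i j l k, hten_s1 ex l k]
    congr 1 <;> ring
  · have e1 : hten_n i j k l = 1 := if_pos ⟨h1, h2⟩
    have e2 : hten_n i k j l * (ex.θ i k ⬝ᵥ ex.W *ᵥ ex.θ j l) = hten_n i k j l * (ex.θ i j ⬝ᵥ ex.W *ᵥ ex.θ k l) := by
      unfold hten_n
      split_ifs with h
      · rw [hten_key ex h1 h2 h.1 h.2]
      · simp
    have e3 : hten_n i l j k * (ex.θ i l ⬝ᵥ ex.W *ᵥ ex.θ j k) = hten_n i l j k * (ex.θ i j ⬝ᵥ ex.W *ᵥ ex.θ k l) := by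
      unfold hten_n
      split_ifs with h
      · rw [hten_key ex h1 h2.symm h.1 h.2, hten_s1 ex l k]
      · simp
    have p : ∀ i j k l : Fin m, 0 ≤ hten_n i j k l := fun i j k l => by
      unfold hten_n; split_ifs <;> norm_num
    have p2 := p i k j l
    have p3 := p i l j k
    beta_reduce
    rw [e1, e2, e3, div_eq_iff (by linarith)]
    ring

theorem hten_am {ε x y N G : ℝ} (d : ℝ) (hε : 0 < ε) (hx : x ^ 2 ≤ N) (hy : y ^ 2 ≤ G) :
    -(ε * N + d ^ 2 / ε * G) ≤ x * y * d := by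
  have h1 : 0 ≤ d ^ 2 / ε := by positivity
  have h2 := mul_le_mul_of_nonneg_left hx hε.le
  have h3 := mul_le_mul_of_nonneg_left hy h1
  have e : ε * x ^ 2 + d ^ 2 / ε * y ^ 2 + x * y * d = ε * (x + y * d / (2 * ε)) ^ 2 + 3 / 4 * (d ^ 2 / ε * y ^ 2) := by
    field_simp; ring
  have h4 : 0 ≤ ε * (x + y * d / (2 * ε)) ^ 2 + 3 / 4 * (d ^ 2 / ε * y ^ 2) := by positivity
  linarith

theorem hten_bil (W : Matrix (Fin m) (Fin m) ℝ) (T : Matrix (Fin m) (Fin m) ℝ) (θ : Ar m ℝ) :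
    (∑ i, ∑ j, T i j • θ i j) ⬝ᵥ W *ᵥ (∑ i, ∑ j, T i j • θ i j) =
      ∑ i, ∑ j, ∑ k, ∑ l, T i j * T k l * (θ i j ⬝ᵥ W *ᵥ θ k l) := by
  simp only [sum_dotProduct, smul_dotProduct, smul_eq_mul]
  simp only [mulVec_sum, dotProduct_sum, mulVec_smul, dotProduct_smul, smul_eq_mul, Finset.mul_sum, mul_assoc]

/-- Positivity in block form. `c0 = S 0 0`, `y i = S 0 i.succ`, `T i j = S i.succ j.succ`.
With `Σ = W⁻¹`, `θ(T) l = ∑ T i j θ i j l`:
`y'ᵀ Σ y' + 2 y'·θ(T) = |y' + W θ(T)|²_Σ - θ(T)ᵀ W θ(T)` (`y' = 2y`), and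
`E(T) = ∑ T i j T k l (H0 i j k l - θ_{ij}ᵀ W θ_{kl})` only has terms with `i = j` or `k = l`, so
`|E(T)| ≤ C |T| |diag T| ≤ (δ/2) |T|² + (C²/(2δ)) |diag T|²`;
`|2 c0 ⟨T, Σ⟩| ≤ a c0²/2 + (2/a)|Σ|²|T|²`. Choose `a`, `lam` large. -/
theorem exists_large (ex : Example m) (H0 : Fin m → Fin m → Fin m → Fin m → ℝ)
    (hH : ∀ i j k l, i ≠ j → k ≠ l → H0 i j k l = ex.θ i j ⬝ᵥ ex.W *ᵥ ex.θ k l)
    (δ : ℝ) (hδ : 0 < δ) :
    ∃ a lam : ℝ, 0 < a ∧ ∀ (c0 : ℝ) (y : Fin m → ℝ) (T : Matrix (Fin m) (Fin m) ℝ),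
      (c0 ≠ 0 ∨ y ≠ 0 ∨ T ≠ 0) →
      0 < a * c0 ^ 2 + 2 * c0 * (∑ i, ∑ j, T i j * ex.W⁻¹ i j) + 4 * (y ⬝ᵥ ex.W⁻¹ *ᵥ y) +
        4 * (∑ i, ∑ j, ∑ l, T i j * y l * ex.θ i j l) +
        (∑ i, ∑ j, ∑ k, ∑ l, T i j * T k l * H0 i j k l) +
        δ * (2 * ∑ i, ∑ j, T i j ^ 2) + lam * ∑ i, T i i ^ 2 := by
  obtain ⟨ε, hε, hεδ⟩ : ∃ ε : ℝ, 0 < ε ∧ ((m : ℝ) ^ 4 + (m : ℝ) ^ 2) * ε ≤ δ :=
    ⟨δ / ((m : ℝ) ^ 4 + (m : ℝ) ^ 2 + 1), by positivity, by
      rw [mul_div_assoc', div_le_iff₀ (by positivity)]; nlinarith⟩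
  obtain ⟨D, hD⟩ : ∃ D : Fin m → Fin m → Fin m → Fin m → ℝ,
      ∀ i j k l, H0 i j k l = ex.θ i j ⬝ᵥ ex.W *ᵥ ex.θ k l + D i j k l :=
    ⟨fun i j k l => H0 i j k l - ex.θ i j ⬝ᵥ ex.W *ᵥ ex.θ k l, fun i j k l => by ring⟩
  refine ⟨1 + ∑ i, ∑ j, (2 * ex.W⁻¹ i j) ^ 2 / ε, ∑ i, ∑ j, ∑ k, ∑ l, D i j k l ^ 2 / ε, by positivity,
    fun c0 y T hne => ?_⟩
  obtain ⟨N, hN⟩ : ∃ N, N = ∑ i, ∑ j, T i j ^ 2 := ⟨_, rfl⟩
  obtain ⟨G, hG⟩ : ∃ G, G = ∑ i, T i i ^ 2 := ⟨_, rfl⟩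
  have hN1 : ∀ i j, T i j ^ 2 ≤ N := fun i j => by
    rw [hN]
    exact (Finset.single_le_sum (f := fun j => T i j ^ 2) (fun _ _ => sq_nonneg _) (Finset.mem_univ j)).trans
      (Finset.single_le_sum (f := fun i => ∑ j, T i j ^ 2) (fun _ _ => by positivity) (Finset.mem_univ i))
  have hG1 : ∀ i, T i i ^ 2 ≤ G := fun i => by
    rw [hG]
    exact Finset.single_le_sum (f := fun i => T i i ^ 2) (fun _ _ => sq_nonneg _) (Finset.mem_univ i)
  have hN0 : 0 ≤ N := by rw [hN]; positivity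
  have hG0 : 0 ≤ G := by rw [hG]; positivity
  have h1 : ∑ i : Fin m, ∑ j : Fin m, -(ε * N + (2 * ex.W⁻¹ i j) ^ 2 / ε * c0 ^ 2) ≤
      ∑ i, ∑ j, T i j * c0 * (2 * ex.W⁻¹ i j) :=
    Finset.sum_le_sum fun i _ => Finset.sum_le_sum fun j _ => hten_am _ hε (hN1 i j) le_rfl
  have h2 : ∑ i, ∑ j, ∑ k, ∑ l, -(ε * N + D i j k l ^ 2 / ε * G) ≤ ∑ i, ∑ j, ∑ k, ∑ l, T i j * T k l * D i j k l :=
    Finset.sum_le_sum fun i _ => Finset.sum_le_sum fun j _ => Finset.sum_le_sum fun k _ => Finset.sum_le_sum fun l _ => by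
      by_cases a1 : i = j
      · subst a1
        rw [mul_comm (T i i)]
        exact hten_am _ hε (hN1 k l) (hG1 i)
      by_cases a2 : k = l
      · subst a2
        exact hten_am _ hε (hN1 i j) (hG1 k)
      have : D i j k l = 0 := by have := hD i j k l; rw [hH i j k l a1 a2] at this; linarith
      rw [this]
      simp only [mul_zero, ne_eq, OfNat.ofNat_ne_zero, not_false_eq_true, zero_pow, zero_div, zero_mul, add_zero]
      nlinarith
  simp only [Finset.sum_neg_distrib, Finset.sum_add_distrib, Finset.sum_const, Finset.card_univ, Fintype.card_fin,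
    nsmul_eq_mul, ← Finset.sum_mul] at h1 h2
  have e1 : ∑ i, ∑ j, T i j * c0 * (2 * ex.W⁻¹ i j) = 2 * c0 * ∑ i, ∑ j, T i j * ex.W⁻¹ i j := by
    simp only [Finset.mul_sum]
    exact Finset.sum_congr rfl fun i _ => Finset.sum_congr rfl fun j _ => by ring
  obtain ⟨v, hv⟩ : ∃ v, v = ∑ i, ∑ j, T i j • ex.θ i j := ⟨_, rfl⟩
  have e2 : ∑ i, ∑ j, ∑ k, ∑ l, T i j * T k l * H0 i j k l =
      v ⬝ᵥ ex.W *ᵥ v + ∑ i, ∑ j, ∑ k, ∑ l, T i j * T k l * D i j k l := by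
    rw [hv, hten_bil]
    simp only [hD, mul_add, Finset.sum_add_distrib]
  have e3 : ∑ i, ∑ j, ∑ l, T i j * y l * ex.θ i j l = y ⬝ᵥ v := by
    rw [hv]
    simp only [dotProduct_sum, dotProduct_smul, smul_eq_mul]
    simp only [dotProduct, Finset.mul_sum, mul_assoc]
  have hu : IsUnit ex.W.det := (Matrix.isUnit_iff_isUnit_det _).1 ex.Wpd.isUnit
  have hW : ex.Wᵀ = ex.W := by simpa using ex.Wpd.isHermitian.eq
  have e4 : ((2 : ℝ) • y + ex.W *ᵥ v) ⬝ᵥ ex.W⁻¹ *ᵥ ((2 : ℝ) • y + ex.W *ᵥ v) =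
      4 * (y ⬝ᵥ ex.W⁻¹ *ᵥ y) + 4 * (y ⬝ᵥ v) + v ⬝ᵥ ex.W *ᵥ v := by
    have a1 : ex.W⁻¹ *ᵥ (ex.W *ᵥ v) = v := by rw [mulVec_mulVec, nonsing_inv_mul _ hu, one_mulVec]
    have a2 : (ex.W *ᵥ v) ⬝ᵥ ex.W⁻¹ *ᵥ y = y ⬝ᵥ v := by
      rw [dotProduct_comm, hten_s2, mulVec_mulVec, mul_nonsing_inv _ hu, one_mulVec, dotProduct_comm]
    simp only [mulVec_add, mulVec_smul, add_dotProduct, dotProduct_add, smul_dotProduct, dotProduct_smul, smul_eq_mul,
      a1, a2, dotProduct_comm (ex.W *ᵥ v) v]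
    ring
  have hQ : 0 ≤ ((2 : ℝ) • y + ex.W *ᵥ v) ⬝ᵥ ex.W⁻¹ *ᵥ ((2 : ℝ) • y + ex.W *ᵥ v) := by
    simpa using ex.Wpd.inv.posSemidef.dotProduct_mulVec_nonneg ((2 : ℝ) • y + ex.W *ᵥ v)
  have hδN := mul_le_mul_of_nonneg_right hεδ hN0
  have hpos : 0 < c0 ^ 2 + ((2 : ℝ) • y + ex.W *ᵥ v) ⬝ᵥ ex.W⁻¹ *ᵥ ((2 : ℝ) • y + ex.W *ᵥ v) + δ * N := by
    by_cases hT : T = 0
    · have hv0 : v = 0 := by simp [hv, hT]
      rcases hne with h | h | h
      · positivity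
      · have := ex.Wpd.inv.dotProduct_mulVec_pos (x := (2 : ℝ) • y + ex.W *ᵥ v) (by simpa [hv0] using h)
        simp only [star_trivial] at this
        positivity
      · exact absurd hT h
    · obtain ⟨i, j, hij⟩ : ∃ i j, T i j ≠ 0 := by
        by_contra h
        push Not at h
        exact hT (Matrix.ext h)
      have : 0 < N := lt_of_lt_of_le (by positivity) (hN1 i j)
      positivity
  rw [e1] at h1
  rw [e2, e3, ← hN, ← hG]
  rw [e4] at hpos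
  nlinarith

/-- extension of the homogeneous parts to the index set `Fin (m+1)` -/
def hten_e2 (x0 : ℝ) (x1 : Fin m → ℝ) (x2 : Fin m → Fin m → ℝ) : Fin (m + 1) → Fin (m + 1) → ℝ :=
  Fin.cons (Fin.cons x0 x1) fun i => Fin.cons (x1 i) (x2 i)

def hten_e4 (x0 : ℝ) (x2 : Fin m → Fin m → ℝ) (x3 : Ar m ℝ) (x4 : Fin m → Fin m → Fin m → Fin m → ℝ) :
    Fin (m + 1) → Fin (m + 1) → Fin (m + 1) → Fin (m + 1) → ℝ :=
  Fin.cons (Fin.cons (hten_e2 x0 0 x2) fun j => hten_e2 0 (x2 j) (x3 j))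
    fun i => Fin.cons (hten_e2 0 (x2 i) (x3 i)) fun j => hten_e2 (x2 i j) (x3 i j) (x4 i j)

theorem hten_sym {x0 : ℝ} {x2 : Fin m → Fin m → ℝ} {x3 : Ar m ℝ} {x4 : Fin m → Fin m → Fin m → Fin m → ℝ}
    (h2 : ∀ i j, x2 i j = x2 j i) (h3 : Sym3 x3) (h4 : Sym4 x4) : Sym4 (hten_e4 x0 x2 x3 x4) := by
  refine ⟨fun a b c d => ?_, fun a b c d => ?_, fun a b c d => ?_⟩ <;>
    refine Fin.cases ?_ (fun a => ?_) a <;> refine Fin.cases ?_ (fun b => ?_) b <;>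
    refine Fin.cases ?_ (fun c => ?_) c <;> refine Fin.cases ?_ (fun d => ?_) d <;>
    simp only [hten_e4, hten_e2, Fin.cons_zero, Fin.cons_succ, Pi.zero_apply] <;>
    first
      | exact h2 _ _
      | exact h3.1 _ _ _
      | exact h3.2 _ _ _
      | exact h4.1 _ _ _ _
      | exact h4.2.1 _ _ _ _
      | exact h4.2.2 _ _ _ _

theorem hten_pair {S : Mt m ℝ} (hS : S.IsSymm) (x0 : ℝ) (x1 : Fin m → ℝ) (x2 : Fin m → Fin m → ℝ) :
    ∑ c, ∑ d, S c d * hten_e2 x0 x1 x2 c d =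
      S 0 0 * x0 + 2 * ∑ i : Fin m, S 0 i.succ * x1 i + ∑ i : Fin m, ∑ j : Fin m, S i.succ j.succ * x2 i j := by
  have h : ∀ i : Fin m, S i.succ 0 = S 0 i.succ := fun i => hS.apply _ _
  simp only [Fin.sum_univ_succ, hten_e2, Fin.cons_zero, Fin.cons_succ, Finset.sum_add_distrib, h]
  ring

/-- `H` = `a`, `0`, `W⁻¹`, `θ` in degrees 0,1,2,3 (define it with `Fin.cases` in each of the four
slots), and in degree 4 `H0 + δ G + lam Δ`, `G i j k l = [i=j][k=l] + [i=k][j=l] + [i=l][j=k]`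
(`∑ T T G = (tr T)^2 + 2 |T|^2` for symmetric `T`), `Δ i j k l = [i=j=k=l]`.
Expand the sums with `Fin.sum_univ_succ` and use `exists_large`. -/
theorem exists_tensor (ex : Example m) (δ : ℝ) (hδ : 0 < δ) :
    ∃ (a : ℝ) (H : Fin (m + 1) → Fin (m + 1) → Fin (m + 1) → Fin (m + 1) → ℝ), 0 < a ∧ Sym4 H ∧
      H 0 0 0 0 = a ∧ (∀ i : Fin m, H 0 0 0 i.succ = 0) ∧
      (∀ i j : Fin m, H 0 0 i.succ j.succ = ex.W⁻¹ i j) ∧
      (∀ i j l : Fin m, H 0 i.succ j.succ l.succ = ex.θ i j l) ∧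
      (∀ i j : Fin m, i ≠ j →
        H i.succ j.succ i.succ j.succ = ex.θ i j ⬝ᵥ ex.W *ᵥ ex.θ i j + δ) ∧
      ∀ S : Mt m ℝ, S.IsSymm → S ≠ 0 →
        0 < ∑ a, ∑ b, ∑ c, ∑ d, S a b * S c d * H a b c d := by
  obtain ⟨H0, hs, hH⟩ := exists_H0 ex
  obtain ⟨a, lam, ha, hpos⟩ := exists_large ex H0 hH δ hδ
  have hW : ex.W⁻¹ᵀ = ex.W⁻¹ := by simpa using ex.Wpd.inv.isHermitian.eq
  obtain ⟨K, hK⟩ : ∃ K : Fin m → Fin m → Fin m → Fin m → ℝ, ∀ i j k l, K i j k l = H0 i j k l +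
      δ * ((if i = j then 1 else 0) * (if k = l then 1 else 0) + (if i = k then 1 else 0) * (if j = l then 1 else 0) +
        (if i = l then 1 else 0) * (if j = k then 1 else 0)) + lam * (if i = j ∧ i = k ∧ i = l then 1 else 0) :=
    ⟨_, fun _ _ _ _ => rfl⟩
  have hKs : Sym4 K := by
    refine ⟨fun i j k l => ?_, fun i j k l => ?_, fun i j k l => ?_⟩
    · have : (j = i ∧ j = k ∧ j = l) ↔ (i = j ∧ i = k ∧ i = l) := by
        constructor <;> (rintro ⟨rfl, rfl, rfl⟩; simp)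
      rw [hK, hK, hs.1]
      simp only [this]
      simp only [eq_comm (a := j) (b := i)]
      ring
    · have : (i = k ∧ i = j ∧ i = l) ↔ (i = j ∧ i = k ∧ i = l) := by tauto
      rw [hK, hK, hs.2.1]
      simp only [this, eq_comm (a := k) (b := j)]
      ring
    · have : (i = j ∧ i = l ∧ i = k) ↔ (i = j ∧ i = k ∧ i = l) := by tauto
      rw [hK, hK, hs.2.2]
      simp only [this, eq_comm (a := l) (b := k)]
      ring
  refine ⟨a, hten_e4 a (fun i j => ex.W⁻¹ i j) ex.θ K, ha,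
    hten_sym (fun i j => by rw [← transpose_apply ex.W⁻¹, hW]) ex.θs hKs, rfl, fun i => rfl, fun i j => rfl,
    fun i j l => rfl, fun i j hij => ?_, fun S hS hS0 => ?_⟩
  · show K i j i j = _
    rw [hK, hH i j i j hij hij]
    simp [hij]
  have hT : ∀ i j : Fin m, S j.succ i.succ = S i.succ j.succ := fun i j => hS.apply _ _
  have h := hpos (S 0 0) (fun i => S 0 i.succ) (Matrix.of fun i j => S i.succ j.succ) (by
    by_contra hn
    push Not at hn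
    apply hS0
    ext a b
    refine Fin.cases ?_ (fun a => ?_) a <;> refine Fin.cases ?_ (fun b => ?_) b
    · exact hn.1
    · exact congrFun hn.2.1 b
    · rw [hS.apply]; exact congrFun hn.2.1 a
    · exact congrFun (congrFun hn.2.2 a) b)
  simp only [Matrix.of_apply] at h
  have e0 : ∀ a' b, ∑ c, ∑ d, S a' b * S c d * hten_e4 a (fun i j => ex.W⁻¹ i j) ex.θ K a' b c d =
      S a' b * hten_e2 (S 0 0 * a + ∑ i : Fin m, ∑ j : Fin m, S i.succ j.succ * ex.W⁻¹ i j)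
        (fun i => 2 * ∑ k : Fin m, S 0 k.succ * ex.W⁻¹ i k + ∑ k : Fin m, ∑ l : Fin m, S k.succ l.succ * ex.θ i k l)
        (fun i j => S 0 0 * ex.W⁻¹ i j + 2 * ∑ k : Fin m, S 0 k.succ * ex.θ i j k +
          ∑ k : Fin m, ∑ l : Fin m, S k.succ l.succ * K i j k l) a' b := fun a' b => by
    simp only [mul_assoc, ← Finset.mul_sum]
    congr 1
    refine Fin.cases ?_ (fun a' => ?_) a' <;> refine Fin.cases ?_ (fun b => ?_) b <;>
      simp only [hten_e4, Fin.cons_zero, Fin.cons_succ, hten_pair hS] <;> simp [hten_e2]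
  simp only [e0]
  rw [hten_pair hS]
  have e1 : ∑ i : Fin m, S 0 i.succ * (2 * ∑ k : Fin m, S 0 k.succ * ex.W⁻¹ i k +
      ∑ k : Fin m, ∑ l : Fin m, S k.succ l.succ * ex.θ i k l) =
      2 * ((fun i : Fin m => S 0 i.succ) ⬝ᵥ ex.W⁻¹ *ᵥ fun i : Fin m => S 0 i.succ) +
        ∑ i : Fin m, ∑ j : Fin m, ∑ l : Fin m, S i.succ j.succ * S 0 l.succ * ex.θ i j l := by
    simp only [mul_add, Finset.sum_add_distrib, dotProduct, mulVec, Finset.mul_sum]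
    congr 1
    · exact Finset.sum_congr rfl fun i _ => Finset.sum_congr rfl fun j _ => by ring
    · rw [Finset.sum_comm]
      refine Finset.sum_congr rfl fun i _ => ?_
      rw [Finset.sum_comm]
      refine Finset.sum_congr rfl fun j _ => Finset.sum_congr rfl fun l _ => ?_
      rw [ex.θs.1 l i j, ex.θs.2 i l j]; ring
  have e2 : ∑ i : Fin m, ∑ j : Fin m, S i.succ j.succ * (S 0 0 * ex.W⁻¹ i j + 2 * ∑ k : Fin m, S 0 k.succ * ex.θ i j k +
      ∑ k : Fin m, ∑ l : Fin m, S k.succ l.succ * K i j k l) =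
      S 0 0 * ∑ i : Fin m, ∑ j : Fin m, S i.succ j.succ * ex.W⁻¹ i j +
        2 * ∑ i : Fin m, ∑ j : Fin m, ∑ l : Fin m, S i.succ j.succ * S 0 l.succ * ex.θ i j l +
        ∑ i : Fin m, ∑ j : Fin m, ∑ k : Fin m, ∑ l : Fin m, S i.succ j.succ * S k.succ l.succ * K i j k l := by
    simp only [mul_add, Finset.sum_add_distrib, Finset.mul_sum]
    congr 1
    · congr 1
      · exact Finset.sum_congr rfl fun i _ => Finset.sum_congr rfl fun j _ => by ring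
      · exact Finset.sum_congr rfl fun i _ => Finset.sum_congr rfl fun j _ => Finset.sum_congr rfl fun l _ => by ring
    · simp only [mul_assoc]
  have e3 : ∑ i : Fin m, ∑ j : Fin m, ∑ k : Fin m, ∑ l : Fin m, S i.succ j.succ * S k.succ l.succ * K i j k l =
      ∑ i : Fin m, ∑ j : Fin m, ∑ k : Fin m, ∑ l : Fin m, S i.succ j.succ * S k.succ l.succ * H0 i j k l +
        δ * ((∑ i : Fin m, S i.succ i.succ) ^ 2 + 2 * ∑ i : Fin m, ∑ j : Fin m, S i.succ j.succ ^ 2) +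
        lam * ∑ i : Fin m, S i.succ i.succ ^ 2 := by
    simp only [hK, mul_add, Finset.sum_add_distrib, ite_and, mul_ite, mul_one, mul_zero,
      Finset.sum_ite_irrel, Finset.sum_ite_eq, Finset.sum_const_zero, Finset.mem_univ, if_true, sq, Finset.mul_sum,
      Finset.sum_mul]
    congr 1
    · congr 1
      simp only [← Finset.sum_add_distrib]
      have a1 : ∑ i : Fin m, ∑ j : Fin m, δ * (S j.succ j.succ * S i.succ i.succ) =
          ∑ i : Fin m, ∑ j : Fin m, δ * (S i.succ i.succ * S j.succ j.succ) := Finset.sum_comm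
      exact Finset.sum_congr rfl fun i _ => Finset.sum_congr rfl fun j _ => by rw [hT i j]; ring
    · exact Finset.sum_congr rfl fun i _ => by ring
  rw [e1, e2, e3]
  nlinarith [mul_nonneg hδ.le (sq_nonneg (∑ i : Fin m, S i.succ i.succ))]

end Crest.Agent.R237.H
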