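import Crest.Agent.R237.SchB
import Crest.Prelude.Def_Hyperbolic

/-! Row 237: the Scheiderer lemma in primal form. -/

set_option autoImplicit false
open MvPolynomial
open scoped MatrixOrder

namespace Crest.Agent.R237

open Crest.GeometryTopology

/-- If a spectrahedral shadow `K` contains all points `x ξ` of a polynomial parametrisation of degree `≤ 2 n`,
then for every functional `L`, strictly positive on squares of degree `≤ n`, it contains the pseudo-moment
points of `L` composed with the substitutions `ξ0 + t X`, `t` small. -/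
theorem scheiderer {d : ℕ} {σ : Type} [Finite σ] {K : Set (Fin d → ℝ)}
    (hK : Hyperbolic.IsSpectrahedralShadow K) (x : Fin d → MvPolynomial σ ℝ) (n : ℕ)
    (hx : ∀ i, (x i).totalDegree ≤ 2 * n) (hmem : ∀ ξ : σ → ℝ, (fun i => eval ξ (x i)) ∈ K)
    (L : MvPolynomial σ ℝ →ₗ[ℝ] ℝ) (h1 : L 1 = 1) (hL : ∀ q, q ≠ 0 → q.totalDegree ≤ n → 0 < L (q * q)) :
    ∃ (ξ0 : σ → ℝ) (t0 : ℝ), 0 < t0 ∧ ∀ t, 0 < t → t ≤ t0 →
      (fun i => L (aeval (fun j => C (ξ0 j) + C t * X j) (x i))) ∈ K := by
  classical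
  obtain ⟨k, a, A0, A, B, s0, sA, sB, rfl⟩ := hK
  let S : Set ℝ := Set.range (fun p : Fin k × Fin k => A0 p.1 p.2) ∪
    Set.range (fun p : Fin d × Fin k × Fin k => A p.1 p.2.1 p.2.2) ∪
    Set.range (fun p : Fin a × Fin k × Fin k => B p.1 p.2.1 p.2.2) ∪
    Set.range (fun p : Fin d × (σ →₀ ℕ) => coeff p.2 (x p.1))
  obtain ⟨ξ, T, hT, hξ⟩ := exists_taylor σ S
    ((((Set.countable_range _).union (Set.countable_range _)).union (Set.countable_range _)).union
      (Set.countable_range _))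
  obtain ⟨u, hu⟩ := hmem ξ
  obtain ⟨R, hR⟩ := CStarAlgebra.nonneg_iff_eq_star_mul_self.1 hu.nonneg
  let U : Submodule ℝ (MvPowerSeries σ ℝ) := Submodule.span ℝ (Set.range fun p : Fin k × Fin k => T (R p.1 p.2))
  have : FiniteDimensional ℝ U := FiniteDimensional.span_of_finite ℝ (Set.finite_range _)
  obtain ⟨Λ, t0, ht0, hΛ, hpos⟩ := exists_functional U n L hL
  refine ⟨ξ, t0, ht0, fun t ht ht' => ?_⟩
  let ρ : MvPowerSeries σ ℝ →ₐ[ℝ] MvPowerSeries σ ℝ := MvPowerSeries.rescaleAlgHom fun _ => t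
  have hρ : ∀ g, ρ g = MvPowerSeries.rescale (fun _ => t) g := fun g => MvPowerSeries.rescaleAlgHom_apply _ g
  have hC : ∀ c : ℝ, ρ (MvPowerSeries.C c) = MvPowerSeries.C c := fun c => ρ.commutes c
  have hX : ∀ j, ρ (MvPowerSeries.X j) = MvPowerSeries.C t * MvPowerSeries.X j := fun j => by
    rw [hρ]
    ext α
    rw [coeff_resc, MvPowerSeries.coeff_C_mul, MvPowerSeries.coeff_X]
    split_ifs with e
    · simp [e]
    · simp
  have hS : ∀ c ∈ S, ∀ y, Λ (ρ (T (y * c))) = Λ (ρ (T y)) * c := fun c hc y => by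
    rw [map_mul, hT c hc, map_mul, hC, mul_comm, ← MvPowerSeries.smul_eq_C_mul, map_smul, smul_eq_mul, mul_comm]
  have hone : Λ (ρ (T 1)) = 1 := by
    rw [map_one, map_one, ← coe_one, hΛ 1 (by simp), h1]
  have hxx : ∀ i, Λ (ρ (T (eval ξ (x i)))) = L (aeval (fun j => C (ξ j) + C t * X j) (x i)) := fun i => by
    rw [← hΛ]
    · congr 1
      conv_lhs => rw [(x i).as_sum]
      conv_rhs => rw [(x i).as_sum]
      simp only [map_sum, ← coeToMvPowerSeries.ringHom_apply]
      refine Finset.sum_congr rfl fun α _ => ?_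
      rw [eval_monomial, aeval_monomial, map_mul, map_mul, map_mul, hT _ (Or.inr ⟨(i, α), rfl⟩), hC]
      simp [Finsupp.prod, hξ, hC, hX]
    · refine le_trans ?_ (hx i)
      conv_lhs => rw [(x i).as_sum]
      rw [map_sum]
      refine (totalDegree_finsetSum _ _).trans (Finset.sup_le fun α hα => ?_)
      rw [aeval_monomial]
      refine (totalDegree_mul _ _).trans ?_
      rw [algebraMap_eq, totalDegree_C, zero_add]
      refine (totalDegree_finsetProd _ _).trans (le_trans (Finset.sum_le_sum fun j _ => ?_) (le_totalDegree hα))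
      refine (totalDegree_pow _ _).trans (mul_le_of_le_one_right' ((totalDegree_add _ _).trans (max_le (by simp) ?_)))
      simpa using totalDegree_mul (C t : MvPolynomial σ ℝ) (X j)
  have key : ∀ p q, (A0 + ∑ i, L (aeval (fun j => C (ξ j) + C t * X j) (x i)) • A i +
      ∑ j, Λ (ρ (T (u j))) • B j) p q = ∑ c, Λ (ρ (T (R c p)) * ρ (T (R c q))) := fun p q => by
    have e := congrArg (fun M : Matrix (Fin k) (Fin k) ℝ => Λ (ρ (T (M p q)))) hR
    simp only [Matrix.add_apply, Matrix.sum_apply, Matrix.smul_apply, smul_eq_mul, map_add, map_sum,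
      Matrix.mul_apply, Matrix.star_apply, star_trivial] at e ⊢
    simp only [← map_mul, ← e]
    congr 1
    · congr 1
      · have := hS (A0 p q) (Or.inl (Or.inl (Or.inl ⟨(p, q), rfl⟩))) 1
        rw [one_mul, hone, one_mul] at this
        exact this.symm
      · exact Finset.sum_congr rfl fun i _ => by rw [hS _ (Or.inl (Or.inl (Or.inr ⟨(i, p, q), rfl⟩))), hxx]
    · exact Finset.sum_congr rfl fun i _ => by rw [hS _ (Or.inl (Or.inr ⟨(i, p, q), rfl⟩))]
  refine ⟨fun j => Λ (ρ (T (u j))), Matrix.posSemidef_iff_dotProduct_mulVec.2 ⟨?_, fun w => ?_⟩⟩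
  · ext p q
    rw [Matrix.conjTranspose_apply, star_trivial, key, key]
    exact Finset.sum_congr rfl fun c _ => by rw [mul_comm]
  · have e : ∀ c, Λ (ρ (∑ p, w p • T (R c p)) * ρ (∑ p, w p • T (R c p))) =
        ∑ p, ∑ q, w p * (Λ (ρ (T (R c p)) * ρ (T (R c q))) * w q) := fun c => by
      simp only [map_sum, map_smul, Finset.sum_mul_sum, smul_mul_smul_comm, smul_eq_mul]
      exact Finset.sum_congr rfl fun p _ => Finset.sum_congr rfl fun q _ => by ring
    calc (0 : ℝ) ≤ ∑ c, Λ (ρ (∑ p, w p • T (R c p)) * ρ (∑ p, w p • T (R c p))) :=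
          Finset.sum_nonneg fun c _ => by
            rw [hρ]
            exact hpos t ht ht' _ (U.sum_mem fun p _ => U.smul_mem _ (Submodule.subset_span ⟨(c, p), rfl⟩))
      _ = _ := by
        simp only [e, dotProduct, Matrix.mulVec, key, star_trivial, Finset.sum_mul, Finset.mul_sum]
        rw [Finset.sum_comm]
        exact Finset.sum_congr rfl fun p _ => Finset.sum_comm

end Crest.Agent.R237
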