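import Crest.Agent.R237.HPack
import Crest.Agent.R237.HBeta
import Crest.Agent.R237.HSub
import Crest.Agent.R237.HNeg
import Crest.Agent.R237.HTen
import Crest.Agent.R237.Sch

/-! S0367 framework: an `Example` gives a hyperbolicity cone that is no spectrahedral shadow
(helper7). -/

set_option autoImplicit false

namespace Crest.Agent.R237.H

open Matrix Crest.GeometryTopology

variable {m : ℕ}

open MvPolynomial in
theorem exists_pm (ex : Example m) (δ : ℝ) (hδ : 0 < δ) :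
    ∃ (a : ℝ) (L : MvPolynomial (Fin m) ℝ →ₗ[ℝ] ℝ), 0 < a ∧ L 1 = a ∧ (∀ i, L (X i) = 0) ∧
      (∀ i j, L (X i * X j) = ex.W⁻¹ i j) ∧ (∀ i j l, L (X i * X j * X l) = ex.θ i j l) ∧
      (∀ i j, i ≠ j → L ((X i * X j) ^ 2) = ex.θ i j ⬝ᵥ ex.W *ᵥ ex.θ i j + δ) ∧
      ∀ q : MvPolynomial (Fin m) ℝ, q ≠ 0 → q.totalDegree ≤ 2 → 0 < L (q * q) := by
  obtain ⟨a, H, ha, hH, h0, h1, h2, h3, h4, hpos⟩ := exists_tensor ex δ hδ
  obtain ⟨L, hL⟩ := exists_fun H hH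
  refine ⟨a, L, ha, ?_, fun i => ?_, fun i j => ?_, fun i j l => ?_, fun i j hij => ?_,
    fun q hq0 hq => pos_of_tensor H L hL hpos q hq0 hq⟩
  · rw [← h0, ← hL]
    simp [xh]
  · rw [← h1 i, ← hL]
    simp [xh]
  · rw [← h2 i j, ← hL]
    simp [xh]
  · rw [← h3 i j l, ← hL]
    simp [xh]
  · rw [← h4 i j hij, ← hL]
    congr 1
    simp only [xh, Fin.cons_succ]
    ring

theorem result_of_example (ex : Example m) :
    ∃ (d : ℕ) (p : MvPolynomial (Fin d) ℝ) (e : Fin d → ℝ),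
      Hyperbolic.IsHyperbolic p e ∧
        ¬ Hyperbolic.IsSpectrahedralShadow (Hyperbolic.closedCone p e) := by
  obtain ⟨D, hP, hβ⟩ := exists_data ex
  refine ⟨dd m, pp D, ee m, pp_hyperbolic D, fun hK => ?_⟩
  set β := qf D.B (wth ex.W ex.θ) with hβdef
  set τ := D.Λ * (m : ℝ) ^ 2 * (D.P * ex.W).trace with hτ
  have hδ : 0 < -β / (2 * (|τ| + 1)) := div_pos (by linarith) (by positivity)
  obtain ⟨a, L, ha, h0, h1, h2, h3, h4, hpos⟩ := exists_pm ex _ hδ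
  obtain ⟨hdet, -, hg⟩ := gL_pm D ex.W ex.Wpd ex.θ a _ ha hδ.le L h0 h1 h2 h3 h4
  have hg0 : gL D L < 0 := by
    have e1 : D.Λ * (m : ℝ) ^ 2 * (-β / (2 * (|τ| + 1))) * (D.P * ex.W).trace
        = (-β / (2 * (|τ| + 1))) * τ := by rw [hτ]; ring
    have e2 : (-β / (2 * (|τ| + 1))) * τ ≤ (-β / (2 * (|τ| + 1))) * (|τ| + 1) :=
      mul_le_mul_of_nonneg_left (by linarith [le_abs_self τ]) hδ.le
    have e3 : (-β / (2 * (|τ| + 1))) * (|τ| + 1) = -β / 2 := by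
      have : |τ| + 1 ≠ 0 := by positivity
      field_simp
    rw [e1, ← hβdef] at hg
    linarith
  obtain ⟨ξ, t, ht, hmem⟩ := scheiderer hK (xx D) 2 (xx_deg D) (ev_mem D) (a⁻¹ • L)
    (by rw [LinearMap.smul_apply, h0, smul_eq_mul, inv_mul_cancel₀ ha.ne'])
    (fun q hq0 hq => by
      rw [LinearMap.smul_apply, smul_eq_mul]
      exact mul_pos (inv_pos.2 ha) (hpos q hq0 hq))
  obtain ⟨hdet', hg'⟩ := gL_sub D L hdet ξ t ht.ne'
  refine not_mem_of_neg D _ ?_ (hmem t ht le_rfl)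
  have e : (fun i => (a⁻¹ • L) (MvPolynomial.aeval
      (fun j => MvPolynomial.C (ξ j) + MvPolynomial.C t * MvPolynomial.X j) (xx D i)))
      = a⁻¹ • fun i => (L ∘ₗ (sub ξ t).toLinearMap) (xx D i) := rfl
  rw [e, pY_smul, pY_xx, pL, pf_eq_GG _ _ _ _ _ _ hdet']
  have : GG D.P D.B D.Λ (mM (L ∘ₗ (sub ξ t).toLinearMap))⁻¹
      (tv (mM (L ∘ₗ (sub ξ t).toLinearMap)) (mC (L ∘ₗ (sub ξ t).toLinearMap)))
      (D.Λ * (L ∘ₗ (sub ξ t).toLinearMap) (ff m)) = t ^ 2 * gL D L := hg'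
  rw [this]
  exact mul_neg_of_pos_of_neg (pow_pos (inv_pos.2 ha) _)
    (mul_neg_of_pos_of_neg (by positivity) (mul_neg_of_pos_of_neg (by positivity) hg0))

end Crest.Agent.R237.H
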