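import Crest.Agent.R237.HHyp
import Crest.Agent.R237.HEv

/-! S0367 framework: the polynomial in coordinates `Fin d → ℝ` (helper7). -/

set_option autoImplicit false
set_option linter.unusedSectionVars false

namespace Crest.Agent.R237.H

open Matrix Crest.GeometryTopology

variable {m : ℕ}

/-- coordinates. -/
abbrev Co (m : ℕ) : Type := (Fin (m + 1) × Fin (m + 1)) ⊕ (Ix m ⊕ Unit)

/-- number of coordinates. -/
def dd (m : ℕ) : ℕ := Fintype.card (Co m)

/-- numbering of the coordinates. -/
noncomputable def eqv (m : ℕ) : Co m ≃ Fin (dd m) := Fintype.equivFin _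

section ring

variable {R : Type} [CommRing R] [Algebra ℝ R]

/-- matrix part. -/
noncomputable def cM (y : Fin (dd m) → R) : Mt m R :=
  Matrix.of fun a b => (1 / 2 : ℝ) • (y (eqv m (.inl (a, b))) + y (eqv m (.inl (b, a))))

/-- raw cubic coordinates. -/
noncomputable def c3 (y : Fin (dd m) → R) (i j l : Fin m) : R := y (eqv m (.inr (.inl (i, j, l))))

/-- cubic part. -/
noncomputable def cC (y : Fin (dd m) → R) : Ar m R := fun i j l =>
  (1 / 6 : ℝ) • (c3 y i j l + c3 y i l j + c3 y j i l + c3 y j l i + c3 y l i j + c3 y l j i)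

/-- last coordinate. -/
noncomputable def cK (y : Fin (dd m) → R) : R := y (eqv m (.inr (.inr ())))

/-- the polynomial function. -/
noncomputable def pY (D : Data m) (y : Fin (dd m) → R) : R :=
  pf D.P D.B D.Λ (cM y) (cC y) (cK y)

theorem cM_symm (y : Fin (dd m) → R) : (cM y).IsSymm := by
  ext a b
  simp only [cM, transpose_apply, of_apply, add_comm]

theorem cC_sym (y : Fin (dd m) → R) : Sym3 (cC y) := by
  constructor
  · intro i j l
    simp only [cC]
    congr 1
    ring
  · intro i j l
    simp only [cC]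
    congr 1
    ring

theorem pY_smul (D : Data m) (s : R) (y : Fin (dd m) → R) :
    pY D (s • y) = s ^ (2 * m + 2) * pY D y := by
  have h1 : cM (s • y) = s • cM y := by
    ext a b
    simp only [cM, of_apply, Pi.smul_apply, Matrix.smul_apply, smul_eq_mul, mul_smul_comm, mul_add]
  have h2 : cC (s • y) = s • cC y := by
    funext i j l
    simp only [cC, c3, Pi.smul_apply, smul_eq_mul, mul_smul_comm, mul_add]
  have h3 : cK (s • y) = s * cK y := rfl
  rw [pY, h1, h2, h3, pf_smul, pY]

theorem map_pY {S : Type} [CommRing S] [Algebra ℝ S] (f : R →ₐ[ℝ] S) (D : Data m)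
    (y : Fin (dd m) → R) : f (pY D y) = pY D (fun n => f (y n)) := by
  have h1 : (cM y).map f = cM (fun n => f (y n)) := by
    ext a b
    simp only [cM, of_apply, Matrix.map_apply, map_smul, map_add]
  have h2 : (fun i j l => f (cC y i j l)) = cC (fun n => f (y n)) := by
    funext i j l
    simp only [cC, c3, map_smul, map_add]
  rw [pY, map_pf, h1, h2]
  rfl

end ring

/-- the hyperbolic polynomial. -/
noncomputable def pp (D : Data m) : MvPolynomial (Fin (dd m)) ℝ := pY D MvPolynomial.X

theorem aeval_pp {S : Type} [CommRing S] [Algebra ℝ S] (D : Data m) (y : Fin (dd m) → S) :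
    MvPolynomial.aeval y (pp D) = pY D y := by
  rw [pp, map_pY]
  simp only [MvPolynomial.aeval_X]

theorem eval_pp (D : Data m) (y : Fin (dd m) → ℝ) : MvPolynomial.eval y (pp D) = pY D y := by
  rw [← aeval_pp]
  rfl

/-- the direction, on coordinates. -/
def eC (m : ℕ) : Co m → ℝ
  | .inl (a, b) => if a = b then 1 else 0
  | .inr (.inl _) => 0
  | .inr (.inr _) => 1

/-- the direction. -/
noncomputable def ee (m : ℕ) : Fin (dd m) → ℝ := fun n => eC m ((eqv m).symm n)

/-- the orbit, on coordinates. -/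
noncomputable def xC (D : Data m) : Co m → MvPolynomial (Fin m) ℝ
  | .inl (a, b) => xh m a * xh m b
  | .inr (.inl (i, j, l)) => MvPolynomial.X i * MvPolynomial.X j * MvPolynomial.X l
  | .inr (.inr _) => D.Λ • ff m

/-- the orbit. -/
noncomputable def xx (D : Data m) : Fin (dd m) → MvPolynomial (Fin m) ℝ :=
  fun n => xC D ((eqv m).symm n)

theorem eval_smul_of_hom {σ : Type} {q : MvPolynomial σ ℝ} {j : ℕ} (hq : q.IsHomogeneous j)
    (s : ℝ) (y : σ → ℝ) : MvPolynomial.eval (s • y) q = s ^ j * MvPolynomial.eval y q := by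
  rw [MvPolynomial.eval_eq, MvPolynomial.eval_eq, Finset.mul_sum]
  refine Finset.sum_congr rfl fun n hn => ?_
  have hd : n.degree = j := by
    rw [Finsupp.degree_eq_weight_one]
    exact hq (MvPolynomial.mem_support_iff.1 hn)
  rw [← hd, Finsupp.degree_apply]
  simp only [Pi.smul_apply, smul_eq_mul, mul_pow, Finset.prod_mul_distrib,
    Finset.prod_pow_eq_pow_sum]
  ring

theorem isHomogeneous_of_scaling {σ : Type} (p : MvPolynomial σ ℝ) (d : ℕ)
    (h : ∀ (s : ℝ) (y : σ → ℝ), MvPolynomial.eval (s • y) p = s ^ d * MvPolynomial.eval y p) :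
    p.IsHomogeneous d := by
  classical
  have hc : ∀ k, k ≠ d → MvPolynomial.homogeneousComponent k p = 0 := by
    intro k hk
    refine MvPolynomial.funext fun y => ?_
    rw [map_zero]
    by_cases hkd : p.totalDegree < k
    · rw [MvPolynomial.homogeneousComponent_eq_zero _ _ hkd, map_zero]
    have hkm : k ∈ Finset.range (p.totalDegree + 1) := by
      rw [Finset.mem_range]; omega
    let f : Polynomial ℝ := ∑ j ∈ Finset.range (p.totalDegree + 1),
      Polynomial.monomial j (MvPolynomial.eval y (MvPolynomial.homogeneousComponent j p))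
    have hf : f = Polynomial.monomial d (MvPolynomial.eval y p) := by
      refine Polynomial.funext fun s => ?_
      rw [Polynomial.eval_monomial, mul_comm, ← h s y]
      conv_rhs => rw [← MvPolynomial.sum_homogeneousComponent p]
      simp only [f, Polynomial.eval_finsetSum, Polynomial.eval_monomial, map_sum]
      refine Finset.sum_congr rfl fun j _ => ?_
      rw [eval_smul_of_hom (MvPolynomial.homogeneousComponent_isHomogeneous j p), mul_comm]
    have := congrArg (fun g => Polynomial.coeff g k) hf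
    simp only [f, Polynomial.finsetSum_coeff, Polynomial.coeff_monomial] at this
    rw [Finset.sum_ite_eq', if_pos hkm, if_neg hk.symm] at this
    exact this
  intro n hn
  by_contra hne
  have h0 := hc (Finsupp.degree n) (by rwa [Finsupp.degree_eq_weight_one])
  have h1 := MvPolynomial.coeff_homogeneousComponent (Finsupp.degree n) p n
  rw [h0, if_pos rfl, MvPolynomial.coeff_zero] at h1
  exact hn h1.symm

theorem pp_hom (D : Data m) : (pp D).IsHomogeneous (2 * m + 2) :=
  isHomogeneous_of_scaling _ _ fun s y => by rw [eval_pp, eval_pp, pY_smul]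

theorem pY_neg (D : Data m) (y : Fin (dd m) → ℝ) : pY D (-y) = pY D y := by
  have := pY_smul D (-1 : ℝ) y
  rw [neg_one_smul] at this
  rw [this, show 2 * m + 2 = 2 * (m + 1) by ring, pow_mul]
  simp

/-- points `s e + y`. -/
theorem pY_add (D : Data m) (s : ℝ) (y : Fin (dd m) → ℝ) :
    pY D (s • ee m + y) = pf D.P D.B D.Λ (s • (1 : Mt m ℝ) + cM y) (cC y) (s + cK y) := by
  have h1 : cM (s • ee m + y) = s • (1 : Mt m ℝ) + cM y := by
    ext a b
    simp only [cM, of_apply, Pi.add_apply, Pi.smul_apply, ee, Equiv.symm_apply_apply, eC,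
      Matrix.add_apply, Matrix.smul_apply, smul_eq_mul, Matrix.one_apply]
    by_cases h : a = b
    · subst h
      simp only [if_true]
      ring
    · rw [if_neg h, if_neg (Ne.symm h)]
      ring
  have h2 : cC (s • ee m + y) = cC y := by
    funext i j l
    simp [cC, c3, ee, eC]
  have h3 : cK (s • ee m + y) = s + cK y := by
    simp [cK, ee, eC]
  rw [pY, h1, h2, h3]

theorem cM_xx (D : Data m) (L : MvPolynomial (Fin m) ℝ →ₗ[ℝ] ℝ) :
    cM (fun n => L (xx D n)) = mM L := by
  ext a b
  simp only [cM, mM, of_apply, xx, Equiv.symm_apply_apply, xC, smul_eq_mul]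
  rw [mul_comm (xh m b)]
  ring

theorem cC_xx (D : Data m) (L : MvPolynomial (Fin m) ℝ →ₗ[ℝ] ℝ) :
    cC (fun n => L (xx D n)) = mC L := by
  funext i j l
  simp only [cC, c3, mC, xx, Equiv.symm_apply_apply, xC, smul_eq_mul]
  have e1 : (MvPolynomial.X i * MvPolynomial.X l * MvPolynomial.X j : MvPolynomial (Fin m) ℝ)
      = MvPolynomial.X i * MvPolynomial.X j * MvPolynomial.X l := by ring
  have e2 : (MvPolynomial.X j * MvPolynomial.X i * MvPolynomial.X l : MvPolynomial (Fin m) ℝ)
      = MvPolynomial.X i * MvPolynomial.X j * MvPolynomial.X l := by ring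
  have e3 : (MvPolynomial.X j * MvPolynomial.X l * MvPolynomial.X i : MvPolynomial (Fin m) ℝ)
      = MvPolynomial.X i * MvPolynomial.X j * MvPolynomial.X l := by ring
  have e4 : (MvPolynomial.X l * MvPolynomial.X i * MvPolynomial.X j : MvPolynomial (Fin m) ℝ)
      = MvPolynomial.X i * MvPolynomial.X j * MvPolynomial.X l := by ring
  have e5 : (MvPolynomial.X l * MvPolynomial.X j * MvPolynomial.X i : MvPolynomial (Fin m) ℝ)
      = MvPolynomial.X i * MvPolynomial.X j * MvPolynomial.X l := by ring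
  rw [e1, e2, e3, e4, e5]
  ring

theorem cK_xx (D : Data m) (L : MvPolynomial (Fin m) ℝ →ₗ[ℝ] ℝ) :
    cK (fun n => L (xx D n)) = D.Λ * L (ff m) := by
  simp only [cK, xx, Equiv.symm_apply_apply, xC, map_smul, smul_eq_mul]

theorem pY_xx (D : Data m) (L : MvPolynomial (Fin m) ℝ →ₗ[ℝ] ℝ) :
    pY D (fun n => L (xx D n)) = pL D L := by
  rw [pY, cM_xx, cC_xx, cK_xx, pL]

theorem pY_ev_pos (D : Data m) (ξ : Fin m → ℝ) (s : ℝ) (hs : 0 < s) :
    0 < pY D (s • ee m + fun n => MvPolynomial.eval ξ (xx D n)) := by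
  let L : MvPolynomial (Fin m) ℝ →ₗ[ℝ] ℝ := (MvPolynomial.aeval ξ).toLinearMap
  have hL : ∀ f, L f = MvPolynomial.eval ξ f := fun f => rfl
  have e0 : (fun n => MvPolynomial.eval ξ (xx D n)) = fun n => L (xx D n) := rfl
  have e1 : mM L = vecMulVec (Fin.cons 1 ξ : Fin (m + 1) → ℝ) (Fin.cons 1 ξ) := by
    have hx : ∀ a, MvPolynomial.eval ξ (xh m a) = (Fin.cons 1 ξ : Fin (m + 1) → ℝ) a := by
      intro a
      refine Fin.cases ?_ (fun i => ?_) a <;> simp [xh]
    ext a b
    simp only [mM, of_apply, hL, map_mul, hx, vecMulVec_apply]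
  have e2 : mC L = fun i j l => ξ i * ξ j * ξ l := by
    funext i j l
    simp only [mC, hL, map_mul, MvPolynomial.eval_X]
  have e3 : L (ff m) = ∑ i, ∑ j, if i = j then 0 else (ξ i * ξ j) ^ 2 := by
    simp only [hL, ff, map_sum]
    refine Finset.sum_congr rfl fun i _ => Finset.sum_congr rfl fun j _ => ?_
    split_ifs <;> simp
  rw [pY_add, e0, cM_xx, cC_xx, cK_xx, e1, e2, e3]
  exact pf_ev_pos D ξ s hs

theorem pY_ee_pos (D : Data m) : 0 < pY D (ee m) := by
  have h := pY_add D 1 0
  have h1 : cM (0 : Fin (dd m) → ℝ) = 0 := by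
    ext a b
    simp [cM]
  have h2 : cC (0 : Fin (dd m) → ℝ) = 0 := by
    funext i j l
    simp [cC, c3]
  have h3 : cK (0 : Fin (dd m) → ℝ) = 0 := rfl
  have h4 : tv (1 : Mt m ℝ) (0 : Ar m ℝ) = 0 := by
    funext i j a
    by_cases hij : i = j
    · simp [tv, hij]
    · refine Fin.cases ?_ (fun l => ?_) a <;> simp [tv, hij]
  rw [one_smul, add_zero, h1, h2, h3, one_smul, add_zero, add_zero] at h
  rw [h, pf, h4]
  have h5 : gam (1 : Mt m ℝ) (0 : Fin m → Fin m → Fin (m + 1) → ℝ) = 0 := by
    funext i j l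
    simp [gam]
  have h6 : hh D.P (1 : Mt m ℝ) = ∑ a, D.P a a := by
    simp [hh, Matrix.one_apply]
  simp only [adjugate_one, det_one, h5, h6, en, qf, bil, Pi.zero_apply, zero_dotProduct,
    Finset.sum_const_zero, smul_zero, mul_zero, mul_one, sub_zero, one_mul, add_zero]
  have : Nonempty (Fin m) := ⟨⟨0, by have := D.two_le; omega⟩⟩
  exact Finset.sum_pos (fun a _ => D.Ppd.diag_pos) Finset.univ_nonempty

theorem pp_hyperbolic (D : Data m) : Hyperbolic.IsHyperbolic (pp D) (ee m) := by
  refine ⟨⟨_, pp_hom D⟩, by rw [eval_pp]; exact pY_ee_pos D, fun x z hz => ?_⟩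
  by_contra him
  rw [Hyperbolic.lineEvalC, aeval_pp] at hz
  have h1 : cM (fun i => z * (ee m i : ℂ) - (x i : ℂ)) = zA (cM x) z := by
    ext a b
    simp only [cM, zA, of_apply, ee, Equiv.symm_apply_apply, eC, Matrix.sub_apply,
      Matrix.smul_apply, Matrix.map_apply, smul_eq_mul, Matrix.one_apply, Complex.real_smul]
    by_cases h : a = b
    · subst h
      simp only [if_true]
      push_cast
      ring
    · rw [if_neg h, if_neg (Ne.symm h), if_neg h]
      push_cast
      ring
  have h2 : cC (fun i => z * (ee m i : ℂ) - (x i : ℂ)) = fun i j l => -((cC x i j l : ℝ) : ℂ) := by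
    funext i j l
    simp only [cC, c3, ee, Equiv.symm_apply_apply, eC, smul_eq_mul, Complex.real_smul]
    push_cast
    ring
  have h3 : cK (fun i => z * (ee m i : ℂ) - (x i : ℂ)) = z - (cK x : ℝ) := by
    simp [cK, ee, eC]
  rw [pY, h1, h2, h3] at hz
  exact pf_ne_zero D (cM x) (cM_symm x) (cC x) (cC_sym x) (cK x) z him hz

theorem line_eq (t : ℝ) (y : Fin (dd m) → ℝ) :
    (fun i => t * ee m i - y i) = -((-t) • ee m + y) := by
  funext i
  simp only [Pi.neg_apply, Pi.add_apply, Pi.smul_apply, smul_eq_mul]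
  ring

theorem ev_mem (D : Data m) (ξ : Fin m → ℝ) :
    (fun n => MvPolynomial.eval ξ (xx D n)) ∈ Hyperbolic.closedCone (pp D) (ee m) := by
  intro t ht
  by_contra hneg
  rw [eval_pp, line_eq, pY_neg] at ht
  exact (pY_ev_pos D ξ (-t) (by linarith)).ne' ht

theorem not_mem_of_neg (D : Data m) (y : Fin (dd m) → ℝ) (hy : pY D y < 0) :
    y ∉ Hyperbolic.closedCone (pp D) (ee m) := by
  intro hmem
  have hc : Continuous fun s : ℝ => pY D ((1 - s) • ee m + s • y) := by
    simp only [← eval_pp]
    exact (MvPolynomial.continuous_eval (pp D)).comp (by fun_prop)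
  have h0 : 0 ∈ Set.Ioo (pY D ((1 - (1 : ℝ)) • ee m + (1 : ℝ) • y))
      (pY D ((1 - (0 : ℝ)) • ee m + (0 : ℝ) • y)) := by
    simp only [sub_self, zero_smul, one_smul, zero_add, sub_zero, add_zero]
    exact ⟨hy, pY_ee_pos D⟩
  obtain ⟨s, ⟨hs0, hs1⟩, hs⟩ := intermediate_value_Ioo' zero_le_one hc.continuousOn h0
  have e1 : (1 - s) • ee m + s • y = s • (((1 - s) / s) • ee m + y) := by
    rw [smul_add, smul_smul, mul_div_cancel₀ _ hs0.ne']
  beta_reduce at hs
  rw [e1, pY_smul] at hs
  have hs' : pY D (((1 - s) / s) • ee m + y) = 0 :=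
    (mul_eq_zero.1 hs).resolve_left (pow_pos hs0 _).ne'
  have := hmem (-((1 - s) / s)) (by rw [eval_pp, line_eq, pY_neg, neg_neg]; exact hs')
  have h2 : 0 < (1 - s) / s := div_pos (by linarith) hs0
  linarith

theorem xh_deg (a : Fin (m + 1)) : (xh m a).totalDegree ≤ 1 := by
  refine Fin.cases ?_ (fun i => ?_) a <;> simp [xh]

theorem xx_deg (D : Data m) (n : Fin (dd m)) : (xx D n).totalDegree ≤ 2 * 2 := by
  have hX : ∀ i : Fin m, (MvPolynomial.X i : MvPolynomial (Fin m) ℝ).totalDegree ≤ 1 :=
    fun i => by simp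
  rw [xx]
  rcases (eqv m).symm n with ⟨a, b⟩ | ⟨i, j, l⟩ | u
  · have := MvPolynomial.totalDegree_mul (xh m a) (xh m b)
    have h1 := xh_deg a
    have h2 := xh_deg b
    simp only [xC]
    omega
  · have h0 := MvPolynomial.totalDegree_mul
      (MvPolynomial.X i * MvPolynomial.X j : MvPolynomial (Fin m) ℝ) (MvPolynomial.X l)
    have h1 := MvPolynomial.totalDegree_mul
      (MvPolynomial.X i : MvPolynomial (Fin m) ℝ) (MvPolynomial.X j)
    have := hX i
    have := hX j
    have := hX l
    simp only [xC]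
    omega
  · simp only [xC]
    refine (MvPolynomial.totalDegree_smul_le _ _).trans ?_
    refine MvPolynomial.totalDegree_finsetSum_le fun i _ => ?_
    refine MvPolynomial.totalDegree_finsetSum_le fun j _ => ?_
    split_ifs
    · simp
    · have h0 := MvPolynomial.totalDegree_pow
        (MvPolynomial.X i * MvPolynomial.X j : MvPolynomial (Fin m) ℝ) 2
      have h1 := MvPolynomial.totalDegree_mul
        (MvPolynomial.X i : MvPolynomial (Fin m) ℝ) (MvPolynomial.X j)
      have := hX i
      have := hX j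
      omega

end Crest.Agent.R237.H
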