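import Crest.Agent.R237.HDefs

/-! S0367 framework: the resolvent of a real symmetric matrix. -/

set_option autoImplicit false
set_option linter.unusedSectionVars false

namespace Crest.Agent.R237.H

open Matrix

variable {m : ℕ}

/-- `z - A` over `ℂ`. -/
noncomputable def zA (A : Mt m ℝ) (z : ℂ) : Mt m ℂ := z • (1 : Mt m ℂ) - A.map Complex.ofReal

/-- the vectors `t_{ij}(A, c)` seen in `ℂ`. -/
noncomputable def tC (A : Mt m ℝ) (c : Ar m ℝ) : Fin m → Fin m → Fin (m + 1) → ℂ :=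
  fun i j a => ((tv A c i j a : ℝ) : ℂ)

/-- `F(z e - x) = z - k + phi`. -/
noncomputable def phi (D : Data m) (A : Mt m ℝ) (c : Ar m ℝ) (z : ℂ) : ℂ :=
  -(D.Λ • en (zA A z)⁻¹ (tC A c)) +
    qf D.B (gam (zA A z)⁻¹ (tC A c)) / hh D.P (zA A z)⁻¹

/-- spectral theorem in plain form (`Matrix.IsHermitian.spectral_theorem`,
`U = hA.eigenvectorUnitary`, over `ℝ` star = transpose). -/
theorem exists_diag (A : Mt m ℝ) (hA : A.IsSymm) :
    ∃ (U : Mt m ℝ) (lam : Fin (m + 1) → ℝ), Uᵀ * U = 1 ∧ U * Uᵀ = 1 ∧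
      A = U * diagonal lam * Uᵀ := by
  have hH : A.IsHermitian := by
    rw [Matrix.IsHermitian, conjTranspose_eq_transpose_of_trivial]
    exact hA
  have h0 : ∀ M : Mt m ℝ, star M = Mᵀ := fun M => by
    rw [star_eq_conjTranspose, conjTranspose_eq_transpose_of_trivial]
  refine ⟨(hH.eigenvectorUnitary : Mt m ℝ), hH.eigenvalues, ?_, ?_, ?_⟩
  · rw [← h0]
    exact Unitary.coe_star_mul_self hH.eigenvectorUnitary
  · rw [← h0]
    exact Unitary.coe_mul_star_self hH.eigenvectorUnitary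
  · have := hH.spectral_theorem
    rw [Unitary.conjStarAlgAut_apply, h0] at this
    simpa using this

/-- inverse of `μ - U diag(lam) Uᵀ` over any field `K ⊇ ℝ` (used for `K = ℝ` and `K = ℂ`):
`μ • 1 - U diag lam Uᵀ = U diag (μ - lam) Uᵀ`, multiply out, `Matrix.inv_eq_right_inv`;
the determinant is a unit because the matrix has a right inverse. -/
theorem resolvent_diag {K : Type} [Field K] [Algebra ℝ K] (U : Mt m ℝ) (lam : Fin (m + 1) → ℝ)
    (h1 : Uᵀ * U = 1) (h2 : U * Uᵀ = 1) (μ : K) (hμ : ∀ r, μ ≠ algebraMap ℝ K (lam r)) :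
    (μ • (1 : Mt m K) - (U * diagonal lam * Uᵀ).map (algebraMap ℝ K)).det ≠ 0 ∧
    ∀ a b, (μ • (1 : Mt m K) - (U * diagonal lam * Uᵀ).map (algebraMap ℝ K))⁻¹ a b =
      ∑ r, algebraMap ℝ K (U a r * U b r) / (μ - algebraMap ℝ K (lam r)) := by
  set φ := algebraMap ℝ K with hφ
  set V : Mt m K := U.map φ with hV
  have e1 : Vᵀ * V = 1 := by
    rw [hV, ← transpose_map, ← Matrix.map_mul, h1, Matrix.map_one _ (map_zero φ) (map_one φ)]
  have e2 : V * Vᵀ = 1 := by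
    rw [hV, ← transpose_map, ← Matrix.map_mul, h2, Matrix.map_one _ (map_zero φ) (map_one φ)]
  have e3 : μ • (1 : Mt m K) - (U * diagonal lam * Uᵀ).map φ = V * diagonal (fun r => μ - φ (lam r)) * Vᵀ := by
    rw [Matrix.map_mul, Matrix.map_mul, transpose_map, diagonal_map (map_zero φ), ← hV, ← e2]
    have : (diagonal fun r => μ - φ (lam r)) = μ • (1 : Mt m K) - diagonal fun r => φ (lam r) := by
      rw [smul_one_eq_diagonal, diagonal_sub]
    rw [this, Matrix.mul_sub, Matrix.sub_mul, Matrix.mul_smul, Matrix.mul_one, Matrix.smul_mul]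
  have e4 : V * diagonal (fun r => μ - φ (lam r)) * Vᵀ * (V * diagonal (fun r => (μ - φ (lam r))⁻¹) * Vᵀ) = 1 := by
    have : diagonal (fun r => μ - φ (lam r)) * diagonal (fun r => (μ - φ (lam r))⁻¹) = (1 : Mt m K) := by
      rw [diagonal_mul_diagonal, ← diagonal_one]
      congr 1
      funext r
      exact mul_inv_cancel₀ (sub_ne_zero.2 (hμ r))
    calc _ = V * (diagonal (fun r => μ - φ (lam r)) * ((Vᵀ * V) * diagonal (fun r => (μ - φ (lam r))⁻¹))) * Vᵀ := by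
          simp only [Matrix.mul_assoc]
      _ = 1 := by rw [e1, Matrix.one_mul, this, Matrix.mul_one, e2]
  rw [e3]
  refine ⟨(Matrix.isUnit_det_of_right_inverse e4).ne_zero, fun a b => ?_⟩
  rw [Matrix.inv_eq_right_inv e4, Matrix.mul_apply]
  refine Finset.sum_congr rfl fun r _ => ?_
  rw [mul_diagonal, transpose_apply, hV, Matrix.map_apply, Matrix.map_apply, map_mul, div_eq_mul_inv]
  ring

theorem hres_ne {z : ℂ} (hz : z.im ≠ 0) (t : ℝ) : z ≠ algebraMap ℝ ℂ t := by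
  rintro rfl
  exact hz (Complex.ofReal_im t)

theorem det_zA_ne (A : Mt m ℝ) (hA : A.IsSymm) (z : ℂ) (hz : z.im ≠ 0) :
    (zA A z).det ≠ 0 := by
  obtain ⟨U, lam, h1, h2, rfl⟩ := exists_diag A hA
  exact (resolvent_diag U lam h1 h2 z fun r => hres_ne hz _).1

/-- `hh P (z-A)⁻¹ = ∑_r p_r/(z - lam r)` with `p_r = v_rᵀ P v_r ≥ 0`, `v_r a = U a.succ r`, and
`∑ p_r = tr P > 0` (rows of `U` are orthonormal, `m ≥ 1`, diagonal entries of `P` positive). -/
theorem hh_im_neg (D : Data m) (A : Mt m ℝ) (hA : A.IsSymm) (z : ℂ) (hz : 0 < z.im) :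
    (hh D.P (zA A z)⁻¹).im < 0 := by
  obtain ⟨U, lam, h1, h2, rfl⟩ := exists_diag A hA
  have hr : ∀ a b, (zA (U * diagonal lam * Uᵀ) z)⁻¹ a b = ∑ r, ((U a r * U b r : ℝ) : ℂ) / (z - (lam r : ℂ)) :=
    (resolvent_diag U lam h1 h2 z fun r => hres_ne hz.ne' _).2
  set v : Fin (m + 1) → Fin m → ℝ := fun r a => U a.succ r with hv
  have e : hh D.P (zA (U * diagonal lam * Uᵀ) z)⁻¹ = ∑ r, ((v r ⬝ᵥ D.P *ᵥ v r : ℝ) : ℂ) * (z - (lam r : ℂ))⁻¹ := by
    simp only [hh, hr, Finset.smul_sum, dotProduct, Matrix.mulVec, hv]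
    push_cast
    simp only [Finset.sum_mul, Finset.mul_sum]
    rw [Finset.sum_comm (s := Finset.univ) (t := Finset.univ)
      (f := fun r a => ∑ b, (U (Fin.succ a) r : ℂ) * ((D.P a b : ℂ) * (U (Fin.succ b) r : ℂ)) * (z - (lam r : ℂ))⁻¹)]
    refine Finset.sum_congr rfl fun a _ => ?_
    rw [Finset.sum_comm]
    refine Finset.sum_congr rfl fun r _ => Finset.sum_congr rfl fun b _ => ?_
    rw [Complex.real_smul, div_eq_mul_inv]
    ring
  have him : ∀ r, ((z - (lam r : ℂ))⁻¹).im < 0 := fun r => by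
    have h0 : z - (lam r : ℂ) ≠ 0 := sub_ne_zero.2 (hres_ne hz.ne' _)
    rw [Complex.inv_im, Complex.sub_im, Complex.ofReal_im, sub_zero]
    exact div_neg_of_neg_of_pos (neg_lt_zero.2 hz) (Complex.normSq_pos.2 h0)
  have hnn : ∀ r, 0 ≤ v r ⬝ᵥ v r := fun r => Finset.sum_nonneg fun _ _ => mul_self_nonneg _
  obtain ⟨r₀, hr₀⟩ : ∃ r, 0 < v r ⬝ᵥ v r := by
    by_contra hc
    push Not at hc
    have a₀ : Fin m := ⟨0, by have := D.two_le; omega⟩
    have h3 : ∀ r, U a₀.succ r = 0 := fun r =>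
      congrFun (dotProduct_self_eq_zero.1 (le_antisymm (hc r) (hnn r))) a₀
    have h4 := congrFun (congrFun h2 a₀.succ) a₀.succ
    simp [Matrix.mul_apply, h3] at h4
  rw [e, Complex.im_sum]
  simp only [Complex.im_ofReal_mul]
  have hlt : ∑ r, (v r ⬝ᵥ D.P *ᵥ v r) * ((z - (lam r : ℂ))⁻¹).im < ∑ _r : Fin (m + 1), (0 : ℝ) := by
    refine Finset.sum_lt_sum (fun r _ => ?_) ⟨r₀, Finset.mem_univ _, ?_⟩
    · exact mul_nonpos_of_nonneg_of_nonpos ((mul_nonneg D.ρpos.le (hnn r)).trans (D.Pge _)) (him r).le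
    · exact mul_neg_of_pos_of_neg ((mul_pos D.ρpos hr₀).trans_le (D.Pge _)) (him r₀)
  simpa using hlt

end Crest.Agent.R237.H
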