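import Mathlib

/-!
# Kernel certificate for full column rank of a sparse integer system (row 237, helper4)

An equation is a list of pairs `(coefficient, variable number)`; repeated variables are allowed.
The certificate `B` is a left inverse modulo a small number `p > 1`; row `i` of it is the list of
base-`p` digits of `B[i]` (least significant digit = first equation).
-/

set_option autoImplicit false

namespace Crest.Agent.R237.Rk

/-- value of a sparse equation at `x`. -/
noncomputable def ev (x : ℕ → ℝ) (e : List (ℤ × ℕ)) : ℝ := (e.map fun t => (t.1 : ℝ) * x t.2).sum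

/-- residue modulo `p`. -/
def red (p : ℕ) (c : ℤ) : ℕ := (c % (p : ℤ)).toNat

/-- the residues of an equation packed in base `β`. -/
def pack (p β : ℕ) : List (ℤ × ℕ) → ℕ
  | [] => 0
  | t :: e => Nat.add (Nat.mul (red p t.1) (Nat.pow β t.2)) (pack p β e)

/-- combination of the entries of a list with the base-`p` digits of `b`. -/
def comb (p : ℕ) : List ℕ → ℕ → ℕ
  | [], _ => 0
  | r :: rs, b => Nat.add (Nat.mul (Nat.mod b p) r) (comb p rs (Nat.div b p))

/-- the base-`β` digits `j, j+1, …, j+n-1` are `δ_{i ·}` modulo `p`; `s` is already shifted. -/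
def digs (p β i : ℕ) : ℕ → ℕ → ℕ → Bool
  | 0, _, _ => true
  | n + 1, j, s =>
    Nat.beq (Nat.mod (Nat.mod s β) p) (bif Nat.beq j i then 1 else 0) &&
      digs p β i n (Nat.succ j) (Nat.div s β)

/-- all rows of the certificate, starting with row `i`. -/
def rows (p β N : ℕ) (P W : List ℕ) : List ℕ → ℕ → Bool
  | [], _ => true
  | b :: bs, i =>
    (Nat.blt (comb p W b) β && digs p β i N 0 (comb p P b)) && rows p β N P W bs (Nat.succ i)

/-- the whole check. -/
def check (E : List (List (ℤ × ℕ))) (N p K : ℕ) (B : List ℕ) : Bool :=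
  (Nat.blt 1 p && Nat.beq B.length N) && (E.all fun e => e.all fun t => Nat.blt t.2 N) &&
    rows p (2 ^ K) N (E.map (pack p (2 ^ K))) (E.map (pack p 1)) B 0

/-- coefficient of variable `j`. -/
def coef (e : List (ℤ × ℕ)) (j : ℕ) : ℤ := (e.map fun t => if t.2 = j then t.1 else 0).sum

/-- sum of the residues of the coefficients of variable `j`. -/
def coefN (p : ℕ) (e : List (ℤ × ℕ)) (j : ℕ) : ℕ :=
  (e.map fun t => if t.2 = j then red p t.1 else 0).sum

/-- integer version of `comb`. -/
def combZ (p : ℕ) : List ℤ → ℕ → ℤ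
  | [], _ => 0
  | r :: rs, b => ((b % p : ℕ) : ℤ) * r + combZ p rs (b / p)

theorem comb_cons (p r : ℕ) (rs : List ℕ) (b : ℕ) :
    comb p (r :: rs) b = b % p * r + comb p rs (b / p) := rfl

theorem pack_cons (p β : ℕ) (t : ℤ × ℕ) (e : List (ℤ × ℕ)) :
    pack p β (t :: e) = red p t.1 * β ^ t.2 + pack p β e := rfl

theorem digs_succ (p β i n j s : ℕ) : digs p β i (n + 1) j s =
    (Nat.beq (s % β % p) (bif Nat.beq j i then 1 else 0) && digs p β i n (j + 1) (s / β)) := rfl

theorem pack_eq (p β N : ℕ) (e : List (ℤ × ℕ)) (he : ∀ t ∈ e, t.2 < N) :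
    pack p β e = ∑ j ∈ Finset.range N, coefN p e j * β ^ j := by
  induction e with
  | nil => simp [pack, coefN]
  | cons t e ih =>
    have ht : t.2 < N := he t (by simp)
    rw [pack_cons, ih fun s hs => he s (by simp [hs])]
    have : ∀ j, coefN p (t :: e) j * β ^ j
        = (if t.2 = j then red p t.1 * β ^ j else 0) + coefN p e j * β ^ j := by
      intro j
      simp only [coefN, List.map_cons, List.sum_cons]
      split_ifs <;> ring
    simp only [this, Finset.sum_add_distrib]
    rw [Finset.sum_ite_eq, if_pos (Finset.mem_range.2 ht)]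

theorem comb_pack (p β N : ℕ) (E : List (List (ℤ × ℕ))) (hE : ∀ e ∈ E, ∀ t ∈ e, t.2 < N)
    (b : ℕ) :
    comb p (E.map (pack p β)) b
      = ∑ j ∈ Finset.range N, comb p (E.map fun e => coefN p e j) b * β ^ j := by
  induction E generalizing b with
  | nil => simp [comb]
  | cons e E ih =>
    simp only [List.map_cons, comb_cons]
    rw [ih (fun s hs => hE s (by simp [hs])), pack_eq p β N e (hE e (by simp)), Finset.mul_sum,
      ← Finset.sum_add_distrib]
    refine Finset.sum_congr rfl fun j _ => by ring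

theorem digs_spec (p β i : ℕ) (n : ℕ) : ∀ (j : ℕ) (f : ℕ → ℕ), (∀ l < n, f l < β) →
    digs p β i n j (∑ l ∈ Finset.range n, f l * β ^ l) = true →
    ∀ l < n, f l % p = if j + l = i then 1 else 0 := by
  induction n with
  | zero => intro j f _ _ l hl; omega
  | succ n ih =>
    intro j f hf h l hl
    have h0 : f 0 < β := hf 0 (by omega)
    have hs : ∑ l ∈ Finset.range (n + 1), f l * β ^ l
        = f 0 + β * ∑ l ∈ Finset.range n, f (l + 1) * β ^ l := by
      rw [Finset.sum_range_succ', Finset.mul_sum, add_comm]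
      simp only [pow_zero, mul_one]
      congr 1
      refine Finset.sum_congr rfl fun l _ => by ring
    rw [hs] at h
    rw [digs_succ, Bool.and_eq_true, Nat.beq_eq] at h
    obtain ⟨h1, h2⟩ := h
    have hβ : 0 < β := by omega
    rw [Nat.add_mul_mod_self_left, Nat.mod_eq_of_lt h0] at h1
    rw [Nat.add_mul_div_left _ _ hβ, Nat.div_eq_of_lt h0, zero_add] at h2
    rcases l with _ | l
    · rw [h1]
      by_cases hji : j = i
      · simp [hji]
      · have : Nat.beq j i = false := by
          rw [Bool.eq_false_iff]; intro hh; exact hji (Nat.eq_of_beq_eq_true hh)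
        simp [hji, this]
    · have := ih (j + 1) (fun l => f (l + 1)) (fun l hl => hf (l + 1) (by omega)) h2 l (by omega)
      rw [this]
      have e : j + 1 + l = j + (l + 1) := by ring
      rw [e]

theorem rows_spec (p β N : ℕ) (P W : List ℕ) (B : List ℕ) : ∀ i0 : ℕ,
    rows p β N P W B i0 = true → ∀ i (hi : i < B.length),
      comb p W B[i] < β ∧ digs p β (i0 + i) N 0 (comb p P B[i]) = true := by
  induction B with
  | nil => intro _ _ i hi; simp at hi
  | cons b bs ih =>
    intro i0 h i hi
    simp only [rows, Bool.and_eq_true, Nat.blt_eq] at h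
    rcases i with _ | i
    · simpa using h.1
    · have := ih (i0 + 1) h.2 i (by simpa using hi)
      have e : i0 + 1 + i = i0 + (i + 1) := by ring
      rw [e] at this
      simpa using this

theorem red_cast (p : ℕ) (hp : 1 < p) (c : ℤ) : ((red p c : ℕ) : ZMod p) = (c : ZMod p) := by
  have h0 : (0 : ℤ) ≤ c % (p : ℤ) := Int.emod_nonneg _ (by exact_mod_cast (by omega : p ≠ 0))
  have : ((red p c : ℕ) : ℤ) = c % (p : ℤ) := Int.toNat_of_nonneg h0
  rw [← Int.cast_natCast, this, ZMod.intCast_mod]

theorem coefN_cast (p : ℕ) (hp : 1 < p) (e : List (ℤ × ℕ)) (j : ℕ) :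
    ((coefN p e j : ℕ) : ZMod p) = (coef e j : ZMod p) := by
  induction e with
  | nil => simp [coefN, coef]
  | cons t e ih =>
    simp only [coefN, coef, List.map_cons, List.sum_cons] at ih ⊢
    push_cast at ih ⊢
    rw [ih]
    split_ifs
    · rw [red_cast p hp]
    · simp

theorem comb_cast (p : ℕ) (hp : 1 < p) (E : List (List (ℤ × ℕ))) (j b : ℕ) :
    ((comb p (E.map fun e => coefN p e j) b : ℕ) : ZMod p)
      = (combZ p (E.map fun e => coef e j) b : ZMod p) := by
  induction E generalizing b with
  | nil => simp [comb, combZ]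
  | cons e E ih =>
    simp only [List.map_cons, comb_cons, combZ]
    rw [Nat.cast_add, Nat.cast_mul, ih, coefN_cast p hp, Int.cast_add, Int.cast_mul,
      Int.cast_natCast]

theorem ev_eq (x : ℕ → ℝ) (N : ℕ) (e : List (ℤ × ℕ)) (he : ∀ t ∈ e, t.2 < N) :
    ev x e = ∑ j ∈ Finset.range N, (coef e j : ℝ) * x j := by
  induction e with
  | nil => simp [ev, coef]
  | cons t e ih =>
    have ht : t.2 < N := he t (by simp)
    have h1 : ev x (t :: e) = (t.1 : ℝ) * x t.2 + ev x e := by simp [ev]
    rw [h1, ih fun s hs => he s (by simp [hs])]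
    have : ∀ j, (coef (t :: e) j : ℝ) * x j
        = (if t.2 = j then (t.1 : ℝ) * x j else 0) + (coef e j : ℝ) * x j := by
      intro j
      simp only [coef, List.map_cons, List.sum_cons]
      split_ifs <;> push_cast <;> ring
    simp only [this, Finset.sum_add_distrib]
    rw [Finset.sum_ite_eq, if_pos (Finset.mem_range.2 ht)]

theorem combZ_ev (p N : ℕ) (x : ℕ → ℝ) (E : List (List (ℤ × ℕ)))
    (hE : ∀ e ∈ E, ∀ t ∈ e, t.2 < N) (hx : ∀ e ∈ E, ev x e = 0) (b : ℕ) :
    ∑ j ∈ Finset.range N, (combZ p (E.map fun e => coef e j) b : ℝ) * x j = 0 := by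
  induction E generalizing b with
  | nil => simp [combZ]
  | cons e E ih =>
    have h1 := ih (fun s hs => hE s (by simp [hs])) (fun s hs => hx s (by simp [hs])) (b / p)
    have h2 := hx e (by simp)
    rw [ev_eq x N e (hE e (by simp))] at h2
    simp only [List.map_cons, combZ]
    have : ∀ j, ((((b % p : ℕ) : ℤ) * coef e j + combZ p (E.map fun e => coef e j) (b / p) : ℤ) : ℝ)
        * x j = ((b % p : ℕ) : ℝ) * ((coef e j : ℝ) * x j)
          + (combZ p (E.map fun e => coef e j) (b / p) : ℝ) * x j := by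
      intro j
      rw [Int.cast_add, Int.cast_mul, Int.cast_natCast]
      ring
    simp only [this, Finset.sum_add_distrib, ← Finset.mul_sum]
    rw [h1, h2]
    simp

/-- **the certificate is sound**: the system has only the zero solution. -/
theorem zero_of_check (E : List (List (ℤ × ℕ))) (N p K : ℕ) (B : List ℕ)
    (h : check E N p K B = true) (x : ℕ → ℝ) (hx : ∀ e ∈ E, ev x e = 0) :
    ∀ j < N, x j = 0 := by
  simp only [check, Bool.and_eq_true, Nat.blt_eq, Nat.beq_eq, List.all_eq_true] at h
  obtain ⟨⟨⟨hp, hB⟩, hE⟩, hr⟩ := h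
  have hrow := rows_spec p (2 ^ K) N _ _ B 0 hr
  let C : Matrix (Fin N) (Fin N) ℤ := Matrix.of fun i j =>
    combZ p (E.map fun e => coef e j) (B[i.1]'(by rw [hB]; exact i.2))
  have hC : C.map (Int.castRingHom (ZMod p)) = 1 := by
    ext i j
    obtain ⟨h1, h2⟩ := hrow i.1 (by rw [hB]; exact i.2)
    rw [comb_pack p 1 N E hE] at h1
    rw [comb_pack p (2 ^ K) N E hE] at h2
    simp only [one_pow, mul_one] at h1
    have h3 := digs_spec p (2 ^ K) (0 + i.1) N 0 _ (fun l hl => lt_of_le_of_lt
      (Finset.single_le_sum (f := fun j => comb p (E.map fun e => coefN p e j)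
        (B[i.1]'(by rw [hB]; exact i.2))) (fun _ _ => Nat.zero_le _) (Finset.mem_range.2 hl)) h1)
      h2 j.1 j.2
    simp only [Matrix.map_apply, C, Matrix.of_apply, eq_intCast]
    rw [← comb_cast p hp, ← ZMod.natCast_mod, h3, Matrix.one_apply]
    by_cases hij : i = j
    · simp [hij]
    · have : ¬ (j.1 = i.1) := fun hh => hij (Fin.ext hh.symm)
      simp [hij, this]
  have hdet : C.det ≠ 0 := by
    intro h0
    haveI : Fact (1 < p) := ⟨hp⟩
    have h1 := RingHom.map_det (Int.castRingHom (ZMod p)) C
    rw [h0, map_zero, RingHom.mapMatrix_apply, hC, Matrix.det_one] at h1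
    exact zero_ne_one h1
  have hdetR : (C.map (Int.castRingHom ℝ)).det ≠ 0 := by
    have h1 := RingHom.map_det (Int.castRingHom ℝ) C
    rw [RingHom.mapMatrix_apply] at h1
    rw [← h1]
    simpa using hdet
  have hv : (C.map (Int.castRingHom ℝ)).mulVec (fun j : Fin N => x j.1) = 0 := by
    funext i
    have := combZ_ev p N x E hE hx (B[i.1]'(by rw [hB]; exact i.2))
    rw [Finset.sum_range] at this
    simpa [Matrix.mulVec, dotProduct, C] using this
  have hz := Matrix.eq_zero_of_mulVec_eq_zero hdetR hv
  intro j hj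
  exact congrFun hz ⟨j, hj⟩

end Crest.Agent.R237.Rk
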