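import Mathlib

/-!
# R237/SchExt: positive definite pseudo-moment functionals extend to higher degree (helper63)
-/

set_option autoImplicit false

namespace Crest.Agent.R237.S63

open MvPolynomial

theorem sch_finsler0 {n : ℕ} (q g : (Fin n → ℝ) →ₗ[ℝ] (Fin n → ℝ) →ₗ[ℝ] ℝ) (hg : ∀ v, 0 ≤ g v v)
    (hq : ∀ v, v ≠ 0 → g v v = 0 → 0 < q v v) : ∃ M : ℝ, ∀ v, v ≠ 0 → 0 < q v v + M * g v v := by
  have cq : Continuous fun v => q v v := q.toContinuousBilinearMap.continuous₂.comp (continuous_id.prodMk continuous_id)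
  have cg : Continuous fun v => g v v := g.toContinuousBilinearMap.continuous₂.comp (continuous_id.prodMk continuous_id)
  obtain ⟨M, hM⟩ := (isCompact_sphere (0 : Fin n → ℝ) 1).elim_directed_cover
    (fun M : ℕ => {v | 0 < q v v + M * g v v}) (fun M => isOpen_lt continuous_const (by fun_prop))
    (fun v hv => by
      have h0 : v ≠ 0 := ne_zero_of_mem_unit_sphere ⟨v, hv⟩
      rcases (hg v).eq_or_lt with h | h
      · exact Set.mem_iUnion.2 ⟨0, by simpa using hq v h0 h.symm⟩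
      · obtain ⟨M, hM⟩ := exists_nat_gt (-q v v / g v v)
        rw [div_lt_iff₀ h] at hM
        exact Set.mem_iUnion.2 ⟨M, by simp only [Set.mem_ofPred_eq]; linarith⟩)
    (Monotone.directed_le fun a b hab v hv => by
      have : (a : ℝ) * g v v ≤ b * g v v := mul_le_mul_of_nonneg_right (Nat.cast_le.2 hab) (hg v)
      simp only [Set.mem_ofPred_eq] at hv ⊢
      linarith)
  refine ⟨M, fun v hv => ?_⟩
  have h1 : 0 < ‖v‖ := norm_pos_iff.2 hv
  have h2 := hM (a := ‖v‖⁻¹ • v) (by simp [norm_smul, h1.ne'])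
  simp only [Set.mem_ofPred_eq, map_smul, LinearMap.smul_apply, smul_eq_mul] at h2
  have h3 : 0 < ‖v‖⁻¹ * ‖v‖⁻¹ * (q v v + M * g v v) := by linarith
  exact (pos_iff_pos_of_mul_pos h3).1 (by positivity)

/-- Finsler's lemma -/
theorem sch_finsler {V : Type} [AddCommGroup V] [Module ℝ V] [FiniteDimensional ℝ V]
    (q g : V →ₗ[ℝ] V →ₗ[ℝ] ℝ) (hg : ∀ v, 0 ≤ g v v)
    (hq : ∀ v, v ≠ 0 → g v v = 0 → 0 < q v v) : ∃ M : ℝ, ∀ v, v ≠ 0 → 0 < q v v + M * g v v := by
  let e := (Module.finBasis ℝ V).equivFun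
  obtain ⟨M, hM⟩ := sch_finsler0 (q.compl₁₂ e.symm.toLinearMap e.symm.toLinearMap)
    (g.compl₁₂ e.symm.toLinearMap e.symm.toLinearMap) (fun v => hg _)
    fun v hv => hq _ (by simpa using hv)
  refine ⟨M, fun v hv => ?_⟩
  simpa using hM (e v) (by simpa using hv)

variable {m : ℕ}

/-- positive definite on the squares of polynomials of degree `≤ n` -/
def PD (n : ℕ) (L : MvPolynomial (Fin m) ℝ →ₗ[ℝ] ℝ) : Prop :=
  ∀ f : MvPolynomial (Fin m) ℝ, f.totalDegree ≤ n → f ≠ 0 → 0 < L (f * f)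

theorem sch_grid (m n : ℕ) : ∃ G : MvPolynomial (Fin m) ℝ →ₗ[ℝ] ℝ, PD n G := by
  classical
  let S : Finset ℝ := (Finset.range (n + 1)).image Nat.cast
  have hS : S.card = n + 1 := by
    rw [Finset.card_image_of_injective _ Nat.cast_injective, Finset.card_range]
  refine ⟨∑ x ∈ Fintype.piFinset fun _ : Fin m => S, (aeval x : MvPolynomial (Fin m) ℝ →ₐ[ℝ] ℝ).toLinearMap,
    fun f hf h0 => ?_⟩
  simp only [LinearMap.coe_sum, Finset.sum_apply, AlgHom.toLinearMap_apply, map_mul]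
  refine (Finset.sum_nonneg fun x _ => mul_self_nonneg _).lt_of_ne' fun h => h0 ?_
  rw [Finset.sum_eq_zero_iff_of_nonneg fun x _ => mul_self_nonneg _] at h
  refine eq_zero_of_eval_zero_at_prod_finset f (fun _ => S) (fun i => ?_) fun x hx => ?_
  · rw [hS]
    exact Nat.lt_succ_of_le ((degreeOf_le_totalDegree f i).trans hf)
  · exact mul_self_eq_zero.1 (h x (Fintype.mem_piFinset.2 hx))

theorem sch_top {n : ℕ} {f : MvPolynomial (Fin m) ℝ} (hf : f.totalDegree ≤ n + 1) :
    (f - homogeneousComponent (n + 1) f).totalDegree ≤ n := by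
  refine Finset.sup_le fun d hd => ?_
  rw [mem_support_iff, coeff_sub, coeff_homogeneousComponent] at hd
  have h1 : d.degree ≠ n + 1 := fun h => hd (by simp [h])
  rw [if_neg h1, sub_zero] at hd
  have h2 : d.degree ≤ n + 1 := (le_totalDegree (mem_support_iff.2 hd)).trans hf
  change d.degree ≤ n
  omega

theorem sch_step {n : ℕ} {L : MvPolynomial (Fin m) ℝ →ₗ[ℝ] ℝ} (hL : PD n L) :
    ∃ L' : MvPolynomial (Fin m) ℝ →ₗ[ℝ] ℝ, PD (n + 1) L' ∧ ∀ f, f.totalDegree ≤ 2 * n → L' f = L f := by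
  obtain ⟨G, hG⟩ := sch_grid m (n + 1)
  have sq : ∀ f : MvPolynomial (Fin m) ℝ, f.totalDegree ≤ n + 1 → homogeneousComponent (n + 1 + (n + 1)) (f * f) =
      homogeneousComponent (n + 1) f * homogeneousComponent (n + 1) f := fun f hf => by
    have h1 := sch_top hf
    have h2 := homogeneousComponent_isHomogeneous (n + 1) f
    generalize homogeneousComponent (n + 1) f = h at h1 h2
    have h3 : f * f = h * h + (f + h) * (f - h) := by ring
    have h4 := totalDegree_mul (f + h) (f - h)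
    have h5 := totalDegree_add f h
    have h6 := h2.totalDegree_le
    rw [h3, map_add, homogeneousComponent_eq_self (h2.mul h2), homogeneousComponent_eq_zero _ _ (by omega), add_zero]
  let V := restrictTotalDegree (Fin m) ℝ (n + 1)
  let mu : V →ₗ[ℝ] V →ₗ[ℝ] MvPolynomial (Fin m) ℝ := (LinearMap.mul ℝ _).compl₁₂ V.subtype V.subtype
  let G' := G.comp (homogeneousComponent (n + 1 + (n + 1)))
  have dV : ∀ v : V, (v : MvPolynomial (Fin m) ℝ).totalDegree ≤ n + 1 := fun v => (mem_restrictTotalDegree _ _ _).1 v.2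
  have hG' : ∀ v : V, mu.compr₂ G' v v = G (homogeneousComponent (n + 1) v.1 * homogeneousComponent (n + 1) v.1) :=
    fun v => congrArg G (sq v (dV v))
  have pos : ∀ v : V, homogeneousComponent (n + 1) v.1 ≠ 0 → 0 < mu.compr₂ G' v v := fun v h => by
    rw [hG']
    exact hG _ (homogeneousComponent_isHomogeneous _ _).totalDegree_le h
  obtain ⟨M, hM⟩ := sch_finsler (mu.compr₂ L) (mu.compr₂ G') (fun v => by
      by_cases h : homogeneousComponent (n + 1) v.1 = 0
      · rw [hG', h, mul_zero, map_zero]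
      · exact (pos v h).le)
    fun v hv h => by
      have h1 : homogeneousComponent (n + 1) v.1 = 0 := by
        by_contra h1
        exact (pos v h1).ne' h
      have h2 := sch_top (dV v)
      rw [h1, sub_zero] at h2
      exact hL v h2 fun h3 => hv (Subtype.ext h3)
  refine ⟨L + M • G', fun f hf h0 => ?_, fun f hf => ?_⟩
  · exact hM ⟨f, (mem_restrictTotalDegree _ _ _).2 hf⟩ fun h => h0 (congrArg Subtype.val h)
  · simp [G', homogeneousComponent_eq_zero _ _ (by omega : f.totalDegree < n + 1 + (n + 1))]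

theorem sch_ext {k : ℕ} {L : MvPolynomial (Fin m) ℝ →ₗ[ℝ] ℝ} (hL : PD k L) (n : ℕ) :
    ∃ L' : MvPolynomial (Fin m) ℝ →ₗ[ℝ] ℝ, PD (k + n) L' ∧ ∀ f, f.totalDegree ≤ 2 * k → L' f = L f := by
  induction n with
  | zero => exact ⟨L, hL, fun _ _ => rfl⟩
  | succ n ih =>
    obtain ⟨L₁, h1, h2⟩ := ih
    obtain ⟨L₂, h3, h4⟩ := sch_step h1
    exact ⟨L₂, h3, fun f hf => (h4 f (by omega)).trans (h2 f hf)⟩

end Crest.Agent.R237.S63
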