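import Crest.Agent.R237.SchLoc
import Crest.Agent.R237.SchExt

/-!
# R237/Sch63: Scheiderer's lemma (helper63)

A closed spectrahedral shadow which is invariant under translations and dilations and contains the polynomial orbit
`ξ ↦ x ξ` contains `L x` for every pseudo-moment functional `L`.
-/

set_option autoImplicit false

namespace Crest.Agent.R237.S63

open MvPolynomial Set Filter Topology Crest.GeometryTopology.Hyperbolic

variable {d m k : ℕ} {S : Set (Fin d → ℝ)}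

theorem sch_T (x : Fin d → MvPolynomial (Fin m) ℝ) (τ : Fin m → ℝ) (t : ℝ) (T : (Fin d → ℝ) →ₗ[ℝ] Fin d → ℝ)
    (h : ∀ ξ, T (fun i => eval (τ + t • ξ) (x i)) = fun i => eval ξ (x i)) (L : MvPolynomial (Fin m) ℝ →ₗ[ℝ] ℝ) :
    T (fun i => L (sh τ t (x i))) = fun i => L (x i) := by
  have e : ∀ ξ p, eval ξ (sh τ t p) = eval (τ + t • ξ) p := fun ξ p => by
    rw [eval_eq (τ + t • ξ)]
    simp only [sh, aeval_def, eval₂_eq, map_sum, map_mul, map_prod, map_pow, map_add, eval_C, eval_X,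
      algebraMap_eq, Pi.add_apply, Pi.smul_apply, smul_eq_mul]
  funext i
  have : x i = ∑ j, T (fun l => if j = l then 1 else 0) i • sh τ t (x j) := by
    refine MvPolynomial.funext fun ξ => ?_
    rw [← congrFun (h ξ) i, LinearMap.pi_apply_eq_sum_univ]
    simp [e, mul_comm]
  rw [this, LinearMap.pi_apply_eq_sum_univ]
  simp [mul_comm]

theorem sch_pd {D : ℕ} (hS : IsSpectrahedralShadow S) (hc : IsClosed S) (x : Fin d → MvPolynomial (Fin m) ℝ)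
    (hd : ∀ i, (x i).totalDegree ≤ 2 * k) (hx : ∀ ξ, (fun i => eval ξ (x i)) ∈ S)
    (hinv : ∀ τ : Fin m → ℝ, ∃ C₀ : ℝ, ∀ t ∈ Ioc (0 : ℝ) 1, ∃ T : (Fin d → ℝ) →ₗ[ℝ] Fin d → ℝ, MapsTo T S S ∧
      (∀ v, ‖T v‖ ≤ C₀ / t ^ D * ‖v‖) ∧ ∀ ξ, T (fun i => eval (τ + t • ξ) (x i)) = fun i => eval ξ (x i))
    (L : MvPolynomial (Fin m) ℝ →ₗ[ℝ] ℝ) (h1 : L 1 = 1) (hL : PD k L) : (fun i => L (x i)) ∈ S := by
  obtain ⟨τ, n, hτ⟩ := sch_loc hS x hx (D + 1)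
  obtain ⟨L', h2, h3⟩ := sch_ext hL n
  obtain ⟨C₁, hC₁⟩ := hτ L' ((h3 1 (by simp)).trans h1) fun f hf => by
    by_cases h : f = 0
    · simp [h]
    · exact (h2 f (by omega) h).le
  obtain ⟨C₀, hC₀⟩ := hinv τ
  rw [← hc.closure_eq, Metric.mem_closure_iff]
  intro ε hε
  have h4 : Tendsto (fun t : ℝ => |C₀| * C₁ * t) (𝓝[>] 0) (𝓝 0) := by
    have : Continuous fun t : ℝ => |C₀| * C₁ * t := by fun_prop
    simpa using (this.tendsto 0).mono_left nhdsWithin_le_nhds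
  obtain ⟨t, h5, ht⟩ := ((h4.eventually (gt_mem_nhds hε)).and (Ioc_mem_nhdsGT zero_lt_one)).exists
  obtain ⟨y, hy, h6⟩ := hC₁ t ht
  obtain ⟨T, h7, h8, h9⟩ := hC₀ t ht
  refine ⟨T y, h7 hy, ?_⟩
  have h10 := sch_T x τ t T h9 L'
  simp only [h3 _ (hd _)] at h10
  rw [dist_comm, dist_eq_norm, ← h10, ← map_sub]
  have t0 := ht.1
  calc _ ≤ _ := h8 _
    _ ≤ |C₀| / t ^ D * (C₁ * t ^ (D + 1)) :=
      mul_le_mul (div_le_div_of_nonneg_right (le_abs_self _) (by positivity)) h6 (norm_nonneg _) (by positivity)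
    _ = |C₀| * C₁ * t := by rw [pow_succ]; field_simp
    _ < ε := h5

/-- **Scheiderer's lemma**, general form -/
theorem sch_main {D : ℕ} (hS : IsSpectrahedralShadow S) (hc : IsClosed S) (x : Fin d → MvPolynomial (Fin m) ℝ)
    (hd : ∀ i, (x i).totalDegree ≤ 2 * k) (hx : ∀ ξ, (fun i => eval ξ (x i)) ∈ S)
    (hinv : ∀ τ : Fin m → ℝ, ∃ C₀ : ℝ, ∀ t ∈ Ioc (0 : ℝ) 1, ∃ T : (Fin d → ℝ) →ₗ[ℝ] Fin d → ℝ, MapsTo T S S ∧
      (∀ v, ‖T v‖ ≤ C₀ / t ^ D * ‖v‖) ∧ ∀ ξ, T (fun i => eval (τ + t • ξ) (x i)) = fun i => eval ξ (x i))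
    (L : MvPolynomial (Fin m) ℝ →ₗ[ℝ] ℝ) (h1 : L 1 = 1) (hL : ∀ f, f.totalDegree ≤ k → 0 ≤ L (f * f)) :
    (fun i => L (x i)) ∈ S := by
  obtain ⟨G, hG⟩ := sch_grid m k
  have g1 : 0 < G 1 := by simpa using hG 1 (by simp) one_ne_zero
  have key : ∀ δ : ℝ, 0 < δ → (fun i => (1 + δ * G 1)⁻¹ * (L (x i) + δ * G (x i))) ∈ S := fun δ hδ => by
    have p : 0 < 1 + δ * G 1 := by positivity
    refine sch_pd hS hc x hd hx hinv ((1 + δ * G 1)⁻¹ • (L + δ • G)) ?_ fun f hf h0 => ?_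
    · change (1 + δ * G 1)⁻¹ * (L 1 + δ * G 1) = 1
      rw [h1, inv_mul_cancel₀ p.ne']
    · exact mul_pos (inv_pos.2 p) (add_pos_of_nonneg_of_pos (hL f hf) (mul_pos hδ (hG f hf h0)))
  have cont : ContinuousAt (fun δ : ℝ => fun i => (1 + δ * G 1)⁻¹ * (L (x i) + δ * G (x i))) 0 := by
    refine continuousAt_pi.2 fun i => ?_
    fun_prop (disch := simp)
  have := hc.mem_of_tendsto (cont.tendsto.mono_left (nhdsWithin_le_nhds (s := Ioi 0)))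
    (eventually_mem_nhdsWithin.mono fun δ hδ => key δ hδ)
  simpa using this

theorem sch_hom {p : MvPolynomial (Fin m) ℝ} {n : ℕ} (hp : p.IsHomogeneous n) (t : ℝ) (ξ : Fin m → ℝ) :
    eval (t • ξ) p = t ^ n * eval ξ p := by
  simp only [eval_eq, Finset.mul_sum, Pi.smul_apply, smul_eq_mul, mul_pow, Finset.prod_mul_distrib,
    Finset.prod_pow_eq_pow_sum]
  refine Finset.sum_congr rfl fun e he => ?_
  rw [← hp.degree_eq_sum_deg_support he]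
  ring

/-- **Scheiderer's lemma** for a weighted homogeneous orbit -/
theorem sch_weight (hS : IsSpectrahedralShadow S) (hc : IsClosed S) (x : Fin d → MvPolynomial (Fin m) ℝ)
    (w : Fin d → ℕ) (hw : ∀ i, (x i).IsHomogeneous (w i)) (hd : ∀ i, w i ≤ 2 * k)
    (hx : ∀ ξ, (fun i => eval ξ (x i)) ∈ S)
    (htr : ∀ τ : Fin m → ℝ, ∃ T : (Fin d → ℝ) →ₗ[ℝ] Fin d → ℝ, MapsTo T S S ∧
      ∀ ξ, T (fun i => eval (τ + ξ) (x i)) = fun i => eval ξ (x i))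
    (hdil : ∀ t : ℝ, 0 < t → ∀ v ∈ S, (fun i => t ^ w i * v i) ∈ S)
    (L : MvPolynomial (Fin m) ℝ →ₗ[ℝ] ℝ) (h1 : L 1 = 1) (hL : ∀ f, f.totalDegree ≤ k → 0 ≤ L (f * f)) :
    (fun i => L (x i)) ∈ S := by
  refine sch_main (D := 2 * k) hS hc x (fun i => (hw i).totalDegree_le.trans (hd i)) hx (fun τ => ?_) L h1 hL
  obtain ⟨T, h2, h3⟩ := htr τ
  let T' := LinearMap.toContinuousLinearMap T
  refine ⟨‖T'‖, fun t ht => ⟨LinearMap.pi fun i => (t⁻¹ ^ w i) • (LinearMap.proj i).comp T,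
    fun v hv => hdil _ (inv_pos.2 ht.1) _ (h2 hv), fun v => ?_, fun ξ => ?_⟩⟩
  · have t0 := ht.1
    refine (pi_norm_le_iff_of_nonneg (by positivity)).2 fun i => ?_
    change ‖t⁻¹ ^ w i * T v i‖ ≤ _
    rw [norm_mul, Real.norm_of_nonneg (by positivity), div_eq_inv_mul, mul_assoc, ← inv_pow]
    exact mul_le_mul (pow_le_pow_right₀ (one_le_inv_iff₀.2 ⟨t0, ht.2⟩) (hd i))
      ((norm_le_pi_norm _ i).trans (T'.le_opNorm v)) (norm_nonneg _) (by positivity)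
  · funext i
    change t⁻¹ ^ w i * T _ i = _
    rw [congrFun (h3 _) i, sch_hom (hw i), ← mul_assoc, ← mul_pow, inv_mul_cancel₀ ht.1.ne', one_pow, one_mul]

end Crest.Agent.R237.S63
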