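import Mathlib

/-! Row 237: tools for the Scheiderer lemma (a Finsler type lemma, a Taylor homomorphism of `ℝ`). -/

set_option autoImplicit false

namespace Crest.Agent.R237

theorem finsler {V : Type*} [AddCommGroup V] [Module ℝ V] (W : Submodule ℝ V) [FiniteDimensional ℝ W]
    (B1 B2 B3 : V →ₗ[ℝ] V →ₗ[ℝ] ℝ) (h2 : ∀ v, 0 ≤ B2 v v) (h3 : ∀ v, 0 ≤ B3 v v)
    (h : ∀ v ∈ W, v ≠ 0 → B2 v v = 0 → 0 < B1 v v) :
    ∃ c : ℝ, 0 < c ∧ ∀ v ∈ W, v ≠ 0 → B3 v v < c * (B1 v v + c * B2 v v) := by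
  let e := (Module.finBasis ℝ W).equivFun
  let φ : (Fin (Module.finrank ℝ W) → ℝ) →ₗ[ℝ] V := W.subtype ∘ₗ e.symm.toLinearMap
  have hc : ∀ B : V →ₗ[ℝ] V →ₗ[ℝ] ℝ, Continuous fun y => B (φ y) (φ y) := fun B => by
    have a := (IsModuleTopology.continuous_bilinear_of_finite_left (B.compl₁₂ φ φ)).comp
      (continuous_id.prodMk continuous_id)
    simpa only [Function.comp_def, LinearMap.compl₁₂_apply, id] using a
  have mono : ∀ (v : V) (c c' : ℝ), 0 < c → c ≤ c' → B3 v v < c * (B1 v v + c * B2 v v) →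
      B3 v v < c' * (B1 v v + c' * B2 v v) := fun v c c' a1 a2 a3 => by
    have b1 : 0 < B1 v v + c * B2 v v := pos_of_mul_pos_left ((h3 v).trans_lt a3 |>.trans_eq (mul_comm _ _)) a1.le
    have b2 := mul_le_mul_of_nonneg_right a2 (h2 v)
    exact a3.trans_le (mul_le_mul a2 (by linarith) b1.le (by linarith))
  obtain ⟨n, hn⟩ := (isCompact_sphere (0 : Fin (Module.finrank ℝ W) → ℝ) 1).elim_directed_cover
    (fun n : ℕ => {y | B3 (φ y) (φ y) < (n + 1) * (B1 (φ y) (φ y) + (n + 1) * B2 (φ y) (φ y))})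
    (fun n => isOpen_lt (hc B3) (continuous_const.mul ((hc B1).add (continuous_const.mul (hc B2)))))
    (fun y hy => by
      have a1 : φ y ≠ 0 := fun a => by
        have : y = 0 := e.symm.injective (Subtype.ext (by simpa [φ] using a))
        simp [this] at hy
      obtain ⟨c, b1, b2⟩ : ∃ c : ℝ, 0 < c ∧ 0 < B1 (φ y) (φ y) + c * B2 (φ y) (φ y) := by
        rcases (h2 (φ y)).eq_or_lt with a | a
        · exact ⟨1, one_pos, by have := h _ (e.symm y).2 a1 a.symm; change 0 < B1 (φ y) (φ y) at this; linarith⟩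
        · refine ⟨(|B1 (φ y) (φ y)| + 1) / B2 (φ y) (φ y), by positivity, ?_⟩
          rw [div_mul_cancel₀ _ a.ne']
          linarith [neg_abs_le (B1 (φ y) (φ y))]
      obtain ⟨n, hn⟩ := exists_nat_gt (c + B3 (φ y) (φ y) / (B1 (φ y) (φ y) + c * B2 (φ y) (φ y)))
      have b3 := div_nonneg (h3 (φ y)) b2.le
      have b4 := (div_lt_iff₀ b2).1 (by linarith :
        B3 (φ y) (φ y) / (B1 (φ y) (φ y) + c * B2 (φ y) (φ y)) < n + 1)
      have b5 := mul_le_mul_of_nonneg_right (by linarith : c ≤ n + 1) (h2 (φ y))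
      exact Set.mem_iUnion.2 ⟨n, b4.trans_le (mul_le_mul_of_nonneg_left (by linarith) (by positivity))⟩)
    (directed_of_isDirected_le fun a b hab y hy => mono _ _ _ (by positivity)
      (by have : (a : ℝ) ≤ b := by exact_mod_cast hab
          linarith) hy)
  refine ⟨n + 1, by positivity, fun v hv h0 => ?_⟩
  have a1 : e ⟨v, hv⟩ ≠ 0 := fun a => h0 (by simpa using a)
  have a2 : 0 < ‖e ⟨v, hv⟩‖⁻¹ := inv_pos.2 (norm_pos_iff.2 a1)
  have a3 := hn (show ‖e ⟨v, hv⟩‖⁻¹ • e ⟨v, hv⟩ ∈ Metric.sphere 0 1 by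
    simp [norm_smul, inv_mul_cancel₀ (norm_ne_zero_iff.2 a1)])
  have a4 : φ (e ⟨v, hv⟩) = v := by simp [φ]
  simp only [Set.mem_ofPred_eq, map_smul, a4, LinearMap.smul_apply, smul_eq_mul] at a3
  refine lt_of_mul_lt_mul_left ?_ (mul_pos a2 a2).le
  linarith

theorem lift_aux {R A S : Type} [CommRing R] [CommRing A] [CommRing S] [Algebra R A]
    [Algebra.FormallySmooth R A] (I : Ideal S) [IsAdicComplete I S] (φ : R →+* S) (f : A →+* S ⧸ I)
    (h : ∀ r, f (algebraMap R A r) = Ideal.Quotient.mk I (φ r)) :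
    ∃ g : A →+* S, ∀ r, g (algebraMap R A r) = φ r := by
  let := φ.toAlgebra
  obtain ⟨g, -⟩ := Algebra.FormallySmooth.exists_mkₐ_comp_eq_of_isAdicComplete (R := R) (A := A) (I := I) ⟨f, h⟩
  exact ⟨g, g.commutes⟩

open scoped IntermediateField.algebraAdjoinAdjoin in
/-- a ring homomorphism `ℝ → ℝ⟦s⟧` fixing countably many numbers and moving a generic point `ξ` to `ξ + s` -/
theorem exists_taylor (σ : Type) [Finite σ] (S : Set ℝ) (hS : S.Countable) :
    ∃ (ξ : σ → ℝ) (T : ℝ →+* MvPowerSeries σ ℝ), (∀ c ∈ S, T c = MvPowerSeries.C c) ∧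
      ∀ i, T (ξ i) = MvPowerSeries.C (ξ i) + MvPowerSeries.X i := by
  let k := Subfield.closure S
  obtain ⟨s, hs⟩ := exists_isTranscendenceBasis k ℝ
  let v : s → ℝ := (↑)
  have := hs.isAlgebraic_field
  have : Infinite s := by
    by_contra hf
    rw [not_infinite_iff_finite] at hf
    have a1 : Cardinal.mk k ≤ Cardinal.aleph0 := (Subfield.cardinalMk_closure_le_max S).trans
      (max_le (Cardinal.le_aleph0_iff_set_countable.2 hS) le_rfl)
    have a2 : Cardinal.mk (IntermediateField.adjoin k (Set.range v)) ≤ Cardinal.aleph0 :=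
      (IntermediateField.cardinalMk_adjoin_le k (Set.range v)).trans (max_le (max_le a1
        (Cardinal.le_aleph0_iff_set_countable.2 (Set.countable_range v))) le_rfl)
    have a3 := (Algebra.IsAlgebraic.cardinalMk_le_max (IntermediateField.adjoin k (Set.range v)) ℝ).trans
      (max_le a2 le_rfl)
    rw [Cardinal.mk_real] at a3
    exact absurd a3 (not_le.2 Cardinal.aleph0_lt_continuum)
  obtain ⟨e⟩ : Nonempty (σ ↪ s) := by
    obtain ⟨f, hf⟩ := exists_injective_nat σ
    exact ⟨(Function.Embedding.mk f hf).trans (Infinite.natEmbedding s)⟩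
  have : Algebra.FormallySmooth (Algebra.adjoin k (Set.range v)) ℝ := by
    have : Algebra.FormallySmooth (Algebra.adjoin k (Set.range v)) (IntermediateField.adjoin k (Set.range v)) :=
      .of_isLocalization (nonZeroDivisors _)
    have : Algebra.FormallyEtale (IntermediateField.adjoin k (Set.range v)) ℝ :=
      Algebra.FormallyEtale.of_isSeparable _ ℝ
    exact .comp _ (IntermediateField.adjoin k (Set.range v)) _
  let φ : MvPolynomial s k →+* MvPowerSeries σ ℝ := MvPolynomial.eval₂Hom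
    ((MvPowerSeries.C (σ := σ) (R := ℝ)).comp k.subtype)
    fun b => MvPowerSeries.C (b : ℝ) + Function.extend e MvPowerSeries.X 0 b
  let E := hs.1.aevalEquiv
  have hE : ∀ p, algebraMap (Algebra.adjoin k (Set.range v)) ℝ (E p) = MvPolynomial.aeval v p := fun p =>
    hs.1.algebraMap_aevalEquiv p
  obtain ⟨T, hT⟩ := lift_aux (A := ℝ) (Ideal.span (Set.range (MvPowerSeries.X : σ → MvPowerSeries σ ℝ)))
    (φ.comp E.symm.toRingHom) ((Ideal.Quotient.mk _).comp MvPowerSeries.C) fun r => by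
      obtain ⟨p, rfl⟩ := E.surjective r
      rw [hE]
      have : ((Ideal.Quotient.mk (Ideal.span (Set.range (MvPowerSeries.X : σ → MvPowerSeries σ ℝ)))).comp
          MvPowerSeries.C).comp (MvPolynomial.aeval v : MvPolynomial s k →ₐ[k] ℝ).toRingHom =
          (Ideal.Quotient.mk _).comp φ := by
        refine MvPolynomial.ringHom_ext (fun c => by simp [φ]; rfl) fun b => ?_
        have : (Function.extend e MvPowerSeries.X 0 b : MvPowerSeries σ ℝ) ∈
            Ideal.span (Set.range MvPowerSeries.X) := by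
          by_cases hb : ∃ i, e i = b
          · obtain ⟨i, rfl⟩ := hb
            rw [e.injective.extend_apply]
            exact Ideal.subset_span ⟨i, rfl⟩
          · rw [Function.extend_apply' _ _ _ hb]
            exact zero_mem _
        simp [φ, v, Ideal.Quotient.eq_zero_iff_mem.2 this]
      refine (RingHom.congr_fun this p).trans ?_
      simp
  have hT' : ∀ p, T (MvPolynomial.aeval v p) = φ p := fun p => by
    rw [← hE, hT]
    simp
  refine ⟨fun i => e i, T, fun c hc => ?_, fun i => ?_⟩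
  · have := hT' (MvPolynomial.C ⟨c, Subfield.subset_closure hc⟩)
    simp only [φ, MvPolynomial.aeval_C, MvPolynomial.coe_eval₂Hom, MvPolynomial.eval₂_C] at this
    exact this
  · simpa [φ, v, e.injective.extend_apply] using hT' (MvPolynomial.X (e i))

end Crest.Agent.R237
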