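import Crest.Agent.R237.SchA

/-! Row 237: positive functionals on finite-dimensional spaces of power series. -/

set_option autoImplicit false
open MvPolynomial

namespace Crest.Agent.R237

variable {σ : Type}

theorem tdeg_le {q : MvPolynomial σ ℝ} {n : ℕ} :
    q.totalDegree ≤ n ↔ ∀ α : σ →₀ ℕ, n < α.degree → coeff α q = 0 := by
  refine ⟨fun h α hα => coeff_eq_zero_of_totalDegree_lt (h.trans_lt hα), fun h => Finset.sup_le fun α hα => ?_⟩
  by_contra hn
  exact mem_support_iff.1 hα (h α (not_le.1 hn))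

theorem tdeg_sub {q : MvPolynomial σ ℝ} {j : ℕ} (h : q.totalDegree ≤ j + 1) :
    (q - homogeneousComponent (j + 1) q).totalDegree ≤ j := by
  refine tdeg_le.2 fun α hα => ?_
  rw [coeff_sub, coeff_homogeneousComponent]
  split_ifs with e
  · exact sub_self _
  · rw [tdeg_le.1 h α (by omega), sub_self]

theorem hc_sq {q : MvPolynomial σ ℝ} {j : ℕ} (h : q.totalDegree ≤ j + 1) :
    homogeneousComponent (2 * j + 2) (q * q) =
      homogeneousComponent (j + 1) q * homogeneousComponent (j + 1) q := by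
  have a1 := tdeg_sub h
  have a2 := homogeneousComponent_isHomogeneous (j + 1) q
  generalize homogeneousComponent (j + 1) q = b at a1 a2
  have e : q * q = (q - b) * q + (q - b) * b + b * b := by ring
  have a3 := totalDegree_mul (q - b) q
  have a4 := totalDegree_mul (q - b) b
  have a5 := a2.totalDegree_le
  rw [e, map_add, map_add, homogeneousComponent_eq_zero _ _ (by omega), homogeneousComponent_eq_zero _ _ (by omega),
    zero_add, zero_add]
  exact homogeneousComponent_eq_self (by convert a2.mul a2 using 1; ring)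

/-- a strictly positive functional on squares of degree `≤ j` extends to degree `j + 1` -/
theorem extend_succ [Finite σ] (j : ℕ) (L : MvPolynomial σ ℝ →ₗ[ℝ] ℝ)
    (hL : ∀ q, q ≠ 0 → q.totalDegree ≤ j → 0 < L (q * q)) :
    ∃ L' : MvPolynomial σ ℝ →ₗ[ℝ] ℝ, (∀ p, p.totalDegree ≤ 2 * j → L' p = L p) ∧
      ∀ q, q ≠ 0 → q.totalDegree ≤ j + 1 → 0 < L' (q * q) := by
  classical
  have := Fintype.ofFinite σ
  let S : Finset ℝ := (Finset.range (j + 2)).image (↑)
  let G : MvPolynomial σ ℝ →ₗ[ℝ] ℝ := ∑ ξ ∈ Fintype.piFinset fun _ : σ => S, (aeval ξ).toLinearMap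
  have hG : ∀ q, G (q * q) = ∑ ξ ∈ Fintype.piFinset fun _ : σ => S, eval ξ q ^ 2 := fun q => by
    simp [G, sq, aeval_eq_eval]
  obtain ⟨c, hc, h⟩ := finsler (restrictTotalDegree σ ℝ (j + 1)) ((LinearMap.mul ℝ _).compr₂ L)
    (((LinearMap.mul ℝ _).compr₂ G).compl₁₂ (homogeneousComponent (j + 1)) (homogeneousComponent (j + 1))) 0
    (fun q => by
      simp only [LinearMap.compl₁₂_apply, LinearMap.compr₂_apply, LinearMap.mul_apply', hG]
      positivity) (fun q => le_rfl) fun q hq h0 h1 => by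
      simp only [LinearMap.compl₁₂_apply, LinearMap.compr₂_apply, LinearMap.mul_apply', hG] at h1 ⊢
      rw [Finset.sum_eq_zero_iff_of_nonneg fun _ _ => sq_nonneg _] at h1
      have a1 : homogeneousComponent (j + 1) q = 0 := by
        refine eq_zero_of_eval_zero_at_prod_finset _ (fun _ => S) (fun i => ?_) fun ξ hξ =>
          pow_eq_zero_iff two_ne_zero |>.1 (h1 ξ (Fintype.mem_piFinset.2 hξ))
        rw [Finset.card_image_of_injective _ Nat.cast_injective, Finset.card_range]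
        exact Nat.lt_succ_of_le ((degreeOf_le_totalDegree _ i).trans
          (homogeneousComponent_isHomogeneous _ _).totalDegree_le)
      have a2 := tdeg_sub ((mem_restrictTotalDegree _ _ _).1 hq)
      rw [a1, sub_zero] at a2
      exact hL q h0 a2
  refine ⟨L + c • G ∘ₗ homogeneousComponent (2 * j + 2), fun p hp => ?_, fun q h0 hq => ?_⟩
  · simp [homogeneousComponent_eq_zero _ _ (by omega : p.totalDegree < 2 * j + 2)]
  · have a := h q ((mem_restrictTotalDegree _ _ _).2 hq) h0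
    simp only [LinearMap.compl₁₂_apply, LinearMap.compr₂_apply, LinearMap.mul_apply', LinearMap.zero_apply] at a
    simp only [LinearMap.add_apply, LinearMap.smul_apply, LinearMap.comp_apply, hc_sq hq, smul_eq_mul]
    exact pos_of_mul_pos_left (a.trans_eq (mul_comm _ _)) hc.le

theorem extend_le [Finite σ] {n j : ℕ} (h : n ≤ j) (L : MvPolynomial σ ℝ →ₗ[ℝ] ℝ)
    (hL : ∀ q, q ≠ 0 → q.totalDegree ≤ n → 0 < L (q * q)) :
    ∃ L' : MvPolynomial σ ℝ →ₗ[ℝ] ℝ, (∀ p, p.totalDegree ≤ 2 * n → L' p = L p) ∧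
      ∀ q, q ≠ 0 → q.totalDegree ≤ j → 0 < L' (q * q) := by
  induction j, h using Nat.le_induction with
  | base => exact ⟨L, fun _ _ => rfl, hL⟩
  | succ j hj ih =>
    obtain ⟨L1, a1, a2⟩ := ih
    obtain ⟨L2, b1, b2⟩ := extend_succ j L1 a2
    exact ⟨L2, fun p hp => (b1 p (by omega)).trans (a1 p hp), b2⟩

/-- truncation is injective on a finite-dimensional space of power series -/
theorem exists_trunc [Finite σ] (U : Submodule ℝ (MvPowerSeries σ ℝ)) [FiniteDimensional ℝ U] (n : ℕ) :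
    ∃ j, n ≤ j ∧ ∀ g ∈ U, (∀ α : σ →₀ ℕ, α.degree ≤ j → MvPowerSeries.coeff α g = 0) → g = 0 := by
  have hm : ∀ (j : ℕ) (g : U), g ∈ LinearMap.ker (MvPowerSeries.truncTotal (j + 1) ∘ₗ U.subtype) ↔
      ∀ α : σ →₀ ℕ, α.degree ≤ j → MvPowerSeries.coeff α (g : MvPowerSeries σ ℝ) = 0 := fun j g => by
    simp only [LinearMap.mem_ker, LinearMap.comp_apply, Submodule.subtype_apply, MvPolynomial.ext_iff,
      MvPowerSeries.coeff_truncTotal_eq_ite, coeff_zero, ite_eq_right_iff, Nat.lt_succ_iff]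
  obtain ⟨j, hj⟩ := IsArtinian.monotone_stabilizes (R := ℝ) (M := U)
    ⟨fun j => OrderDual.toDual (LinearMap.ker (MvPowerSeries.truncTotal (j + 1) ∘ₗ U.subtype)),
      fun a b hab g hg => (hm a g).2 fun α hα => (hm b g).1 hg α (hα.trans hab)⟩
  refine ⟨max j n, le_max_right _ _, fun g hg h => MvPowerSeries.ext fun α => ?_⟩
  have a1 := (hm j ⟨g, hg⟩).2 fun β hβ => h β (hβ.trans (le_max_left _ _))
  have a2 : LinearMap.ker (MvPowerSeries.truncTotal (j + 1) ∘ₗ U.subtype) =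
    LinearMap.ker (MvPowerSeries.truncTotal (max j α.degree + 1) ∘ₗ U.subtype) := hj _ (le_max_left _ _)
  rw [a2] at a1
  exact (hm _ _).1 a1 α (le_max_right _ _)

/-- sum of products of coefficients -/
noncomputable def sq (s : Finset (σ →₀ ℕ)) : MvPowerSeries σ ℝ →ₗ[ℝ] MvPowerSeries σ ℝ →ₗ[ℝ] ℝ :=
  ∑ α ∈ s, (LinearMap.mul ℝ ℝ).compl₁₂ (MvPowerSeries.coeff α) (MvPowerSeries.coeff α)

theorem sq_apply (s : Finset (σ →₀ ℕ)) (g : MvPowerSeries σ ℝ) :
    sq s g g = ∑ α ∈ s, MvPowerSeries.coeff α g ^ 2 := by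
  simp [sq, LinearMap.sum_apply, pow_two]

theorem sq_nonneg' (s : Finset (σ →₀ ℕ)) (g : MvPowerSeries σ ℝ) : 0 ≤ sq s g g := by
  rw [sq_apply]; positivity

theorem sq_zero {s : Finset (σ →₀ ℕ)} {g : MvPowerSeries σ ℝ} (h : sq s g g = 0) {α : σ →₀ ℕ} (hα : α ∈ s) :
    MvPowerSeries.coeff α g = 0 := by
  rw [sq_apply, Finset.sum_eq_zero_iff_of_nonneg fun _ _ => sq_nonneg _] at h
  exact (pow_eq_zero_iff two_ne_zero).1 (h α hα)

theorem coeff_resc (t : ℝ) (g : MvPowerSeries σ ℝ) (α : σ →₀ ℕ) :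
    MvPowerSeries.coeff α (MvPowerSeries.rescale (fun _ => t) g) = t ^ α.degree * MvPowerSeries.coeff α g := by
  rw [MvPowerSeries.coeff_rescale, Finsupp.prod, Finset.prod_pow_eq_pow_sum]
  rfl

theorem exists_functional [Finite σ] (U : Submodule ℝ (MvPowerSeries σ ℝ)) [FiniteDimensional ℝ U] (n : ℕ)
    (L : MvPolynomial σ ℝ →ₗ[ℝ] ℝ) (hL : ∀ q, q ≠ 0 → q.totalDegree ≤ n → 0 < L (q * q)) :
    ∃ (Λ : MvPowerSeries σ ℝ →ₗ[ℝ] ℝ) (t0 : ℝ), 0 < t0 ∧
      (∀ p : MvPolynomial σ ℝ, p.totalDegree ≤ 2 * n → Λ p = L p) ∧ ∀ t, 0 < t → t ≤ t0 → ∀ g ∈ U,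
        0 ≤ Λ (MvPowerSeries.rescale (fun _ => t) g * MvPowerSeries.rescale (fun _ => t) g) := by
  classical
  obtain ⟨j, hj, hU⟩ := exists_trunc U n
  obtain ⟨L', a1, a2⟩ := extend_le hj L hL
  let I : Finset (σ →₀ ℕ) := (Finsupp.finite_of_degree_le j).toFinset
  let J : Finset (σ →₀ ℕ) := (Finsupp.finite_of_degree_le (2 * j)).toFinset \ I
  have hI : ∀ α, α ∈ I ↔ α.degree ≤ j := fun α => by simp [I]
  have hJ : ∀ α, α ∈ J ↔ α.degree ≤ 2 * j ∧ j < α.degree := fun α => by simp [J, hI]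
  let Λ : MvPowerSeries σ ℝ →ₗ[ℝ] ℝ := L' ∘ₗ MvPowerSeries.truncTotal (2 * j + 1)
  have hΛ : ∀ p : MvPolynomial σ ℝ, p.totalDegree ≤ 2 * j → Λ p = L' p := fun p hp => by
    simp only [Λ, LinearMap.comp_apply]
    rw [(MvPowerSeries.truncTotal_coe_eq_self_iff p (by omega)).2 (by omega)]
  let ι : MvPolynomial σ ℝ →ₗ[ℝ] MvPowerSeries σ ℝ := (coeToMvPowerSeries.algHom ℝ).toLinearMap
  have hι : ∀ p, ι p = p := fun p => by simp [ι]
  obtain ⟨c, hc, h1⟩ := finsler (restrictTotalDegree σ ℝ (2 * j)) (((LinearMap.mul ℝ _).compr₂ Λ).compl₁₂ ι ι)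
    ((sq J).compl₁₂ ι ι) ((sq I).compl₁₂ ι ι) (fun _ => sq_nonneg' _ _) (fun _ => sq_nonneg' _ _)
    fun q hq h0 h1 => by
      have b1 : q.totalDegree ≤ j := tdeg_le.2 fun α hα => by
        by_cases e : α.degree ≤ 2 * j
        · simpa [hι] using sq_zero h1 ((hJ α).2 ⟨e, hα⟩)
        · exact tdeg_le.1 ((mem_restrictTotalDegree _ _ _).1 hq) α (not_le.1 e)
      have b2 := totalDegree_mul q q
      simp only [LinearMap.compl₁₂_apply, LinearMap.compr₂_apply, LinearMap.mul_apply', hι]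
      rw [← coe_mul, hΛ _ (by omega)]
      exact a2 q h0 b1
  obtain ⟨c', hc', h2⟩ := finsler U 0 (sq I) (sq J) (sq_nonneg' _) (sq_nonneg' _) fun g hg h0 h1 =>
    (h0 (hU g hg fun α hα => sq_zero h1 ((hI α).2 hα))).elim
  refine ⟨Λ, min 1 (c * c')⁻¹, by positivity, fun p hp => (hΛ p (by omega)).trans (a1 p hp), fun t ht ht0 g hg => ?_⟩
  by_cases g0 : g = 0
  · simp [g0]
  have t1 : t ≤ 1 := ht0.trans (min_le_left _ _)
  have t2 : t * (c * c') ≤ 1 := (le_div_iff₀ (by positivity)).1 (by simpa using ht0.trans (min_le_right _ _))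
  have b1 := h2 g hg g0
  simp only [LinearMap.zero_apply, zero_add] at b1
  set f := MvPowerSeries.rescale (fun _ => t) g
  have b2 : sq J f f ≤ (t ^ (j + 1)) ^ 2 * sq J g g := by
    rw [sq_apply, sq_apply, Finset.mul_sum]
    refine Finset.sum_le_sum fun α hα => ?_
    rw [coeff_resc, mul_pow]
    exact mul_le_mul_of_nonneg_right (pow_le_pow_left₀ (by positivity)
      (pow_le_pow_of_le_one ht.le t1 ((hJ α).1 hα).2) 2) (sq_nonneg _)
  have b3 : (t ^ j) ^ 2 * sq I g g ≤ sq I f f := by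
    rw [sq_apply, sq_apply, Finset.mul_sum]
    refine Finset.sum_le_sum fun α hα => ?_
    rw [coeff_resc, mul_pow]
    exact mul_le_mul_of_nonneg_right (pow_le_pow_left₀ (by positivity)
      (pow_le_pow_of_le_one ht.le t1 ((hI α).1 hα)) 2) (sq_nonneg _)
  have b4 : c * (c * sq J f f) ≤ sq I f f := by
    have d1 := sq_nonneg' I g
    calc c * (c * sq J f f) ≤ c * (c * ((t ^ (j + 1)) ^ 2 * (c' * (c' * sq I g g)))) := by
          gcongr
          exact b2.trans (mul_le_mul_of_nonneg_left b1.le (by positivity))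
      _ = (t * (c * c')) ^ 2 * ((t ^ j) ^ 2 * sq I g g) := by ring
      _ ≤ 1 * sq I f f := mul_le_mul (pow_le_one₀ (by positivity) t2) b3 (by positivity) zero_le_one
      _ = _ := one_mul _
  set b := MvPowerSeries.truncTotal (2 * j + 1) f
  have e1 : Λ (f * f) = Λ ((b : MvPowerSeries σ ℝ) * b) := by
    simp only [Λ, LinearMap.comp_apply]
    congr 1
    ext α
    rw [MvPowerSeries.coeff_truncTotal_eq_ite, MvPowerSeries.coeff_truncTotal_eq_ite]
    split_ifs with e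
    · rw [← coe_mul, coeff_coe, MvPowerSeries.coeff_truncTotal_mul_truncTotal_eq_coeff_mul _ _ e]
    · rfl
  have e2 : ∀ s : Finset (σ →₀ ℕ), (∀ α ∈ s, α.degree ≤ 2 * j) → sq s (b : MvPowerSeries σ ℝ) b = sq s f f :=
    fun s hs => by
      rw [sq_apply, sq_apply]
      exact Finset.sum_congr rfl fun α hα => by
        rw [coeff_coe, MvPowerSeries.coeff_truncTotal _ (Nat.lt_succ_of_le (hs α hα))]
  rw [e1]
  by_cases b0 : b = 0
  · simp [b0]
  have b5 := h1 b ((mem_restrictTotalDegree _ _ _).2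
    (Nat.le_of_lt_succ (MvPowerSeries.totalDegree_truncTotal_lt _ (by omega)))) b0
  simp only [LinearMap.compl₁₂_apply, LinearMap.compr₂_apply, LinearMap.mul_apply', hι] at b5
  rw [e2 I fun α hα => by have := (hI α).1 hα; omega, e2 J fun α hα => ((hJ α).1 hα).1] at b5
  exact (pos_of_mul_pos_left (by linarith : 0 < Λ ((b : MvPowerSeries σ ℝ) * b) * c) hc.le).le

end Crest.Agent.R237
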