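import Mathlib

/-!
# R237/SchLift: infinitesimal deformations of a generic point (helper63)
-/

set_option autoImplicit false

namespace Crest.Agent.R237.S63

open Cardinal
open scoped IntermediateField.algebraAdjoinAdjoin

theorem sch_infinite (F : Subfield ℝ) (hF : #F ≤ ℵ₀) {B : Set ℝ}
    (hB : IsTranscendenceBasis F (Subtype.val : B → ℝ)) : Infinite B := by
  by_contra h
  rw [not_infinite_iff_finite] at h
  have h1 := hB.isAlgebraic_field
  have h2 := Algebra.IsAlgebraic.cardinalMk_le_max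
    (IntermediateField.adjoin F (Set.range (Subtype.val : B → ℝ))) ℝ
  have h3 := IntermediateField.cardinalMk_adjoin_le F (Set.range (Subtype.val : B → ℝ))
  have h5 : #ℝ ≤ ℵ₀ := h2.trans (max_le (h3.trans (by simp [hF])) le_rfl)
  rw [mk_real] at h5
  exact absurd h5 (not_le.2 aleph0_lt_continuum)

theorem sch_aux {R₀ A : Type} [CommRing R₀] [Algebra R₀ ℝ] [Algebra.FormallySmooth R₀ ℝ] [CommRing A]
    (ψ : R₀ →+* A) (I : Ideal A) (hI : IsNilpotent I) (g : ℝ →+* A ⧸ I)
    (hg : ∀ r, g (algebraMap R₀ ℝ r) = Ideal.Quotient.mk I (ψ r)) :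
    ∃ f : ℝ →+* A, ∀ r, f (algebraMap R₀ ℝ r) = ψ r := by
  let : Algebra R₀ A := ψ.toAlgebra
  obtain ⟨f, -⟩ := Algebra.FormallySmooth.exists_lift (R := R₀) I hI { g with commutes' := hg }
  exact ⟨f.toRingHom, f.commutes⟩

/-- a ring homomorphism `ℝ → A` which fixes countably many constants and moves a generic point -/
theorem sch_lift {c : Set ℝ} (hc : c.Countable) (m : ℕ) : ∃ τ : Fin m → ℝ,
    ∀ (A : Type) [CommRing A] [Algebra ℝ A] (I : Ideal A), IsNilpotent I → ∀ s : Fin m → A, (∀ i, s i ∈ I) →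
      ∃ φ : ℝ →+* A, (∀ y ∈ c, φ y = algebraMap ℝ A y) ∧ ∀ i, φ (τ i) = algebraMap ℝ A (τ i) + s i := by
  classical
  let F : Subfield ℝ := Subfield.closure c
  have hF : #F ≤ ℵ₀ := (Subfield.cardinalMk_closure_le_max c).trans (max_le hc.le_aleph0 le_rfl)
  obtain ⟨B, hB⟩ := exists_isTranscendenceBasis F ℝ
  have := sch_infinite F hF hB
  let e : Fin m ↪ B := Fin.valEmbedding.trans (Infinite.natEmbedding B)
  refine ⟨fun i => e i, fun A _ _ I hI s hs => ?_⟩
  let s' : B → A := Function.extend e s 0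
  have hs' : ∀ b, s' b ∈ I := fun b => by
    by_cases h : ∃ i, e i = b
    · obtain ⟨i, rfl⟩ := h
      simpa only [s', e.injective.extend_apply] using hs i
    · simp only [s', Function.extend_apply' _ _ _ h]
      exact I.zero_mem
  let R₀ := Algebra.adjoin F (Set.range (Subtype.val : B → ℝ))
  let K := IntermediateField.adjoin F (Set.range (Subtype.val : B → ℝ))
  have h1 : Algebra.IsAlgebraic K ℝ := hB.isAlgebraic_field
  have h2 : Algebra.FormallySmooth R₀ K := .of_isLocalization (nonZeroDivisors _)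
  have h3 : Algebra.FormallyEtale K ℝ := Algebra.FormallyEtale.of_isSeparable _ _
  have h4 : Algebra.FormallySmooth R₀ ℝ := .comp _ K _
  let ψ₀ : MvPolynomial B F →+* A :=
    MvPolynomial.eval₂Hom ((algebraMap ℝ A).comp F.subtype) fun b => algebraMap ℝ A b + s' b
  let ψ : R₀ →+* A := ψ₀.comp hB.1.aevalEquiv.symm.toRingEquiv.toRingHom
  have hψ : ∀ p, ψ (hB.1.aevalEquiv p) = ψ₀ p := fun p => by simp [ψ]
  have key : ((Ideal.Quotient.mk I).comp (algebraMap ℝ A)).comp
      (MvPolynomial.aeval (Subtype.val : B → ℝ) : MvPolynomial B F →ₐ[F] ℝ).toRingHom =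
      (Ideal.Quotient.mk I).comp ψ₀ := by
    refine MvPolynomial.ringHom_ext (fun r => ?_) fun b => ?_
    · simp [ψ₀]; rfl
    · simp [ψ₀, Ideal.Quotient.eq_zero_iff_mem.2 (hs' b)]
  obtain ⟨f, hf0⟩ := sch_aux ψ I hI ((Ideal.Quotient.mk I).comp (algebraMap ℝ A)) fun r => by
    obtain ⟨p, rfl⟩ := hB.1.aevalEquiv.surjective r
    rw [hB.1.algebraMap_aevalEquiv, hψ]
    exact RingHom.congr_fun key p
  have hf : ∀ p, f (MvPolynomial.aeval (Subtype.val : B → ℝ) p) = ψ₀ p := fun p => by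
    rw [← hB.1.algebraMap_aevalEquiv, hf0, hψ]
  refine ⟨f, fun y hy => ?_, fun i => ?_⟩
  · have := hf (MvPolynomial.C ⟨y, Subfield.subset_closure hy⟩)
    rw [MvPolynomial.aeval_C, MvPolynomial.eval₂Hom_C] at this
    exact this
  · have := hf (MvPolynomial.X (e i))
    simpa [ψ₀, s', e.injective.extend_apply] using this

end Crest.Agent.R237.S63
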