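import Mathlib

/-!
# R237/SchMat: facial reduction for linear matrix inequalities (helper63)
-/

set_option autoImplicit false

namespace Crest.Agent.R237.S63

open Matrix
open scoped MatrixOrder

variable {k : ℕ}

theorem sch_fac {M : Matrix (Fin k) (Fin k) ℝ} (h : M.PosSemidef) :
    ∃ R : Matrix (Fin k) (Fin k) ℝ, M = Rᵀ * R := by
  obtain ⟨B, rfl⟩ := CStarAlgebra.nonneg_iff_eq_star_mul_self.mp h.nonneg
  exact ⟨B, by rw [star_eq_conjTranspose, conjTranspose_eq_transpose_of_trivial]⟩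

/-- a convex set of psd matrices has an element with smallest kernel -/
theorem sch_face {X : Type} (M : X → Matrix (Fin k) (Fin k) ℝ) (x₁ : X) (h₁ : (M x₁).PosSemidef)
    (mid : ∀ x y, ∃ z, M z = (1 / 2 : ℝ) • (M x + M y)) :
    ∃ x₀, (M x₀).PosSemidef ∧ ∀ x, (M x).PosSemidef → ∀ w, M x₀ *ᵥ w = 0 → M x *ᵥ w = 0 := by
  obtain ⟨x₀, h0, hmin⟩ := (measure fun x => Module.finrank ℝ (LinearMap.ker (M x).mulVecLin)).wf.has_min
    {x | (M x).PosSemidef} ⟨x₁, h₁⟩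
  refine ⟨x₀, h0, fun x hx w hw => ?_⟩
  obtain ⟨z, hz⟩ := mid x₀ x
  have pz : (M z).PosSemidef := hz ▸ (h0.add hx).smul (by norm_num)
  have key : ∀ v, M z *ᵥ v = 0 → M x₀ *ᵥ v = 0 ∧ M x *ᵥ v = 0 := fun v hv => by
    have a := h0.dotProduct_mulVec_nonneg v
    have b := hx.dotProduct_mulVec_nonneg v
    have c : star v ⬝ᵥ M z *ᵥ v = 0 := by rw [hv, dotProduct_zero]
    rw [hz, smul_mulVec, add_mulVec, dotProduct_smul, dotProduct_add, smul_eq_mul] at c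
    exact ⟨(h0.dotProduct_mulVec_zero_iff v).1 (by linarith), (hx.dotProduct_mulVec_zero_iff v).1 (by linarith)⟩
  have le : LinearMap.ker (M z).mulVecLin ≤ LinearMap.ker (M x₀).mulVecLin := fun v hv => (key v hv).1
  have eq := Submodule.eq_of_le_of_finrank_le le (not_lt.1 (hmin z pz))
  exact (key w (eq.ge hw)).2

/-- small negative parts supported on the range of `M₀` are absorbed by `M₀` -/
theorem sch_abs {M₀ : Matrix (Fin k) (Fin k) ℝ} (h : M₀.PosSemidef) : ∃ κ : ℝ, 0 ≤ κ ∧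
    ∀ (M : Matrix (Fin k) (Fin k) ℝ) (η : ℝ), 0 ≤ η → M.IsSymm → (∀ w, M₀ *ᵥ w = 0 → M *ᵥ w = 0) →
      (∀ w, -(η * ‖w‖ ^ 2) ≤ w ⬝ᵥ M *ᵥ w) → (M + (κ * η) • M₀).PosSemidef := by
  obtain ⟨R, rfl⟩ := sch_fac h
  obtain ⟨g, hg⟩ := R.mulVecLin.rangeRestrict.exists_rightInverse_of_surjective R.mulVecLin.range_rangeRestrict
  let g' := LinearMap.toContinuousLinearMap g
  refine ⟨‖g'‖ ^ 2, sq_nonneg _, fun M η hη hs hk hq => .of_dotProduct_mulVec_nonneg ?_ fun w => ?_⟩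
  · exact (isHermitian_iff_isSymm.2 hs).add (h.smul (by positivity)).isHermitian
  · let y := R.mulVecLin.rangeRestrict w
    have a1 : R *ᵥ g y = R *ᵥ w := congrArg Subtype.val (LinearMap.congr_fun hg y)
    have a2 : M *ᵥ (w - g y) = 0 := hk _ (by rw [← mulVec_mulVec, mulVec_sub, a1, sub_self, mulVec_zero])
    have a3 : M *ᵥ w = M *ᵥ g y := by rwa [mulVec_sub, sub_eq_zero] at a2
    have a4 : w ⬝ᵥ M *ᵥ w = g y ⬝ᵥ M *ᵥ g y := by
      rw [a3, dotProduct_mulVec, ← mulVec_transpose, hs.eq, a3, dotProduct_comm]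
    have a5 : ‖g y‖ ≤ ‖g'‖ * ‖R *ᵥ w‖ := g'.le_opNorm y
    have a6 : w ⬝ᵥ (Rᵀ * R) *ᵥ w = R *ᵥ w ⬝ᵥ R *ᵥ w := by
      rw [← mulVec_mulVec, dotProduct_mulVec, vecMul_transpose]
    have a7 : ‖R *ᵥ w‖ ^ 2 ≤ R *ᵥ w ⬝ᵥ R *ᵥ w := by
      have b0 : 0 ≤ R *ᵥ w ⬝ᵥ R *ᵥ w := Finset.sum_nonneg fun i _ => mul_self_nonneg _
      rw [← Real.le_sqrt (norm_nonneg _) b0, pi_norm_le_iff_of_nonneg (Real.sqrt_nonneg _)]
      intro i
      refine Real.abs_le_sqrt ?_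
      rw [sq]
      exact Finset.single_le_sum (f := fun i => (R *ᵥ w) i * (R *ᵥ w) i) (fun i _ => mul_self_nonneg _)
        (Finset.mem_univ i)
    have a8 : ‖g y‖ ^ 2 ≤ ‖g'‖ ^ 2 * (R *ᵥ w ⬝ᵥ R *ᵥ w) := by
      refine (pow_le_pow_left₀ (norm_nonneg _) a5 2).trans ?_
      rw [mul_pow]
      exact mul_le_mul_of_nonneg_left a7 (sq_nonneg _)
    rw [star_trivial, add_mulVec, smul_mulVec, dotProduct_add, dotProduct_smul, a4, a6, smul_eq_mul]
    nlinarith [hq (g y), mul_le_mul_of_nonneg_left a8 hη]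

theorem sch_quad (E : Fin k × Fin k → ℝ) (w : Fin k → ℝ) :
    ∑ i, ∑ j, w i * w j * E (i, j) ≤ k ^ 2 * ‖E‖ * ‖w‖ ^ 2 := by
  have : ∀ i j, w i * w j * E (i, j) ≤ ‖E‖ * ‖w‖ ^ 2 := fun i j => by
    refine (le_abs_self _).trans ?_
    rw [abs_mul, abs_mul, mul_comm, sq]
    exact mul_le_mul (norm_le_pi_norm E (i, j)) (mul_le_mul (norm_le_pi_norm w i) (norm_le_pi_norm w j)
      (abs_nonneg _) (norm_nonneg _)) (by positivity) (norm_nonneg _)
  refine (Finset.sum_le_sum fun i _ => Finset.sum_le_sum fun j _ => this i j).trans (le_of_eq ?_)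
  simp [sq, mul_assoc]

end Crest.Agent.R237.S63
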