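import Crest.Prelude.Def_Hyperbolic
import Crest.Agent.R237.SchLift
import Crest.Agent.R237.SchMat

/-!
# R237/SchLoc: the local form of Scheiderer's lemma (helper63)
-/

set_option autoImplicit false

namespace Crest.Agent.R237.S63

open Matrix MvPolynomial Set Crest.GeometryTopology.Hyperbolic

variable {m : ℕ}

/-- `p ↦ p (τ + t X)` -/
noncomputable def sh (τ : Fin m → ℝ) (t : ℝ) : MvPolynomial (Fin m) ℝ →ₐ[ℝ] MvPolynomial (Fin m) ℝ :=
  aeval fun i => C (τ i) + C t * X i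

theorem sch_ev (q : Polynomial (MvPolynomial (Fin m) ℝ)) (t : ℝ) :
    q.eval (C t) = ∑ j ∈ Finset.range (q.natDegree + 1), t ^ j • q.coeff j := by
  rw [Polynomial.eval_eq_sum_range]
  exact Finset.sum_congr rfl fun j _ => by rw [smul_eq_C_mul, map_pow, mul_comm]

theorem sch_cont (L : MvPolynomial (Fin m) ℝ →ₗ[ℝ] ℝ) (q : Polynomial (MvPolynomial (Fin m) ℝ)) :
    Continuous fun t : ℝ => L (q.eval (C t)) := by
  simp only [sch_ev, map_sum, map_smul, smul_eq_mul]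
  fun_prop

theorem sch_deg {ι : Type} [Fintype ι] (q : ι → Polynomial (MvPolynomial (Fin m) ℝ)) :
    ∃ n, ∀ i t, (q i).eval (C t) ∈ restrictTotalDegree (Fin m) ℝ n := by
  refine ⟨Finset.univ.sup fun i => (Finset.range ((q i).natDegree + 1)).sup fun j => ((q i).coeff j).totalDegree,
    fun i t => ?_⟩
  rw [sch_ev]
  refine Submodule.sum_mem _ fun j hj => Submodule.smul_mem _ _ ((mem_restrictTotalDegree _ _ _).2 ?_)
  exact (Finset.le_sup (f := fun j => ((q i).coeff j).totalDegree) hj).trans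
    (Finset.le_sup (f := fun i => (Finset.range ((q i).natDegree + 1)).sup fun j => ((q i).coeff j).totalDegree)
      (Finset.mem_univ i))

theorem sch_bdd {ι : Type} [Fintype ι] (L : MvPolynomial (Fin m) ℝ →ₗ[ℝ] ℝ)
    (q : ι → Polynomial (MvPolynomial (Fin m) ℝ)) :
    ∃ C₀ : ℝ, 0 ≤ C₀ ∧ ∀ t ∈ Ioc (0 : ℝ) 1, ‖fun i => L ((q i).eval (C t))‖ ≤ C₀ := by
  obtain ⟨C₀, h⟩ := (isCompact_Icc (a := (0 : ℝ)) (b := 1)).exists_bound_of_continuousOn
    (continuous_pi fun i => sch_cont L (q i)).continuousOn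
  exact ⟨C₀, (norm_nonneg _).trans (h 0 (by simp)), fun t ht => h t (Ioc_subset_Icc_self ht)⟩

theorem sch_sum {k : ℕ} (L : MvPolynomial (Fin m) ℝ →ₗ[ℝ] ℝ) (ρ : Fin k → Fin k → MvPolynomial (Fin m) ℝ)
    (w : Fin k → ℝ) : ∑ c, L ((∑ i, w i • ρ c i) * ∑ i, w i • ρ c i) =
      ∑ i, ∑ j, w i * w j * ∑ c, L (ρ c i * ρ c j) := by
  simp only [Finset.sum_mul_sum, smul_mul_smul_comm, map_sum, map_smul, smul_eq_mul]
  rw [Finset.sum_comm]
  refine Finset.sum_congr rfl fun i _ => ?_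
  rw [Finset.sum_comm]
  exact Finset.sum_congr rfl fun j _ => (Finset.mul_sum _ _ _).symm

/-- the deformation and the functionals `Λ t` -/
theorem sch_def {c : Set ℝ} (hc : c.Countable) (m N : ℕ) : ∃ (τ : Fin m → ℝ) (r : ℝ → Polynomial (MvPolynomial (Fin m) ℝ)),
    ∀ L : MvPolynomial (Fin m) ℝ →ₗ[ℝ] ℝ, L 1 = 1 → ∃ Λ : ℝ → ℝ →+ ℝ,
      (∀ t, ∀ y ∈ c, Λ t y = y ∧ ∀ z, Λ t (z * y) = Λ t z * y) ∧
      (∀ y z, ∃ q : Polynomial (MvPolynomial (Fin m) ℝ), ∀ t,
        Λ t (y * z) = L ((r y).eval (C t) * (r z).eval (C t)) - t ^ N * L (q.eval (C t))) ∧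
      ∀ p : MvPolynomial (Fin m) ℝ, (∀ d, coeff d p ∈ c) → ∃ q : Polynomial (MvPolynomial (Fin m) ℝ), ∀ t,
        Λ t (eval τ p) = L (sh τ t p) - t ^ N * L (q.eval (C t)) := by
  obtain ⟨τ, hτ⟩ := sch_lift hc m
  let g : Polynomial (MvPolynomial (Fin m) ℝ) := Polynomial.X ^ (N + 1)
  have hg : g.Monic := Polynomial.monic_X_pow _
  have hI : IsNilpotent (Ideal.span {AdjoinRoot.root g}) := ⟨N + 1, by
    rw [Ideal.span_singleton_pow, ← AdjoinRoot.mk_X, ← map_pow, AdjoinRoot.mk_self]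
    simp⟩
  obtain ⟨φ, h1, h2⟩ := hτ (AdjoinRoot g) _ hI (fun i => AdjoinRoot.root g * AdjoinRoot.of g (X i))
    fun i => Ideal.mul_mem_right _ _ (Ideal.mem_span_singleton_self _)
  choose r hr using fun y => AdjoinRoot.mk_surjective (g := g) (φ y)
  refine ⟨τ, r, fun L hL => ?_⟩
  let Λ : ℝ → AdjoinRoot g →ₗ[ℝ] ℝ := fun t =>
    L.comp (((Polynomial.leval (C t)).comp (AdjoinRoot.modByMonicHom hg)).restrictScalars ℝ)
  have err : ∀ f t, Λ t (AdjoinRoot.mk g f) =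
      L (f.eval (C t)) - t ^ N * L ((Polynomial.X * (f /ₘ g)).eval (C t)) := fun f t => by
    change L ((f %ₘ g).eval (C t)) = _
    have : (g * (f /ₘ g)).eval (C t) = t ^ N • (Polynomial.X * (f /ₘ g)).eval (C t) := by
      simp [g, smul_eq_C_mul, pow_succ, mul_assoc]
    rw [Polynomial.modByMonic_eq_sub_mul_div, Polynomial.eval_sub, map_sub, this, map_smul, smul_eq_mul]
  have one : ∀ t, Λ t 1 = 1 := fun t => by
    have : (1 : Polynomial (MvPolynomial (Fin m) ℝ)) %ₘ g = 1 :=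
      (Polynomial.modByMonic_eq_self_iff hg).2 (by simp [g]; exact_mod_cast Nat.succ_pos N)
    change L ((1 %ₘ g).eval (C t)) = _
    rw [this, Polynomial.eval_one, hL]
  refine ⟨fun t => (Λ t).toAddMonoidHom.comp φ.toAddMonoidHom, fun t y hy => ⟨?_, fun z => ?_⟩, fun y z => ?_,
    fun p hp => ?_⟩
  · change Λ t (φ y) = y
    rw [h1 y hy, Algebra.algebraMap_eq_smul_one, map_smul, one, smul_eq_mul, mul_one]
  · change Λ t (φ (z * y)) = Λ t (φ z) * y
    rw [map_mul, h1 y hy, mul_comm, ← Algebra.smul_def, map_smul, smul_eq_mul, mul_comm]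
  · refine ⟨Polynomial.X * ((r y * r z) /ₘ g), fun t => ?_⟩
    change Λ t (φ (y * z)) = _
    rw [map_mul, ← hr y, ← hr z, ← map_mul, err, Polynomial.eval_mul]
  · let f : Polynomial (MvPolynomial (Fin m) ℝ) :=
      aeval (fun i => Polynomial.C (C (τ i)) + Polynomial.X * Polynomial.C (X i)) p
    have e1 : φ (eval τ p) = AdjoinRoot.mk g f := by
      simp only [f, eval_eq, aeval_def, eval₂_eq, map_sum, map_mul, map_prod, map_pow, map_add, h2, h1 _ (hp _)]
      rfl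
    have e2 : ∀ t, f.eval (C t) = sh τ t p := fun t => by
      simp only [f, sh, aeval_def, eval₂_eq, Polynomial.eval_finsetSum, Polynomial.eval_mul, Polynomial.eval_prod,
        Polynomial.eval_pow, Polynomial.eval_add, Polynomial.eval_C, Polynomial.eval_X,
        Polynomial.algebraMap_apply]
    refine ⟨Polynomial.X * (f /ₘ g), fun t => ?_⟩
    change Λ t (φ (eval τ p)) = _
    rw [e1, err, e2]

theorem sch_loc {d : ℕ} {S : Set (Fin d → ℝ)} (hS : IsSpectrahedralShadow S) (x : Fin d → MvPolynomial (Fin m) ℝ)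
    (hx : ∀ ξ, (fun i => eval ξ (x i)) ∈ S) (N : ℕ) : ∃ (τ : Fin m → ℝ) (n : ℕ),
      ∀ L : MvPolynomial (Fin m) ℝ →ₗ[ℝ] ℝ, L 1 = 1 → (∀ f, f.totalDegree ≤ n → 0 ≤ L (f * f)) →
        ∃ C₀ : ℝ, ∀ t ∈ Ioc (0 : ℝ) 1, ∃ y ∈ S, ‖y - fun i => L (sh τ t (x i))‖ ≤ C₀ * t ^ N := by
  obtain ⟨k, a, A₀, A, B, -, -, -, rfl⟩ := hS
  let M : (Fin d → ℝ) × (Fin a → ℝ) → Matrix (Fin k) (Fin k) ℝ := fun p => A₀ + ∑ i, p.1 i • A i + ∑ j, p.2 j • B j
  have cvx : ∀ (ε : ℝ) p q, M ((1 - ε) • p + ε • q) = (1 - ε) • M p + ε • M q := fun ε p q => by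
    simp only [M, Prod.fst_add, Prod.snd_add, Prod.smul_fst, Prod.smul_snd, Pi.add_apply, Pi.smul_apply, smul_eq_mul,
      add_smul, mul_smul, Finset.sum_add_distrib, ← Finset.smul_sum]
    module
  obtain ⟨u₁, hu₁⟩ := hx 0
  obtain ⟨p₀, h₀, hker⟩ := sch_face M (_, u₁) hu₁ fun p q => ⟨_, (cvx (1 / 2) p q).trans (by module)⟩
  obtain ⟨κ, κ0, hκ⟩ := sch_abs h₀
  obtain ⟨ρ, s, hs⟩ := Submodule.fg_iff_exists_fin_generating_family.1
    (IsNoetherian.noetherian (LinearMap.ker (M p₀).mulVecLin))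
  obtain ⟨τ, r, hτ⟩ := sch_def (c := range (fun p : Fin k × Fin k => A₀ p.1 p.2) ∪
    range (fun p : Fin d × Fin k × Fin k => A p.1 p.2.1 p.2.2) ∪
    range (fun p : Fin a × Fin k × Fin k => B p.1 p.2.1 p.2.2) ∪
    range (fun p : Fin d × (Fin m →₀ ℕ) => coeff p.2 (x p.1)) ∪ range fun p : Fin ρ × Fin k => s p.1 p.2)
    (by simp only [countable_union, countable_range, and_self]) m N
  obtain ⟨u, hu⟩ := hx τ
  obtain ⟨R, hR⟩ := sch_fac hu
  obtain ⟨n, hn⟩ := sch_deg fun p : Fin k × Fin k => r (R p.1 p.2)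
  refine ⟨τ, n, fun L hL hpos => ?_⟩
  obtain ⟨Λ, h1, h2, h3⟩ := hτ L hL
  choose q hq using h2
  choose q' hq' using fun i => h3 (x i) fun e => Or.inl (Or.inr ⟨(i, e), rfl⟩)
  obtain ⟨C₁, C10, hC₁⟩ := sch_bdd L fun p : Fin k × Fin k => ∑ c, q (R c p.1) (R c p.2)
  obtain ⟨C₂, C20, hC₂⟩ := sch_bdd L q'
  let pτ : (Fin d → ℝ) × (Fin a → ℝ) := (fun i => eval τ (x i), u)
  let pt : ℝ → (Fin d → ℝ) × (Fin a → ℝ) := fun t => (fun i => Λ t (eval τ (x i)), fun j => Λ t (u j))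
  have e1 : ∀ t i j, M (pt t) i j = Λ t (M pτ i j) := fun t i j => by
    simp only [M, pt, pτ, Matrix.add_apply, Matrix.sum_apply, Matrix.smul_apply, smul_eq_mul, map_add, map_sum]
    rw [(h1 t _ (Or.inl (Or.inl (Or.inl (Or.inl ⟨(i, j), rfl⟩))))).1]
    congr 1
    · congr 1
      exact Finset.sum_congr rfl fun ν _ => ((h1 t _ (Or.inl (Or.inl (Or.inl (Or.inr ⟨(ν, i, j), rfl⟩))))).2 _).symm
    · exact Finset.sum_congr rfl fun ν _ => ((h1 t _ (Or.inl (Or.inl (Or.inr ⟨(ν, i, j), rfl⟩)))).2 _).symm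
  have e2 : ∀ i j, M pτ i j = ∑ c, R c i * R c j := fun i j => by
    rw [show M pτ = Rᵀ * R from hR, Matrix.mul_apply]; rfl
  have psd : ∀ t ∈ Ioc (0 : ℝ) 1, (M (pt t) + (κ * (k ^ 2 * C₁ * t ^ N)) • M p₀).PosSemidef := fun t ht => by
    have t0 := ht.1.le
    refine hκ _ _ (by positivity) ?_ (fun w hw => ?_) fun w => ?_
    · ext i j
      simp only [transpose_apply, e1, e2, mul_comm]
    · have : LinearMap.ker (M p₀).mulVecLin ≤ LinearMap.ker (M (pt t)).mulVecLin := by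
        rw [← hs, Submodule.span_le]
        rintro _ ⟨l, rfl⟩
        have b1 : s l ∈ LinearMap.ker (M p₀).mulVecLin := hs ▸ Submodule.subset_span ⟨l, rfl⟩
        have b2 := hker pτ hu _ b1
        funext i
        have b3 := congrArg (Λ t) (congrFun b2 i)
        simp only [mulVec, dotProduct, map_sum, Pi.zero_apply, map_zero] at b3
        simp only [mulVecLin_apply, mulVec, dotProduct, e1, Pi.zero_apply, ← b3]
        exact Finset.sum_congr rfl fun j _ => ((h1 t _ (Or.inr ⟨(l, j), rfl⟩)).2 _).symm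
      exact this hw
    · have b1 : ∀ c, 0 ≤ L ((∑ i, w i • (r (R c i)).eval (C t)) * ∑ i, w i • (r (R c i)).eval (C t)) := fun c =>
        hpos _ ((mem_restrictTotalDegree _ _ _).1
          (Submodule.sum_mem _ fun i _ => Submodule.smul_mem _ _ (hn (c, i) t)))
      have b2 := sch_quad (fun p : Fin k × Fin k => L ((∑ c, q (R c p.1) (R c p.2)).eval (C t))) w
      have b3 : w ⬝ᵥ M (pt t) *ᵥ w =
          ∑ c, L ((∑ i, w i • (r (R c i)).eval (C t)) * ∑ i, w i • (r (R c i)).eval (C t)) -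
            t ^ N * ∑ i, ∑ j, w i * w j * L ((∑ c, q (R c i) (R c j)).eval (C t)) := by
        rw [sch_sum, Finset.mul_sum, ← Finset.sum_sub_distrib]
        refine Finset.sum_congr rfl fun i _ => ?_
        rw [Finset.mul_sum, ← Finset.sum_sub_distrib, mulVec, dotProduct, Finset.mul_sum]
        refine Finset.sum_congr rfl fun j _ => ?_
        simp only [e1, e2, map_sum, hq, Polynomial.eval_finsetSum, Finset.sum_sub_distrib, ← Finset.mul_sum]
        ring
      have b4 := Finset.sum_nonneg fun c (_ : c ∈ Finset.univ) => b1 c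
      have b5 := b2.trans (mul_le_mul_of_nonneg_right
        (mul_le_mul_of_nonneg_left (hC₁ t ht) (by positivity)) (sq_nonneg _))
      have b6 := mul_le_mul_of_nonneg_left b5 (pow_nonneg t0 N)
      rw [b3]
      linarith
  have cx : Continuous fun t => (pt t).1 := continuous_pi fun i => by
    obtain ⟨f, hf⟩ : ∃ f : Polynomial (MvPolynomial (Fin m) ℝ), ∀ t, sh τ t (x i) = f.eval (C t) :=
      ⟨aeval (fun i => Polynomial.C (C (τ i)) + Polynomial.X * Polynomial.C (X i)) (x i), fun t => by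
        simp only [sh, aeval_def, eval₂_eq, Polynomial.eval_finsetSum, Polynomial.eval_mul, Polynomial.eval_prod,
          Polynomial.eval_pow, Polynomial.eval_add, Polynomial.eval_C, Polynomial.eval_X,
          Polynomial.algebraMap_apply]⟩
    simp only [pt, hq', hf]
    exact (sch_cont L f).sub ((continuous_pow N).mul (sch_cont L _))
  obtain ⟨C₃, hC₃⟩ := (isCompact_Icc (a := (0 : ℝ)) (b := 1)).exists_bound_of_continuousOn
    (continuous_const (y := p₀.1).sub cx).continuousOn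
  refine ⟨κ * (k ^ 2 * C₁) * C₃ + C₂, fun t ht => ?_⟩
  have t0 := ht.1.le
  set η := κ * (k ^ 2 * C₁ * t ^ N) with hη
  have η0 : 0 ≤ η := by positivity
  have η1 : 0 < 1 + η := by linarith
  refine ⟨((1 - η / (1 + η)) • pt t + (η / (1 + η)) • p₀).1, ⟨((1 - η / (1 + η)) • pt t + (η / (1 + η)) • p₀).2, ?_⟩, ?_⟩
  · change (M _).PosSemidef
    have : (1 - η / (1 + η)) • M (pt t) + (η / (1 + η)) • M p₀ = (1 + η)⁻¹ • (M (pt t) + η • M p₀) := by
      match_scalars <;> field_simp <;> ring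
    rw [cvx, this]
    exact (psd t ht).smul (by positivity)
  · have b1 : (((1 - η / (1 + η)) • pt t + (η / (1 + η)) • p₀).1 - fun i => L (sh τ t (x i))) =
        (η / (1 + η)) • (p₀.1 - (pt t).1) - t ^ N • fun i => L ((q' i).eval (C t)) := by
      funext i
      simp only [pt, hq', Prod.fst_add, Prod.smul_fst, Pi.add_apply, Pi.sub_apply, Pi.smul_apply, smul_eq_mul]
      ring
    have b2 : η / (1 + η) ≤ η := div_le_self η0 (by linarith)
    have b3 : ‖p₀.1 - (pt t).1‖ ≤ C₃ := hC₃ t (Ioc_subset_Icc_self ht)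
    rw [b1]
    refine (norm_sub_le _ _).trans ?_
    rw [norm_smul, norm_smul, Real.norm_of_nonneg (by positivity), Real.norm_of_nonneg (by positivity)]
    have b4 := mul_le_mul b2 b3 (norm_nonneg _) η0
    have b5 := mul_le_mul_of_nonneg_left (hC₂ t ht) (pow_nonneg t0 N)
    have b6 : η * C₃ = κ * (k ^ 2 * C₁) * C₃ * t ^ N := by rw [hη]; ring
    linarith

end Crest.Agent.R237.S63
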